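import Vale.Agent.P030.Defs

/-!
Variant rows, written in the variable `y = 1/t`.  With `H = 27 N`, `d = r - 2 N`:
`P_d(t) = t^H * rowPy(1/t) = (1-t)^h (1-t^2) t^(C-2) U_(d-1)(1/t)`,
`D_d(t) = t^H * rowDy(1/t) = (1-t)^h t^C T_d(1/t)`, `h = N`, `C = 26 N`.
-/

open Polynomial

namespace Vale.Agent.P030

/-- `(y-1)^N (y^2-1) U_(d-1)(y)`. -/
noncomputable def rowPy (N : ℕ) (d : ℤ) : ℤ[X] :=
  (X - 1) ^ N * (X ^ 2 - 1) * Chebyshev.U ℤ (d - 1)

/-- `(y-1)^N T_d(y)`. -/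
noncomputable def rowDy (N : ℕ) (d : ℤ) : ℤ[X] := (X - 1) ^ N * Chebyshev.T ℤ d

/-- Column polynomial `s^(3N+k) (1-s)^N`. -/
noncomputable def colS (N k : ℕ) : ℤ[X] := X ^ (3 * N + k) * (1 - X) ^ N

/-- Pairing of `t^H Q(1/t)` with `ψ(s)` through a table of moments. -/
noncomputable def pairR {R : Type*} [CommRing R] (m : ℕ → ℕ → R) (H : ℕ) (Q ψ : ℤ[X]) : R :=
  ∑ k ∈ Finset.range (H + 1), ∑ j ∈ Finset.range (H + 1),
    (Q.coeff k : R) * (ψ.coeff j : R) * m (H - k) j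

/-- Matrix entry. -/
noncomputable def entryV (N r k : ℕ) : ℝ :=
  pairR Mre (27 * N) (rowPy N ((r : ℤ) - 2 * N)) (colS N k) -
    3 / 2 * pairR Zre (27 * N) (rowDy N ((r : ℤ) - 2 * N)) (colS N k)

/-- The determinant used in the proof, of size `20 N`. -/
noncomputable def DeltaV (N : ℕ) : ℝ :=
  Matrix.det (Matrix.of fun r k : Fin (20 * N) => entryV N r k)

end Vale.Agent.P030
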