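import Mathlib
import Vale.Agent.P030.Defs2

/-!
Definitions for the analytic half (upper bound for the determinant).
Substitution `t = 2x/(1+x^2)`, `x ∈ (-1,1)`.
-/

namespace Vale.Agent.P030

/-- `t = 2x/(1+x^2)`. -/
noncomputable def tt (x : ℝ) : ℝ := 2 * x / (1 + x ^ 2)

/-- Relative weight of the second sheet. -/
noncomputable def cc (x : ℝ) : ℝ := if x < 0 then -1 else 5

/-- Common factor of all rows (one factor `1 - t` is moved into `ker`). -/
noncomputable def rho (A h C : ℕ) (x : ℝ) : ℝ :=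
  (if x < 0 then -1 / 2 else -1 / 4) * (2 / (1 + x ^ 2)) ^ (C + 1) * (1 - tt x) ^ (h - 1) *
    x ^ (A + 1) * ((1 - x ^ 2) / (1 + x ^ 2))

/-- The two-sheeted monomial of row `r`. -/
noncomputable def two (n D r : ℕ) (x : ℝ) : ℝ := x ^ (n - 1 - r) + cc x * x ^ (D + r)

/-- The bounded kernel `(1-t)/(1-ts)`. -/
noncomputable def ker (x s : ℝ) : ℝ := (1 - tt x) / (1 - tt x * s)

/-- Column function. -/
noncomputable def psi (b q k : ℕ) (s : ℝ) : ℝ := s ^ (b + k) * (1 - s) ^ q

/-- Absolute value of the Vandermonde determinant. -/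
noncomputable def vd {n : ℕ} (x : Fin n → ℝ) : ℝ := |(Matrix.vandermonde x).det|

/-- The integrand after applying the Andreief identity twice. -/
noncomputable def bigT (n b q h C A D : ℕ) (x s : Fin n → ℝ) : ℝ :=
  |(Matrix.of fun r i : Fin n => rho A h C (x i) * two n D r (x i)).det| *
    (|(Matrix.of fun k j : Fin n => psi b q k (s j)).det| *
      |(Matrix.of fun i j : Fin n => ker (x i) (s j)).det|)

/-- One-particle part of the logarithm of `bigT`. -/
noncomputable def ext {n : ℕ} (A' h' H' b' q' : ℝ) (x s : Fin n → ℝ) : ℝ :=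
  ∑ i, (A' * Real.log |x i| + h' * Real.log (1 - x i) - H' * Real.log (1 + x i ^ 2)) +
    ∑ j, (b' * Real.log (s j) + q' * Real.log (1 - s j))

/-- Second two-particle part of the logarithm of `bigT`. -/
noncomputable def en2 {n : ℕ} (x s : Fin n → ℝ) : ℝ :=
  1 / 2 * ∑ i, ∑ k ∈ ({i}ᶜ : Finset (Fin n)), Real.log (1 - x i * x k) + 2 * Real.log (vd s) -
    ∑ i, ∑ j, Real.log (1 - 2 * x i * s j + x i ^ 2)

/-- Negative semidefinite kernel on the unit disc. -/
noncomputable def kk (w v : ℂ) : ℝ :=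
  Real.log ‖1 - w * v‖ + Real.log ‖1 - w * (starRingEnd ℂ) v‖

/-- Self energy of a system of trial charges. -/
noncomputable def selfE {κ : Type} [Fintype κ] (γ : κ → ℝ) (ω : κ → ℂ) : ℝ :=
  -∑ a, ∑ a', γ a * γ a' * kk (ω a) (ω a')

/-- Potential of trial charges at the point `x + i sqrt (1 - x^2)` of the unit circle. -/
noncomputable def potC {κ : Type} [Fintype κ] (γ : κ → ℝ) (ω : κ → ℂ) (x : ℝ) : ℝ :=
  2 * ∑ a, γ a * Real.log ‖1 - 2 * ω a * x + ω a ^ 2‖

/-- Potential of trial charges at the real point `x`. -/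
noncomputable def potR {κ : Type} [Fintype κ] (γ : κ → ℝ) (ω : κ → ℂ) (x : ℝ) : ℝ :=
  2 * ∑ a, γ a * Real.log ‖1 - ω a * x‖

/-- Contour functional of the right half disc (arc minus vertical diameter). -/
noncomputable def halfR (F : ℂ → ℂ) : ℂ :=
  (∫ θ in (-(Real.pi / 2))..(Real.pi / 2),
      F (Complex.exp (θ * Complex.I)) * (Complex.I * Complex.exp (θ * Complex.I))) -
    ∫ y in (-1 : ℝ)..1, F (y * Complex.I) * Complex.I

end Vale.Agent.P030
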