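import Mathlib
import Vale.Agent.P030.AnDefs

/-! Elementary facts about `cb`, `mu`, `Mre`, `Zre`. -/

namespace Vale.Agent.P030

open MeasureTheory Set

theorem cb_pos (l : ℕ) : 0 < cb l := by
  unfold cb
  exact div_pos (Nat.cast_pos.2 (Nat.centralBinom_pos l)) (by positivity)

theorem cb_succ (l : ℕ) : cb (l + 1) = cb l * (2 * l + 1) / (2 * l + 2) := by
  have h : ((l : ℚ) + 1) * (Nat.centralBinom (l + 1) : ℚ)
      = 2 * (2 * l + 1) * (Nat.centralBinom l : ℚ) := by
    exact_mod_cast Nat.succ_mul_centralBinom_succ l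
  unfold cb
  rw [pow_succ]
  field_simp
  linarith

theorem mu_nonneg (u : ℕ) : 0 ≤ mu u := by
  unfold mu
  split_ifs
  · have := cb_pos (u / 2)
    positivity
  · exact le_rfl

theorem basic_cb_sq (l : ℕ) : 1 ≤ (4 * (l : ℚ) + 1) * cb l ^ 2 := by
  induction l with
  | zero => simp [cb]
  | succ l ih =>
    have h0 : (0 : ℚ) ≤ l := Nat.cast_nonneg l
    have h1 : 0 ≤ cb l ^ 2 := by positivity
    rw [cb_succ, div_pow, ← mul_div_assoc, le_div_iff₀ (by positivity)]
    push_cast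
    have h2 := mul_le_mul_of_nonneg_right ih (by positivity : 0 ≤ (2 * (l : ℚ) + 2) ^ 2)
    nlinarith

theorem basic_mu_even (l : ℕ) : mu (2 * l) = 2 / ((2 * (l : ℚ) + 1) * cb l) := by
  unfold mu
  rw [if_pos (even_two_mul l), Nat.mul_div_cancel_left l two_pos]
  push_cast
  rfl

theorem basic_mu_odd (l : ℕ) : mu (2 * l + 1) = 0 := by
  unfold mu
  rw [if_neg (Nat.not_even_iff_odd.2 (odd_two_mul_add_one l))]

theorem basic_mu_sq (u : ℕ) : mu u ^ 2 * ((u : ℚ) + 1) ≤ 9 := by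
  obtain ⟨l, rfl | rfl⟩ := Nat.even_or_odd' u
  · have h0 : (0 : ℚ) ≤ l := Nat.cast_nonneg l
    have h1 := cb_pos l
    have h2 := basic_cb_sq l
    rw [basic_mu_even, div_pow, div_mul_eq_mul_div, div_le_iff₀ (by positivity)]
    push_cast
    have h3 := mul_le_mul_of_nonneg_right h2 (by positivity : 0 ≤ 4 * (2 * (l : ℚ) + 1))
    have h4 : 0 ≤ (2 * (l : ℚ) + 1) * cb l ^ 2 * (2 * l + 5) := by positivity
    nlinarith
  · rw [basic_mu_odd]
    norm_num

theorem basic_mu_le (i k : ℕ) : (mu (i + k) : ℝ) ≤ 3 / √((k : ℝ) + 1) := by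
  have h1 : ((mu (i + k) : ℝ)) ^ 2 * (((i + k : ℕ) : ℝ) + 1) ≤ 9 := by
    exact_mod_cast basic_mu_sq (i + k)
  have h0 : (0 : ℝ) ≤ mu (i + k) := by exact_mod_cast mu_nonneg (i + k)
  have h2 : (0 : ℝ) ≤ i := Nat.cast_nonneg i
  have h3 : (0 : ℝ) < (k : ℝ) + 1 := by positivity
  rw [le_div_iff₀ (Real.sqrt_pos.2 h3)]
  refine abs_le_of_sq_le_sq' ?_ (by norm_num) |>.2
  rw [mul_pow, Real.sq_sqrt h3.le]
  push_cast at h1
  nlinarith [mul_nonneg (sq_nonneg (mu (i + k) : ℝ)) h2]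

theorem summable_Mre (i j : ℕ) :
    Summable fun k : ℕ => (mu (i + k) : ℝ) / ((k : ℝ) + j + 1) := by
  have hs : Summable fun k : ℕ => 3 * (1 / ((k + 1 : ℕ) : ℝ) ^ (3 / 2 : ℝ)) :=
    ((summable_nat_add_iff 1).2 (Real.summable_one_div_nat_rpow.2 (by norm_num))).mul_left 3
  refine Summable.of_nonneg_of_le (fun k => ?_) (fun k => ?_) hs
  · have h0 : (0 : ℝ) ≤ mu (i + k) := by exact_mod_cast mu_nonneg (i + k)
    positivity
  · have h3 : (0 : ℝ) < (k : ℝ) + 1 := by positivity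
    have h2 : (0 : ℝ) ≤ j := Nat.cast_nonneg j
    have e : ((k + 1 : ℕ) : ℝ) ^ (3 / 2 : ℝ) = √((k : ℝ) + 1) * ((k : ℝ) + 1) := by
      push_cast
      rw [Real.sqrt_eq_rpow, ← Real.rpow_add_one h3.ne']
      norm_num
    rw [e, mul_one_div, ← div_div]
    exact div_le_div₀ (by positivity) (basic_mu_le i k) h3 (by linarith)

theorem summable_Zre (i j : ℕ) :
    Summable fun k : ℕ => 1 / (((i : ℝ) + k + 1) * ((j : ℝ) + k + 1)) := by
  have hs : Summable fun k : ℕ => 1 / ((k + 1 : ℕ) : ℝ) ^ 2 :=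
    (summable_nat_add_iff 1).2 (Real.summable_one_div_nat_pow.2 (by norm_num))
  refine Summable.of_nonneg_of_le (fun k => by positivity) (fun k => ?_) hs
  have h1 : (0 : ℝ) ≤ i := Nat.cast_nonneg i
  have h2 : (0 : ℝ) ≤ j := Nat.cast_nonneg j
  push_cast
  refine one_div_le_one_div_of_le (by positivity) ?_
  rw [sq]
  exact mul_le_mul (by linarith) (by linarith) (by positivity) (by positivity)

theorem basic_cont_w : Continuous fun x : ℝ => 2 / (1 + x ^ 2) :=
  continuous_const.div (by fun_prop) fun x => by positivity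

theorem basic_cont_tt : Continuous tt :=
  Continuous.div (by fun_prop) (by fun_prop) fun x => by positivity

theorem basic_cont_ff : Continuous fun x : ℝ => (1 - x ^ 2) / (1 + x ^ 2) :=
  Continuous.div (by fun_prop) (by fun_prop) fun x => by positivity

theorem basic_deriv_tt (x : ℝ) :
    HasDerivAt tt ((1 - x ^ 2) / (1 + x ^ 2) * (2 / (1 + x ^ 2))) x := by
  have h0 : (1 + x ^ 2 : ℝ) ≠ 0 := by positivity
  have h := ((hasDerivAt_id' x).const_mul 2).fun_div
    (((hasDerivAt_id' x).fun_pow 2).const_add 1) h0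
  refine h.congr_deriv ?_
  field_simp
  ring

theorem basic_deriv_ff (x : ℝ) :
    HasDerivAt (fun x : ℝ => (1 - x ^ 2) / (1 + x ^ 2)) (-(tt x * (2 / (1 + x ^ 2)))) x := by
  have h0 : (1 + x ^ 2 : ℝ) ≠ 0 := by positivity
  have h := (((hasDerivAt_id' x).fun_pow 2).const_sub 1).fun_div
    (((hasDerivAt_id' x).fun_pow 2).const_add 1) h0
  refine h.congr_deriv ?_
  unfold tt
  field_simp
  ring

theorem basic_sq (x : ℝ) : tt x ^ 2 + ((1 - x ^ 2) / (1 + x ^ 2)) ^ 2 = 1 := by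
  have h0 : (1 + x ^ 2 : ℝ) ≠ 0 := by positivity
  unfold tt
  field_simp
  ring

theorem basic_rec {g h w : ℝ → ℝ} {σ : ℝ} (hσ : σ ≠ 0) (hg : ∀ x, HasDerivAt g (σ * (h x * w x)) x)
    (hh : ∀ x, HasDerivAt h (-(σ * (g x * w x))) x) (hw : Continuous w)
    (hsq : ∀ x, g x ^ 2 + h x ^ 2 = 1) (h0 : g 0 * h 0 = 0) (h1 : g 1 * h 1 = 0)
    (hI : ∫ x in (0 : ℝ)..1, g x * w x = 1) (l : ℕ) :
    (mu (2 * l) : ℝ) = 2 * ∫ x in (0 : ℝ)..1, g x ^ (2 * l + 1) * w x := by
  have hgc : Continuous g := continuous_iff_continuousAt.2 fun x => (hg x).continuousAt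
  have hrec : ∀ m : ℕ, ((m : ℝ) + 2) * ∫ x in (0 : ℝ)..1, g x ^ (m + 2) * w x
      = ((m : ℝ) + 1) * ∫ x in (0 : ℝ)..1, g x ^ m * w x := by
    intro m
    have hd : ∀ x ∈ uIcc (0 : ℝ) 1, HasDerivAt (fun x => g x ^ (m + 1) * h x)
        (σ * (((m : ℝ) + 1) * (g x ^ m * w x) - ((m : ℝ) + 2) * (g x ^ (m + 2) * w x))) x := by
      intro x _
      refine (((hg x).fun_pow (m + 1)).fun_mul (hh x)).congr_deriv ?_
      have e : h x ^ 2 = 1 - g x ^ 2 := by linarith [hsq x]
      simp only [Nat.add_sub_cancel]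
      push_cast
      linear_combination (σ * ((m : ℝ) + 1) * g x ^ m * w x) * e
    have i1 : ∀ n : ℕ, IntervalIntegrable (fun x => g x ^ n * w x) volume 0 1 :=
      fun n => ((hgc.pow n).mul hw).intervalIntegrable _ _
    have hF := intervalIntegral.integral_eq_sub_of_hasDerivAt hd
      ((((i1 m).const_mul _).sub ((i1 (m + 2)).const_mul _)).const_mul σ)
    rw [intervalIntegral.integral_const_mul, intervalIntegral.integral_sub
      ((i1 m).const_mul _) ((i1 (m + 2)).const_mul _), intervalIntegral.integral_const_mul,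
      intervalIntegral.integral_const_mul, pow_succ, pow_succ (g 0), mul_assoc, mul_assoc, h0, h1,
      mul_zero, mul_zero, sub_zero] at hF
    have := (mul_eq_zero.1 hF).resolve_left hσ
    linarith
  induction l with
  | zero => simp [mu, cb, hI]
  | succ l ih =>
    have h2 := hrec (2 * l + 1)
    have h3 : mu (2 * (l + 1)) * (2 * l + 3) = mu (2 * l) * (2 * l + 2) := by
      have := cb_pos l
      rw [basic_mu_even, basic_mu_even, cb_succ]
      push_cast
      field_simp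
      ring
    have h4 : (mu (2 * (l + 1)) : ℝ) * (2 * l + 3) = (mu (2 * l) : ℝ) * (2 * l + 2) := by
      exact_mod_cast h3
    have e : 2 * (l + 1) + 1 = 2 * l + 1 + 2 := by ring
    rw [e]
    push_cast at h2
    refine mul_right_cancel₀ (by positivity : (2 * (l : ℝ) + 3) ≠ 0) ?_
    rw [h4, ih]
    linarith

theorem basic_mu_tt (l : ℕ) :
    (mu (2 * l) : ℝ) = 2 * ∫ x in (0 : ℝ)..1, tt x ^ (2 * l + 1) * (2 / (1 + x ^ 2)) := by
  refine basic_rec (g := tt) (h := fun x => (1 - x ^ 2) / (1 + x ^ 2)) (σ := 1) one_ne_zero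
    (fun x => (basic_deriv_tt x).congr_deriv (by ring))
    (fun x => (basic_deriv_ff x).congr_deriv (by ring))
    basic_cont_w basic_sq (by simp [tt]) (by simp) ?_ l
  have hF := intervalIntegral.integral_eq_sub_of_hasDerivAt (a := 0) (b := 1)
    (fun x _ => (basic_deriv_ff x).fun_neg)
    ((basic_cont_tt.mul basic_cont_w).neg.neg.intervalIntegrable _ _)
  simpa using hF

theorem basic_mu_ff (l : ℕ) : (mu (2 * l) : ℝ)
    = 2 * ∫ x in (0 : ℝ)..1, ((1 - x ^ 2) / (1 + x ^ 2)) ^ (2 * l + 1) * (2 / (1 + x ^ 2)) := by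
  refine basic_rec (g := fun x => (1 - x ^ 2) / (1 + x ^ 2)) (h := tt) (σ := -1) (by norm_num)
    (fun x => (basic_deriv_ff x).congr_deriv (by ring))
    (fun x => (basic_deriv_tt x).congr_deriv (by ring))
    basic_cont_w (fun x => by linarith [basic_sq x]) (by simp [tt]) (by simp) ?_ l
  have hF := intervalIntegral.integral_eq_sub_of_hasDerivAt (a := 0) (b := 1)
    (fun x _ => basic_deriv_tt x) ((basic_cont_ff.mul basic_cont_w).intervalIntegrable _ _)
  rw [hF]
  norm_num [tt]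

theorem mu_eq_integral (u : ℕ) :
    (mu u : ℝ) = ∫ x in Ioo (-1 : ℝ) 1, 2 * |tt x| / (1 + x ^ 2) * tt x ^ u := by
  have hc : Continuous fun x : ℝ => 2 * |tt x| / (1 + x ^ 2) * tt x ^ u :=
    ((continuous_const.mul basic_cont_tt.abs).div (by fun_prop) fun x => by positivity).mul
      (basic_cont_tt.pow u)
  rw [← integral_Ioc_eq_integral_Ioo, ← intervalIntegral.integral_of_le (by norm_num),
    ← intervalIntegral.integral_add_adjacent_intervals (hc.intervalIntegrable (-1) 0)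
      (hc.intervalIntegrable 0 1)]
  have h1 := intervalIntegral.integral_comp_neg (a := 0) (b := 1)
    (fun x : ℝ => 2 * |tt x| / (1 + x ^ 2) * tt x ^ u)
  have h2 : ∫ x in (0 : ℝ)..1, 2 * |tt (-x)| / (1 + (-x) ^ 2) * tt (-x) ^ u
      = (-1) ^ u * ∫ x in (0 : ℝ)..1, 2 * |tt x| / (1 + x ^ 2) * tt x ^ u := by
    rw [← intervalIntegral.integral_const_mul]
    refine intervalIntegral.integral_congr fun x _ => ?_
    have e : tt (-x) = -tt x := by
      unfold tt
      ring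
    simp only [e, abs_neg, neg_sq]
    rw [neg_pow]
    ring
  have h3 : ∫ x in (0 : ℝ)..1, 2 * |tt x| / (1 + x ^ 2) * tt x ^ u
      = ∫ x in (0 : ℝ)..1, tt x ^ (u + 1) * (2 / (1 + x ^ 2)) := by
    refine intervalIntegral.integral_congr fun x hx => ?_
    rw [uIcc_of_le zero_le_one] at hx
    have hx0 := hx.1
    have e : 0 ≤ tt x := by
      unfold tt
      positivity
    simp only [abs_of_nonneg e]
    ring
  rw [neg_zero] at h1
  rw [← h1, h2, h3]
  obtain ⟨l, rfl | rfl⟩ := Nat.even_or_odd' u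
  · rw [basic_mu_tt, (even_two_mul l).neg_one_pow]
    ring
  · rw [basic_mu_odd, (odd_two_mul_add_one l).neg_one_pow]
    simp

end Vale.Agent.P030
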