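import Mathlib
import Vale.Agent.P030.Basic

/-! The two special values of the mixed moments. -/

namespace Vale.Agent.P030

open MeasureTheory Set

theorem an0_swap {P : ℕ → ℝ → ℝ} {G : ℝ → ℝ} {d e : ℕ → ℝ}
    (hi : ∀ i, IntervalIntegrable (P i) volume 0 1) (hc : ∀ i, ∫ x in (0 : ℝ)..1, P i x = d i)
    (hs : Summable d) (he : ∀ i, |e i| ≤ 1) (hn : ∀ i, ∀ x ∈ Ioo (0 : ℝ) 1, 0 ≤ P i x)
    (hG : ∀ x ∈ Ioo (0 : ℝ) 1, HasSum (fun i => e i * P i x) (G x)) :
    HasSum (fun i => e i * d i) (∫ x in Ioo (0 : ℝ) 1, G x) := by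
  have hi' : ∀ i, IntegrableOn (P i) (Ioo 0 1) :=
    fun i => (intervalIntegrable_iff_integrableOn_Ioo_of_le zero_le_one).1 (hi i)
  have hc' : ∀ i, ∫ x in Ioo (0 : ℝ) 1, P i x = d i := fun i => by
    rw [← integral_Ioc_eq_integral_Ioo, ← intervalIntegral.integral_of_le zero_le_one, hc]
  have h := hasSum_integral_of_summable_integral_norm (μ := volume.restrict (Ioo 0 1))
    (F := fun i x => e i * P i x) (fun i => (hi' i).const_mul _) (by
      refine Summable.of_nonneg_of_le (fun i => integral_nonneg fun x => norm_nonneg _)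
        (fun i => ?_) hs
      rw [← hc' i]
      refine setIntegral_mono_on ((hi' i).const_mul _).norm (hi' i) measurableSet_Ioo
        fun x hx => ?_
      rw [Real.norm_eq_abs, abs_mul, abs_of_nonneg (hn i x hx)]
      exact mul_le_of_le_one_left (hn i x hx) (he i))
  simp only [integral_const_mul, hc'] at h
  rwa [setIntegral_congr_fun measurableSet_Ioo (g := G) fun x hx => (hG x hx).tsum_eq] at h

theorem an0_summable (j : ℕ) :
    Summable fun l : ℕ => (mu (2 * l) : ℝ) / (2 * (l : ℝ) + j + 1) := by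
  refine ((summable_Mre 0 j).comp_injective (mul_right_injective₀ two_ne_zero)).congr fun l => ?_
  simp

theorem an0_even (j : ℕ) {s : ℝ}
    (h : HasSum (fun l : ℕ => 1 * ((mu (2 * l) : ℝ) / (2 * (l : ℝ) + j + 1))) s) :
    Mre 0 j = s := by
  have h1 : HasSum (fun k : ℕ => (mu (0 + k) : ℝ) / ((k : ℝ) + j + 1)) (s + 0) := by
    refine HasSum.even_add_odd ?_ ?_
    · simpa using h
    · simp [basic_mu_odd, hasSum_zero]
  rw [Mre, h1.tsum_eq, add_zero]

theorem an0_odd_summable : Summable fun k : ℕ => 1 / (2 * (k : ℝ) + 1) ^ 2 := by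
  refine ((summable_Zre 0 0).comp_injective (mul_right_injective₀ two_ne_zero)).congr fun l => ?_
  simp [sq]

theorem an0_log_int (m : ℕ) : IntervalIntegrable (fun y => -Real.log y * y ^ m) volume 0 1 :=
  intervalIntegral.intervalIntegrable_log'.neg.mul_continuousOn (by fun_prop)

theorem an0_log (m : ℕ) : ∫ y in (0 : ℝ)..1, -Real.log y * y ^ m = 1 / ((m : ℝ) + 1) ^ 2 := by
  have h0 : (m : ℝ) + 1 ≠ 0 := by positivity
  have hc : Continuous fun y : ℝ =>
      y ^ (m + 1) / ((m : ℝ) + 1) ^ 2 - y ^ m * (y * Real.log y) / ((m : ℝ) + 1) :=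
    Continuous.sub (by fun_prop) (((continuous_pow m).mul Real.continuous_mul_log).div_const _)
  have e : (fun y : ℝ => y ^ (m + 1) / ((m : ℝ) + 1) ^ 2 - y ^ m * (y * Real.log y) / ((m : ℝ) + 1))
      = fun y : ℝ => y ^ (m + 1) / ((m : ℝ) + 1) ^ 2 - y ^ (m + 1) * Real.log y / ((m : ℝ) + 1) := by
    funext y
    ring
  rw [e] at hc
  rw [intervalIntegral.integral_eq_sub_of_hasDerivAt_of_le zero_le_one hc.continuousOn
    (fun y hy => ?_) (an0_log_int m)]
  · simp
  · have h1 := hy.1.ne'
    refine (((hasDerivAt_pow (m + 1) y).div_const _).fun_sub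
      (((hasDerivAt_pow (m + 1) y).fun_mul (Real.hasDerivAt_log h1)).div_const _)).congr_deriv ?_
    simp only [Nat.add_sub_cancel]
    push_cast
    field_simp
    ring

theorem Mre_zero_zero : Mre 0 0 = 4 * catalanG := by
  have h1 := an0_swap (P := fun l y => 2 * (1 / (2 * (l : ℝ) + 1)) *
      (((1 - y ^ 2) / (1 + y ^ 2)) ^ (2 * l + 1) * (2 / (1 + y ^ 2))))
    (G := fun y => 4 * -Real.log y * (1 + y ^ 2)⁻¹) (e := fun _ => 1)
    (fun l => (((basic_cont_ff.pow _).mul basic_cont_w).intervalIntegrable _ _).const_mul _)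
    (fun l => by
      rw [intervalIntegral.integral_const_mul, basic_mu_ff]
      push_cast
      ring) (an0_summable 0) (fun _ => by simp)
    (fun l y hy => by
      have h1 : 0 ≤ 1 - y ^ 2 := by nlinarith [hy.1, hy.2]
      positivity)
    (fun y hy => by
      have h0 := hy.1
      have h1 : 0 < 1 - y ^ 2 := by nlinarith [hy.1, hy.2]
      have h2 : 0 < 1 + y ^ 2 := by positivity
      have h3 : |(1 - y ^ 2) / (1 + y ^ 2)| < 1 := by
        rw [abs_of_pos (by positivity), div_lt_one h2]
        nlinarith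
      have h4 := (Real.hasSum_log_sub_log_of_abs_lt_one h3).mul_right (2 / (1 + y ^ 2))
      have e1 : 1 + (1 - y ^ 2) / (1 + y ^ 2) = 2 / (1 + y ^ 2) := by
        field_simp
        ring
      have e2 : 1 - (1 - y ^ 2) / (1 + y ^ 2) = 2 / (1 + y ^ 2) * y ^ 2 := by
        field_simp
        ring
      rw [e1, e2, Real.log_mul (by positivity) (by positivity), Real.log_pow] at h4
      have e3 : (Real.log (2 / (1 + y ^ 2)) - (Real.log (2 / (1 + y ^ 2)) +
          (2 : ℕ) * Real.log y)) * (2 / (1 + y ^ 2)) = 4 * -Real.log y * (1 + y ^ 2)⁻¹ := by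
        push_cast
        ring
      rw [e3] at h4
      simpa only [one_mul, mul_assoc] using h4)
  have h2 := an0_swap (P := fun j y => 4 * (-Real.log y * y ^ (2 * j)))
    (G := fun y => 4 * -Real.log y * (1 + y ^ 2)⁻¹) (e := fun j => (-1) ^ j)
    (d := fun j => 4 * (1 / (2 * (j : ℝ) + 1) ^ 2))
    (fun j => (an0_log_int _).const_mul _)
    (fun j => by
      rw [intervalIntegral.integral_const_mul, an0_log]
      push_cast
      rfl) (an0_odd_summable.mul_left 4) (fun _ => by simp)
    (fun j y hy => by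
      have h0 := hy.1
      have h1 : 0 ≤ -Real.log y := neg_nonneg.2 (Real.log_nonpos h0.le hy.2.le)
      positivity)
    (fun y hy => by
      have h3 : |-y ^ 2| < 1 := by
        rw [abs_neg, abs_of_nonneg (by positivity)]
        nlinarith [hy.1, hy.2]
      have h4 := (hasSum_geometric_of_abs_lt_one h3).mul_left (4 * -Real.log y)
      rw [sub_neg_eq_add] at h4
      refine h4.congr_fun fun j => ?_
      rw [neg_pow, pow_mul]
      ring)
  rw [an0_even 0 h1, ← h2.tsum_eq, catalanG, ← tsum_mul_left]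
  refine tsum_congr fun j => ?_
  ring

theorem Mre_zero_one : Mre 0 1 = 3 / 2 * Zre 0 0 := by
  have h1 := an0_swap (P := fun l x => 1 / ((l : ℝ) + 1) *
      (tt x ^ (2 * l + 1) * (2 / (1 + x ^ 2))))
    (G := fun x => 2 / x * (Real.log (1 + x ^ 2) - Real.log (1 - x ^ 2))) (e := fun _ => 1)
    (fun l => (((basic_cont_tt.pow _).mul basic_cont_w).intervalIntegrable _ _).const_mul _)
    (fun l => by
      rw [intervalIntegral.integral_const_mul, basic_mu_tt]
      push_cast
      field_simp
      ring_nf) (an0_summable 1) (fun _ => by simp)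
    (fun l x hx => by
      have h0 := hx.1
      unfold tt
      positivity)
    (fun x hx => by
      have h0 := hx.1
      have h1 : 0 < 1 - x ^ 2 := by nlinarith [hx.1, hx.2]
      have h2 : 0 < 1 + x ^ 2 := by positivity
      have e1 : 1 - tt x ^ 2 = ((1 - x ^ 2) / (1 + x ^ 2)) ^ 2 := by linarith [basic_sq x]
      have h3 : |tt x ^ 2| < 1 := by
        have : 0 < ((1 - x ^ 2) / (1 + x ^ 2)) ^ 2 := by positivity
        rw [abs_of_nonneg (by positivity)]
        linarith
      have h4 := (Real.hasSum_pow_div_log_of_abs_lt_one h3).mul_left (1 / x)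
      rw [e1, Real.log_pow, Real.log_div h1.ne' h2.ne'] at h4
      have e3 : 1 / x * -((2 : ℕ) * (Real.log (1 - x ^ 2) - Real.log (1 + x ^ 2)))
          = 2 / x * (Real.log (1 + x ^ 2) - Real.log (1 - x ^ 2)) := by
        push_cast
        ring
      rw [e3] at h4
      refine h4.congr_fun fun l => ?_
      have e4 : (tt x ^ 2) ^ (l + 1) = tt x ^ (2 * l + 1) * (x * (2 / (1 + x ^ 2))) := by
        have : x * (2 / (1 + x ^ 2)) = tt x := by
          unfold tt
          ring
        rw [this]
        ring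
      rw [e4]
      field_simp)
  have h2 := an0_swap (P := fun k x => 4 / (2 * (k : ℝ) + 1) * x ^ (4 * k + 1))
    (G := fun x => 2 / x * (Real.log (1 + x ^ 2) - Real.log (1 - x ^ 2))) (e := fun _ => 1)
    (d := fun k => 2 * (1 / (2 * (k : ℝ) + 1) ^ 2))
    (fun k => ((continuous_pow _).intervalIntegrable _ _).const_mul _)
    (fun k => by
      rw [intervalIntegral.integral_const_mul, integral_pow]
      push_cast
      simp only [one_pow, ne_eq, Nat.add_eq_zero_iff, one_ne_zero, and_false, not_false_eq_true,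
        zero_pow, sub_zero]
      field_simp
      ring) (an0_odd_summable.mul_left 2) (fun _ => by simp)
    (fun k x hx => by
      have h0 := hx.1
      positivity)
    (fun x hx => by
      have h0 := hx.1
      have h3 : |x ^ 2| < 1 := by
        rw [abs_of_nonneg (by positivity)]
        nlinarith [hx.1, hx.2]
      refine ((Real.hasSum_log_sub_log_of_abs_lt_one h3).mul_left (2 / x)).congr_fun
        fun k => ?_
      have e4 : (x ^ 2) ^ (2 * k + 1) = x ^ (4 * k + 1) * x := by ring
      rw [e4]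
      field_simp
      ring)
  have h3 : HasSum (fun k : ℕ => 1 / ((((0 : ℕ) : ℝ) + k + 1) * (((0 : ℕ) : ℝ) + k + 1)))
      ((∑' k : ℕ, 1 / (2 * (k : ℝ) + 1) ^ 2) + 1 / 4 * Zre 0 0) := by
    refine HasSum.even_add_odd ?_ ?_
    · refine an0_odd_summable.hasSum.congr_fun fun k => ?_
      push_cast
      ring
    · refine ((summable_Zre 0 0).hasSum.mul_left (1 / 4)).congr_fun
        fun k => ?_
      push_cast
      field_simp
      ring
  have h4 : Zre 0 0 = (∑' k : ℕ, 1 / (2 * (k : ℝ) + 1) ^ 2) + 1 / 4 * Zre 0 0 := h3.tsum_eq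
  rw [an0_even 1 h1, ← h2.tsum_eq]
  simp only [one_mul, tsum_mul_left]
  linarith

end Vale.Agent.P030
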