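import Mathlib
import Vale.Agent.P030.Basic

/-! Integral representation of the matrix entries. -/

namespace Vale.Agent.P030

open MeasureTheory Set

open Polynomial Filter Topology

theorem anint_rec {c : ℝ} {u v : ℤ → ℝ} (hu : ∀ n, u (n + 2) = c * u (n + 1) - u n)
    (hv : ∀ n, v (n + 2) = c * v (n + 1) - v n) (h0 : u 0 = v 0) (h1 : u 1 = v 1) (n : ℤ) :
    u n = v n := by
  induction n using Polynomial.Chebyshev.induct with
  | zero => exact h0
  | one => exact h1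
  | add_two n a b => rw [hu, hv, a, b]
  | neg_add_one n a b =>
    have e1 := hu (-(n : ℤ) - 1)
    have e2 := hv (-(n : ℤ) - 1)
    rw [show -(n : ℤ) - 1 + 2 = -n + 1 by ring, show -(n : ℤ) - 1 + 1 = -n by ring] at e1 e2
    rw [a, b] at e1
    linarith

theorem anint_zp {x : ℝ} (hx : x ≠ 0) (a b : ℝ) (n : ℤ) :
    a * x ^ (n + 2) + b * x ^ (-(n + 2))
      = (x + x⁻¹) * (a * x ^ (n + 1) + b * x ^ (-(n + 1))) - (a * x ^ n + b * x ^ (-n)) := by
  have h := zpow_ne_zero n hx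
  simp only [zpow_neg, zpow_add₀ hx, zpow_ofNat]
  field_simp
  ring

theorem anint_T {x : ℝ} (hx : x ≠ 0) (d : ℤ) :
    aeval ((x + x⁻¹) / 2) (Chebyshev.T ℤ d) = 1 / 2 * x ^ d + 1 / 2 * x ^ (-d) := by
  refine anint_rec (c := x + x⁻¹) (u := fun d => aeval ((x + x⁻¹) / 2) (Chebyshev.T ℤ d))
    (v := fun d => 1 / 2 * x ^ d + 1 / 2 * x ^ (-d)) (fun n => ?_) (anint_zp hx _ _) ?_ ?_ d
  · simp only [Chebyshev.T_add_two, map_sub, map_mul, aeval_X, map_ofNat]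
    ring
  · norm_num
  · simp only [Chebyshev.T_one, aeval_X, zpow_neg, zpow_one]
    ring

theorem anint_U {x : ℝ} (hx : x ≠ 0) (d : ℤ) :
    aeval ((x + x⁻¹) / 2) (Chebyshev.U ℤ (d - 1)) * (x⁻¹ - x) = -1 * x ^ d + 1 * x ^ (-d) := by
  refine anint_rec (c := x + x⁻¹)
    (u := fun d => aeval ((x + x⁻¹) / 2) (Chebyshev.U ℤ (d - 1)) * (x⁻¹ - x))
    (v := fun d => -1 * x ^ d + 1 * x ^ (-d)) (fun n => ?_) (anint_zp hx _ _) ?_ ?_ d
  · simp only [show n + 2 - 1 = n - 1 + 2 by ring, show n + 1 - 1 = n - 1 + 1 by ring,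
      Chebyshev.U_add_two, map_sub, map_mul, aeval_X, map_ofNat]
    ring
  · simp
  · simp only [sub_self, Chebyshev.U_zero, map_one, zpow_neg, zpow_one]
    ring

/-- `t^H Q(1/t)`. -/
noncomputable def anintR (H : ℕ) (Q : ℤ[X]) (t : ℝ) : ℝ :=
  ∑ a ∈ Finset.range (H + 1), (Q.coeff a : ℝ) * t ^ (H - a)

theorem anint_R_cont (H : ℕ) (Q : ℤ[X]) : Continuous (anintR H Q) := by
  unfold anintR
  fun_prop

theorem anint_aeval {H : ℕ} {Q : ℤ[X]} (hQ : Q.natDegree ≤ H) (s : ℝ) :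
    aeval s Q = ∑ a ∈ Finset.range (H + 1), (Q.coeff a : ℝ) * s ^ a := by
  rw [aeval_eq_sum_range' (Nat.lt_succ_of_le hQ)]
  simp only [zsmul_eq_mul]

theorem anint_R_eq {H : ℕ} {Q : ℤ[X]} (hQ : Q.natDegree ≤ H) {t y : ℝ} (h : t * y = 1) :
    anintR H Q t = t ^ H * aeval y Q := by
  rw [anint_aeval hQ, Finset.mul_sum]
  refine Finset.sum_congr rfl fun a ha => ?_
  have ha' : a ≤ H := Nat.lt_succ_iff.1 (Finset.mem_range.1 ha)
  have e : t ^ H = t ^ (H - a) * t ^ a := by rw [← pow_add, Nat.sub_add_cancel ha']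
  have e2 : t ^ a * y ^ a = 1 := by rw [← mul_pow, h, one_pow]
  rw [e]
  linear_combination (-(Q.coeff a : ℝ) * t ^ (H - a)) * e2

theorem anint_pair {m : ℕ → ℕ → ℝ} {α : ℕ → ℝ}
    (hm : ∀ i j : ℕ, HasSum (fun l : ℕ => α (i + l) * (1 / ((j : ℝ) + l + 1))) (m i j))
    (H : ℕ) (Q ψ : ℤ[X]) :
    HasSum (fun l : ℕ => (∑ a ∈ Finset.range (H + 1), (Q.coeff a : ℝ) * α (H - a + l)) *
      ∑ j ∈ Finset.range (H + 1), (ψ.coeff j : ℝ) * (1 / ((j : ℝ) + l + 1))) (pairR m H Q ψ) := by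
  have h := hasSum_sum (s := Finset.range (H + 1)) fun a _ =>
    hasSum_sum (s := Finset.range (H + 1)) fun j _ =>
      (hm (H - a) j).mul_left ((Q.coeff a : ℝ) * (ψ.coeff j : ℝ))
  refine h.congr_fun fun l => ?_
  rw [Finset.sum_mul_sum]
  refine Finset.sum_congr rfl fun a _ => Finset.sum_congr rfl fun j _ => ?_
  ring

theorem anint_intOn {φ : ℝ → ℝ} (h : Continuous φ) (a b : ℝ) : IntegrableOn φ (Ioo a b) :=
  h.integrableOn_Icc.mono_set Ioo_subset_Icc_self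

theorem anint_B {H : ℕ} {ψ : ℤ[X]} (hψ : ψ.natDegree ≤ H) (l : ℕ) :
    ∑ j ∈ Finset.range (H + 1), (ψ.coeff j : ℝ) * (1 / ((j : ℝ) + l + 1))
      = ∫ s in Ioo (0 : ℝ) 1, aeval s ψ * s ^ l := by
  simp only [anint_aeval hψ, Finset.sum_mul]
  rw [integral_finsetSum _ fun j _ => anint_intOn (by fun_prop) _ _]
  refine Finset.sum_congr rfl fun j _ => ?_
  simp only [mul_assoc, ← pow_add]
  rw [integral_const_mul, ← integral_Ioc_eq_integral_Ioo,
    ← intervalIntegral.integral_of_le zero_le_one, integral_pow]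
  simp

theorem anint_A {W : ℝ → ℝ} {α : ℕ → ℝ} {a b : ℝ} (hW : Continuous W)
    (hα : ∀ u, α u = ∫ x in Ioo a b, W x * tt x ^ u) (H : ℕ) (Q : ℤ[X]) (l : ℕ) :
    ∑ c ∈ Finset.range (H + 1), (Q.coeff c : ℝ) * α (H - c + l)
      = ∫ x in Ioo a b, W x * anintR H Q (tt x) * tt x ^ l := by
  have ht := basic_cont_tt
  simp only [anintR, Finset.mul_sum, Finset.sum_mul]
  rw [integral_finsetSum _ fun j _ => anint_intOn (by fun_prop) _ _]
  refine Finset.sum_congr rfl fun j _ => ?_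
  rw [hα, ← integral_const_mul]
  refine integral_congr_ae (ae_of_all _ fun x => ?_)
  simp only [pow_add]
  ring

theorem anint_Z (u : ℕ) : 1 / ((u : ℝ) + 1) = ∫ x in Ioo (0 : ℝ) 1,
    (1 - x ^ 2) / (1 + x ^ 2) * (2 / (1 + x ^ 2)) * tt x ^ u := by
  have h0 : (u : ℝ) + 1 ≠ 0 := by positivity
  rw [← integral_Ioc_eq_integral_Ioo, ← intervalIntegral.integral_of_le zero_le_one,
    intervalIntegral.integral_eq_sub_of_hasDerivAt (f := fun x => tt x ^ (u + 1) / ((u : ℝ) + 1))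
      (f' := fun x => (1 - x ^ 2) / (1 + x ^ 2) * (2 / (1 + x ^ 2)) * tt x ^ u) (fun x _ => ?_)
      (((basic_cont_ff.mul basic_cont_w).mul (basic_cont_tt.pow u)).intervalIntegrable _ _)]
  · norm_num [tt]
  · refine (((basic_deriv_tt x).fun_pow (u + 1)).div_const _).congr_deriv ?_
    simp only [Nat.add_sub_cancel]
    push_cast
    field_simp

theorem anint_abs_tt {x : ℝ} (hx : x ∈ Ioo (-1 : ℝ) 1) : |tt x| < 1 := by
  have h1 : 0 < 1 - x ^ 2 := by nlinarith [hx.1, hx.2]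
  have h2 : 0 < ((1 - x ^ 2) / (1 + x ^ 2)) ^ 2 := by positivity
  have h3 := basic_sq x
  exact abs_lt_of_sq_lt_sq (by linarith) zero_le_one

theorem anint_ker {x s : ℝ} (hx : x ∈ Ioo (-1 : ℝ) 1) (hs : s ∈ Ioo (0 : ℝ) 1) :
    |tt x * s| < 1 ∧ |ker x s| ≤ 2 := by
  have h1 := anint_abs_tt hx
  have h2 : |tt x * s| < 1 := by
    rw [abs_mul, abs_of_pos hs.1]
    nlinarith [hs.1, hs.2, abs_nonneg (tt x)]
  refine ⟨h2, ?_⟩
  obtain ⟨h3, h4⟩ := abs_lt.1 h1
  obtain ⟨h5, h6⟩ := abs_lt.1 h2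
  unfold ker
  rw [abs_of_pos (div_pos (by linarith) (by linarith)), div_le_iff₀ (by linarith)]
  rcases le_total 0 (tt x) with h | h
  · nlinarith [hs.2]
  · nlinarith [hs.1]

theorem anint_inner {ψ : ℝ → ℝ} (hψ : Continuous ψ) (hb : ∀ s ∈ Ioo (0 : ℝ) 1, |ψ s| ≤ 1) {x : ℝ}
    (hx : x ∈ Ioo (-1 : ℝ) 1) :
    (∀ L, |∑ l ∈ Finset.range L, (1 - tt x) * tt x ^ l * ∫ s in Ioo (0 : ℝ) 1, ψ s * s ^ l| ≤ 4) ∧
      Tendsto (fun L => ∑ l ∈ Finset.range L, (1 - tt x) * tt x ^ l *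
        ∫ s in Ioo (0 : ℝ) 1, ψ s * s ^ l) atTop (𝓝 (∫ s in Ioo (0 : ℝ) 1, ψ s * ker x s)) := by
  have e1 : ∀ L, ∑ l ∈ Finset.range L, (1 - tt x) * tt x ^ l * ∫ s in Ioo (0 : ℝ) 1, ψ s * s ^ l
      = ∫ s in Ioo (0 : ℝ) 1, ∑ l ∈ Finset.range L, (1 - tt x) * tt x ^ l * (ψ s * s ^ l) := by
    intro L
    rw [integral_finsetSum _ fun j _ => anint_intOn (by fun_prop) _ _]
    simp only [integral_const_mul]
  have e2 : ∀ L, ∀ s ∈ Ioo (0 : ℝ) 1, ∑ l ∈ Finset.range L, (1 - tt x) * tt x ^ l * (ψ s * s ^ l)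
      = ψ s * ker x s * (1 - (tt x * s) ^ L) := by
    intro L s hs
    have h1 : 1 - tt x * s ≠ 0 := by linarith [(abs_lt.1 (anint_ker hx hs).1).2]
    rw [← mul_neg_geom_sum, Finset.mul_sum, Finset.mul_sum]
    refine Finset.sum_congr rfl fun l _ => ?_
    unfold ker
    rw [mul_pow]
    field_simp
  have hbd : ∀ L, ∀ s ∈ Ioo (0 : ℝ) 1,
      ‖∑ l ∈ Finset.range L, (1 - tt x) * tt x ^ l * (ψ s * s ^ l)‖ ≤ 4 := by
    intro L s hs
    obtain ⟨h1, h2⟩ := anint_ker hx hs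
    have h3 : |(tt x * s) ^ L| ≤ 1 := by
      rw [abs_pow]
      exact pow_le_one₀ (abs_nonneg _) h1.le
    have h4 : |1 - (tt x * s) ^ L| ≤ 2 := abs_le.2 ⟨by linarith [(abs_le.1 h3).2],
      by linarith [(abs_le.1 h3).1]⟩
    rw [e2 L s hs, Real.norm_eq_abs, abs_mul, abs_mul]
    have h5 : |ψ s| * |ker x s| ≤ 1 * 2 := mul_le_mul (hb s hs) h2 (abs_nonneg _) zero_le_one
    have h6 := mul_le_mul h5 h4 (abs_nonneg _) (by norm_num)
    linarith
  simp only [e1]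
  refine ⟨fun L => ?_, ?_⟩
  · have h := norm_setIntegral_le_of_norm_le_const (μ := volume) (s := Ioo (0 : ℝ) 1)
      (by simp) (hbd L)
    simpa using h
  · refine tendsto_integral_of_dominated_convergence (fun _ => 4)
      (fun L => Continuous.aestronglyMeasurable (by fun_prop))
      (anint_intOn continuous_const _ _)
      (fun L => (ae_restrict_iff' measurableSet_Ioo).2 (ae_of_all _ (hbd L)))
      ((ae_restrict_iff' measurableSet_Ioo).2 (ae_of_all _ fun s hs => ?_))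
    simp only [e2 _ s hs]
    have h := ((tendsto_pow_atTop_nhds_zero_of_abs_lt_one (anint_ker hx hs).1).const_sub
      1).const_mul (ψ s * ker x s)
    simpa using h

theorem anint_lim {g ψ : ℝ → ℝ} (hg : IntegrableOn g (Ioo (-1) 1)) (hψ : Continuous ψ)
    (hb : ∀ s ∈ Ioo (0 : ℝ) 1, |ψ s| ≤ 1) :
    Tendsto (fun L => ∑ l ∈ Finset.range L,
      (∫ x in Ioo (-1 : ℝ) 1, g x * ((1 - tt x) * tt x ^ l)) * ∫ s in Ioo (0 : ℝ) 1, ψ s * s ^ l)
      atTop (𝓝 (∫ x in Ioo (-1 : ℝ) 1, g x * ∫ s in Ioo (0 : ℝ) 1, ψ s * ker x s)) := by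
  have ht := basic_cont_tt
  have hi : ∀ l : ℕ, IntegrableOn (fun x => g x * ((1 - tt x) * tt x ^ l)) (Ioo (-1) 1) := by
    intro l
    refine Integrable.mul_bdd (c := 2) hg (Continuous.aestronglyMeasurable (by fun_prop))
      ((ae_restrict_iff' measurableSet_Ioo).2 (ae_of_all _ fun x hx => ?_))
    have h1 := anint_abs_tt hx
    have h2 : |1 - tt x| ≤ 2 := abs_le.2 ⟨by linarith [(abs_lt.1 h1).2],
      by linarith [(abs_lt.1 h1).1]⟩
    have h3 : |tt x| ^ l ≤ 1 := pow_le_one₀ (abs_nonneg _) h1.le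
    rw [Real.norm_eq_abs, abs_mul, abs_pow]
    linarith [mul_le_mul h2 h3 (by positivity) zero_le_two]
  have e1 : ∀ L, ∑ l ∈ Finset.range L,
      (∫ x in Ioo (-1 : ℝ) 1, g x * ((1 - tt x) * tt x ^ l)) * ∫ s in Ioo (0 : ℝ) 1, ψ s * s ^ l
      = ∫ x in Ioo (-1 : ℝ) 1, g x * ∑ l ∈ Finset.range L, (1 - tt x) * tt x ^ l *
          ∫ s in Ioo (0 : ℝ) 1, ψ s * s ^ l := by
    intro L
    simp only [Finset.mul_sum, ← mul_assoc (g _)]
    rw [integral_finsetSum _ fun l _ => by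
      simpa only [← mul_assoc (g _)] using (hi l).mul_const _]
    simp only [integral_mul_const]
  simp only [e1]
  refine tendsto_integral_of_dominated_convergence (fun x => ‖g x‖ * 4)
    (fun L => hg.aestronglyMeasurable.mul (Continuous.aestronglyMeasurable (by fun_prop)))
    (hg.norm.mul_const _)
    (fun L => (ae_restrict_iff' measurableSet_Ioo).2 (ae_of_all _ fun x hx => ?_))
    ((ae_restrict_iff' measurableSet_Ioo).2 (ae_of_all _ fun x hx =>
      (anint_inner hψ hb hx).2.const_mul _))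
  rw [norm_mul]
  exact mul_le_mul_of_nonneg_left ((anint_inner hψ hb hx).1 L) (norm_nonneg _)

theorem anint_g (A h C n D r : ℕ) :
    IntegrableOn (fun x => rho A h C x * two n D r x) (Ioo (-1) 1) := by
  have ht := basic_cont_tt
  have hw := basic_cont_w
  have hf := basic_cont_ff
  have hc : Continuous fun x : ℝ => (2 / (1 + x ^ 2)) ^ (C + 1) * (1 - tt x) ^ (h - 1) *
      x ^ (A + 1) * ((1 - x ^ 2) / (1 + x ^ 2)) :=
    (((hw.pow _).mul (by fun_prop)).mul (by fun_prop)).mul hf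
  have hs : MeasurableSet {x : ℝ | x < 0} := measurableSet_Iio
  have h1 := Integrable.bdd_mul (c := 1) (f := fun x : ℝ => if x < 0 then (-1 / 2 : ℝ) else -1 / 4)
    (anint_intOn (hc.mul (continuous_pow (n - 1 - r))) (-1) 1)
    (Measurable.ite hs measurable_const measurable_const).aestronglyMeasurable
    (ae_of_all _ fun x => by split_ifs <;> norm_num [abs_div])
  have h2 := Integrable.bdd_mul (c := 2) (f := fun x : ℝ => if x < 0 then (1 / 2 : ℝ) else -5 / 4)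
    (anint_intOn (hc.mul (continuous_pow (D + r))) (-1) 1)
    (Measurable.ite hs measurable_const measurable_const).aestronglyMeasurable
    (ae_of_all _ fun x => by split_ifs <;> norm_num [abs_div])
  refine (h1.add h2).congr (ae_of_all _ fun x => ?_)
  simp only [rho, two, cc, Pi.add_apply, Pi.mul_apply]
  split_ifs <;> ring

theorem anint_degP {N r : ℕ} (hr : r < 20 * N) :
    (rowPy N ((r : ℤ) - 2 * N)).natDegree ≤ 27 * N := by
  have h1 : ((X - 1 : ℤ[X]) ^ N).natDegree ≤ N * 1 :=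
    natDegree_pow_le_of_le N (by compute_degree)
  have h2 : (X ^ 2 - 1 : ℤ[X]).natDegree ≤ 2 := by compute_degree
  have h3 := Chebyshev.natDegree_U ℤ ((r : ℤ) - 2 * N - 1)
  have h4 := natDegree_mul_le_of_le (natDegree_mul_le_of_le h1 h2) h3.le
  exact h4.trans (by omega)

theorem anint_degD {N r : ℕ} (hr : r < 20 * N) :
    (rowDy N ((r : ℤ) - 2 * N)).natDegree ≤ 27 * N := by
  have h1 : ((X - 1 : ℤ[X]) ^ N).natDegree ≤ N * 1 :=
    natDegree_pow_le_of_le N (by compute_degree)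
  have h3 := Chebyshev.natDegree_T ℤ ((r : ℤ) - 2 * N)
  exact (natDegree_mul_le_of_le h1 h3.le).trans (by omega)

theorem anint_degS {N k : ℕ} (hk : k < 20 * N) : (colS N k).natDegree ≤ 27 * N := by
  have h1 : ((1 - X : ℤ[X]) ^ N).natDegree ≤ N * 1 :=
    natDegree_pow_le_of_le N (by compute_degree)
  exact (natDegree_mul_le_of_le (natDegree_X_pow_le _) h1).trans (by omega)

theorem anint_point {N r : ℕ} (hN : 1 ≤ N) (hr : r < 20 * N) {x : ℝ} (hx : x ≠ 0) :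
    2 * |tt x| / (1 + x ^ 2) * anintR (27 * N) (rowPy N ((r : ℤ) - 2 * N)) (tt x) -
      3 / 2 * (if 0 < x then (1 - x ^ 2) / (1 + x ^ 2) * (2 / (1 + x ^ 2)) *
        anintR (27 * N) (rowDy N ((r : ℤ) - 2 * N)) (tt x) else 0)
      = rho (8 * N) N (26 * N) x * two (20 * N) (16 * N - 1) r x * (1 - tt x) := by
  have hq : (0 : ℝ) < 1 + x ^ 2 := by positivity
  have hty : tt x * ((x + x⁻¹) / 2) = 1 := by
    unfold tt
    field_simp
    ring
  have hT := anint_T hx ((r : ℤ) - 2 * N)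
  have hU := anint_U hx ((r : ℤ) - 2 * N)
  have h1 : x ^ (26 * N) * x ^ (-((r : ℤ) - 2 * N)) = x ^ (8 * N + 1) * x ^ (20 * N - 1 - r) := by
    rw [← pow_add, ← zpow_natCast, ← zpow_natCast, ← zpow_add₀ hx]
    congr 1
    omega
  have h2 : x ^ (26 * N) * x ^ ((r : ℤ) - 2 * N) = x ^ (8 * N + 1) * x ^ (16 * N - 1 + r) := by
    rw [← pow_add, ← zpow_natCast, ← zpow_natCast, ← zpow_add₀ hx]
    congr 1
    omega
  have h3 : tt x ^ (27 * N) * ((x + x⁻¹) / 2 - 1) ^ N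
      = (2 / (1 + x ^ 2)) ^ (26 * N) * x ^ (26 * N) * ((1 - tt x) ^ (N - 1) * (1 - tt x)) := by
    have e1 : tt x = 2 / (1 + x ^ 2) * x := by
      unfold tt
      ring
    have e2 : tt x * ((x + x⁻¹) / 2 - 1) = 1 - tt x := by linarith
    rw [← pow_succ, Nat.sub_add_cancel hN, ← mul_pow, ← e1, ← e2, mul_pow, ← mul_assoc,
      ← pow_add, show 26 * N + N = 27 * N by ring]
  have h4 : tt x * (((x + x⁻¹) / 2) ^ 2 - 1) = (1 - x ^ 2) / (1 + x ^ 2) / 2 * (x⁻¹ - x) := by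
    unfold tt
    field_simp
    ring
  rw [anint_R_eq (anint_degP hr) hty, anint_R_eq (anint_degD hr) hty]
  simp only [rowPy, rowDy, map_mul, map_pow, map_sub, aeval_X, map_one, rho, two, cc, hT]
  generalize aeval ((x + x⁻¹) / 2) (Chebyshev.U ℤ ((r : ℤ) - 2 * N - 1)) = u at hU ⊢
  have h5 : 2 * tt x / (1 + x ^ 2) * (tt x ^ (27 * N) *
      (((x + x⁻¹) / 2 - 1) ^ N * (((x + x⁻¹) / 2) ^ 2 - 1) * u))
      = (2 / (1 + x ^ 2)) ^ (26 * N + 1) * ((1 - tt x) ^ (N - 1) * (1 - tt x)) *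
        ((1 - x ^ 2) / (1 + x ^ 2) / 2) * (x ^ (8 * N + 1) * x ^ (20 * N - 1 - r) -
          x ^ (8 * N + 1) * x ^ (16 * N - 1 + r)) := by
    rw [← h1, ← h2]
    calc _ = 2 / (1 + x ^ 2) * (tt x ^ (27 * N) * ((x + x⁻¹) / 2 - 1) ^ N) *
          (tt x * (((x + x⁻¹) / 2) ^ 2 - 1)) * u := by ring
      _ = 2 / (1 + x ^ 2) * (tt x ^ (27 * N) * ((x + x⁻¹) / 2 - 1) ^ N) *
          ((1 - x ^ 2) / (1 + x ^ 2) / 2) * (u * (x⁻¹ - x)) := by rw [h4]; ring
      _ = _ := by rw [h3, hU]; ring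
  have h6 : (1 - x ^ 2) / (1 + x ^ 2) * (2 / (1 + x ^ 2)) * (tt x ^ (27 * N) *
      (((x + x⁻¹) / 2 - 1) ^ N *
        (1 / 2 * x ^ ((r : ℤ) - 2 * N) + 1 / 2 * x ^ (-((r : ℤ) - 2 * N)))))
      = (2 / (1 + x ^ 2)) ^ (26 * N + 1) * ((1 - tt x) ^ (N - 1) * (1 - tt x)) *
        ((1 - x ^ 2) / (1 + x ^ 2) / 2) * (x ^ (8 * N + 1) * x ^ (20 * N - 1 - r) +
          x ^ (8 * N + 1) * x ^ (16 * N - 1 + r)) := by
    rw [← h1, ← h2, ← mul_assoc (tt x ^ (27 * N)), h3]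
    ring
  rcases lt_or_gt_of_ne hx with h | h
  · have ht : tt x ≤ 0 := div_nonpos_of_nonpos_of_nonneg (by linarith) hq.le
    rw [if_neg h.not_gt, if_pos h, if_pos h, abs_of_nonpos ht, mul_neg, neg_div, neg_mul, h5]
    ring
  · have ht : 0 ≤ tt x := div_nonneg (by linarith) hq.le
    rw [if_pos h, if_neg h.not_gt, if_neg h.not_gt, abs_of_nonneg ht, h5, h6]
    ring

theorem entry_eq {N r k : ℕ} (hN : 1 ≤ N) (hr : r < 20 * N) (hk : k < 20 * N) :
    entryV N r k = ∫ x in Ioo (-1 : ℝ) 1,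
      (rho (8 * N) N (26 * N) x * two (20 * N) (16 * N - 1) r x) *
        ∫ s in Ioo (0 : ℝ) 1, psi (3 * N) N k s * ker x s := by
  have ht := basic_cont_tt
  have hm : Continuous fun x : ℝ => 2 * |tt x| / (1 + x ^ 2) :=
    (continuous_const.mul basic_cont_tt.abs).div (by fun_prop) fun x => by positivity
  have hz : Continuous fun x : ℝ => (1 - x ^ 2) / (1 + x ^ 2) * (2 / (1 + x ^ 2)) :=
    basic_cont_ff.mul basic_cont_w
  have hM := anint_pair (m := Mre) (α := fun u => (mu u : ℝ))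
    (fun i j => (summable_Mre i j).hasSum.congr_fun fun l => by
      rw [mul_one_div, add_comm (j : ℝ)]) (27 * N) (rowPy N ((r : ℤ) - 2 * N)) (colS N k)
  have hZ := anint_pair (m := Zre) (α := fun u => 1 / ((u : ℝ) + 1))
    (fun i j => (summable_Zre i j).hasSum.congr_fun fun l => by
      rw [one_div_mul_one_div, Nat.cast_add]) (27 * N) (rowDy N ((r : ℤ) - 2 * N)) (colS N k)
  have hψ : ∀ s : ℝ, aeval s (colS N k) = psi (3 * N) N k s := fun s => by simp [colS, psi]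
  simp only [anint_B (anint_degS hk), anint_A hm mu_eq_integral, anint_A hz anint_Z, hψ] at hM hZ
  have hS := (hM.sub (hZ.mul_left (3 / 2))).tendsto_sum_nat
  have hL := anint_lim (anint_g (8 * N) N (26 * N) (20 * N) (16 * N - 1) r)
    (ψ := psi (3 * N) N k) (by unfold psi; fun_prop) (fun s hs => by
      have h1 := hs.1
      have h2 : 0 < 1 - s := by linarith [hs.2]
      unfold psi
      rw [abs_of_nonneg (by positivity)]
      exact mul_le_one₀ (pow_le_one₀ h1.le hs.2.le) (by positivity)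
        (pow_le_one₀ h2.le (by linarith)))
  refine tendsto_nhds_unique (hS.congr fun L => Finset.sum_congr rfl fun l _ => ?_) hL
  have hP := anint_R_cont (27 * N) (rowPy N ((r : ℤ) - 2 * N))
  have hD := anint_R_cont (27 * N) (rowDy N ((r : ℤ) - 2 * N))
  have c1 := anint_intOn (φ := fun x => 2 * |tt x| / (1 + x ^ 2) *
    anintR (27 * N) (rowPy N ((r : ℤ) - 2 * N)) (tt x) * tt x ^ l)
    ((hm.mul (hP.comp ht)).mul (ht.pow l)) (-1) 1
  have c2 := anint_intOn (φ := fun x => (1 - x ^ 2) / (1 + x ^ 2) * (2 / (1 + x ^ 2)) *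
    anintR (27 * N) (rowDy N ((r : ℤ) - 2 * N)) (tt x) * tt x ^ l)
    ((hz.mul (hD.comp ht)).mul (ht.pow l)) (-1) 1
  have e : Ioo (0 : ℝ) 1 = Ioo (-1) 1 ∩ Ioi 0 := by
    ext x
    simp only [mem_Ioo, mem_inter_iff, mem_Ioi]
    exact ⟨fun h => ⟨⟨by linarith [h.1], h.2⟩, h.1⟩, fun h => ⟨h.2, h.1.2⟩⟩
  rw [← mul_assoc, ← sub_mul]
  congr 1
  rw [e, ← setIntegral_indicator measurableSet_Ioi, ← integral_const_mul,
    ← integral_sub c1 ((c2.indicator measurableSet_Ioi).const_mul _)]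
  refine integral_congr_ae (ae_restrict_of_ae ?_)
  filter_upwards [compl_mem_ae_iff.2 (measure_singleton (0 : ℝ))] with x hx
  have h := anint_point hN hr hx
  simp only [indicator_apply, mem_Ioi]
  rw [← mul_assoc _ (1 - tt x), ← h]
  split_ifs <;> ring

end Vale.Agent.P030
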