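import Mathlib
import Vale.Agent.P030.AnInt

/-! The Andreief identity as a supremum bound, applied twice. -/

namespace Vale.Agent.P030

open MeasureTheory Set

theorem AnAnd_sum {n : ℕ} (M : Matrix (Fin n) (Fin n) ℝ) :
    ∑ τ : Equiv.Perm (Fin n), ∑ σ : Equiv.Perm (Fin n),
      ((Equiv.Perm.sign σ : ℤ) : ℝ) * ((Equiv.Perm.sign τ : ℤ) : ℝ) * ∏ i, M (σ i) (τ i) =
      n.factorial * M.det := by
  have h : ∀ τ : Equiv.Perm (Fin n), ∑ σ : Equiv.Perm (Fin n),
      ((Equiv.Perm.sign σ : ℤ) : ℝ) * ((Equiv.Perm.sign τ : ℤ) : ℝ) * ∏ i, M (σ i) (τ i) =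
      M.det := fun τ => by
    have h1 := Matrix.det_permute' τ M
    rw [Matrix.det_apply'] at h1
    have h2 : ((Equiv.Perm.sign τ : ℤ) : ℝ) * ((Equiv.Perm.sign τ : ℤ) : ℝ) = 1 := by
      rw [← Int.cast_mul, Int.units_coe_mul_self, Int.cast_one]
    calc _ = ((Equiv.Perm.sign τ : ℤ) : ℝ) * ∑ σ : Equiv.Perm (Fin n),
          ((Equiv.Perm.sign σ : ℤ) : ℝ) * ∏ i, M.submatrix id τ (σ i) i := by
          rw [Finset.mul_sum]
          exact Finset.sum_congr rfl fun σ _ => by simp only [Matrix.submatrix_apply, id]; ring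
      _ = _ := by rw [h1, ← mul_assoc, h2, one_mul]
  simp [h, Fintype.card_perm]

theorem AnAnd_int {X : Type} [MeasurableSpace X] (μ : Measure X) [IsFiniteMeasure μ] {n : ℕ}
    (a b : Fin n → X → ℝ) (hab : ∀ r k, Integrable (fun x => a r x * b k x) μ) :
    ∫ x : Fin n → X, (Matrix.of fun r i : Fin n => a r (x i)).det *
      (Matrix.of fun k i : Fin n => b k (x i)).det ∂(Measure.pi fun _ => μ) =
      n.factorial * (Matrix.of fun r k : Fin n => ∫ x, a r x * b k x ∂μ).det := by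
  have h1 : ∀ x : Fin n → X, (Matrix.of fun r i : Fin n => a r (x i)).det *
      (Matrix.of fun k i : Fin n => b k (x i)).det =
      ∑ τ : Equiv.Perm (Fin n), ∑ σ : Equiv.Perm (Fin n),
        ((Equiv.Perm.sign σ : ℤ) : ℝ) * ((Equiv.Perm.sign τ : ℤ) : ℝ) *
          ∏ i, a (σ i) (x i) * b (τ i) (x i) := fun x => by
    rw [Matrix.det_apply', Matrix.det_apply', Finset.mul_sum]
    refine Finset.sum_congr rfl fun τ _ => ?_
    rw [Finset.sum_mul]
    refine Finset.sum_congr rfl fun σ _ => ?_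
    simp only [Matrix.of_apply, Finset.prod_mul_distrib]
    ring
  have h2 : ∀ τ σ : Equiv.Perm (Fin n), Integrable (fun x : Fin n → X =>
      ((Equiv.Perm.sign σ : ℤ) : ℝ) * ((Equiv.Perm.sign τ : ℤ) : ℝ) *
        ∏ i, a (σ i) (x i) * b (τ i) (x i)) (Measure.pi fun _ => μ) := fun τ σ =>
    (Integrable.fintype_prod (f := fun i y => a (σ i) y * b (τ i) y) fun i => hab _ _).const_mul _
  simp only [h1]
  rw [integral_finsetSum _ fun τ _ => integrable_finsetSum _ fun σ _ => h2 τ σ, ← AnAnd_sum]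
  refine Finset.sum_congr rfl fun τ _ => ?_
  rw [integral_finsetSum _ fun σ _ => h2 τ σ]
  refine Finset.sum_congr rfl fun σ _ => ?_
  rw [integral_const_mul, integral_fintype_prod_eq_prod (fun i y => a (σ i) y * b (τ i) y)]
  rfl

theorem AnAnd_ker {x s : ℝ} (hs : s ∈ Ioo (0 : ℝ) 1) : |ker x s| ≤ 2 := by
  have h0 : 0 < 1 + x ^ 2 := by positivity
  have h1 : tt x ≤ 1 := by
    rw [tt, div_le_one h0]; nlinarith [sq_nonneg (x - 1)]
  have h2 : -1 ≤ tt x := by
    rw [tt, le_div_iff₀ h0]; nlinarith [sq_nonneg (x + 1)]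
  have h3 : 0 < 1 - tt x * s := by nlinarith [hs.1, hs.2]
  rw [ker, abs_of_nonneg (div_nonneg (by linarith) h3.le), div_le_iff₀ h3]
  rcases le_total 0 (tt x) with h | h <;> nlinarith [hs.1, hs.2]

theorem AnAnd_psi (b q k : ℕ) {s : ℝ} (hs : s ∈ Ioo (0 : ℝ) 1) : |psi b q k s| ≤ 1 := by
  rw [psi, abs_of_nonneg (mul_nonneg (pow_nonneg hs.1.le _) (pow_nonneg (by linarith [hs.2]) _))]
  exact mul_le_one₀ (pow_le_one₀ hs.1.le hs.2.le) (pow_nonneg (by linarith [hs.2]) _)
    (pow_le_one₀ (by linarith [hs.2]) (by linarith [hs.1]))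

theorem AnAnd_pk (b q k : ℕ) (x : ℝ) {s : ℝ} (hs : s ∈ Ioo (0 : ℝ) 1) :
    ‖psi b q k s * ker x s‖ ≤ 2 := by
  rw [Real.norm_eq_abs, abs_mul]
  exact (mul_le_of_le_one_left (abs_nonneg _) (AnAnd_psi b q k hs)).trans (AnAnd_ker hs)

theorem AnAnd_meas (b q k : ℕ) : Measurable fun p : ℝ × ℝ => psi b q k p.2 * ker p.1 p.2 := by
  unfold psi ker tt
  fun_prop

theorem AnAnd_row (A h C n D r : ℕ) :
    IntegrableOn (fun x => rho A h C x * two n D r x) (Ioo (-1 : ℝ) 1) := by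
  have h0 : ∀ x : ℝ, 1 + x ^ 2 ≠ 0 := fun x => by positivity
  have key : ∀ u v : ℝ, IntegrableOn (fun x : ℝ => u * (2 / (1 + x ^ 2)) ^ (C + 1) *
      (1 - tt x) ^ (h - 1) * x ^ (A + 1) * ((1 - x ^ 2) / (1 + x ^ 2)) *
      (x ^ (n - 1 - r) + v * x ^ (D + r))) (Ioo (-1 : ℝ) 1) := fun u v => by
    refine (Continuous.continuousOn ?_).integrableOn_Icc.mono_set Ioo_subset_Icc_self
    unfold tt
    fun_prop (disch := exact h0)
  have := Integrable.piecewise (s := Iio (0 : ℝ)) measurableSet_Iio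
    (key (-1 / 2) (-1)).integrableOn (key (-1 / 4) 5).integrableOn
  refine this.congr (Filter.Eventually.of_forall fun x => ?_)
  by_cases hx : x < 0
  · simp [Set.piecewise, hx, rho, two, cc]
  · simp [Set.piecewise, hx, rho, two, cc]

theorem andreief {X : Type} [MeasurableSpace X] (μ : Measure X) [IsFiniteMeasure μ] {n : ℕ}
    (a b : Fin n → X → ℝ) (hab : ∀ r k, Integrable (fun x => a r x * b k x) μ)
    (S : Set X) (hS : ∀ᵐ x ∂μ, x ∈ S) (c B : ℝ) (hc : 0 ≤ c)
    (hB : ∀ x : Fin n → X, (∀ i, x i ∈ S) →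
      c * (|(Matrix.of fun r i : Fin n => a r (x i)).det| *
        |(Matrix.of fun k i : Fin n => b k (x i)).det|) ≤ B) :
    c * |(Matrix.of fun r k : Fin n => ∫ x, a r x * b k x ∂μ).det| ≤ B * (μ.real univ) ^ n := by
  have h1 := AnAnd_int μ a b hab
  have h2 : ∀ᵐ x ∂(Measure.pi fun _ : Fin n => μ), ∀ i, x i ∈ S :=
    ae_all_iff.2 fun i => (Measure.quasiMeasurePreserving_eval (fun _ : Fin n => μ) i).ae hS
  have h3 := norm_integral_le_of_norm_le_const (μ := Measure.pi fun _ : Fin n => μ)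
    (f := fun x : Fin n → X => c * ((Matrix.of fun r i : Fin n => a r (x i)).det *
      (Matrix.of fun k i : Fin n => b k (x i)).det)) (C := B) (h2.mono fun x hx => by
      rw [Real.norm_eq_abs, abs_mul, abs_mul, abs_of_nonneg hc]
      exact hB x hx)
  have h4 : (Measure.pi fun _ : Fin n => μ).real univ = μ.real univ ^ n := by
    simp [Measure.real, Measure.pi_univ]
  rw [integral_const_mul, h1, h4, Real.norm_eq_abs, abs_mul, abs_mul, abs_of_nonneg hc,
    Nat.abs_cast] at h3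
  refine le_trans (mul_le_mul_of_nonneg_left (le_mul_of_one_le_left (abs_nonneg _) ?_) hc) h3
  exact_mod_cast n.factorial_pos

theorem abs_DeltaV_le {N : ℕ} (hN : 1 ≤ N) (B : ℝ)
    (hB : ∀ x s : Fin (20 * N) → ℝ, (∀ i, x i ∈ Ioo (-1 : ℝ) 1 ∧ x i ≠ 0) →
      (∀ j, s j ∈ Ioo (0 : ℝ) 1) →
        bigT (20 * N) (3 * N) N N (26 * N) (8 * N) (16 * N - 1) x s ≤ B) :
    |DeltaV N| ≤ B * 2 ^ (20 * N) := by
  have h1 := andreief (volume.restrict (Ioo (-1 : ℝ) 1)) (n := 20 * N)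
    (fun r x => rho (8 * N) N (26 * N) x * two (20 * N) (16 * N - 1) r x)
    (fun k x => ∫ s in Ioo (0 : ℝ) 1, psi (3 * N) N k s * ker x s) (fun r k => ?_)
    {x | x ∈ Ioo (-1 : ℝ) 1 ∧ x ≠ 0} ?_ 1 B zero_le_one fun x hx => ?_
  · have e : DeltaV N = (Matrix.of fun r k : Fin (20 * N) => ∫ x in Ioo (-1 : ℝ) 1,
        (rho (8 * N) N (26 * N) x * two (20 * N) (16 * N - 1) r x) *
          ∫ s in Ioo (0 : ℝ) 1, psi (3 * N) N k s * ker x s).det := by
      rw [DeltaV]
      congr 2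
      funext r k
      exact entry_eq hN r.2 k.2
    have e' : (volume.restrict (Ioo (-1 : ℝ) 1)).real univ = 2 := by
      simp [Measure.real]; norm_num
    rwa [one_mul, ← e, e'] at h1
  · refine (AnAnd_row _ _ _ _ _ _).mul_bdd (c := 2)
      (AnAnd_meas _ _ _).stronglyMeasurable.integral_prod_right'.aestronglyMeasurable
      (Filter.Eventually.of_forall fun x => ?_)
    have := norm_integral_le_of_norm_le_const (μ := volume.restrict (Ioo (0 : ℝ) 1))
      ((ae_restrict_mem measurableSet_Ioo).mono fun s hs => AnAnd_pk (3 * N) N k x hs)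
    simpa [Measure.real] using this
  · refine (ae_restrict_mem measurableSet_Ioo).and (ae_restrict_of_ae ?_)
    simp [ae_iff]
  · have h2 := andreief (volume.restrict (Ioo (0 : ℝ) 1)) (n := 20 * N)
      (fun k s => psi (3 * N) N k s) (fun i s => ker (x i) s) (fun k i => ?_) (Ioo 0 1)
      (ae_restrict_mem measurableSet_Ioo) _ B (abs_nonneg _) fun s hs => hB x s hx hs
    · simpa [Measure.real] using h2
    · refine Integrable.of_bound ((AnAnd_meas _ _ _).comp
        (measurable_prodMk_left (x := x i))).aestronglyMeasurable 2 ?_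
      exact (ae_restrict_mem measurableSet_Ioo).mono fun s hs => AnAnd_pk _ _ _ _ hs

end Vale.Agent.P030
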