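import Mathlib
import Vale.Agent.P030.AnDefs

/-! Cauchy determinant and the logarithm of the integrand. -/

namespace Vale.Agent.P030

open Set

theorem vd_pos {n : ℕ} {x : Fin n → ℝ} (hx : Function.Injective x) : 0 < vd x :=
  abs_pos.2 (Matrix.det_vandermonde_ne_zero_iff.2 hx)

theorem anCau_vd_zero {n : ℕ} {x : Fin n → ℝ} (hx : ¬ Function.Injective x) : vd x = 0 := by
  rw [vd, abs_eq_zero]
  by_contra h
  exact hx (Matrix.det_vandermonde_ne_zero_iff.1 h)

theorem anCau_vd {n : ℕ} (x : Fin n → ℝ) : vd x = ∏ i, ∏ k ∈ Finset.Ioi i, |x k - x i| := by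
  simp only [vd, Matrix.det_vandermonde, Finset.abs_prod]

theorem anCau_vd_sq {n : ℕ} (x : Fin n → ℝ) :
    vd x * vd x = ∏ i, ∏ k ∈ ({i}ᶜ : Finset (Fin n)), |x i - x k| := by
  rw [← Finset.prod_prod_Ioi_mul_eq_prod_prod_off_diag fun k i => |x i - x k|, anCau_vd,
    ← Finset.prod_mul_distrib]
  refine Finset.prod_congr rfl fun i _ => ?_
  rw [← Finset.prod_mul_distrib]
  exact Finset.prod_congr rfl fun k _ => by rw [abs_sub_comm (x i)]

theorem two_mul_log_vd {n : ℕ} {x : Fin n → ℝ} (hx : Function.Injective x) :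
    2 * Real.log (vd x) = ∑ i, ∑ k ∈ ({i}ᶜ : Finset (Fin n)), Real.log |x i - x k| := by
  have hne : ∀ i, ∀ k ∈ ({i}ᶜ : Finset (Fin n)), |x i - x k| ≠ 0 := fun i k hk =>
    abs_ne_zero.2 (sub_ne_zero.2 fun h => by simp [hx h] at hk)
  rw [two_mul, ← Real.log_mul (vd_pos hx).ne' (vd_pos hx).ne', anCau_vd_sq,
    Real.log_prod fun i _ => Finset.prod_ne_zero_iff.2 (hne i)]
  exact Finset.sum_congr rfl fun i _ => Real.log_prod (hne i)

theorem anCau_coef {n : ℕ} (s : Fin n → ℝ) : ∃ M : Matrix (Fin n) (Fin n) ℝ, ∀ t : Fin n → ℝ,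
    (Matrix.of fun i j : Fin n => ∏ l ∈ ({j}ᶜ : Finset (Fin n)), (1 - t i * s l)) =
      Matrix.vandermonde t * M := by
  refine ⟨Matrix.of fun k j => (∏ l ∈ ({j}ᶜ : Finset (Fin n)),
    (1 - Polynomial.X * Polynomial.C (s l))).coeff k, fun t => ?_⟩
  ext i j
  have hd : (∏ l ∈ ({j}ᶜ : Finset (Fin n)),
      (1 - Polynomial.X * Polynomial.C (s l))).natDegree < n := by
    refine (Polynomial.natDegree_prod_le _ _).trans_lt ?_
    refine (Finset.sum_le_card_nsmul _ _ 1 fun l _ => by compute_degree).trans_lt ?_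
    have := j.pos
    simp [Finset.card_compl]
    omega
  have h := Polynomial.eval_eq_sum_range' hd (t i)
  simp only [Polynomial.eval_prod, Polynomial.eval_sub, Polynomial.eval_one, Polynomial.eval_mul,
    Polynomial.eval_X, Polynomial.eval_C] at h
  simp only [Matrix.mul_apply, Matrix.of_apply, Matrix.vandermonde_apply]
  rw [h, Finset.sum_range]
  exact Finset.sum_congr rfl fun k _ => mul_comm _ _

theorem abs_det_cauchy {n : ℕ} (t s : Fin n → ℝ) (hs : ∀ j, s j ≠ 0)
    (h : ∀ i j, 0 < 1 - t i * s j) :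
    |(Matrix.of fun i j : Fin n => 1 / (1 - t i * s j)).det| * ∏ i, ∏ j, (1 - t i * s j) =
      vd t * vd s := by
  by_cases is : Function.Injective s
  swap
  · rw [anCau_vd_zero is, mul_zero]
    simp only [Function.Injective, not_forall] at is
    obtain ⟨i, j, e, ne⟩ := is
    rw [Matrix.det_zero_of_column_eq ne fun k => by simp [e], abs_zero, zero_mul]
  obtain ⟨M, hM⟩ := anCau_coef s
  have e1 : (Matrix.of fun i j : Fin n => ∏ l ∈ ({j}ᶜ : Finset (Fin n)), (1 - t i * s l)) =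
      Matrix.of fun i j : Fin n => (∏ l, (1 - t i * s l)) *
        (Matrix.of fun i j : Fin n => 1 / (1 - t i * s j)) i j := by
    ext i j
    simp only [Matrix.of_apply]
    rw [Fintype.prod_eq_mul_prod_compl j, mul_one_div, mul_div_cancel_left₀ _ (h i j).ne']
  have e2 : (Matrix.of fun i j : Fin n => ∏ l ∈ ({j}ᶜ : Finset (Fin n)), (1 - (s i)⁻¹ * s l)) =
      Matrix.diagonal fun j => ∏ l ∈ ({j}ᶜ : Finset (Fin n)), (1 - (s j)⁻¹ * s l) := by
    ext i j
    by_cases hij : i = j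
    · simp [hij]
    · rw [Matrix.diagonal_apply_ne _ hij, Matrix.of_apply,
        Finset.prod_eq_zero (i := i) (by simpa using hij) (by simp [hs i])]
  have k1 := congrArg (fun A => |Matrix.det A|) (hM t)
  have k2 := congrArg (fun A => |Matrix.det A|) (hM fun i => (s i)⁻¹)
  simp only [e1, e2, Matrix.det_mul_column, Matrix.det_mul, abs_mul, Matrix.det_diagonal] at k1 k2
  rw [abs_of_pos (Finset.prod_pos fun i _ => Finset.prod_pos fun j _ => h i j), mul_comm] at k1
  have k3 : vd (fun i => (s i)⁻¹) * ∏ i, ∏ _k ∈ ({i}ᶜ : Finset (Fin n)), |s i| = vd s := by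
    rw [← Finset.prod_prod_Ioi_mul_eq_prod_prod_off_diag fun _ i => |s i|, anCau_vd, anCau_vd,
      ← Finset.prod_mul_distrib]
    refine Finset.prod_congr rfl fun i _ => ?_
    rw [← Finset.prod_mul_distrib]
    refine Finset.prod_congr rfl fun k _ => ?_
    have := hs i
    have := hs k
    rw [← abs_mul, ← abs_mul, abs_sub_comm (s k)]
    congr 1
    field_simp
  have k4 : |∏ j, ∏ l ∈ ({j}ᶜ : Finset (Fin n)), (1 - (s j)⁻¹ * s l)| *
      ∏ i, ∏ _k ∈ ({i}ᶜ : Finset (Fin n)), |s i| = vd s * vd s := by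
    rw [anCau_vd_sq, Finset.abs_prod, ← Finset.prod_mul_distrib]
    refine Finset.prod_congr rfl fun i _ => ?_
    rw [Finset.abs_prod, ← Finset.prod_mul_distrib]
    refine Finset.prod_congr rfl fun k _ => ?_
    have := hs i
    rw [← abs_mul]
    congr 1
    field_simp
  rw [k2, mul_right_comm] at k4
  have k5 : |M.det| = vd s := mul_left_cancel₀ (vd_pos is).ne' ((congrArg (· * _) k3).symm.trans k4)
  rw [k1, k5]
  rfl

theorem anCau_psi {n b q : ℕ} (s : Fin n → ℝ) :
    |(Matrix.of fun k j : Fin n => psi b q k (s j)).det| =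
      |∏ j, s j ^ b * (1 - s j) ^ q| * vd s := by
  have e : (Matrix.of fun k j : Fin n => psi b q k (s j)) = Matrix.of fun k j : Fin n =>
      (s j ^ b * (1 - s j) ^ q) * (Matrix.vandermonde s).transpose k j := by
    ext k j
    simp only [Matrix.of_apply, psi, Matrix.transpose_apply, Matrix.vandermonde_apply]
    ring
  rw [e, Matrix.det_mul_row, Matrix.det_transpose, abs_mul, vd]

theorem bigT_eq_zero {n b q h C A D : ℕ} {x s : Fin n → ℝ}
    (hxs : ¬ Function.Injective x ∨ ¬ Function.Injective s) : bigT n b q h C A D x s = 0 := by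
  unfold bigT
  rcases hxs with hx | hs
  · simp only [Function.Injective, not_forall] at hx
    obtain ⟨i, j, e, ne⟩ := hx
    rw [Matrix.det_zero_of_column_eq ne fun k => by simp [e], abs_zero, zero_mul]
  · rw [anCau_psi, anCau_vd_zero hs, mul_zero, zero_mul, mul_zero]

theorem anCau_one_sub (x s : ℝ) : 1 - tt x * s = (1 - 2 * x * s + x ^ 2) / (1 + x ^ 2) := by
  unfold tt
  field_simp
  ring

theorem anCau_pos {x s : ℝ} (hx : x ∈ Ioo (-1 : ℝ) 1) (hs : s ∈ Ioo (0 : ℝ) 1) :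
    0 < 1 - 2 * x * s + x ^ 2 := by
  nlinarith [sq_nonneg (x - s), hs.1, hs.2]

theorem anCau_mul_pos {x y : ℝ} (hx : x ∈ Ioo (-1 : ℝ) 1) (hy : y ∈ Ioo (-1 : ℝ) 1) :
    0 < 1 - x * y := by
  nlinarith [mul_pos (sub_pos.2 hx.2) (neg_lt_iff_pos_add.1 hy.1),
    mul_pos (neg_lt_iff_pos_add.1 hx.1) (sub_pos.2 hy.2)]

theorem anCau_sub (x y : ℝ) :
    tt x - tt y = 2 * (x - y) * (1 - x * y) / ((1 + x ^ 2) * (1 + y ^ 2)) := by
  unfold tt
  field_simp
  ring

theorem anCau_rho {A h C : ℕ} (hh : 1 ≤ h) {x : ℝ} (hx : x ∈ Ioo (-1 : ℝ) 1) (h0 : x ≠ 0) :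
    |rho A h C x| * |1 - tt x| ≤ Real.exp (C * Real.log 2 + ((A + 1) * Real.log |x| +
      2 * h * Real.log (1 - x) - (C + h) * Real.log (1 + x ^ 2)) + Real.log (1 - x ^ 2) -
      Real.log (1 + x ^ 2)) := by
  obtain ⟨m, rfl⟩ : ∃ m, h = m + 1 := ⟨h - 1, by omega⟩
  have p1 : 0 < 1 - x := sub_pos.2 hx.2
  have p2 : 0 < 1 - x ^ 2 := by nlinarith [hx.1, hx.2]
  have p3 : 0 < |x| := abs_pos.2 h0
  have p4 : 1 ≤ 1 + x ^ 2 := by nlinarith
  have e1 : 1 - tt x = (1 - x) ^ 2 / (1 + x ^ 2) := by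
    unfold tt
    field_simp
    ring
  obtain ⟨U, hU⟩ : ∃ U, U = 2 ^ C * |x| ^ (A + 1) * (1 - x) ^ (2 * (m + 1)) * (1 - x ^ 2) /
    (1 + x ^ 2) ^ (C + m + 2) := ⟨_, rfl⟩
  have U0 : 0 < U := by rw [hU]; positivity
  have e2 : Real.log U = C * Real.log 2 + ((A + 1) * Real.log |x| +
      2 * (m + 1 : ℕ) * Real.log (1 - x) - (C + (m + 1 : ℕ)) * Real.log (1 + x ^ 2)) +
      Real.log (1 - x ^ 2) - Real.log (1 + x ^ 2) := by
    rw [hU, Real.log_div (by positivity) (by positivity), Real.log_mul (by positivity) p2.ne',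
      Real.log_mul (by positivity) (by positivity), Real.log_mul (by positivity) (by positivity),
      Real.log_pow, Real.log_pow, Real.log_pow, Real.log_pow]
    push_cast
    ring
  have a1 : |(if x < 0 then -1 / 2 else -1 / 4 : ℝ)| ≤ 1 / 2 := by
    split_ifs <;> rw [abs_of_neg (by norm_num)] <;> norm_num
  rw [← e2, Real.exp_log U0, rho, e1, Nat.add_sub_cancel, abs_mul, abs_mul, abs_mul, abs_mul,
    abs_pow x, abs_of_pos (by positivity : 0 < (2 / (1 + x ^ 2)) ^ (C + 1)),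
    abs_of_pos (by positivity : 0 < ((1 - x) ^ 2 / (1 + x ^ 2)) ^ m),
    abs_of_pos (by positivity : 0 < (1 - x ^ 2) / (1 + x ^ 2)),
    abs_of_pos (by positivity : 0 < (1 - x) ^ 2 / (1 + x ^ 2))]
  calc _ ≤ 1 / 2 * (2 / (1 + x ^ 2)) ^ (C + 1) * ((1 - x) ^ 2 / (1 + x ^ 2)) ^ m * |x| ^ (A + 1) *
        ((1 - x ^ 2) / (1 + x ^ 2)) * ((1 - x) ^ 2 / (1 + x ^ 2)) := by gcongr
    _ = U / (1 + x ^ 2) := by
        rw [hU, div_pow, div_pow, ← pow_mul]
        field_simp
        ring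
    _ ≤ U := div_le_self U0.le p4

theorem anCau_inj {n : ℕ} {x : Fin n → ℝ} (hx : ∀ i, x i ∈ Ioo (-1 : ℝ) 1)
    (ix : Function.Injective x) : Function.Injective fun i => tt (x i) := fun i k h => by
  have h1 := sub_eq_zero.2 h
  have h2 := anCau_mul_pos (hx i) (hx k)
  rw [anCau_sub, div_eq_zero_iff, or_iff_left (by positivity), mul_eq_zero,
    or_iff_left h2.ne'] at h1
  exact ix (by linarith)

theorem anCau_compl {n : ℕ} (f : Fin n → ℝ) (i : Fin n) :
    ∑ k ∈ ({i}ᶜ : Finset (Fin n)), f k = ∑ k, f k - f i := by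
  rw [Fintype.sum_eq_add_sum_compl i]
  ring

theorem anCau_logt {n : ℕ} {x : Fin n → ℝ} (hx : ∀ i, x i ∈ Ioo (-1 : ℝ) 1)
    (ix : Function.Injective x) :
    2 * Real.log (vd fun i => tt (x i)) = n * (n - 1) * Real.log 2 + 2 * Real.log (vd x) +
      ∑ i, ∑ k ∈ ({i}ᶜ : Finset (Fin n)), Real.log (1 - x i * x k) -
      2 * (n - 1) * ∑ i, Real.log (1 + x i ^ 2) := by
  have e : ∀ i, ∑ k ∈ ({i}ᶜ : Finset (Fin n)), Real.log |tt (x i) - tt (x k)| =
      (n - 1) * Real.log 2 + ∑ k ∈ ({i}ᶜ : Finset (Fin n)), Real.log |x i - x k| +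
      ∑ k ∈ ({i}ᶜ : Finset (Fin n)), Real.log (1 - x i * x k) -
      (n - 2) * Real.log (1 + x i ^ 2) - ∑ k, Real.log (1 + x k ^ 2) := fun i => by
    have e1 : ∀ k ∈ ({i}ᶜ : Finset (Fin n)), Real.log |tt (x i) - tt (x k)| =
        Real.log |x i - x k| + Real.log (1 - x i * x k) +
        (Real.log 2 - Real.log (1 + x i ^ 2) - Real.log (1 + x k ^ 2)) := fun k hk => by
      have h1 : x i - x k ≠ 0 := sub_ne_zero.2 fun h => by simp [ix h] at hk
      have h2 := (anCau_mul_pos (hx i) (hx k)).ne'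
      rw [Real.log_abs, Real.log_abs, anCau_sub, Real.log_div (by positivity) (by positivity),
        Real.log_mul (by positivity) h2, Real.log_mul two_ne_zero h1,
        Real.log_mul (by positivity) (by positivity)]
      ring
    rw [Finset.sum_congr rfl e1, Finset.sum_add_distrib, Finset.sum_add_distrib,
      anCau_compl fun k => Real.log 2 - Real.log (1 + x i ^ 2) - Real.log (1 + x k ^ 2),
      Finset.sum_sub_distrib]
    simp only [Finset.sum_const, Finset.card_univ, Fintype.card_fin, nsmul_eq_mul]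
    ring
  rw [two_mul_log_vd (anCau_inj hx ix), two_mul_log_vd ix]
  simp only [e, Finset.sum_sub_distrib, Finset.sum_add_distrib, ← Finset.mul_sum,
    Finset.sum_const, Finset.card_univ, Fintype.card_fin, nsmul_eq_mul]
  ring

theorem anCau_comm {a b c d e : ℝ} : a * c * (d * (b * e)) = a * b * c * (d * e) := by
  ring

theorem bigT_le {n b q h C A D : ℕ} (hh : 1 ≤ h) {x s : Fin n → ℝ}
    (hx : ∀ i, x i ∈ Ioo (-1 : ℝ) 1 ∧ x i ≠ 0) (hs : ∀ j, s j ∈ Ioo (0 : ℝ) 1)
    (ix : Function.Injective x) (is : Function.Injective s) {W : ℝ} (hW0 : 0 < W)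
    (hW : |(Matrix.of fun r i : Fin n => two n D r (x i)).det| ≤ W ^ n * vd x) :
    bigT n b q h C A D x s ≤ Real.exp (n * Real.log W + (C * n + n ^ 2 / 2) * Real.log 2 +
      ext (A + 1) (2 * h) (C + h) b q x s + ∑ i, Real.log (1 - x i ^ 2) +
      2 * Real.log (vd x) + en2 x s) := by
  have hx1 : ∀ i, x i ∈ Ioo (-1 : ℝ) 1 := fun i => (hx i).1
  have p1 : ∀ i j, 0 < 1 - tt (x i) * s j := fun i j => by
    have := anCau_pos (hx1 i) (hs j)
    rw [anCau_one_sub]
    positivity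
  have p2 : 0 < ∏ i, ∏ j, (1 - tt (x i) * s j) :=
    Finset.prod_pos fun i _ => Finset.prod_pos fun j _ => p1 i j
  have vx := vd_pos ix
  have vs := vd_pos is
  have vt := vd_pos (anCau_inj hx1 ix)
  have k1 : |(Matrix.of fun r i : Fin n => rho A h C (x i) * two n D r (x i)).det| =
      (∏ i, |rho A h C (x i)|) * |(Matrix.of fun r i : Fin n => two n D r (x i)).det| := by
    rw [← Finset.abs_prod, ← abs_mul, ← Matrix.det_mul_row]
    rfl
  have k2 : |(Matrix.of fun i j : Fin n => ker (x i) (s j)).det| = (∏ i, |1 - tt (x i)|) *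
      Real.exp (Real.log (vd fun i => tt (x i)) + Real.log (vd s) -
        Real.log (∏ i, ∏ j, (1 - tt (x i) * s j))) := by
    rw [Real.exp_sub, Real.exp_add, Real.exp_log vt, Real.exp_log vs, Real.exp_log p2,
      ← abs_det_cauchy _ s (fun j => (hs j).1.ne') p1, mul_div_cancel_right₀ _ p2.ne',
      ← Finset.abs_prod, ← abs_mul, ← Matrix.det_mul_column]
    congr 2
    ext i j
    simp only [Matrix.of_apply, ker, mul_one_div]
  have k3 : |∏ j, s j ^ b * (1 - s j) ^ q| * vd s =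
      Real.exp (∑ j, (b * Real.log (s j) + q * Real.log (1 - s j)) + Real.log (vd s)) := by
    rw [Real.exp_add, Real.exp_log vs, Real.exp_sum, Finset.abs_prod]
    refine congrArg (· * _) (Finset.prod_congr rfl fun j _ => ?_)
    have a1 := (hs j).1
    have a2 := sub_pos.2 (hs j).2
    rw [Real.exp_add, Real.exp_nat_mul, Real.exp_nat_mul, Real.exp_log a1, Real.exp_log a2,
      abs_of_pos (by positivity)]
  have k4 : W ^ n * vd x = Real.exp (n * Real.log W + Real.log (vd x)) := by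
    rw [Real.exp_add, Real.exp_nat_mul, Real.exp_log hW0, Real.exp_log vx]
  have k5 := Finset.prod_le_prod (s := Finset.univ) (fun i _ => by positivity)
    fun i _ => anCau_rho (A := A) (C := C) hh (hx1 i) (hx i).2
  rw [Finset.prod_mul_distrib, ← Real.exp_sum] at k5
  have k6 : Real.log (∏ i, ∏ j, (1 - tt (x i) * s j)) =
      ∑ i, ∑ j, Real.log (1 - 2 * x i * s j + x i ^ 2) - n * ∑ i, Real.log (1 + x i ^ 2) := by
    rw [Real.log_prod fun i _ => (Finset.prod_pos fun j _ => p1 i j).ne', Finset.mul_sum,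
      ← Finset.sum_sub_distrib]
    refine Finset.sum_congr rfl fun i _ => ?_
    rw [Real.log_prod fun j _ => (p1 i j).ne', Finset.sum_congr rfl fun j _ => by
      rw [anCau_one_sub, Real.log_div (anCau_pos (hx1 i) (hs j)).ne' (by positivity)]]
    simp
  have k7 := anCau_logt hx1 ix
  have k8 := mul_le_mul k5 (hW.trans k4.le) (abs_nonneg _) (Real.exp_pos _).le
  rw [bigT, k1, k2, anCau_psi, k3]
  calc _ = (∏ i, |rho A h C (x i)|) * (∏ i, |1 - tt (x i)|) *
        |(Matrix.of fun r i : Fin n => two n D r (x i)).det| * (_ * _) := anCau_comm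
    _ ≤ _ := (mul_le_mul_of_nonneg_right k8 (by positivity)).trans ?_
  rw [← Real.exp_add, ← Real.exp_add, ← Real.exp_add]
  refine Real.exp_le_exp.2 ?_
  have l2 : 0 ≤ n * Real.log 2 := by positivity
  simp only [Finset.sum_sub_distrib (f := fun i => _ + Real.log (1 - x i ^ 2)),
    Finset.sum_add_distrib (g := fun i => Real.log (1 - x i ^ 2)),
    Finset.sum_add_distrib (f := fun _ => C * Real.log 2), Finset.sum_const, Finset.card_univ,
    Fintype.card_fin, nsmul_eq_mul]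
  unfold ext en2
  linarith

end Vale.Agent.P030
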