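import Mathlib
import Vale.Agent.P030.AnDefs

/-! The kernel `kk` is negative semidefinite; damping and perturbation inequalities. -/

namespace Vale.Agent.P030

private theorem anND_norm_conj (w v : ℂ) :
    ‖1 - w * (starRingEnd ℂ) v‖ = ‖1 - v * (starRingEnd ℂ) w‖ := by
  rw [← Complex.norm_conj (1 - w * (starRingEnd ℂ) v)]
  congr 1
  simp [mul_comm]

theorem kk_symm (w v : ℂ) : kk w v = kk v w := by
  unfold kk
  rw [mul_comm w v, anND_norm_conj w v]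

private theorem anND_hasSum_log {z : ℂ} (hz : ‖z‖ < 1) :
    HasSum (fun n : ℕ => (z ^ n).re / n) (-Real.log ‖1 - z‖) := by
  have h := Complex.hasSum_re (Complex.hasSum_taylorSeries_neg_log hz)
  rw [Complex.neg_re, Complex.log_re] at h
  convert h using 2 with n
  rw [← Complex.ofReal_natCast, Complex.div_ofReal_re]

private theorem anND_hasSum_kk {w v : ℂ} (hw : ‖w‖ < 1) (hv : ‖v‖ < 1) :
    HasSum (fun n : ℕ => 2 / (n : ℝ) * ((w ^ n).re * (v ^ n).re)) (-kk w v) := by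
  have hlt : ‖w‖ * ‖v‖ < 1 := by
    have := norm_nonneg w
    have := norm_nonneg v
    nlinarith
  have h1 : ‖w * v‖ < 1 := by rwa [norm_mul]
  have h2 : ‖w * (starRingEnd ℂ) v‖ < 1 := by rwa [norm_mul, Complex.norm_conj]
  have h := (anND_hasSum_log h1).add (anND_hasSum_log h2)
  have e : -kk w v = -Real.log ‖1 - w * v‖ + -Real.log ‖1 - w * (starRingEnd ℂ) v‖ := by
    unfold kk; ring
  rw [e]
  convert h using 2 with n
  rw [mul_pow, mul_pow, ← map_pow, Complex.mul_re, Complex.mul_re, Complex.conj_re,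
    Complex.conj_im]
  ring

theorem nd {ι : Type} [Fintype ι] (c : ι → ℝ) (w : ι → ℂ) (hw : ∀ i, ‖w i‖ < 1) :
    ∑ i, ∑ j, c i * c j * kk (w i) (w j) ≤ 0 := by
  have h : HasSum (fun n : ℕ => ∑ i, ∑ j, c i * c j * (2 / (n : ℝ) * ((w i ^ n).re * (w j ^ n).re)))
      (∑ i, ∑ j, c i * c j * (-kk (w i) (w j))) :=
    hasSum_sum fun i _ => hasSum_sum fun j _ => (anND_hasSum_kk (hw i) (hw j)).mul_left _
  have h0 : 0 ≤ ∑ i, ∑ j, c i * c j * (-kk (w i) (w j)) := by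
    refine h.nonneg fun n => ?_
    have e : ∑ i, ∑ j, c i * c j * (2 / (n : ℝ) * ((w i ^ n).re * (w j ^ n).re)) =
        2 / (n : ℝ) * (∑ i, c i * (w i ^ n).re) ^ 2 := by
      rw [sq, Finset.sum_mul_sum, Finset.mul_sum]
      refine Finset.sum_congr rfl fun i _ => ?_
      rw [Finset.mul_sum]
      refine Finset.sum_congr rfl fun j _ => ?_
      ring
    rw [e]
    positivity
  have e : ∑ i, ∑ j, c i * c j * (-kk (w i) (w j)) = -∑ i, ∑ j, c i * c j * kk (w i) (w j) := by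
    simp only [mul_neg, Finset.sum_neg_distrib]
  linarith

theorem nd_trial {ι κ : Type} [Fintype ι] [Fintype κ] (c : ι → ℝ) (w : ι → ℂ)
    (hw : ∀ i, ‖w i‖ < 1) (γ : κ → ℝ) (ω : κ → ℂ) (hω : ∀ a, ‖ω a‖ < 1) (m : ℝ) :
    ∑ i, ∑ j, c i * c j * kk (w i) (w j) ≤
      2 * m * ∑ i, c i * ∑ a, γ a * kk (w i) (ω a) + m ^ 2 * selfE γ ω := by
  have h := nd (ι := ι ⊕ κ) (Sum.elim c fun a => -m * γ a) (Sum.elim w ω)
    (by rintro (i | a) <;> simp [hw, hω])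
  simp only [Fintype.sum_sum_type, Sum.elim_inl, Sum.elim_inr, Finset.sum_add_distrib] at h
  have e1 : ∑ i, ∑ a, c i * (-m * γ a) * kk (w i) (ω a) =
      -(m * ∑ i, c i * ∑ a, γ a * kk (w i) (ω a)) := by
    rw [Finset.mul_sum, ← Finset.sum_neg_distrib]
    refine Finset.sum_congr rfl fun i _ => ?_
    rw [Finset.mul_sum, Finset.mul_sum, ← Finset.sum_neg_distrib]
    refine Finset.sum_congr rfl fun a _ => ?_
    ring
  have e2 : ∑ a, ∑ i, -m * γ a * c i * kk (ω a) (w i) =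
      -(m * ∑ i, c i * ∑ a, γ a * kk (w i) (ω a)) := by
    rw [← e1, Finset.sum_comm]
    refine Finset.sum_congr rfl fun i _ => Finset.sum_congr rfl fun a _ => ?_
    rw [kk_symm (ω a)]
    ring
  have e3 : ∑ a, ∑ a', -m * γ a * (-m * γ a') * kk (ω a) (ω a') = -(m ^ 2 * selfE γ ω) := by
    unfold selfE
    rw [mul_neg, neg_neg, Finset.mul_sum]
    refine Finset.sum_congr rfl fun a _ => ?_
    rw [Finset.mul_sum]
    refine Finset.sum_congr rfl fun a' _ => ?_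
    ring
  rw [e1, e2, e3] at h
  linarith

/-- Damping a repulsive pair. -/
theorem log_damp {w : ℂ} {ρ : ℝ} (hw : ‖w‖ ≤ 1) (hw1 : w ≠ 1) (h0 : 0 < ρ) (h1 : ρ ≤ 1) :
    Real.log ‖1 - w‖ ≤ Real.log ‖1 - ρ * w‖ - Real.log ρ := by
  have hpos : 0 < ‖1 - w‖ := norm_pos_iff.2 (sub_ne_zero.2 hw1.symm)
  have hre : w.re ≤ 1 := (Complex.re_le_norm w).trans hw
  have hle : ρ * ‖1 - w‖ ≤ ‖1 - ρ * w‖ := by
    refine (pow_le_pow_iff_left₀ (by positivity) (norm_nonneg _) two_ne_zero).1 ?_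
    rw [mul_pow, Complex.sq_norm, Complex.sq_norm, Complex.normSq_apply, Complex.normSq_apply]
    simp only [Complex.sub_re, Complex.one_re, Complex.sub_im, Complex.one_im, Complex.mul_re,
      Complex.mul_im, Complex.ofReal_re, Complex.ofReal_im, zero_mul, sub_zero, add_zero, zero_sub]
    have h2 : 0 ≤ (1 - ρ) * (1 + ρ - 2 * ρ * w.re) := by
      apply mul_nonneg (by linarith)
      nlinarith
    nlinarith
  have := Real.log_le_log (by positivity) hle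
  rw [Real.log_mul h0.ne' hpos.ne'] at this
  linarith

private theorem anND_neg_log {ρ ε : ℝ} (hε : ε ≤ 1 / 2) (hρ : 1 - ε ≤ ρ) (hρ1 : ρ ≤ 1) :
    -Real.log ρ ≤ 2 * ε := by
  have h0 : 0 < ρ := by linarith
  have h1 := Real.log_le_sub_one_of_pos (inv_pos.2 h0)
  rw [Real.log_inv] at h1
  have h2 : ρ⁻¹ ≤ 1 + 2 * ε := by
    rw [inv_le_iff_one_le_mul₀ h0]
    nlinarith
  linarith

theorem kk_damp {w v : ℂ} {ρ σ ε : ℝ} (hw : ‖w‖ ≤ 1) (hv : ‖v‖ ≤ 1) (h1 : w * v ≠ 1)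
    (h2 : w * (starRingEnd ℂ) v ≠ 1) (hε : ε ≤ 1 / 2) (hρ : 1 - ε ≤ ρ) (hρ1 : ρ ≤ 1)
    (hσ : 1 - ε ≤ σ) (hσ1 : σ ≤ 1) : kk w v ≤ kk (ρ * w) (σ * v) + 8 * ε := by
  have hρ0 : 0 < ρ := by linarith
  have hσ0 : 0 < σ := by linarith
  have hle : ‖w‖ * ‖v‖ ≤ 1 := mul_le_one₀ hw (norm_nonneg _) hv
  have hp : ρ * σ ≤ 1 := mul_le_one₀ hρ1 hσ0.le hσ1
  have a1 := log_damp (w := w * v) (ρ := ρ * σ) (by rwa [norm_mul]) h1 (mul_pos hρ0 hσ0) hp
  have a2 := log_damp (w := w * (starRingEnd ℂ) v) (ρ := ρ * σ)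
    (by rwa [norm_mul, Complex.norm_conj]) h2 (mul_pos hρ0 hσ0) hp
  have e1 : (ρ : ℂ) * w * (σ * v) = ((ρ * σ : ℝ) : ℂ) * (w * v) := by push_cast; ring
  have e2 : (ρ : ℂ) * w * (starRingEnd ℂ) (σ * v) =
      ((ρ * σ : ℝ) : ℂ) * (w * (starRingEnd ℂ) v) := by
    rw [map_mul, Complex.conj_ofReal]; push_cast; ring
  unfold kk
  rw [e1, e2]
  rw [Real.log_mul hρ0.ne' hσ0.ne'] at a1 a2
  have b1 := anND_neg_log hε hρ hρ1
  have b2 := anND_neg_log hε hσ hσ1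
  linarith

private theorem anND_low {u : ℂ} {r : ℝ} (hu : ‖u‖ ≤ r) : 1 - r ≤ ‖1 - u‖ := by
  have := norm_sub_norm_le (1 : ℂ) u
  rw [norm_one] at this
  linarith

theorem kk_diag {w : ℂ} {η : ℝ} (h0 : 0 < η) (hw : ‖w‖ ≤ 1 - η) :
    -kk w w ≤ -2 * Real.log η := by
  have hn := norm_nonneg w
  have hle : ‖w‖ * ‖w‖ ≤ 1 - η := by nlinarith
  have a1 := anND_low (u := w * w) (r := 1 - η) (by rwa [norm_mul])
  have a2 := anND_low (u := w * (starRingEnd ℂ) w) (r := 1 - η)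
    (by rwa [norm_mul, Complex.norm_conj])
  have b1 := Real.log_le_log h0 (show η ≤ ‖1 - w * w‖ by linarith)
  have b2 := Real.log_le_log h0 (show η ≤ ‖1 - w * (starRingEnd ℂ) w‖ by linarith)
  unfold kk
  linarith

private theorem anND_log_sub {a b d e : ℝ} (hd : 0 < d) (ha : d ≤ a) (hb : d ≤ b)
    (he : 0 ≤ e) (hab : a - b ≤ e) : Real.log a - Real.log b ≤ e / d := by
  have ha0 : 0 < a := by linarith
  have hb0 : 0 < b := by linarith
  rw [← Real.log_div ha0.ne' hb0.ne']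
  have h1 := Real.log_le_sub_one_of_pos (div_pos ha0 hb0)
  have h2 : a / b - 1 = (a - b) / b := by field_simp
  have h3 : (a - b) / b ≤ e / b := div_le_div_of_nonneg_right hab hb0.le
  have h4 : e / b ≤ e / d := div_le_div_of_nonneg_left he hd hb
  linarith

private theorem anND_pert {u : ℂ} {ρ ε r : ℝ} (hu : ‖u‖ ≤ r) (hr : r < 1)
    (hρ : 1 - ε ≤ ρ) (hρ0 : 0 ≤ ρ) (hρ1 : ρ ≤ 1) :
    |Real.log ‖1 - ρ * u‖ - Real.log ‖1 - u‖| ≤ ε / (1 - r) := by
  have hn := norm_nonneg u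
  have hu' : ‖(ρ : ℂ) * u‖ ≤ r := by
    rw [norm_mul, Complex.norm_real, Real.norm_of_nonneg hρ0]
    nlinarith
  have a1 := anND_low hu
  have a2 := anND_low hu'
  have hd : ‖(1 - (ρ : ℂ) * u) - (1 - u)‖ ≤ ε := by
    have e : (1 - (ρ : ℂ) * u) - (1 - u) = ((1 - ρ : ℝ) : ℂ) * u := by push_cast; ring
    rw [e, norm_mul, Complex.norm_real, Real.norm_of_nonneg (by linarith)]
    nlinarith
  have h1 := (abs_norm_sub_norm_le (1 - (ρ : ℂ) * u) (1 - u)).trans hd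
  rw [abs_le] at h1
  have hε : 0 ≤ ε := by linarith
  have b1 := anND_log_sub (sub_pos.2 hr) a2 a1 hε h1.2
  have b2 := anND_log_sub (sub_pos.2 hr) a1 a2 hε (by linarith [h1.1])
  rw [abs_le]
  constructor <;> linarith

theorem kk_pert {w ω : ℂ} {ρ ε r : ℝ} (hw : ‖w‖ ≤ 1) (hω : ‖ω‖ ≤ r) (hr : r < 1)
    (hρ : 1 - ε ≤ ρ) (hρ0 : 0 ≤ ρ) (hρ1 : ρ ≤ 1) :
    |kk (ρ * w) ω - kk w ω| ≤ 2 * ε / (1 - r) := by
  have hle : ‖w‖ * ‖ω‖ ≤ r := by
    have := norm_nonneg w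
    have := norm_nonneg ω
    nlinarith
  have a1 := anND_pert (u := w * ω) (by rwa [norm_mul]) hr hρ hρ0 hρ1
  have a2 := anND_pert (u := w * (starRingEnd ℂ) ω) (by rwa [norm_mul, Complex.norm_conj]) hr hρ
    hρ0 hρ1
  unfold kk
  rw [mul_assoc, mul_assoc]
  rw [abs_le] at a1 a2 ⊢
  have e : 2 * ε / (1 - r) = ε / (1 - r) + ε / (1 - r) := by ring
  constructor <;> linarith [a1.1, a1.2, a2.1, a2.2]

/-- The point of the upper unit semicircle above `x`. -/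
noncomputable def up (x : ℝ) : ℂ := x + Real.sqrt (1 - x ^ 2) * Complex.I

private theorem anND_re (x : ℝ) : (up x).re = x := by simp [up]

private theorem anND_im (x : ℝ) : (up x).im = Real.sqrt (1 - x ^ 2) := by simp [up]

private theorem anND_normSq {x : ℝ} (hx : |x| ≤ 1) : Complex.normSq (up x) = 1 := by
  have h : 0 ≤ 1 - x ^ 2 := by
    have := abs_le.1 hx
    nlinarith [this.1, this.2]
  rw [Complex.normSq_apply, anND_re, anND_im, Real.mul_self_sqrt h]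
  ring

theorem norm_up {x : ℝ} (hx : |x| ≤ 1) : ‖up x‖ = 1 := by
  rw [Complex.norm_def, anND_normSq hx, Real.sqrt_one]

private theorem anND_mul_conj {x : ℝ} (hx : |x| ≤ 1) : up x * (starRingEnd ℂ) (up x) = 1 := by
  rw [Complex.mul_conj, anND_normSq hx, Complex.ofReal_one]

private theorem anND_add_conj (x : ℝ) : up x + (starRingEnd ℂ) (up x) = 2 * x := by
  rw [Complex.add_conj, anND_re]; push_cast; ring

theorem up_mul {x : ℝ} (hx : |x| ≤ 1) (ω : ℂ) :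
    (1 - ω * up x) * (1 - ω * (starRingEnd ℂ) (up x)) = 1 - 2 * ω * x + ω ^ 2 := by
  have h1 := anND_mul_conj hx
  have h2 := anND_add_conj x
  linear_combination ω ^ 2 * h1 - ω * h2

theorem kk_up {x : ℝ} (hx : |x| ≤ 1) {ω : ℂ} (hω : 1 - 2 * ω * x + ω ^ 2 ≠ 0) :
    kk (up x) ω = Real.log ‖1 - 2 * ω * x + ω ^ 2‖ := by
  rw [kk_symm]
  unfold kk
  rw [← up_mul hx ω] at hω ⊢
  rw [norm_mul, Real.log_mul (norm_ne_zero_iff.2 (left_ne_zero_of_mul hω))
    (norm_ne_zero_iff.2 (right_ne_zero_of_mul hω))]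

theorem kk_up_up {x y : ℝ} (hx : |x| ≤ 1) (hy : |y| ≤ 1) (hxy : x ≠ y) :
    up x * up y ≠ 1 ∧ up x * (starRingEnd ℂ) (up y) ≠ 1 ∧
      kk (up x) (up y) = Real.log 2 + Real.log |x - y| := by
  have h1 := anND_mul_conj hy
  have h2 := anND_add_conj y
  have hy0 : up y ≠ 0 := left_ne_zero_of_mul (by rw [h1]; exact one_ne_zero)
  have e : 1 - 2 * up y * x + up y ^ 2 = up y * (((-2) * (x - y) : ℝ) : ℂ) := by
    push_cast
    linear_combination (up y) * h2 - h1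
  have hne : 1 - 2 * up y * x + up y ^ 2 ≠ 0 := by
    rw [e]
    refine mul_ne_zero hy0 (Complex.ofReal_ne_zero.2 (mul_ne_zero (by norm_num) (sub_ne_zero.2 hxy)))
  have hne' := hne
  rw [← up_mul hx] at hne'
  refine ⟨fun h => left_ne_zero_of_mul hne' (by rw [mul_comm, h, sub_self]), fun h => ?_, ?_⟩
  · apply right_ne_zero_of_mul hne'
    have := congrArg (starRingEnd ℂ) h
    rw [map_mul, Complex.conj_conj, map_one] at this
    rw [mul_comm, this, sub_self]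
  · rw [kk_up hx hne, e, norm_mul, norm_up hy, one_mul, Complex.norm_real, Real.norm_eq_abs,
      abs_mul, Real.log_mul (by norm_num) (abs_ne_zero.2 (sub_ne_zero.2 hxy))]
    norm_num

end Vale.Agent.P030
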