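import Mathlib
import Vale.Agent.P030.AnData
import Vale.Agent.P030.AnND

/-! The kernel computations, translated into bounds for potentials and self energies. -/

namespace Vale.Agent.P030.Chk

open Complex Set

noncomputable def cw (c : Chg) : ℝ := (c.1 : ℝ) / 10 ^ 8

noncomputable def cz (c : Chg) : ℂ := ((c.2.1 : ℂ) + c.2.2 * I) / 2 ^ 24

noncomputable def gam (l : List Chg) (a : Fin l.length) : ℝ := cw l[a.1]

noncomputable def omg (l : List Chg) (a : Fin l.length) : ℂ := cz l[a.1]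

lemma good_norm {l : List Chg} (h : good l = true) {c : Chg} (hc : c ∈ l) :
    ‖cz c‖ ≤ 999 / 1000 := by
  simp only [good, Bool.and_eq_true, List.all_eq_true, decide_eq_true_eq] at h
  have h1 : (1000000 * (c.2.1 * c.2.1 + c.2.2 * c.2.2) : ℝ) ≤ 998001 * (16777216 * 16777216) := by
    have := h.1 c hc
    unfold QQ at this
    exact_mod_cast this
  have h2 : ‖((c.2.1 : ℝ) : ℂ) + (c.2.2 : ℝ) * I‖ ^ 2 = (c.2.1 : ℝ) ^ 2 + (c.2.2 : ℝ) ^ 2 := by
    rw [← normSq_eq_norm_sq, normSq_add_mul_I]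
  push_cast at h2
  unfold cz
  rw [norm_div, div_le_iff₀ (by simp)]
  simp only [norm_pow, Complex.norm_ofNat]
  refine abs_le_of_sq_le_sq' ?_ (by positivity) |>.2
  rw [h2]
  nlinarith

lemma good_omg {l : List Chg} (h : good l = true) (a : Fin l.length) : ‖omg l a‖ ≤ 999 / 1000 :=
  good_norm h (List.getElem_mem _)

lemma good_sum {l : List Chg} (h : good l = true) : ∑ a, |gam l a| ≤ 50 := by
  simp only [good, Bool.and_eq_true, decide_eq_true_eq] at h
  have h1 : (((l.map fun c => |c.1|).sum : ℤ) : ℝ) ≤ 5000000000 := by exact_mod_cast h.2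
  have h2 : ∑ a, |gam l a| = (l.map fun c => |cw c|).sum :=
    Fin.sum_univ_fun_getElem l fun c => |cw c|
  have h3 : (l.map fun c => |cw c|).sum = (((l.map fun c => |c.1|).sum : ℤ) : ℝ) / 10 ^ 8 := by
    clear h h1 h2
    induction l with
    | nil => simp
    | cons c l ih =>
      rw [List.map_cons, List.sum_cons, ih, List.map_cons, List.sum_cons]
      unfold cw
      push_cast
      rw [abs_div, abs_of_pos (show (0 : ℝ) < 10 ^ 8 by positivity)]
      ring
  rw [h2, h3, div_le_iff₀ (by positivity)]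
  linarith

lemma val_of {t : Tm} {x : ℝ} {y : ℂ} (e : ℕ) (he : t.e = e) (hy : y ≠ 0)
    (hz : t.z x = 2 ^ e * y) : t.z x ≠ 0 ∧ t.val x = t.w * Real.log ‖y‖ := by
  refine ⟨by rw [hz]; exact mul_ne_zero (by simp) hy, ?_⟩
  rw [Tm.val, hz, he, norm_mul, Real.log_mul (by simp) (norm_ne_zero_iff.2 hy)]
  simp

lemma one_sub_ne {u : ℂ} (h : ‖u‖ < 1) : 1 - u ≠ 0 := by
  intro h0
  rw [← sub_eq_zero.1 h0] at h
  simp at h

lemma tC_val {c : Chg} (hc : ‖cz c‖ ≤ 999 / 1000) {x : ℝ} (hx : |x| ≤ 1) :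
    (tC c).z x ≠ 0 ∧ (tC c).val x = 10 ^ 8 * (2 * (cw c * Real.log ‖1 - 2 * cz c * x + cz c ^ 2‖)) := by
  have hne : 1 - 2 * cz c * x + cz c ^ 2 ≠ 0 := by
    rw [← up_mul hx]
    refine mul_ne_zero (one_sub_ne ?_) (one_sub_ne ?_)
    · rw [norm_mul, norm_up hx]; linarith
    · rw [norm_mul, RCLike.norm_conj, norm_up hx]; linarith
  obtain ⟨h1, h2⟩ := val_of (t := tC c) (x := x) 48 rfl hne (by
    simp only [Tm.z, tC, cz, QQ]
    push_cast
    linear_combination (-(c.2.2 : ℂ) ^ 2) * I_sq)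
  refine ⟨h1, ?_⟩
  rw [h2]
  simp only [tC, cw]
  push_cast
  ring

lemma tR_val {c : Chg} (hc : ‖cz c‖ ≤ 999 / 1000) {x : ℝ} (hx : |x| ≤ 1) :
    (tR c).z x ≠ 0 ∧ (tR c).val x = -(10 ^ 8 * (2 * (cw c * Real.log ‖1 - cz c * x‖))) := by
  have hne : 1 - cz c * x ≠ 0 := by
    refine one_sub_ne ?_
    rw [norm_mul, Complex.norm_real, Real.norm_eq_abs]
    nlinarith [norm_nonneg (cz c), abs_nonneg x]
  obtain ⟨h1, h2⟩ := val_of (t := tR c) (x := x) 24 rfl hne (by
    simp only [Tm.z, tR, cz, QQ]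
    push_cast
    ring)
  refine ⟨h1, ?_⟩
  rw [h2]
  simp only [tR, cw]
  push_cast
  ring

lemma tS_val {c d : Chg} (hc : ‖cz c‖ ≤ 999 / 1000) (hd : ‖cz d‖ ≤ 999 / 1000) :
    (tS1 c d).z 0 ≠ 0 ∧ (tS2 c d).z 0 ≠ 0 ∧
      (tS1 c d).val 0 + (tS2 c d).val 0 = -(10 ^ 16 * (cw c * cw d * kk (cz c) (cz d))) := by
  have hlt : ‖cz c‖ * ‖cz d‖ < 1 := by nlinarith [norm_nonneg (cz c), norm_nonneg (cz d)]
  obtain ⟨h1, h2⟩ := val_of (t := tS1 c d) (x := 0) (y := 1 - cz c * cz d) 48 rfl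
    (one_sub_ne (by rwa [norm_mul])) (by
    simp only [Tm.z, tS1, cz, QQ]
    push_cast
    linear_combination ((c.2.2 : ℂ) * d.2.2) * I_sq)
  obtain ⟨h3, h4⟩ := val_of (t := tS2 c d) (x := 0) (y := 1 - cz c * (starRingEnd ℂ) (cz d)) 48 rfl
    (one_sub_ne (by rwa [norm_mul, RCLike.norm_conj])) (by
    simp only [Tm.z, tS2, cz, QQ, map_div₀, map_add, map_mul, map_pow, map_intCast, conj_I,
      map_ofNat]
    push_cast
    linear_combination (-(c.2.2 : ℂ) * d.2.2) * I_sq)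
  refine ⟨h1, h3, ?_⟩
  rw [h2, h4]
  simp only [tS1, tS2, cw, kk]
  push_cast
  ring

lemma sum_map_eq {l : List Chg} {f : Chg → Tm} {g : Chg → ℝ} {x K : ℝ}
    (h : ∀ c ∈ l, (f c).val x = K * g c) :
    ((l.map f).map fun t => t.val x).sum = K * ∑ a : Fin l.length, g l[a.1] := by
  rw [Fin.sum_univ_fun_getElem l g, List.map_map, ← List.sum_map_mul_left]
  congr 1
  exact List.map_congr_left h

lemma sumC {l : List Chg} (h : good l = true) {x : ℝ} (hx : |x| ≤ 1) :
    ((l.map tC).map fun t => t.val x).sum = 10 ^ 8 * potC (gam l) (omg l) x := by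
  rw [sum_map_eq (K := 10 ^ 8 * 2) (g := fun c => cw c * Real.log ‖1 - 2 * cz c * x + cz c ^ 2‖)
    (fun c hc => by rw [(tC_val (good_norm h hc) hx).2]; ring), mul_assoc]
  rfl

lemma sumR {l : List Chg} (h : good l = true) {x : ℝ} (hx : |x| ≤ 1) :
    ((l.map tR).map fun t => t.val x).sum = -(10 ^ 8 * potR (gam l) (omg l) x) := by
  rw [sum_map_eq (K := -(10 ^ 8 * 2)) (g := fun c => cw c * Real.log ‖1 - cz c * x‖)
    (fun c hc => by rw [(tR_val (good_norm h hc) hx).2]; ring), neg_mul, mul_assoc]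
  rfl

lemma sum_flat {α : Type} (l : List α) (F : α → List Tm) (x : ℝ) :
    ((l.flatMap F).map fun t => t.val x).sum =
      ∑ a : Fin l.length, ((F l[a.1]).map fun t => t.val x).sum := by
  rw [Fin.sum_univ_fun_getElem l fun c => ((F c).map fun t => t.val x).sum]
  induction l with
  | nil => simp
  | cons c l ih => simp [List.flatMap_cons, ih]

theorem certS {l : List Chg} (h : good l = true) {i : ℤ} (hi : chkI 32 (tS l) i 0 0 = true) :
    selfE (gam l) (omg l) ≤ i / 10 ^ 16 := by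
  have h1 := chkI_sound hi (x := 0) (by simp) (by simp) (by
    intro t ht
    simp only [tS, List.mem_flatMap, List.mem_cons, List.not_mem_nil, or_false] at ht
    obtain ⟨c, hc, d, hd, rfl | rfl⟩ := ht
    · exact (tS_val (good_norm h hc) (good_norm h hd)).1
    · exact (tS_val (good_norm h hc) (good_norm h hd)).2.1)
  have h2 : ((tS l).map fun t => t.val 0).sum = 10 ^ 16 * selfE (gam l) (omg l) := by
    rw [tS, sum_flat, selfE, mul_neg, Finset.mul_sum, ← Finset.sum_neg_distrib]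
    refine Finset.sum_congr rfl fun a _ => ?_
    rw [sum_flat, Finset.mul_sum, ← Finset.sum_neg_distrib]
    refine Finset.sum_congr rfl fun a' _ => ?_
    have := (tS_val (good_omg h a) (good_omg h a')).2.2
    simpa [gam, omg] using this
  rw [le_div_iff₀ (by positivity)]
  linarith

lemma z_id (w : ℤ) (x : ℝ) : Tm.z ⟨w, 0, 0, 0, 1, 0⟩ x = x := by simp [Tm.z]

lemma z_one_sub (w : ℤ) (x : ℝ) : Tm.z ⟨w, 0, 1, 0, -1, 0⟩ x = ((1 - x : ℝ) : ℂ) := by
  simp [Tm.z, sub_eq_add_neg]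

lemma z_I (w : ℤ) (x : ℝ) : Tm.z ⟨w, 0, 0, 1, 1, 0⟩ x = x + (1 : ℝ) * I := by
  simp [Tm.z, add_comm]

theorem certX {a h H m : ℤ} {l1 l2 : List Chg} (g1 : good l1 = true) (g2 : good l2 = true)
    (hok : Ok 32 (tX a h H l1 l2) m (-2147483648) 2147483648) {x : ℝ}
    (hx : x ∈ Ioo (-1 : ℝ) 1) (hx0 : x ≠ 0) :
    a / 10 ^ 8 * Real.log |x| + h / 10 ^ 8 * Real.log (1 - x) - H / 10 ^ 8 * Real.log (1 + x ^ 2) +
      potC (gam l1) (omg l1) x - potR (gam l2) (omg l2) x ≤ m / 10 ^ 8 := by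
  have hx1 : |x| ≤ 1 := abs_le.2 ⟨hx.1.le, hx.2.le⟩
  have hn : ‖(x : ℂ) + (1 : ℝ) * I‖ ^ 2 = 1 + x ^ 2 := by
    rw [← normSq_eq_norm_sq, normSq_add_mul_I]; ring
  have h1 := hok x (by push_cast; linarith [hx.1]) (by push_cast; linarith [hx.2]) (by
    intro t ht
    simp only [tX, List.mem_append, List.mem_cons, List.not_mem_nil, or_false, List.mem_map] at ht
    rcases ht with (rfl | rfl | rfl) | ⟨c, hc, rfl⟩ | ⟨c, hc, rfl⟩
    · rw [z_id]; exact_mod_cast hx0
    · rw [z_one_sub]; exact_mod_cast (sub_pos.2 hx.2).ne'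
    · rw [z_I]
      intro h0
      rw [h0] at hn
      simp at hn
      nlinarith [sq_nonneg x]
    · exact (tC_val (good_norm g1 hc) hx1).1
    · exact (tR_val (good_norm g2 hc) hx1).1)
  rw [tX, List.map_append, List.sum_append, List.map_append, List.sum_append, sumC g1 hx1,
    sumR g2 hx1] at h1
  simp only [List.map_cons, List.map_nil, List.sum_cons, List.sum_nil, Tm.val, z_id, z_one_sub,
    z_I, Complex.norm_real, Real.norm_eq_abs, abs_of_pos (sub_pos.2 hx.2)] at h1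
  have h2 : Real.log (1 + x ^ 2) = 2 * Real.log ‖(x : ℂ) + (1 : ℝ) * I‖ := by
    rw [← hn, Real.log_pow]; norm_num
  rw [h2, le_div_iff₀ (by positivity)]
  push_cast at h1 ⊢
  linarith

theorem certY {b q m : ℤ} {l2 : List Chg} (g2 : good l2 = true)
    (hok : Ok 32 (tY b q l2) m 0 2147483648) {s : ℝ} (hs : s ∈ Ioo (0 : ℝ) 1) :
    b / 10 ^ 8 * Real.log s + q / 10 ^ 8 * Real.log (1 - s) + potC (gam l2) (omg l2) s ≤
      m / 10 ^ 8 := by
  have hx1 : |s| ≤ 1 := abs_le.2 ⟨by linarith [hs.1], hs.2.le⟩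
  have h1 := hok s (by push_cast; linarith [hs.1]) (by push_cast; linarith [hs.2]) (by
    intro t ht
    simp only [tY, List.mem_append, List.mem_cons, List.not_mem_nil, or_false, List.mem_map] at ht
    rcases ht with (rfl | rfl) | ⟨c, hc, rfl⟩
    · rw [z_id]; exact_mod_cast hs.1.ne'
    · rw [z_one_sub]; exact_mod_cast (sub_pos.2 hs.2).ne'
    · exact (tC_val (good_norm g2 hc) hx1).1)
  rw [tY, List.map_append, List.sum_append, sumC g2 hx1] at h1
  simp only [List.map_cons, List.map_nil, List.sum_cons, List.sum_nil, Tm.val, z_id, z_one_sub,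
    Complex.norm_real, Real.norm_eq_abs, abs_of_pos (sub_pos.2 hs.2), abs_of_pos hs.1] at h1
  rw [le_div_iff₀ (by positivity)]
  push_cast at h1 ⊢
  linarith

end Vale.Agent.P030.Chk
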