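import Mathlib

/-! Fixed point bounds for logarithms of natural numbers, evaluated by the kernel. -/

namespace Vale.Agent.P030.Chk

def fN {α : Type} (n : ℕ) (f : ℕ → α) : α :=
  Nat.casesOn (motive := fun _ => α) n (f 0) (fun k => f (Nat.succ k))

@[simp] lemma fN_eq {α : Type} (n : ℕ) (f : ℕ → α) : fN n f = f n := by
  cases n <;> rfl

def fI {α : Type} (x : ℤ) (f : ℤ → α) : α :=
  Int.casesOn (motive := fun _ => α) x (fun n => fN n (fun n => f (Int.ofNat n)))
    (fun n => fN n (fun n => f (Int.negSucc n)))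

@[simp] lemma fI_eq {α : Type} (x : ℤ) (f : ℤ → α) : fI x f = f x := by
  cases x <;> simp [fI]

/-- Fixed point scale `2^44`. -/
def PP : ℕ := 17592186044416

lemma PP_pos : (0 : ℝ) < PP := by unfold PP; norm_num

/-- Lower partial sum: `c` more terms, odd denominator `d`, current power `pw`, sum `s`. -/
def serLo (q : ℕ) (c : ℕ) : ℕ → ℕ → ℕ → ℕ :=
  Nat.rec (motive := fun _ => ℕ → ℕ → ℕ → ℕ) (fun _ _ s => s)
    (fun _ ih d pw s => fN (Nat.div (Nat.mul pw q) PP) fun pw' =>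
      fN (Nat.add s (Nat.div pw d)) fun s' => fN (Nat.add d 2) fun d' => ih d' pw' s') c

/-- Upper partial sum, including the remainder. -/
def serHi (q : ℕ) (c : ℕ) : ℕ → ℕ → ℕ → ℕ :=
  Nat.rec (motive := fun _ => ℕ → ℕ → ℕ → ℕ) (fun _ pw s => Nat.add s (Nat.mul 2 pw))
    (fun _ ih d pw s => fN (Nat.add (Nat.div (Nat.mul pw q) PP) 1) fun pw' =>
      fN (Nat.add (Nat.add s (Nat.div pw d)) 1) fun s' => fN (Nat.add d 2) fun d' =>
        ih d' pw' s') c

lemma serLo_succ (q c d pw s : ℕ) :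
    serLo q (c + 1) d pw s = serLo q c (d + 2) (pw * q / PP) (s + pw / d) := by
  simp only [serLo, fN_eq]; rfl

lemma serHi_succ (q c d pw s : ℕ) :
    serHi q (c + 1) d pw s = serHi q c (d + 2) (pw * q / PP + 1) (s + pw / d + 1) := by
  simp only [serHi, fN_eq]; rfl

lemma div_hi (a : ℕ) {d : ℕ} (hd : 0 < d) : (a : ℝ) / d ≤ ((a / d : ℕ) : ℝ) + 1 := by
  have h : a < (a / d + 1) * d := by
    have := Nat.lt_div_mul_add (a := a) hd
    nlinarith
  have hd' : (0 : ℝ) < d := by exact_mod_cast hd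
  rw [div_le_iff₀ hd']
  exact_mod_cast h.le

lemma serLo_le {z : ℝ} (hz : 0 ≤ z) {q : ℕ} (hq : (q : ℝ) ≤ z ^ 2 * PP) (c : ℕ) :
    ∀ i pw s : ℕ, (pw : ℝ) ≤ z ^ (2 * i + 1) * PP →
      (s : ℝ) ≤ (∑ j ∈ Finset.range i, z ^ (2 * j + 1) / (2 * j + 1)) * PP →
      (serLo q c (2 * i + 1) pw s : ℝ) ≤
        (∑ j ∈ Finset.range (i + c), z ^ (2 * j + 1) / (2 * j + 1)) * PP := by
  induction c with
  | zero => intro i pw s _ hs; exact hs
  | succ c ih =>
    intro i pw s hp hs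
    rw [serLo_succ, show i + (c + 1) = (i + 1) + c by ring, show 2 * i + 1 + 2 = 2 * (i + 1) + 1 by ring]
    have hP := PP_pos
    apply ih
    · refine Nat.cast_div_le.trans ?_
      rw [div_le_iff₀ hP]
      push_cast
      calc (pw : ℝ) * q ≤ (z ^ (2 * i + 1) * PP) * (z ^ 2 * PP) := by gcongr
        _ = _ := by ring
    · rw [Finset.sum_range_succ]
      push_cast
      have : ((pw / (2 * i + 1) : ℕ) : ℝ) ≤ z ^ (2 * i + 1) / (2 * i + 1) * PP := by
        refine Nat.cast_div_le.trans ?_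
        push_cast
        rw [div_mul_eq_mul_div]
        gcongr
      linarith

lemma le_serHi {z : ℝ} (_hz : 0 ≤ z) {q : ℕ} (hq : z ^ 2 * PP ≤ (q : ℝ)) (c : ℕ) :
    ∀ i pw s : ℕ, z ^ (2 * i + 1) * PP ≤ (pw : ℝ) →
      (∑ j ∈ Finset.range i, z ^ (2 * j + 1) / (2 * j + 1)) * PP ≤ (s : ℝ) →
      (∑ j ∈ Finset.range (i + c), z ^ (2 * j + 1) / (2 * j + 1) + 2 * z ^ (2 * (i + c) + 1)) * PP ≤
        (serHi q c (2 * i + 1) pw s : ℝ) := by
  induction c with
  | zero =>
    intro i pw s hp hs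
    have : serHi q 0 (2 * i + 1) pw s = s + 2 * pw := rfl
    rw [this]
    push_cast
    simp only [add_zero]
    linarith
  | succ c ih =>
    intro i pw s hp hs
    rw [serHi_succ, show i + (c + 1) = (i + 1) + c by ring, show 2 * i + 1 + 2 = 2 * (i + 1) + 1 by ring]
    have hP := PP_pos
    apply ih
    · have h := div_hi (pw * q) (d := PP) (by unfold PP; norm_num)
      push_cast at h ⊢
      refine le_trans ?_ h
      rw [le_div_iff₀ hP]
      calc _ = (z ^ (2 * i + 1) * PP) * (z ^ 2 * PP) := by ring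
        _ ≤ (pw : ℝ) * q := by gcongr
    · rw [Finset.sum_range_succ]
      have h := div_hi pw (d := 2 * i + 1) (by omega)
      push_cast at h ⊢
      have : z ^ (2 * i + 1) / (2 * i + 1) * PP ≤ (pw : ℝ) / (2 * i + 1) := by
        rw [div_mul_eq_mul_div]
        gcongr
      linarith

/-- Lower bound for `PP * log (N / B) / 2`. -/
def logLo (N B : ℕ) : ℕ :=
  fN (Nat.div (Nat.mul (Nat.sub N B) PP) (Nat.add N B)) fun z =>
    fN (Nat.div (Nat.mul z z) PP) fun q => serLo q 8 1 z 0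

/-- Upper bound for `PP * log (N / B) / 2`. -/
def logHi (N B : ℕ) : ℕ :=
  fN (Nat.add (Nat.div (Nat.mul (Nat.sub N B) PP) (Nat.add N B)) 1) fun z =>
    fN (Nat.add (Nat.div (Nat.mul z z) PP) 1) fun q => serHi q 8 1 z 0

lemma ratio_eq {N B : ℝ} (hB : 0 < B) (hN : B ≤ N) :
    (1 + (N - B) / (N + B)) / (1 - (N - B) / (N + B)) = N / B := by
  have : N + B ≠ 0 := by linarith
  have h2 : 1 - (N - B) / (N + B) = 2 * B / (N + B) := by field_simp; ring
  rw [h2]
  field_simp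
  ring

lemma logLo_le {N B : ℕ} (hB : 0 < B) (hN : B ≤ N) :
    (logLo N B : ℝ) ≤ 1 / 2 * Real.log (N / B) * PP := by
  have hB' : (0 : ℝ) < B := by exact_mod_cast hB
  have hN' : (B : ℝ) ≤ N := by exact_mod_cast hN
  have hP := PP_pos
  set z : ℝ := (N - B) / (N + B) with hz
  have hz0 : 0 ≤ z := div_nonneg (by linarith) (by linarith)
  have hz1 : z < 1 := by rw [hz, div_lt_one (by linarith)]; linarith
  have e : logLo N B = serLo (((N - B) * PP / (N + B)) * ((N - B) * PP / (N + B)) / PP) 8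
      (2 * 0 + 1) ((N - B) * PP / (N + B)) 0 := by simp only [logLo, fN_eq]; rfl
  have h1 : (((N - B) * PP / (N + B) : ℕ) : ℝ) ≤ z * PP := by
    refine Nat.cast_div_le.trans (le_of_eq ?_)
    push_cast [Nat.cast_sub hN]
    rw [hz]; ring
  rw [e]
  refine (serLo_le hz0 ?_ 8 0 _ 0 (by simpa using h1) (by simp)).trans ?_
  · refine Nat.cast_div_le.trans ?_
    rw [div_le_iff₀ hP]
    push_cast
    calc _ ≤ (z * PP) * (z * PP) := by gcongr
      _ = _ := by ring
  · have := Real.sum_range_le_log_div hz0 hz1 (0 + 8)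
    rw [hz, ratio_eq hB' hN', ← hz] at this
    gcongr

lemma le_logHi {N B : ℕ} (hB : 0 < B) (hN : B ≤ N) (hN2 : N ≤ 4 * B) :
    1 / 2 * Real.log (N / B) * PP ≤ (logHi N B : ℝ) := by
  have hB' : (0 : ℝ) < B := by exact_mod_cast hB
  have hN' : (B : ℝ) ≤ N := by exact_mod_cast hN
  have hN2' : (N : ℝ) ≤ 4 * B := by exact_mod_cast hN2
  have hP := PP_pos
  set z : ℝ := (N - B) / (N + B) with hz
  have hz0 : 0 ≤ z := div_nonneg (by linarith) (by linarith)
  have hz1 : z ≤ 3 / 5 := by rw [hz, div_le_iff₀ (by linarith)]; linarith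
  have e : logHi N B = serHi (((N - B) * PP / (N + B) + 1) * ((N - B) * PP / (N + B) + 1) / PP + 1) 8
      (2 * 0 + 1) ((N - B) * PP / (N + B) + 1) 0 := by simp only [logHi, fN_eq]; rfl
  have h1 : z * PP ≤ (((N - B) * PP / (N + B) + 1 : ℕ) : ℝ) := by
    have h := div_hi ((N - B) * PP) (d := N + B) (by omega)
    push_cast [Nat.cast_sub hN] at h ⊢
    refine le_trans (le_of_eq ?_) h
    rw [hz]; ring
  rw [e]
  refine le_trans ?_ (le_serHi hz0 ?_ 8 0 _ 0 (by simpa using h1) (by simp))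
  · have := Real.log_div_le_sum_range_add hz0 (by linarith) (0 + 8)
    rw [hz, ratio_eq hB' hN', ← hz] at this
    have h2 : z ^ (2 * (0 + 8) + 1) / (1 - z ^ 2) ≤ 2 * z ^ (2 * (0 + 8) + 1) := by
      rw [div_le_iff₀ (by nlinarith)]
      have : 0 ≤ z ^ (2 * (0 + 8) + 1) := by positivity
      nlinarith [mul_nonneg this (show 0 ≤ 1 - 2 * z ^ 2 by nlinarith)]
    gcongr
    linarith
  · have h := div_hi (((N - B) * PP / (N + B) + 1) * ((N - B) * PP / (N + B) + 1)) (d := PP)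
      (by unfold PP; norm_num)
    rw [Nat.cast_add _ 1, Nat.cast_one]
    refine le_trans ?_ h
    rw [le_div_iff₀ hP, Nat.cast_mul]
    calc _ = (z * PP) * (z * PP) := by ring
      _ ≤ _ := by gcongr

/-- Binary search for the highest bit (no specification is needed). -/
def hb (N : ℕ) (j : ℕ) : ℕ → ℕ :=
  Nat.rec (motive := fun _ => ℕ → ℕ) (fun k => k)
    (fun j ih k => fN (Nat.add k (Nat.pow 2 j)) fun k' =>
      Bool.rec (motive := fun _ => ℕ) (ih k') (ih k) (Nat.beq (Nat.shiftRight N k') 0)) j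

/-- `lg w N f` passes to `f` a flag, an exponent `k` and an upper bound for
`w * PP * log (N / 2^k) / 2`. -/
def lg {α : Type} (w : ℤ) (N : ℕ) (f : Bool → ℕ → ℤ → α) : α :=
  fN (hb N 8 0) fun k => fN (Nat.pow 2 k) fun B =>
    fI (Int.casesOn (motive := fun _ => ℤ) w (fun n => Int.ofNat (Nat.mul n (logHi N B)))
      (fun n => Int.neg (Int.ofNat (Nat.mul (Nat.succ n) (logLo N B))))) fun l =>
      f (and (Nat.ble B N) (Nat.ble N (Nat.mul 4 B))) k l

lemma lg_spec {α : Type} (w : ℤ) (N : ℕ) (f : Bool → ℕ → ℤ → α) :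
    ∃ (b : Bool) (k : ℕ) (l : ℤ), lg w N f = f b k l ∧ (b = true → 0 < N ∧
      w * (1 / 2 * Real.log N) * PP ≤ l + w * k * (Real.log 2 / 2) * PP) := by
  refine ⟨_, _, _, by simp only [lg, fN_eq, fI_eq]; rfl, fun hb' => ?_⟩
  set k := hb N 8 0
  simp only [Bool.and_eq_true, Nat.ble_eq] at hb'
  obtain ⟨h1, h2⟩ := hb'
  have h1' : 2 ^ k ≤ N := h1
  have h2' : N ≤ 4 * 2 ^ k := h2
  have hB : 0 < 2 ^ k := by positivity
  have hN : 0 < N := lt_of_lt_of_le hB h1'
  refine ⟨hN, ?_⟩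
  have hl : Real.log ((N : ℝ) / ((2 ^ k : ℕ) : ℝ)) = Real.log N - k * Real.log 2 := by
    rw [Real.log_div (by positivity) (by positivity)]
    push_cast
    rw [Real.log_pow]
  have lo := logLo_le hB h1'
  have hi := le_logHi hB h1' h2'
  rw [hl] at lo hi
  cases w with
  | ofNat n =>
    change ((n : ℤ) : ℝ) * _ * _ ≤ ((((n * logHi N (2 ^ k) : ℕ) : ℤ)) : ℝ) + ((n : ℤ) : ℝ) * _ * _ * _
    push_cast
    have := mul_le_mul_of_nonneg_left hi (Nat.cast_nonneg (α := ℝ) n)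
    linarith
  | negSucc n =>
    change _ ≤ ((-(((n + 1) * logLo N (2 ^ k) : ℕ) : ℤ) : ℤ) : ℝ) + _
    rw [Int.negSucc_eq]
    push_cast
    have := mul_le_mul_of_nonneg_left lo (show (0 : ℝ) ≤ n + 1 by positivity)
    linarith

end Vale.Agent.P030.Chk
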