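import Mathlib
import Vale.Agent.P030.AnLog

/-! A kernel-evaluated upper bound for sums `∑ w * log ‖α + β x‖` on intervals. -/

namespace Vale.Agent.P030.Chk

open Complex

/-- The term `w * (log ‖(a1 + a2 i) + (b1 + b2 i) x‖ - e * log 2)`. -/
structure Tm where
  w : ℤ
  e : ℤ
  a1 : ℤ
  a2 : ℤ
  b1 : ℤ
  b2 : ℤ

noncomputable def Tm.z (t : Tm) (x : ℝ) : ℂ := (t.a1 + t.a2 * I) + (t.b1 + t.b2 * I) * x

noncomputable def Tm.val (t : Tm) (x : ℝ) : ℝ := t.w * (Real.log ‖t.z x‖ - t.e * Real.log 2)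

/-- Taylor model in the scaled variable `σ ∈ [-1,1]`. -/
structure Acc where
  ok : Bool
  l : ℤ
  k : ℤ
  t1 : ℤ
  t2 : ℤ
  t3 : ℤ

noncomputable def Acc.ev (a : Acc) (σ : ℝ) : ℝ :=
  a.l + a.k * (Real.log 2 / 2) * PP + a.t1 * σ + a.t2 * σ ^ 2 + a.t3 * σ ^ 3

def nsq (x y : ℤ) : ℕ := Nat.add (Nat.mul x.natAbs x.natAbs) (Nat.mul y.natAbs y.natAbs)

lemma nsq_cast (x y : ℤ) : (nsq x y : ℝ) = (x : ℝ) ^ 2 + (y : ℝ) ^ 2 := by
  have : nsq x y = x.natAbs * x.natAbs + y.natAbs * y.natAbs := rfl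
  rw [this]
  push_cast [Nat.cast_natAbs]
  rw [← sq, ← sq, sq_abs, sq_abs]

def mkA (ok : Bool) (l k t1 t2 t3 : ℤ) : Acc :=
  Bool.rec (motive := fun _ => Acc) ⟨false, 0, 0, 0, 0, 0⟩
    (fI l fun l => fI k fun k => fI t1 fun t1 => fI t2 fun t2 => fI t3 fun t3 =>
      ⟨true, l, k, t1, t2, t3⟩) ok

lemma mkA_ok {ok : Bool} {l k t1 t2 t3 : ℤ} (h : (mkA ok l k t1 t2 t3).ok = true) :
    ok = true ∧ mkA ok l k t1 t2 t3 = ⟨true, l, k, t1, t2, t3⟩ := by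
  cases ok
  · simp [mkA] at h
  · simp [mkA]

/-- Taylor step: centre value `c1 + c2 i` of squared norm `N`. -/
def stepT (ρ : ℤ) (w e : ℤ) (N : ℕ) (A B : ℤ) (a : Acc) : Acc :=
  lg w N fun b k l => fI (Int.mul w (Int.ofNat PP)) fun wp => fI (Int.ofNat N) fun n =>
    fI (Int.mul n n) fun n2 => fI (Int.mul A A) fun A2 => fI (Int.mul B n) fun Bn =>
    mkA (and b a.ok)
      (Int.add (Int.add a.l l)
        (Int.add (Int.ediv (Int.mul (Int.ofNat wp.natAbs) (Int.mul B B)) (Int.mul 3 n2)) 4))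
      (Int.add a.k (Int.mul w (Int.add (Int.ofNat k) (Int.mul (-2) (Int.add ρ e)))))
      (Int.add a.t1 (Int.ediv (Int.mul wp A) n))
      (Int.add a.t2 (Int.ediv (Int.mul wp (Int.add Bn (Int.mul (-2) A2))) (Int.mul 2 n2)))
      (Int.add a.t3 (Int.ediv (Int.mul wp (Int.mul A (Int.add (Int.mul 4 A2) (Int.mul (-3) Bn))))
        (Int.mul 3 (Int.mul n2 n))))

/-- Monotone step: `N` is the larger endpoint value. -/
def stepM (ρ : ℤ) (w e : ℤ) (N : ℕ) (a : Acc) : Acc :=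
  lg w N fun b k l =>
    mkA (and (and b a.ok) (decide (0 ≤ w))) (Int.add a.l l)
      (Int.add a.k (Int.mul w (Int.add (Int.ofNat k) (Int.mul (-2) (Int.add ρ e))))) a.t1 a.t2 a.t3

/-- One term on the interval with centre `M / R` and half width `W / R`, `R = 2^ρ`. -/
def step (ρ : ℕ) (R M W : ℤ) (t : Tm) (a : Acc) : Acc :=
  Tm.casesOn (motive := fun _ => Acc) t fun w e a1 a2 b1 b2 =>
    fI (Int.add (Int.mul a1 R) (Int.mul b1 M)) fun c1 =>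
    fI (Int.add (Int.mul a2 R) (Int.mul b2 M)) fun c2 =>
    fI (Int.mul b1 W) fun d1 => fI (Int.mul b2 W) fun d2 =>
    fN (nsq c1 c2) fun N => fN (nsq d1 d2) fun B =>
    Bool.rec (motive := fun _ => Acc)
      (fN (max (nsq (Int.add c1 d1) (Int.add c2 d2))
        (nsq (Int.add c1 (Int.neg d1)) (Int.add c2 (Int.neg d2)))) fun N' =>
          stepM (Int.ofNat ρ) w e N' a)
      (fI (Int.add (Int.mul d1 c1) (Int.mul d2 c2)) fun A =>
        stepT (Int.ofNat ρ) w e N A (Int.ofNat B) a)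
      (Nat.ble (Nat.mul 16 B) N)

lemma ediv_bd (x : ℤ) {d : ℤ} (hd : 0 < d) :
    ((x / d : ℤ) : ℝ) ≤ x / d ∧ (x : ℝ) / d ≤ ((x / d : ℤ) : ℝ) + 1 := by
  have hd' : (0 : ℝ) < d := by exact_mod_cast hd
  have h1 := Int.ediv_mul_le x hd.ne'
  have h2 := Int.lt_ediv_add_one_mul_self x hd
  constructor
  · rw [le_div_iff₀ hd']; exact_mod_cast h1
  · rw [div_le_iff₀ hd']; exact_mod_cast h2.le

lemma round_le {y r τ : ℝ} (h : r ≤ y ∧ y ≤ r + 1) (hτ : |τ| ≤ 1) : y * τ ≤ r * τ + 1 := by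
  have h1 : |(y - r) * τ| ≤ 1 := by
    rw [abs_mul, abs_of_nonneg (by linarith)]
    exact mul_le_one₀ (by linarith) (abs_nonneg _) hτ
  have := (abs_le.1 h1).2
  linarith

lemma log_taylor {u : ℂ} (hu : normSq u ≤ 1 / 16) :
    1 + u ≠ 0 ∧ |Real.log ‖1 + u‖ - (u.re - (u ^ 2).re / 2 + (u ^ 3).re / 3)| ≤
      normSq u ^ 2 / 3 := by
  have h4 : ‖u‖ ≤ 1 / 4 := by
    rw [normSq_eq_norm_sq] at hu
    nlinarith [norm_nonneg u]
  have hlt : ‖u‖ < 1 := by linarith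
  refine ⟨slitPlane_ne_zero (mem_slitPlane_of_norm_lt_one hlt), ?_⟩
  have h := norm_log_sub_logTaylor_le 3 hlt
  have e : (log (1 + u) - logTaylor (3 + 1) u).re =
      Real.log ‖1 + u‖ - (u.re - (u ^ 2).re / 2 + (u ^ 3).re / 3) := by
    have : logTaylor (3 + 1) u = u - u ^ 2 / (2 : ℝ) + u ^ 3 / (3 : ℝ) := by
      simp [logTaylor, Finset.sum_range_succ]
      ring
    rw [this, sub_re, log_re, add_re, sub_re, div_ofReal_re, div_ofReal_re]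
  rw [← e]
  refine (abs_re_le_norm _).trans (h.trans ?_)
  rw [normSq_eq_norm_sq, ← pow_mul]
  have h5 : (1 - ‖u‖)⁻¹ ≤ 4 / 3 := by
    rw [inv_le_comm₀ (by linarith) (by norm_num)]
    linarith
  have h6 : 0 ≤ ‖u‖ ^ (3 + 1) := by positivity
  have := mul_le_mul_of_nonneg_left h5 h6
  push_cast
  norm_num at this ⊢
  linarith

/-- Taylor expansion of `log ‖c + d σ‖`. -/
lemma log_lin {c1 c2 d1 d2 σ N A B : ℝ} (hN : N = c1 ^ 2 + c2 ^ 2) (hB : B = d1 ^ 2 + d2 ^ 2)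
    (hA : A = d1 * c1 + d2 * c2) (h0 : 0 < N) (h16 : 16 * B ≤ N) (hσ : |σ| ≤ 1) :
    |Real.log ‖((c1 : ℂ) + c2 * I) + (d1 + d2 * I) * σ‖ - (1 / 2 * Real.log N + A / N * σ +
      (B * N + -2 * (A * A)) / (2 * (N * N)) * σ ^ 2 +
      A * (4 * (A * A) + -3 * (B * N)) / (3 * (N * N * N)) * σ ^ 3)| ≤ B * B / (3 * (N * N)) := by
  set q : ℝ := (d2 * c1 - d1 * c2) / N with hq
  set p : ℝ := A / N with hp
  set u : ℂ := ((p * σ : ℝ) : ℂ) + ((q * σ : ℝ) : ℂ) * I with hu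
  have hpq : p ^ 2 + q ^ 2 = B / N := by
    rw [hp, hq]
    field_simp
    rw [hA, hB, hN]; ring
  have hσ2 : σ ^ 2 ≤ 1 := by rw [← sq_abs]; nlinarith [abs_nonneg σ]
  have hB0 : 0 ≤ B := by rw [hB]; positivity
  have hns : normSq u = B / N * σ ^ 2 := by
    rw [hu, normSq_add_mul_I, ← hpq]; ring
  have hBN : B / N ≤ 1 / 16 := by rw [div_le_iff₀ h0]; linarith
  have hBN0 : 0 ≤ B / N := by positivity
  have hle : normSq u ≤ B / N := by rw [hns]; nlinarith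
  obtain ⟨hne, ht⟩ := log_taylor (u := u) (hle.trans hBN)
  have hfac : ((c1 : ℂ) + c2 * I) + (d1 + d2 * I) * σ = (c1 + c2 * I) * (1 + u) := by
    have e1 : c1 * p - c2 * q = d1 := by
      rw [hp, hq]; field_simp; rw [hA, hN]; ring
    have e2 : c1 * q + c2 * p = d2 := by
      rw [hp, hq]; field_simp; rw [hA, hN]; ring
    rw [hu, ← e1, ← e2]
    push_cast
    linear_combination (-(c2 : ℂ) * q * σ) * I_sq
  have hc : ‖(c1 : ℂ) + c2 * I‖ ^ 2 = N := by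
    rw [← normSq_eq_norm_sq, normSq_add_mul_I, hN]
  have hc0 : ‖(c1 : ℂ) + c2 * I‖ ≠ 0 := by
    intro h; rw [h] at hc; linarith
  have hl : Real.log ‖(c1 : ℂ) + c2 * I‖ = 1 / 2 * Real.log N := by
    rw [← hc, Real.log_pow]; push_cast; ring
  rw [hfac, norm_mul, Real.log_mul hc0 (norm_ne_zero_iff.2 hne), hl]
  have r1 : u.re = p * σ := by simp [hu]
  have i1 : u.im = q * σ := by simp [hu]
  have r2 : (u ^ 2).re = (p ^ 2 - q ^ 2) * σ ^ 2 := by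
    rw [sq, mul_re, r1, i1]; ring
  have r3 : (u ^ 3).re = (p ^ 3 - 3 * p * q ^ 2) * σ ^ 3 := by
    rw [pow_succ, sq, mul_re, mul_re, mul_im, r1, i1]; ring
  have hq2 : q ^ 2 = B / N - p ^ 2 := by linarith
  rw [r1, r2, r3, hq2] at ht
  have e2 : (B * N + -2 * (A * A)) / (2 * (N * N)) = -((p ^ 2 - (B / N - p ^ 2)) / 2) := by
    rw [hp]; field_simp; ring
  have e3 : A * (4 * (A * A) + -3 * (B * N)) / (3 * (N * N * N)) =
      (p ^ 3 - 3 * p * (B / N - p ^ 2)) / 3 := by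
    rw [hp]; field_simp; ring
  have e4 : B * B / (3 * (N * N)) = (B / N) ^ 2 / 3 := by field_simp
  rw [e2, e3, e4]
  refine le_trans (le_of_eq ?_) (ht.trans ?_)
  · congr 1; ring
  · gcongr
    exact normSq_nonneg _

lemma stepT_sound {ρ w e : ℤ} {N : ℕ} {A B : ℤ} {a : Acc} {σ L : ℝ} (hσ : |σ| ≤ 1)
    (hL : 0 < N → |L - (1 / 2 * Real.log N + A / N * σ +
      (B * N + -2 * (A * A)) / (2 * (N * N)) * σ ^ 2 +
      A * (4 * (A * A) + -3 * (B * N)) / (3 * (N * N * N)) * σ ^ 3)| ≤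
        (B : ℝ) * B / (3 * (N * N)))
    (h : (stepT ρ w e N A B a).ok = true) :
    a.ok = true ∧ w * (L - (ρ + e) * Real.log 2) * PP + a.ev σ ≤ (stepT ρ w e N A B a).ev σ := by
  unfold stepT at h ⊢
  obtain ⟨b, k, l, e1, hs⟩ := lg_spec w N _
  rw [e1] at h ⊢
  simp only [fI_eq] at h ⊢
  obtain ⟨h1, h2⟩ := mkA_ok h
  rw [h2]
  rw [Bool.and_eq_true] at h1
  obtain ⟨hN, hl⟩ := hs h1.1
  refine ⟨h1.2, ?_⟩
  have hN' : (0 : ℤ) < N := by exact_mod_cast hN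
  have hP := PP_pos
  have hσ2 : |σ ^ 2| ≤ 1 := by rw [abs_pow]; exact pow_le_one₀ (abs_nonneg _) hσ
  have hσ3 : |σ ^ 3| ≤ 1 := by rw [abs_pow]; exact pow_le_one₀ (abs_nonneg _) hσ
  have d0 := (ediv_bd (((w * PP).natAbs : ℤ) * (B * B)) (d := 3 * (N * N)) (by positivity)).2
  have d1 := round_le (ediv_bd (w * PP * A) hN') hσ
  have d2 := round_le (ediv_bd (w * PP * (B * N + -2 * (A * A))) (d := 2 * (N * N))
    (by positivity)) hσ2
  have d3 := round_le (ediv_bd (w * PP * (A * (4 * (A * A) + -3 * (B * N))))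
    (d := 3 * (N * N * N)) (by positivity)) hσ3
  have hE := hL hN
  set T : ℝ := 1 / 2 * Real.log N + A / N * σ +
      (B * N + -2 * (A * A)) / (2 * (N * N)) * σ ^ 2 +
      A * (4 * (A * A) + -3 * (B * N)) / (3 * (N * N * N)) * σ ^ 3 with hT
  have hw : (w : ℝ) * PP * (L - T) ≤ |(w : ℝ) * PP| * (B * B / (3 * (N * N))) := by
    refine (le_abs_self _).trans ?_
    rw [abs_mul]
    gcongr
  simp only [Acc.ev, Int.add_def, Int.mul_def, Int.ofNat_eq_natCast]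
  change _ ≤ (((a.l + l + ((((w * PP).natAbs : ℤ) * (B * B)) / (3 * (N * N)) + 4) : ℤ)) : ℝ) + _ +
    ((a.t1 + w * PP * A / N : ℤ) : ℝ) * σ +
    ((a.t2 + w * PP * (B * N + -2 * (A * A)) / (2 * (N * N)) : ℤ) : ℝ) * σ ^ 2 +
    ((a.t3 + w * PP * (A * (4 * (A * A) + -3 * (B * N))) / (3 * (N * N * N)) : ℤ) : ℝ) * σ ^ 3
  push_cast [Nat.cast_natAbs] at d0 d1 d2 d3 ⊢
  have e5 : (w : ℝ) * PP * T = w * (1 / 2 * Real.log N) * PP + w * PP * A / N * σ +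
      w * PP * (B * N + -2 * (A * A)) / (2 * (N * N)) * σ ^ 2 +
      w * PP * (A * (4 * (A * A) + -3 * (B * N))) / (3 * (N * N * N)) * σ ^ 3 := by
    rw [hT]; ring
  have e6 : |(w : ℝ) * PP| * (B * B / (3 * (N * N))) = |(w : ℝ) * PP| * (B * B) / (3 * (N * N)) := by
    ring
  nlinarith

lemma stepM_sound {ρ w e : ℤ} {N : ℕ} {a : Acc} {σ L : ℝ}
    (hL : L ≤ 1 / 2 * Real.log N) (h : (stepM ρ w e N a).ok = true) :
    a.ok = true ∧ w * (L - (ρ + e) * Real.log 2) * PP + a.ev σ ≤ (stepM ρ w e N a).ev σ := by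
  unfold stepM at h ⊢
  obtain ⟨b, k, l, e1, hs⟩ := lg_spec w N _
  rw [e1] at h ⊢
  obtain ⟨h1, h2⟩ := mkA_ok h
  rw [h2]
  simp only [Bool.and_eq_true, decide_eq_true_eq] at h1
  obtain ⟨_, hl⟩ := hs h1.1.1
  refine ⟨h1.1.2, ?_⟩
  have hw : (0 : ℝ) ≤ w := by exact_mod_cast h1.2
  have := mul_le_mul_of_nonneg_right (mul_le_mul_of_nonneg_left hL hw) PP_pos.le
  simp only [Acc.ev, Int.add_def, Int.mul_def, Int.ofNat_eq_natCast]
  push_cast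
  nlinarith

lemma norm_lin_le {c1 c2 d1 d2 σ : ℝ} (hσ : |σ| ≤ 1) :
    ‖((c1 : ℂ) + c2 * I) + (d1 + d2 * I) * σ‖ ^ 2 ≤
      max ((c1 + d1) ^ 2 + (c2 + d2) ^ 2) ((c1 + -d1) ^ 2 + (c2 + -d2) ^ 2) := by
  have e : ((c1 : ℂ) + c2 * I) + (d1 + d2 * I) * σ =
      ((c1 + d1 * σ : ℝ) : ℂ) + ((c2 + d2 * σ : ℝ) : ℂ) * I := by push_cast; ring
  rw [e, ← normSq_eq_norm_sq, normSq_add_mul_I]
  obtain ⟨h1, h2⟩ := abs_le.1 hσ
  have h3 : σ ^ 2 ≤ 1 := by nlinarith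
  have h4 : (d1 ^ 2 + d2 ^ 2) * σ ^ 2 ≤ d1 ^ 2 + d2 ^ 2 := by nlinarith [sq_nonneg d1, sq_nonneg d2]
  rcases le_total 0 (c1 * d1 + c2 * d2) with h | h
  · refine le_trans ?_ (le_max_left _ _); nlinarith
  · refine le_trans ?_ (le_max_right _ _); nlinarith

lemma step_sound {ρ : ℕ} {M W : ℤ} {t : Tm} {a : Acc} {x σ : ℝ} (hσ : |σ| ≤ 1)
    (hx : x * 2 ^ ρ = M + σ * W) (hz : t.z x ≠ 0) (h : (step ρ (2 ^ ρ) M W t a).ok = true) :
    a.ok = true ∧ t.val x * PP + a.ev σ ≤ (step ρ (2 ^ ρ) M W t a).ev σ := by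
  obtain ⟨w, e, a1, a2, b1, b2⟩ := t
  set c1 : ℤ := a1 * 2 ^ ρ + b1 * M
  set c2 : ℤ := a2 * 2 ^ ρ + b2 * M
  set d1 : ℤ := b1 * W
  set d2 : ℤ := b2 * W
  have hfac : (((c1 : ℝ) : ℂ) + (c2 : ℝ) * I) + ((d1 : ℝ) + (d2 : ℝ) * I) * σ =
      Tm.z ⟨w, e, a1, a2, b1, b2⟩ x * 2 ^ ρ := by
    have hx' : (x : ℂ) * 2 ^ ρ = M + σ * W := by exact_mod_cast hx
    simp only [Tm.z, c1, c2, d1, d2]
    push_cast
    linear_combination (-(b1 + b2 * I : ℂ)) * hx'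
  set L := Real.log ‖(((c1 : ℝ) : ℂ) + (c2 : ℝ) * I) + ((d1 : ℝ) + (d2 : ℝ) * I) * σ‖ with hL
  have hval : Tm.val ⟨w, e, a1, a2, b1, b2⟩ x = w * (L - (((ρ : ℤ) : ℝ) + e) * Real.log 2) := by
    rw [hL, hfac, norm_mul, Real.log_mul (norm_ne_zero_iff.2 hz) (by simp)]
    simp only [Tm.val, norm_pow, Real.log_pow, Complex.norm_ofNat]
    push_cast
    ring
  rw [hval]
  have hst : step ρ (2 ^ ρ) M W ⟨w, e, a1, a2, b1, b2⟩ a =
      Bool.rec (motive := fun _ => Acc)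
        (stepM ρ w e (max (nsq (c1 + d1) (c2 + d2)) (nsq (c1 + -d1) (c2 + -d2))) a)
        (stepT ρ w e (nsq c1 c2) (d1 * c1 + d2 * c2) (nsq d1 d2) a)
        (Nat.ble (16 * nsq d1 d2) (nsq c1 c2)) := by
    simp only [step, fI_eq, fN_eq]; rfl
  rw [hst] at h ⊢
  cases hb' : Nat.ble (16 * nsq d1 d2) (nsq c1 c2)
  · rw [hb'] at h
    refine stepM_sound ?_ h
    have h1 := norm_lin_le (c1 := c1) (c2 := c2) (d1 := d1) (d2 := d2) hσ
    have h2 : 0 < ‖(((c1 : ℝ) : ℂ) + (c2 : ℝ) * I) + ((d1 : ℝ) + (d2 : ℝ) * I) * σ‖ := by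
      rw [hfac]; exact norm_pos_iff.2 (mul_ne_zero hz (by simp))
    have h3 := Real.log_le_log (by positivity) h1
    rw [Real.log_pow, ← hL] at h3
    push_cast [nsq_cast] at h3 ⊢
    linarith
  · rw [hb'] at h
    refine stepT_sound hσ (fun hN => ?_) h
    have h16 : 16 * nsq d1 d2 ≤ nsq c1 c2 := Nat.le_of_ble_eq_true hb'
    have := log_lin (c1 := c1) (c2 := c2) (d1 := d1) (d2 := d2) (σ := σ) (N := nsq c1 c2)
      (B := nsq d1 d2) (A := ((d1 * c1 + d2 * c2 : ℤ) : ℝ)) (nsq_cast _ _) (nsq_cast _ _)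
      (by push_cast; ring) (by exact_mod_cast hN) (by exact_mod_cast h16) hσ
    simpa only [Int.cast_natCast] using this

def run (ρ : ℕ) (R M W : ℤ) (ts : List Tm) : Acc :=
  List.rec (motive := fun _ => Acc) ⟨true, 0, 0, 0, 0, 0⟩
    (fun t _ ih => Acc.casesOn (motive := fun _ => Acc) ih fun o l k t1 t2 t3 =>
      step ρ R M W t ⟨o, l, k, t1, t2, t3⟩) ts

lemma run_sound {ρ : ℕ} {M W : ℤ} {x σ : ℝ} (hσ : |σ| ≤ 1) (hx : x * 2 ^ ρ = M + σ * W)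
    (ts : List Tm) (hz : ∀ t ∈ ts, t.z x ≠ 0) (h : (run ρ (2 ^ ρ) M W ts).ok = true) :
    (ts.map fun t => t.val x).sum * PP ≤ (run ρ (2 ^ ρ) M W ts).ev σ := by
  induction ts with
  | nil => simp [run, Acc.ev]
  | cons t ts ih =>
    have e : run ρ (2 ^ ρ) M W (t :: ts) = step ρ (2 ^ ρ) M W t (run ρ (2 ^ ρ) M W ts) := rfl
    rw [e] at h ⊢
    obtain ⟨h1, h2⟩ := step_sound hσ hx (hz t (by simp)) h
    have := ih (fun t' ht' => hz t' (by simp [ht'])) h1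
    rw [List.map_cons, List.sum_cons, add_mul]
    linarith

def L2lo : ℤ := 6096987077380
def L2hi : ℤ := 6096987079200

lemma L2_bd : (L2lo : ℝ) ≤ Real.log 2 / 2 * PP ∧ Real.log 2 / 2 * PP ≤ L2hi := by
  have := abs_le.1 Real.log_two_near_10
  unfold L2lo L2hi PP
  constructor <;> norm_num at this ⊢ <;> linarith [this.1, this.2]

def fin (a : Acc) (m : ℤ) : Bool :=
  Acc.casesOn (motive := fun _ => Bool) a fun o l k t1 t2 t3 =>
    and o (decide (l + max (k * L2lo) (k * L2hi) + t1.natAbs + max t2 0 + t3.natAbs ≤ m * PP))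

lemma fin_sound {a : Acc} {m : ℤ} (h : fin a m = true) {σ : ℝ} (hσ : |σ| ≤ 1) :
    a.ok = true ∧ a.ev σ ≤ m * PP := by
  obtain ⟨o, l, k, t1, t2, t3⟩ := a
  simp only [fin, Bool.and_eq_true, decide_eq_true_eq] at h
  refine ⟨h.1, ?_⟩
  have h2 : ((l + max (k * L2lo) (k * L2hi) + t1.natAbs + max t2 0 + t3.natAbs : ℤ) : ℝ) ≤
      ((m * PP : ℤ) : ℝ) := by exact_mod_cast h.2
  push_cast [Nat.cast_natAbs] at h2
  have hσ2 : σ ^ 2 ≤ 1 := by rw [← sq_abs]; exact pow_le_one₀ (abs_nonneg _) hσ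
  have hσ3 : |σ ^ 3| ≤ 1 := by rw [abs_pow]; exact pow_le_one₀ (abs_nonneg _) hσ
  have b0 : (k : ℝ) * (Real.log 2 / 2) * PP ≤ max ((k : ℝ) * L2lo) (k * L2hi) := by
    rw [mul_assoc]
    rcases le_total 0 (k : ℝ) with hk | hk
    · exact (mul_le_mul_of_nonneg_left L2_bd.2 hk).trans (le_max_right _ _)
    · exact (mul_le_mul_of_nonpos_left L2_bd.1 hk).trans (le_max_left _ _)
  have b1 : (t1 : ℝ) * σ ≤ |(t1 : ℝ)| := by
    refine (le_abs_self _).trans ?_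
    rw [abs_mul]; exact mul_le_of_le_one_right (abs_nonneg _) hσ
  have b3 : (t3 : ℝ) * σ ^ 3 ≤ |(t3 : ℝ)| := by
    refine (le_abs_self _).trans ?_
    rw [abs_mul]; exact mul_le_of_le_one_right (abs_nonneg _) hσ3
  have b2 : (t2 : ℝ) * σ ^ 2 ≤ max (t2 : ℝ) 0 := by
    rcases le_total 0 (t2 : ℝ) with hk | hk
    · exact (mul_le_of_le_one_right hk hσ2).trans (le_max_left _ _)
    · exact (mul_nonpos_of_nonpos_of_nonneg hk (sq_nonneg _)).trans (le_max_right _ _)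
  simp only [Acc.ev]
  linarith

/-- Check on `[2 U / 2^ρ, 2 V / 2^ρ]`. -/
def chkI (ρ : ℕ) (ts : List Tm) (m U V : ℤ) : Bool :=
  fI (2 ^ ρ) fun R => fI (Int.add U V) fun M => fI (Int.sub V U) fun W => fin (run ρ R M W ts) m

lemma chkI_sound {ρ : ℕ} {ts : List Tm} {m U V : ℤ} (h : chkI ρ ts m U V = true) {x : ℝ}
    (hU : 2 * U ≤ x * 2 ^ ρ) (hV : x * 2 ^ ρ ≤ 2 * V) (hz : ∀ t ∈ ts, t.z x ≠ 0) :
    (ts.map fun t => t.val x).sum ≤ m := by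
  have e : chkI ρ ts m U V = fin (run ρ (2 ^ ρ) (U + V) (V - U) ts) m := by
    simp only [chkI, fI_eq]; rfl
  rw [e] at h
  obtain ⟨σ, hσ, hx⟩ : ∃ σ : ℝ, |σ| ≤ 1 ∧ x * 2 ^ ρ = ((U + V : ℤ) : ℝ) + σ * ((V - U : ℤ) : ℝ) := by
    push_cast
    rcases eq_or_lt_of_le (show (U : ℝ) ≤ V by linarith) with h0 | h0
    · exact ⟨0, by simp, by linarith⟩
    · have h1 : (0 : ℝ) < V - U := by linarith
      refine ⟨(x * 2 ^ ρ - (U + V)) / (V - U), ?_, by field_simp; ring⟩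
      rw [abs_div, abs_of_pos h1, div_le_one h1, abs_le]
      constructor <;> linarith
  obtain ⟨h1, h2⟩ := fin_sound h hσ
  have := (run_sound hσ hx ts hz h1).trans h2
  exact le_of_mul_le_mul_right this PP_pos

/-- Check on consecutive intervals `U, l`, ending at or beyond `E`. -/
def chain (ρ : ℕ) (ts : List Tm) (m E : ℤ) (l : List ℤ) : ℤ → Bool :=
  List.rec (motive := fun _ => ℤ → Bool) (fun U => decide (E < U))
    (fun V _ ih U => and (chkI ρ ts m U V) (or (decide (E ≤ V)) (ih V))) l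

lemma chain_sound {ρ : ℕ} {ts : List Tm} {m E : ℤ} {x : ℝ} (hE : x * 2 ^ ρ ≤ 2 * E)
    (hz : ∀ t ∈ ts, t.z x ≠ 0) (l : List ℤ) : ∀ U : ℤ, chain ρ ts m E l U = true →
      2 * U ≤ x * 2 ^ ρ → (ts.map fun t => t.val x).sum ≤ m := by
  induction l with
  | nil =>
    intro U h hU
    have h1 : E < U := of_decide_eq_true h
    have h2 : (E : ℝ) < U := by exact_mod_cast h1
    linarith
  | cons V l ih =>
    intro U h hU
    have e : chain ρ ts m E (V :: l) U =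
        and (chkI ρ ts m U V) (or (decide (E ≤ V)) (chain ρ ts m E l V)) := rfl
    rw [e, Bool.and_eq_true, Bool.or_eq_true] at h
    rcases le_total (x * 2 ^ ρ) (2 * V) with hV | hV
    · exact chkI_sound h.1 hU hV hz
    · rcases h.2 with h2 | h2
      · have h3 : (E : ℝ) ≤ V := by exact_mod_cast of_decide_eq_true h2
        exact chkI_sound h.1 hU (by linarith) hz
      · exact ih V h2 hV

/-- The bound holds on `[2 U / 2^ρ, 2 E / 2^ρ]`. -/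
def Ok (ρ : ℕ) (ts : List Tm) (m U E : ℤ) : Prop :=
  ∀ x : ℝ, 2 * U ≤ x * 2 ^ ρ → x * 2 ^ ρ ≤ 2 * E → (∀ t ∈ ts, t.z x ≠ 0) →
    (ts.map fun t => t.val x).sum ≤ m

lemma ok_of {ρ : ℕ} {ts : List Tm} {m U E : ℤ} (l : List ℤ) (h : chain ρ ts m E l U = true) :
    Ok ρ ts m U E := fun _ hU hE hz => chain_sound hE hz l U h hU

lemma Ok.trans {ρ : ℕ} {ts : List Tm} {m U V E : ℤ} (h : Ok ρ ts m U V) (h' : Ok ρ ts m V E) :
    Ok ρ ts m U E := fun x hU hE hz =>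
  (le_total (x * 2 ^ ρ) (2 * V)).elim (fun hV => h x hU hV hz) (fun hV => h' x hV hE hz)

end Vale.Agent.P030.Chk
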