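import Mathlib
import Vale.Agent.P030.AnDefs

/-! Cauchy's theorem on the right half disc, by primitives. -/

namespace Vale.Agent.P030

open Set Polynomial

/-- The closed right half disc. -/
def hd : Set ℂ := {z | ‖z‖ ≤ 1 ∧ 0 ≤ z.re}

/-- The unit circle together with the vertical diameter. -/
def hct : Set ℂ := {z | ‖z‖ = 1 ∨ (z.re = 0 ∧ ‖z‖ ≤ 1)}

theorem half_norm_e (θ : ℝ) : ‖Complex.exp (θ * Complex.I)‖ = 1 :=
  Complex.norm_exp_ofReal_mul_I θ

theorem half_norm_y {y : ℝ} (hy : y ∈ uIcc (-1 : ℝ) 1) : ‖(y : ℂ) * Complex.I‖ ≤ 1 := by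
  rw [uIcc_of_le (by norm_num)] at hy
  rw [norm_mul, Complex.norm_I, mul_one, Complex.norm_real, Real.norm_eq_abs, abs_le]
  exact hy

theorem half_e_hct (θ : ℝ) : Complex.exp (θ * Complex.I) ∈ hct := Or.inl (half_norm_e θ)

theorem half_y_hct {y : ℝ} (hy : y ∈ uIcc (-1 : ℝ) 1) : (y : ℂ) * Complex.I ∈ hct :=
  Or.inr ⟨by simp, half_norm_y hy⟩

theorem half_e_hd {θ : ℝ} (hθ : θ ∈ uIcc (-(Real.pi / 2)) (Real.pi / 2)) :
    Complex.exp (θ * Complex.I) ∈ hd := by
  rw [uIcc_of_le (by linarith [Real.pi_pos])] at hθ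
  refine ⟨(half_norm_e θ).le, ?_⟩
  rw [Complex.exp_ofReal_mul_I_re]
  exact Real.cos_nonneg_of_mem_Icc hθ

theorem half_y_hd {y : ℝ} (hy : y ∈ uIcc (-1 : ℝ) 1) : (y : ℂ) * Complex.I ∈ hd :=
  ⟨half_norm_y hy, by simp⟩

theorem half_hct_norm {z : ℂ} (hz : z ∈ hct) : ‖z‖ ≤ 1 := by
  rcases hz with h | h
  · exact h.le
  · exact h.2

theorem half_hct_neg {z : ℂ} (hz : z ∈ hct) : -z ∈ hct := by
  rcases hz with h | h
  · exact Or.inl (by rw [norm_neg]; exact h)
  · exact Or.inr ⟨by simp [h.1], by rw [norm_neg]; exact h.2⟩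

theorem half_hct_ne {z : ℂ} (hz : z ∈ hct) {a : ℝ} (h1 : -1 < a) (h2 : a < 1) (h0 : a ≠ 0) :
    z - (a : ℂ) ≠ 0 := by
  intro h
  have hz' : z = a := sub_eq_zero.1 h
  subst hz'
  rcases hz with h | h
  · rw [Complex.norm_real, Real.norm_eq_abs] at h
    rcases abs_eq (by norm_num : (0 : ℝ) ≤ 1) |>.1 h with h | h <;> linarith
  · exact h0 (by simpa using h.1)

theorem half_cont_e : Continuous fun θ : ℝ => Complex.exp (θ * Complex.I) := by fun_prop

theorem half_cont_y : Continuous fun y : ℝ => (y : ℂ) * Complex.I := by fun_prop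

theorem half_int_arc {F : ℂ → ℂ} {s : Set ℂ} (hF : ContinuousOn F s)
    (hs : ∀ θ ∈ uIcc (-(Real.pi / 2)) (Real.pi / 2), Complex.exp (θ * Complex.I) ∈ s) :
    IntervalIntegrable (fun θ : ℝ => F (Complex.exp (θ * Complex.I)) *
      (Complex.I * Complex.exp (θ * Complex.I))) MeasureTheory.volume (-(Real.pi / 2))
      (Real.pi / 2) := by
  apply ContinuousOn.intervalIntegrable
  exact (hF.comp half_cont_e.continuousOn hs).mul
    (continuous_const.mul half_cont_e).continuousOn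

theorem half_int_seg {F : ℂ → ℂ} {s : Set ℂ} (hF : ContinuousOn F s)
    (hs : ∀ y ∈ uIcc (-1 : ℝ) 1, (y : ℂ) * Complex.I ∈ s) :
    IntervalIntegrable (fun y : ℝ => F (y * Complex.I) * Complex.I) MeasureTheory.volume
      (-1) 1 := by
  apply ContinuousOn.intervalIntegrable
  exact (hF.comp half_cont_y.continuousOn hs).mul continuousOn_const

theorem half_congr {F G : ℂ → ℂ} (h : ∀ z ∈ hct, F z = G z) : halfR F = halfR G := by
  unfold halfR
  congr 1
  · apply intervalIntegral.integral_congr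
    intro θ _
    simp only [h _ (half_e_hct θ)]
  · apply intervalIntegral.integral_congr
    intro y hy
    simp only [h _ (half_y_hct hy)]

theorem half_add {F G : ℂ → ℂ} (hF : ContinuousOn F hct) (hG : ContinuousOn G hct) :
    halfR (fun z => F z + G z) = halfR F + halfR G := by
  unfold halfR
  simp only [add_mul]
  rw [intervalIntegral.integral_add (half_int_arc hF fun θ _ => half_e_hct θ)
      (half_int_arc hG fun θ _ => half_e_hct θ),
    intervalIntegral.integral_add (half_int_seg hF fun y hy => half_y_hct hy)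
      (half_int_seg hG fun y hy => half_y_hct hy)]
  ring

theorem half_smul (c : ℂ) (F : ℂ → ℂ) : halfR (fun z => c * F z) = c * halfR F := by
  unfold halfR
  simp only [mul_assoc]
  rw [intervalIntegral.integral_const_mul, intervalIntegral.integral_const_mul]
  ring

theorem halfR_of_prim {F G : ℂ → ℂ} (hG : ∀ z ∈ hd, HasDerivAt G (F z) z)
    (hF : ContinuousOn F hd) : halfR F = 0 := by
  unfold halfR
  have h1 : ∀ θ ∈ uIcc (-(Real.pi / 2)) (Real.pi / 2),
      HasDerivAt (fun θ : ℝ => G (Complex.exp (θ * Complex.I)))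
        (F (Complex.exp (θ * Complex.I)) * (Complex.I * Complex.exp (θ * Complex.I))) θ := by
    intro θ hθ
    have h0 : HasDerivAt (fun θ : ℝ => Complex.exp (θ * Complex.I))
        (Complex.I * Complex.exp (θ * Complex.I)) θ := by
      have h2 : HasDerivAt (fun θ : ℝ => (θ : ℂ) * Complex.I) (1 * Complex.I) θ :=
        (Complex.ofRealCLM.hasDerivAt (x := θ)).mul_const Complex.I
      have h3 := h2.cexp
      rw [one_mul, mul_comm] at h3
      exact h3
    exact (hG _ (half_e_hd hθ)).comp θ h0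
  have h2 : ∀ y ∈ uIcc (-1 : ℝ) 1, HasDerivAt (fun y : ℝ => G (y * Complex.I))
      (F (y * Complex.I) * Complex.I) y := by
    intro y hy
    have h0 : HasDerivAt (fun y : ℝ => (y : ℂ) * Complex.I) (1 * Complex.I) y :=
      (Complex.ofRealCLM.hasDerivAt (x := y)).mul_const Complex.I
    rw [one_mul] at h0
    exact (hG _ (half_y_hd hy)).comp y h0
  rw [intervalIntegral.integral_eq_sub_of_hasDerivAt h1 (half_int_arc hF fun θ h => half_e_hd h),
    intervalIntegral.integral_eq_sub_of_hasDerivAt h2 (half_int_seg hF fun y h => half_y_hd h)]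
  have e1 : Complex.exp (((Real.pi / 2 : ℝ) : ℂ) * Complex.I) = ((1 : ℝ) : ℂ) * Complex.I := by
    push_cast
    rw [Complex.exp_pi_div_two_mul_I, one_mul]
  have e2 : Complex.exp (((-(Real.pi / 2) : ℝ) : ℂ) * Complex.I) =
      ((-1 : ℝ) : ℂ) * Complex.I := by
    push_cast
    rw [neg_mul, ← neg_mul, ← neg_div, Complex.exp_neg_pi_div_two_mul_I, neg_one_mul]
  rw [e1, e2, sub_self]

theorem half_hd_ball {ρ : ℝ} (hρ : 1 < ρ) : hd ⊆ Metric.ball (0 : ℂ) ρ := by
  intro z hz
  rw [mem_ball_zero_iff]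
  exact lt_of_le_of_lt hz.1 hρ

theorem half_hct_ball {ρ : ℝ} (hρ : 1 < ρ) : hct ⊆ Metric.ball (0 : ℂ) ρ := by
  intro z hz
  rw [mem_ball_zero_iff]
  exact lt_of_le_of_lt (half_hct_norm hz) hρ

theorem halfR_ball {F : ℂ → ℂ} {ρ : ℝ} (hρ : 1 < ρ)
    (hF : DifferentiableOn ℂ F (Metric.ball 0 ρ)) : halfR F = 0 := by
  obtain ⟨G, hG⟩ := hF.isExactOn_ball
  exact halfR_of_prim (fun z hz => hG z (half_hd_ball hρ hz))
    (hF.continuousOn.mono (half_hd_ball hρ))

theorem half_pole {a : ℝ} (ha : a < 0) : halfR (fun z => (z - (a : ℂ))⁻¹) = 0 := by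
  have hs : ∀ z ∈ hd, z - (a : ℂ) ∈ Complex.slitPlane := by
    intro z hz
    left
    have := hz.2
    simp only [Complex.sub_re, Complex.ofReal_re]
    linarith
  apply halfR_of_prim (G := fun z => Complex.log (z - a))
  · intro z hz
    have h := ((hasDerivAt_id z).sub_const (a : ℂ)).clog (hs z hz)
    simpa using h
  · apply ContinuousOn.inv₀ (by fun_prop)
    intro z hz
    exact Complex.slitPlane_ne_zero (hs z hz)

/-- Rational functions with simple negative poles and poles outside the unit disc. -/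
theorem halfR_pf {ρ : ℝ} (hρ : 1 < ρ) (T : Finset ℝ) (hT : ∀ a ∈ T, -1 < a ∧ a < 0)
    (Q : ℂ[X]) (hQ : ∀ z ∈ Metric.ball (0 : ℂ) ρ, Q.eval z ≠ 0) (F : ℂ[X]) :
    halfR (fun z => F.eval z / ((∏ a ∈ T, (z - (a : ℂ))) * Q.eval z)) = 0 := by
  classical
  induction T using Finset.induction_on generalizing F with
  | empty =>
    apply halfR_ball hρ
    simp only [Finset.prod_empty, one_mul]
    exact F.differentiable.differentiableOn.div Q.differentiable.differentiableOn hQ
  | insert a T haT ih =>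
    have ha := hT a (Finset.mem_insert_self a T)
    have hT' : ∀ b ∈ T, -1 < b ∧ b < 0 := fun b hb => hT b (Finset.mem_insert_of_mem hb)
    set R : ℂ[X] := (∏ b ∈ T, (X - C (b : ℂ))) * Q with hR
    have hRe : ∀ z, R.eval z = (∏ b ∈ T, (z - (b : ℂ))) * Q.eval z := by
      intro z
      simp [hR, eval_prod]
    have hRa : R.eval (a : ℂ) ≠ 0 := by
      rw [hRe]
      refine mul_ne_zero (Finset.prod_ne_zero_iff.2 fun b hb => ?_) (hQ _ ?_)
      · rw [sub_ne_zero]
        intro h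
        have : a = b := by exact_mod_cast h
        exact haT (this ▸ hb)
      · rw [mem_ball_zero_iff, Complex.norm_real, Real.norm_eq_abs, abs_lt]
        constructor <;> linarith [ha.1, ha.2]
    have hRz : ∀ z ∈ hct, (∏ b ∈ T, (z - (b : ℂ))) * Q.eval z ≠ 0 := by
      intro z hz
      refine mul_ne_zero (Finset.prod_ne_zero_iff.2 fun b hb => ?_) (hQ _ (half_hct_ball hρ hz))
      exact half_hct_ne hz (hT' b hb).1 (by linarith [(hT' b hb).2]) (hT' b hb).2.ne
    set al : ℂ := F.eval (a : ℂ) / R.eval (a : ℂ) with hal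
    have hroot : (F - C al * R).IsRoot (a : ℂ) := by
      simp only [IsRoot.def, eval_sub, eval_mul, eval_C, hal]
      field_simp
      ring
    obtain ⟨F2, hF2⟩ := dvd_iff_isRoot.2 hroot
    have hF2e : ∀ z, F.eval z = al * R.eval z + (z - a) * F2.eval z := by
      intro z
      have := congrArg (eval z) hF2
      simp only [eval_sub, eval_mul, eval_C, eval_X] at this
      linear_combination this
    have haz : ∀ z ∈ hct, z - (a : ℂ) ≠ 0 := fun z hz =>
      half_hct_ne hz ha.1 (by linarith [ha.2]) ha.2.ne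
    rw [half_congr (G := fun z => al * (z - (a : ℂ))⁻¹ +
      F2.eval z / ((∏ b ∈ T, (z - (b : ℂ))) * Q.eval z))]
    · rw [half_add, half_smul, half_pole ha.2, ih hT' F2]
      · simp
      · exact continuousOn_const.mul (ContinuousOn.inv₀ (by fun_prop) haz)
      · exact ContinuousOn.div (by fun_prop) (by fun_prop) hRz
    · intro z hz
      have h1 := haz z hz
      have h2 := hRz z hz
      rw [Finset.prod_insert haT, hF2e, hRe, mul_assoc]
      generalize (∏ b ∈ T, (z - (b : ℂ))) * Q.eval z = W at h2 ⊢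
      field_simp

theorem half_rho {n : ℕ} {x : Fin n → ℝ} (hx : ∀ i, x i ∈ Ioo (-1 : ℝ) 1 ∧ x i ≠ 0) :
    ∃ ρ : ℝ, 1 < ρ ∧ ∀ z ∈ Metric.ball (0 : ℂ) ρ, ∀ i, 1 - (x i : ℂ) * z ≠ 0 := by
  have h1 : ∀ᶠ ρ in nhds (1 : ℝ), ∀ i, ρ * |x i| < 1 := by
    rw [Filter.eventually_all]
    intro i
    have hc : ContinuousAt (fun ρ : ℝ => ρ * |x i|) 1 := by fun_prop
    apply hc.eventually_lt continuousAt_const
    rw [one_mul, abs_lt]
    exact (hx i).1
  obtain ⟨ρ, h2, h3⟩ := ((h1.filter_mono (nhdsWithin_le_nhds (s := Ioi 1))).and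
    self_mem_nhdsWithin).exists
  refine ⟨ρ, h3, fun z hz i h => ?_⟩
  rw [mem_ball_zero_iff] at hz
  have h4 : (x i : ℂ) * z = 1 := by linear_combination -h
  have h5 := congrArg norm h4
  rw [norm_mul, Complex.norm_real, Real.norm_eq_abs, norm_one] at h5
  have h6 := h2 i
  have h7 : |x i| * ‖z‖ ≤ |x i| * ρ := mul_le_mul_of_nonneg_left hz.le (abs_nonneg _)
  linarith

/-- The functional kills `F / (q * q~)` when `F` vanishes at the positive nodes. -/
theorem halfR_nodes {n : ℕ} {x : Fin n → ℝ} (hx : ∀ i, x i ∈ Ioo (-1 : ℝ) 1 ∧ x i ≠ 0)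
    (ix : Function.Injective x) (F : ℂ[X]) (hF : ∀ i, 0 < x i → F.eval (x i : ℂ) = 0) :
    halfR (fun z => F.eval z / ((∏ i, (z - (x i : ℂ))) * ∏ i, (1 - (x i : ℂ) * z))) = 0 := by
  classical
  obtain ⟨ρ, hρ, hz⟩ := half_rho hx
  have hdvd : (∏ i ∈ Finset.univ.filter (fun i => 0 < x i), (X - C (x i : ℂ))) ∣ F := by
    apply Finset.prod_dvd_of_coprime
    · intro i _ j _ hij
      apply isCoprime_X_sub_C_of_isUnit_sub
      apply IsUnit.mk0
      rw [sub_ne_zero]
      intro h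
      exact hij (ix (by exact_mod_cast h))
    · intro i hi
      exact dvd_iff_isRoot.2 (hF i (Finset.mem_filter.1 hi).2)
  obtain ⟨F1, hF1⟩ := hdvd
  have hT : ∀ a ∈ (Finset.univ.filter (fun i => ¬ 0 < x i)).image x, -1 < a ∧ a < 0 := by
    intro a ha
    obtain ⟨i, hi, rfl⟩ := Finset.mem_image.1 ha
    exact ⟨(hx i).1.1, lt_of_le_of_ne (not_lt.1 (Finset.mem_filter.1 hi).2) (hx i).2⟩
  have hQ : ∀ z ∈ Metric.ball (0 : ℂ) ρ,
      (∏ i, (1 - C (x i : ℂ) * X) : ℂ[X]).eval z ≠ 0 := by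
    intro z h
    simp only [eval_prod, eval_sub, eval_one, eval_mul, eval_C, eval_X]
    exact Finset.prod_ne_zero_iff.2 fun i _ => hz z h i
  rw [← halfR_pf hρ _ hT _ hQ F1]
  apply half_congr
  intro z hzc
  rw [Finset.prod_image (fun i _ j _ h => ix h), hF1,
    ← Finset.prod_filter_mul_prod_filter_not Finset.univ (fun i => 0 < x i)
      (fun i => z - (x i : ℂ))]
  simp only [eval_prod, eval_sub, eval_one, eval_mul, eval_C, eval_X]
  have h1 : (∏ i ∈ Finset.univ.filter (fun i => 0 < x i), (z - (x i : ℂ))) ≠ 0 :=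
    Finset.prod_ne_zero_iff.2 fun i _ => half_hct_ne hzc (hx i).1.1 (hx i).1.2 (hx i).2
  rw [mul_assoc, mul_div_mul_left _ _ h1]

theorem half_neg_e (θ : ℝ) : (starRingEnd ℂ) (Complex.exp (θ * Complex.I)) =
    Complex.exp (((-θ : ℝ) : ℂ) * Complex.I) := by
  rw [← Complex.exp_conj]
  simp

/-- Fejer-Riesz inequality. -/
theorem fejer_riesz {f k : ℂ → ℂ} {ρ : ℝ} (hρ : 1 < ρ)
    (hf : DifferentiableOn ℂ f (Metric.ball 0 ρ)) (hk : DifferentiableOn ℂ k (Metric.ball 0 ρ))
    (hfk : ∀ z ∈ Metric.ball (0 : ℂ) ρ, k z = (starRingEnd ℂ) (f (-(starRingEnd ℂ) z))) :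
    ∫ y in (-1 : ℝ)..1, ‖f (y * Complex.I)‖ ^ 2 ≤
      1 / 2 * ∫ θ in (-(Real.pi / 2))..(Real.pi / 2),
        (‖f (Complex.exp (θ * Complex.I))‖ ^ 2 + ‖f (-Complex.exp (θ * Complex.I))‖ ^ 2) := by
  have h0 := halfR_ball hρ (hf.mul hk)
  unfold halfR at h0
  have hpi : -(Real.pi / 2) ≤ Real.pi / 2 := by linarith [Real.pi_pos]
  have hb : ∀ θ : ℝ, Complex.exp (θ * Complex.I) ∈ Metric.ball (0 : ℂ) ρ :=
    fun θ => half_hct_ball hρ (half_e_hct θ)
  have hb' : ∀ θ : ℝ, -Complex.exp (θ * Complex.I) ∈ Metric.ball (0 : ℂ) ρ :=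
    fun θ => half_hct_ball hρ (half_hct_neg (half_e_hct θ))
  have hseg : ∫ y in (-1 : ℝ)..1, (f * k) (y * Complex.I) * Complex.I =
      ((∫ y in (-1 : ℝ)..1, ‖f (y * Complex.I)‖ ^ 2 : ℝ) : ℂ) * Complex.I := by
    rw [intervalIntegral.integral_mul_const, ← intervalIntegral.integral_ofReal]
    congr 1
    apply intervalIntegral.integral_congr
    intro y hy
    have h1 : -(starRingEnd ℂ) ((y : ℂ) * Complex.I) = y * Complex.I := by simp
    simp only [Pi.mul_apply]
    rw [hfk _ (half_hct_ball hρ (half_y_hct hy)), h1, Complex.mul_conj, Complex.normSq_eq_norm_sq]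
  have c1 : Continuous fun θ : ℝ => ‖f (Complex.exp (θ * Complex.I))‖ ^ 2 :=
    ((hf.continuousOn.comp_continuous half_cont_e hb).norm).pow 2
  have c2 : Continuous fun θ : ℝ => ‖f (-Complex.exp (θ * Complex.I))‖ ^ 2 :=
    ((hf.continuousOn.comp_continuous half_cont_e.neg hb').norm).pow 2
  have c3 : Continuous fun θ : ℝ => ‖f (-Complex.exp (((-θ : ℝ) : ℂ) * Complex.I))‖ ^ 2 :=
    c2.comp continuous_neg
  have harc : ‖∫ θ in (-(Real.pi / 2))..(Real.pi / 2), (f * k) (Complex.exp (θ * Complex.I)) *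
      (Complex.I * Complex.exp (θ * Complex.I))‖ ≤
      ∫ θ in (-(Real.pi / 2))..(Real.pi / 2), 1 / 2 * (‖f (Complex.exp (θ * Complex.I))‖ ^ 2 +
        ‖f (-Complex.exp (((-θ : ℝ) : ℂ) * Complex.I))‖ ^ 2) := by
    apply intervalIntegral.norm_integral_le_of_norm_le hpi
    · refine Filter.Eventually.of_forall fun θ _ => ?_
      simp only [Pi.mul_apply]
      rw [hfk _ (hb θ), half_neg_e, norm_mul, norm_mul, norm_mul, Complex.norm_I, half_norm_e,
        Complex.norm_conj]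
      nlinarith [sq_nonneg (‖f (Complex.exp (θ * Complex.I))‖ -
        ‖f (-Complex.exp (((-θ : ℝ) : ℂ) * Complex.I))‖)]
    · exact (continuous_const.mul (c1.add c3)).intervalIntegrable _ _
  have hneg : ∫ θ in (-(Real.pi / 2))..(Real.pi / 2),
      ‖f (-Complex.exp (((-θ : ℝ) : ℂ) * Complex.I))‖ ^ 2 =
      ∫ θ in (-(Real.pi / 2))..(Real.pi / 2), ‖f (-Complex.exp (θ * Complex.I))‖ ^ 2 := by
    have := intervalIntegral.integral_comp_neg (a := -(Real.pi / 2)) (b := Real.pi / 2)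
      (fun θ : ℝ => ‖f (-Complex.exp (θ * Complex.I))‖ ^ 2)
    rw [neg_neg] at this
    exact this
  rw [intervalIntegral.integral_const_mul, intervalIntegral.integral_add
    (c1.intervalIntegrable _ _) (c3.intervalIntegrable _ _), hneg,
    ← intervalIntegral.integral_add (c1.intervalIntegrable _ _) (c2.intervalIntegrable _ _),
    sub_eq_zero.1 h0, hseg, norm_mul, Complex.norm_I, mul_one, Complex.norm_real,
    Real.norm_eq_abs] at harc
  exact (le_abs_self _).trans harc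

end Vale.Agent.P030
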