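import Mathlib
import Vale.Agent.P030.AnHalf

/-! Eigenvalue bound for the two-sheeted Vandermonde matrix. -/

namespace Vale.Agent.P030

open Set Polynomial

/-- Energy of `h` on the right arc. -/
noncomputable def eigA (h : ℂ → ℂ) : ℝ :=
  ∫ θ in (-(Real.pi / 2))..(Real.pi / 2), ‖h (Complex.exp (θ * Complex.I))‖ ^ 2

/-- Energy of `h` on the vertical diameter. -/
noncomputable def eigS (h : ℂ → ℂ) : ℝ := ∫ y in (-1 : ℝ)..1, ‖h (y * Complex.I)‖ ^ 2

theorem eig_cont_arc {h : ℂ → ℂ} (hh : ContinuousOn h hct) :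
    Continuous fun θ : ℝ => ‖h (Complex.exp (θ * Complex.I))‖ ^ 2 :=
  ((hh.comp_continuous half_cont_e half_e_hct).norm).pow 2

theorem eig_cont_neg {h : ℂ → ℂ} (hh : ContinuousOn h hct) :
    ContinuousOn (fun z => h (-z)) hct :=
  hh.comp continuous_neg.continuousOn fun _ hz => half_hct_neg hz

theorem eig_int_seg {h : ℂ → ℂ} (hh : ContinuousOn h hct) :
    IntervalIntegrable (fun y : ℝ => ‖h (y * Complex.I)‖ ^ 2) MeasureTheory.volume (-1) 1 := by
  apply ContinuousOn.intervalIntegrable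
  exact ((hh.comp half_cont_y.continuousOn fun y hy => half_y_hct hy).norm).pow 2

theorem eig_S_neg (h : ℂ → ℂ) : eigS (fun z => h (-z)) = eigS h := by
  unfold eigS
  have := intervalIntegral.integral_comp_neg (a := (-1 : ℝ)) (b := 1)
    (fun y : ℝ => ‖h (y * Complex.I)‖ ^ 2)
  rw [neg_neg] at this
  rw [← this]
  simp

theorem eig_A_nonneg (h : ℂ → ℂ) : 0 ≤ eigA h :=
  intervalIntegral.integral_nonneg (by linarith [Real.pi_pos]) fun _ _ => by positivity

theorem eig_norm_le {ψ h : ℂ → ℂ} {S : ℝ} (hS0 : 0 ≤ S) (hh : ContinuousOn h hct)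
    (h1 : ∀ z : ℂ, ‖z‖ = 1 → ‖ψ z‖ ≤ ‖h ((starRingEnd ℂ) z)‖ * ‖h z‖)
    (h2 : ∀ y ∈ uIcc (-1 : ℝ) 1, ‖ψ (y * Complex.I)‖ ≤
      S * (‖h (-(y * Complex.I))‖ * ‖h (y * Complex.I)‖)) :
    ‖halfR ψ‖ ≤ eigA h + S * eigS h := by
  unfold halfR
  refine (norm_sub_le _ _).trans (add_le_add ?_ ?_)
  · have hpi : -(Real.pi / 2) ≤ Real.pi / 2 := by linarith [Real.pi_pos]
    have c1 := eig_cont_arc hh
    have c3 : Continuous fun θ : ℝ => ‖h (Complex.exp (((-θ : ℝ) : ℂ) * Complex.I))‖ ^ 2 :=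
      c1.comp continuous_neg
    have harc : ‖∫ θ in (-(Real.pi / 2))..(Real.pi / 2), ψ (Complex.exp (θ * Complex.I)) *
        (Complex.I * Complex.exp (θ * Complex.I))‖ ≤
        ∫ θ in (-(Real.pi / 2))..(Real.pi / 2), 1 / 2 * (‖h (Complex.exp (θ * Complex.I))‖ ^ 2 +
          ‖h (Complex.exp (((-θ : ℝ) : ℂ) * Complex.I))‖ ^ 2) := by
      apply intervalIntegral.norm_integral_le_of_norm_le hpi
      · refine Filter.Eventually.of_forall fun θ _ => ?_
        have h3 := h1 _ (half_norm_e θ)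
        rw [half_neg_e] at h3
        rw [norm_mul, norm_mul, Complex.norm_I, half_norm_e]
        nlinarith [sq_nonneg (‖h (Complex.exp (θ * Complex.I))‖ -
          ‖h (Complex.exp (((-θ : ℝ) : ℂ) * Complex.I))‖)]
      · exact (continuous_const.mul (c1.add c3)).intervalIntegrable _ _
    have hneg : ∫ θ in (-(Real.pi / 2))..(Real.pi / 2),
        ‖h (Complex.exp (((-θ : ℝ) : ℂ) * Complex.I))‖ ^ 2 = eigA h := by
      have := intervalIntegral.integral_comp_neg (a := -(Real.pi / 2)) (b := Real.pi / 2)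
        (fun θ : ℝ => ‖h (Complex.exp (θ * Complex.I))‖ ^ 2)
      rw [neg_neg] at this
      exact this
    rw [intervalIntegral.integral_const_mul, intervalIntegral.integral_add
      (c1.intervalIntegrable _ _) (c3.intervalIntegrable _ _), hneg] at harc
    have e : (∫ θ in (-(Real.pi / 2))..(Real.pi / 2),
      ‖h (Complex.exp (θ * Complex.I))‖ ^ 2) = eigA h := rfl
    rw [e] at harc
    linarith
  · have i1 := eig_int_seg hh
    have i2 := eig_int_seg (eig_cont_neg hh)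
    have hseg : ‖∫ y in (-1 : ℝ)..1, ψ (y * Complex.I) * Complex.I‖ ≤
        ∫ y in (-1 : ℝ)..1, S / 2 * (‖h (y * Complex.I)‖ ^ 2 + ‖h (-(y * Complex.I))‖ ^ 2) := by
      apply intervalIntegral.norm_integral_le_of_norm_le (by norm_num)
      · refine Filter.Eventually.of_forall fun y hy => ?_
        have h3 := h2 y (by rw [uIcc_of_le (by norm_num)]; exact Ioc_subset_Icc_self hy)
        rw [norm_mul, Complex.norm_I, mul_one]
        refine h3.trans ?_
        nlinarith [mul_nonneg hS0 (sq_nonneg (‖h (y * Complex.I)‖ - ‖h (-(y * Complex.I))‖))]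
      · exact (i1.add i2).const_mul _
    rw [intervalIntegral.integral_const_mul, intervalIntegral.integral_add i1 i2] at hseg
    have e1 : (∫ y in (-1 : ℝ)..1, ‖h (y * Complex.I)‖ ^ 2) = eigS h := rfl
    have e2 : (∫ y in (-1 : ℝ)..1, ‖h (-(y * Complex.I))‖ ^ 2) = eigS h := eig_S_neg h
    rw [e1, e2] at hseg
    linarith

theorem eig_diff {φ h : ℂ → ℂ} (hφ : ∀ z : ℂ, ‖z‖ = 1 → φ z * z = ((‖h z‖ ^ 2 : ℝ) : ℂ)) :
    halfR φ - halfR (fun z => φ (-z)) =
      Complex.I * ((eigA h + eigA (fun z => h (-z)) : ℝ) : ℂ) := by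
  unfold halfR
  have e1 : ∫ θ in (-(Real.pi / 2))..(Real.pi / 2), φ (Complex.exp (θ * Complex.I)) *
      (Complex.I * Complex.exp (θ * Complex.I)) = Complex.I * (eigA h : ℂ) := by
    unfold eigA
    rw [← intervalIntegral.integral_ofReal, ← intervalIntegral.integral_const_mul]
    apply intervalIntegral.integral_congr
    intro θ _
    simp only []
    rw [← hφ _ (half_norm_e θ)]
    ring
  have e2 : ∫ θ in (-(Real.pi / 2))..(Real.pi / 2), φ (-Complex.exp (θ * Complex.I)) *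
      (Complex.I * Complex.exp (θ * Complex.I)) =
        -Complex.I * (eigA (fun z => h (-z)) : ℂ) := by
    unfold eigA
    rw [← intervalIntegral.integral_ofReal, ← intervalIntegral.integral_const_mul]
    apply intervalIntegral.integral_congr
    intro θ _
    simp only []
    rw [← hφ _ (by rw [norm_neg]; exact half_norm_e θ)]
    ring
  have e3 : ∫ y in (-1 : ℝ)..1, φ (-(y * Complex.I)) * Complex.I =
      ∫ y in (-1 : ℝ)..1, φ (y * Complex.I) * Complex.I := by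
    have := intervalIntegral.integral_comp_neg (a := (-1 : ℝ)) (b := 1)
      (fun y : ℝ => φ (y * Complex.I) * Complex.I)
    rw [neg_neg] at this
    rw [← this]
    simp
  simp only []
  rw [e1, e2, e3]
  push_cast
  ring

theorem eig_core {φ ψ h : ℂ → ℂ} {S : ℝ} {lam : ℂ} (hS0 : 0 ≤ S) (hh : ContinuousOn h hct)
    (e1 : lam * halfR φ = 5 * halfR ψ)
    (e2 : lam * halfR (fun z => φ (-z)) = -halfR (fun z => ψ (-z)))
    (hφ : ∀ z : ℂ, ‖z‖ = 1 → φ z * z = ((‖h z‖ ^ 2 : ℝ) : ℂ))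
    (h1 : ∀ z : ℂ, ‖z‖ = 1 → ‖ψ z‖ ≤ ‖h ((starRingEnd ℂ) z)‖ * ‖h z‖)
    (h2 : ∀ y ∈ uIcc (-1 : ℝ) 1, ‖ψ (y * Complex.I)‖ ≤
      S * (‖h (-(y * Complex.I))‖ * ‖h (y * Complex.I)‖))
    (hFR : eigS h ≤ 1 / 2 * (eigA h + eigA (fun z => h (-z)))) (hpos : 0 < eigA h) :
    ‖lam‖ ≤ 5 + 3 * S := by
  have b1 := eig_norm_le hS0 hh h1 h2
  have b2 : ‖halfR (fun z => ψ (-z))‖ ≤ eigA (fun z => h (-z)) + S * eigS (fun z => h (-z)) := by
    apply eig_norm_le hS0 (eig_cont_neg hh)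
    · intro z hz
      have := h1 (-z) (by rw [norm_neg]; exact hz)
      rw [map_neg] at this
      exact this
    · intro y hy
      have hy' : -y ∈ uIcc (-1 : ℝ) 1 := by
        rw [uIcc_of_le (by norm_num)] at hy ⊢
        exact ⟨by linarith [hy.2], by linarith [hy.1]⟩
      have := h2 (-y) hy'
      rw [Complex.ofReal_neg, neg_mul] at this
      exact this
  rw [eig_S_neg] at b2
  have hL := eig_A_nonneg (fun z => h (-z))
  have e3 : lam * (Complex.I * ((eigA h + eigA (fun z => h (-z)) : ℝ) : ℂ)) =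
      5 * halfR ψ + halfR (fun z => ψ (-z)) := by
    rw [← eig_diff hφ]
    linear_combination e1 - e2
  have e4 := congrArg norm e3
  rw [norm_mul, norm_mul, Complex.norm_I, one_mul, Complex.norm_real, Real.norm_eq_abs,
    abs_of_pos (by linarith)] at e4
  have b3 := norm_add_le (5 * halfR ψ) (halfR (fun z => ψ (-z)))
  rw [norm_mul, ← e4] at b3
  have h5 : ‖(5 : ℂ)‖ = 5 := by simp
  rw [h5] at b3
  have b4 := mul_le_mul_of_nonneg_left hFR hS0
  apply le_of_mul_le_mul_right (a := eigA h + eigA (fun z => h (-z))) _ (by linarith)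
  nlinarith

/-- The denominator. -/
noncomputable def eigW {n : ℕ} (x : Fin n → ℝ) (z : ℂ) : ℂ :=
  (∏ i, (z - (x i : ℂ))) * ∏ i, (1 - (x i : ℂ) * z)

theorem eig_qt_ne {n : ℕ} {x : Fin n → ℝ} (hx : ∀ i, x i ∈ Ioo (-1 : ℝ) 1 ∧ x i ≠ 0) {z : ℂ}
    (hz : z ∈ hct) : (∏ i, (1 - (x i : ℂ) * z)) ≠ 0 := by
  obtain ⟨ρ, hρ, h⟩ := half_rho hx
  exact Finset.prod_ne_zero_iff.2 fun i _ => h z (half_hct_ball hρ hz) i

theorem eig_q_ne {n : ℕ} {x : Fin n → ℝ} (hx : ∀ i, x i ∈ Ioo (-1 : ℝ) 1 ∧ x i ≠ 0) {z : ℂ}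
    (hz : z ∈ hct) : (∏ i, (z - (x i : ℂ))) ≠ 0 :=
  Finset.prod_ne_zero_iff.2 fun i _ => half_hct_ne hz (hx i).1.1 (hx i).1.2 (hx i).2

theorem eig_cont_div {n : ℕ} {x : Fin n → ℝ} (hx : ∀ i, x i ∈ Ioo (-1 : ℝ) 1 ∧ x i ≠ 0)
    (F : ℂ[X]) : ContinuousOn (fun z => F.eval z / eigW x z) hct := by
  apply ContinuousOn.div (by fun_prop)
  · unfold eigW
    fun_prop
  · intro z hz
    exact mul_ne_zero (eig_q_ne hx hz) (eig_qt_ne hx hz)

theorem eig_nodes_neg {n : ℕ} {x : Fin n → ℝ} (hx : ∀ i, x i ∈ Ioo (-1 : ℝ) 1 ∧ x i ≠ 0)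
    (ix : Function.Injective x) (F : ℂ[X]) (hF : ∀ i, x i < 0 → F.eval (x i : ℂ) = 0) :
    halfR (fun z => F.eval (-z) / eigW x (-z)) = 0 := by
  have hx' : ∀ i, (fun i => -x i) i ∈ Ioo (-1 : ℝ) 1 ∧ (fun i => -x i) i ≠ 0 := fun i =>
    ⟨⟨by linarith [(hx i).1.2], by linarith [(hx i).1.1]⟩, neg_ne_zero.2 (hx i).2⟩
  have h := halfR_nodes hx' (fun i j h => ix (neg_injective h)) (F.comp (-X)) (by
    intro i hi
    rw [eval_comp]
    simp only [eval_neg, eval_X, Complex.ofReal_neg, neg_neg]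
    exact hF i (by linarith))
  have h2 := half_smul ((-1 : ℂ) ^ n)⁻¹
    (fun z => (F.comp (-X)).eval z / ((∏ i, (z - (((fun i => -x i) i : ℝ) : ℂ))) *
      ∏ i, (1 - (((fun i => -x i) i : ℝ) : ℂ) * z)))
  rw [h, mul_zero] at h2
  rw [← h2]
  apply half_congr
  intro z _
  have e1 : ∏ i, (-z - (x i : ℂ)) = (-1) ^ n * ∏ i, (z - ((-x i : ℝ) : ℂ)) := by
    have : ∀ i, (-z - (x i : ℂ)) = (-1) * (z - ((-x i : ℝ) : ℂ)) := by
      intro i
      push_cast
      ring
    simp only [this]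
    rw [Finset.prod_mul_distrib]
    simp
  have e2 : ∏ i, (1 - (x i : ℂ) * (-z)) = ∏ i, (1 - ((-x i : ℝ) : ℂ) * z) := by
    apply Finset.prod_congr rfl
    intro i _
    push_cast
    ring
  unfold eigW
  rw [e1, e2, eval_comp]
  simp only [eval_neg, eval_X]
  rw [mul_assoc, div_mul_eq_div_div_swap, div_eq_inv_mul]

theorem eig_lin {A B W : ℂ → ℂ} (a b : ℂ) (hA : ContinuousOn (fun z => A z / W z) hct)
    (hB : ContinuousOn (fun z => B z / W z) hct)
    (h : halfR (fun z => (a * A z + b * B z) / W z) = 0) :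
    a * halfR (fun z => A z / W z) + b * halfR (fun z => B z / W z) = 0 := by
  have hA' : ContinuousOn (fun z => a * (A z / W z)) hct := continuousOn_const.mul hA
  have hB' : ContinuousOn (fun z => b * (B z / W z)) hct := continuousOn_const.mul hB
  rw [← half_smul, ← half_smul, ← half_add hA' hB', ← h]
  apply half_congr
  intro z _
  ring

theorem eig_rel_pos {n : ℕ} {x : Fin n → ℝ} (hx : ∀ i, x i ∈ Ioo (-1 : ℝ) 1 ∧ x i ≠ 0)
    (ix : Function.Injective x) (A B : ℂ[X]) (a b : ℂ)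
    (hF : ∀ i, 0 < x i → a * A.eval (x i : ℂ) + b * B.eval (x i : ℂ) = 0) :
    a * halfR (fun z => A.eval z / eigW x z) + b * halfR (fun z => B.eval z / eigW x z) = 0 := by
  apply eig_lin a b (eig_cont_div hx A) (eig_cont_div hx B)
  rw [← halfR_nodes hx ix (C a * A + C b * B) (fun i hi => by simpa using hF i hi)]
  apply half_congr
  intro z _
  simp [eigW]

theorem eig_rel_neg {n : ℕ} {x : Fin n → ℝ} (hx : ∀ i, x i ∈ Ioo (-1 : ℝ) 1 ∧ x i ≠ 0)
    (ix : Function.Injective x) (A B : ℂ[X]) (a b : ℂ)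
    (hF : ∀ i, x i < 0 → a * A.eval (x i : ℂ) + b * B.eval (x i : ℂ) = 0) :
    a * halfR (fun z => A.eval (-z) / eigW x (-z)) +
      b * halfR (fun z => B.eval (-z) / eigW x (-z)) = 0 := by
  have hA : ContinuousOn (fun z => A.eval (-z) / eigW x (-z)) hct :=
    eig_cont_neg (eig_cont_div hx A)
  have hB : ContinuousOn (fun z => B.eval (-z) / eigW x (-z)) hct :=
    eig_cont_neg (eig_cont_div hx B)
  apply eig_lin a b hA hB
  rw [← eig_nodes_neg hx ix (C a * A + C b * B) (fun i hi => by simpa using hF i hi)]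
  apply half_congr
  intro z _
  simp

theorem eig_pos {n : ℕ} {x : Fin n → ℝ} (hx : ∀ i, x i ∈ Ioo (-1 : ℝ) 1 ∧ x i ≠ 0)
    {B : ℂ[X]} (hB : B ≠ 0) : 0 < eigA (fun z => B.eval z / ∏ i, (1 - (x i : ℂ) * z)) := by
  have hpi : -(Real.pi / 2) < Real.pi / 2 := by linarith [Real.pi_pos]
  have hc : ContinuousOn (fun z => B.eval z / ∏ i, (1 - (x i : ℂ) * z)) hct :=
    ContinuousOn.div (by fun_prop) (by fun_prop) fun z hz => eig_qt_ne hx hz
  apply intervalIntegral.integral_pos hpi (eig_cont_arc hc).continuousOn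
    (fun _ _ => by positivity)
  by_contra hcon
  push Not at hcon
  apply hB
  apply eq_zero_of_infinite_isRoot
  have hinj : InjOn (fun θ : ℝ => Complex.exp (θ * Complex.I))
      (Icc (-(Real.pi / 2)) (Real.pi / 2)) := by
    intro a ha b hb hab
    have := congrArg Complex.im hab
    simp only [Complex.exp_ofReal_mul_I_im] at this
    exact Real.injOn_sin ha hb this
  refine ((Icc_infinite hpi).image hinj).mono ?_
  rintro _ ⟨θ, hθ, rfl⟩
  have h1 := hcon θ hθ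
  have h2 : ‖B.eval (Complex.exp (θ * Complex.I)) /
      ∏ i, (1 - (x i : ℂ) * Complex.exp (θ * Complex.I))‖ ^ 2 = 0 :=
    le_antisymm h1 (by positivity)
  rw [pow_eq_zero_iff (by norm_num), norm_eq_zero, div_eq_zero_iff] at h2
  rcases h2 with h2 | h2
  · exact h2
  · exact absurd h2 (eig_qt_ne hx (half_e_hct θ))

theorem eig_seg_ratio {n D : ℕ} {x : Fin n → ℝ} {S : ℝ} (hS0 : 0 ≤ S)
    (hS : ∀ y ∈ Icc (0 : ℝ) 1,
      y ^ (2 * D) * ∏ i, (1 + x i ^ 2 * y ^ 2) ≤ S ^ 2 * ∏ i, (x i ^ 2 + y ^ 2))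
    {y : ℝ} (hy : y ∈ uIcc (-1 : ℝ) 1) :
    ‖(y : ℂ) * Complex.I‖ ^ D * ‖∏ i, (1 - (x i : ℂ) * (y * Complex.I))‖ ≤
      S * ‖∏ i, ((y : ℂ) * Complex.I - (x i : ℂ))‖ := by
  rw [uIcc_of_le (by norm_num)] at hy
  have h := hS |y| ⟨abs_nonneg _, abs_le.2 hy⟩
  rw [sq_abs] at h
  have e1 : ∀ i, ‖1 - (x i : ℂ) * (y * Complex.I)‖ ^ 2 = 1 + x i ^ 2 * y ^ 2 := by
    intro i
    rw [← Complex.normSq_eq_norm_sq, Complex.normSq_apply]
    simp
    ring
  have e2 : ∀ i, ‖(y : ℂ) * Complex.I - (x i : ℂ)‖ ^ 2 = x i ^ 2 + y ^ 2 := by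
    intro i
    rw [← Complex.normSq_eq_norm_sq, Complex.normSq_apply]
    simp
    ring
  have e3 : ‖(y : ℂ) * Complex.I‖ = |y| := by
    rw [norm_mul, Complex.norm_I, mul_one, Complex.norm_real, Real.norm_eq_abs]
  apply le_of_sq_le_sq _ (by positivity)
  rw [mul_pow, mul_pow, norm_prod, norm_prod, ← Finset.prod_pow, ← Finset.prod_pow, e3,
    ← pow_mul, mul_comm D 2]
  simp only [e1, e2]
  exact h

theorem eig_circle {n : ℕ} (x : Fin n → ℝ) {z : ℂ} (hz : ‖z‖ = 1) :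
    ∏ i, (z - (x i : ℂ)) = z ^ n * (starRingEnd ℂ) (∏ i, (1 - (x i : ℂ) * z)) := by
  have h1 : z * (starRingEnd ℂ) z = 1 := by
    rw [Complex.mul_conj, Complex.normSq_eq_norm_sq, hz]
    simp
  have h2 : ∀ i, z - (x i : ℂ) = z * (starRingEnd ℂ) (1 - (x i : ℂ) * z) := by
    intro i
    simp only [map_sub, map_one, map_mul, Complex.conj_ofReal]
    linear_combination (x i : ℂ) * h1
  simp only [h2]
  rw [Finset.prod_mul_distrib, map_prod]
  simp

theorem eig_qt_conj {n : ℕ} (x : Fin n → ℝ) (z : ℂ) :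
    ∏ i, (1 - (x i : ℂ) * (starRingEnd ℂ) z) = (starRingEnd ℂ) (∏ i, (1 - (x i : ℂ) * z)) := by
  rw [map_prod]
  simp

theorem eig_bound {n D : ℕ} {x : Fin n → ℝ} (hx : ∀ i, x i ∈ Ioo (-1 : ℝ) 1 ∧ x i ≠ 0)
    (ix : Function.Injective x) {S : ℝ} (hS0 : 0 ≤ S)
    (hS : ∀ y ∈ Icc (0 : ℝ) 1,
      y ^ (2 * D) * ∏ i, (1 + x i ^ 2 * y ^ 2) ≤ S ^ 2 * ∏ i, (x i ^ 2 + y ^ 2))
    (v : Fin n → ℂ) (hv : v ≠ 0) (lam : ℂ)
    (heq : ∀ i, (cc (x i) : ℂ) * (x i : ℂ) ^ D * ∑ r : Fin n, v r * (x i : ℂ) ^ (r : ℕ) =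
      lam * ∑ r : Fin n, v r * (x i : ℂ) ^ (n - 1 - r)) :
    ‖lam‖ ≤ 5 + 3 * S := by
  obtain ⟨P, hP⟩ : ∃ P : ℂ[X], ∀ z, P.eval z = ∑ r : Fin n, v r * z ^ (n - 1 - r) :=
    ⟨∑ r : Fin n, C (v r) * X ^ (n - 1 - r), fun z => by simp [eval_finsetSum]⟩
  obtain ⟨Ps, hPs⟩ : ∃ P : ℂ[X], ∀ z, P.eval z = ∑ r : Fin n, v r * z ^ (r : ℕ) :=
    ⟨∑ r : Fin n, C (v r) * X ^ (r : ℕ), fun z => by simp [eval_finsetSum]⟩
  obtain ⟨Pb, hPb, hPb0⟩ : ∃ P : ℂ[X],
      (∀ z, P.eval z = ∑ r : Fin n, (starRingEnd ℂ) (v r) * z ^ (r : ℕ)) ∧ P ≠ 0 := by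
    refine ⟨∑ r : Fin n, C ((starRingEnd ℂ) (v r)) * X ^ (r : ℕ),
      fun z => by simp [eval_finsetSum], fun h => hv ?_⟩
    funext r
    have h1 := congrArg (fun p : ℂ[X] => p.coeff r) h
    simp only [finsetSum_coeff, coeff_C_mul, coeff_X_pow, coeff_zero] at h1
    rw [Finset.sum_eq_single r] at h1
    · simpa using h1
    · intro b _ hb
      rw [if_neg (fun h => hb (Fin.ext h.symm)), mul_zero]
    · simp
  have hn : 1 ≤ n := by
    rcases Nat.eq_zero_or_pos n with h | h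
    · subst h
      exact absurd (Subsingleton.elim _ _) hv
    · exact h
  have hconj : ∀ z, Pb.eval ((starRingEnd ℂ) z) = (starRingEnd ℂ) (Ps.eval z) := by
    intro z
    rw [hPb, hPs, map_sum]
    simp
  obtain ⟨ρ, hρ, hz⟩ := half_rho hx
  have hh : ContinuousOn (fun z => Pb.eval z / ∏ i, (1 - (x i : ℂ) * z)) hct :=
    ContinuousOn.div (by fun_prop) (by fun_prop) fun z hz => eig_qt_ne hx hz
  apply eig_core (φ := fun z => (P * Pb).eval z / eigW x z)
    (ψ := fun z => (X ^ D * Ps * Pb).eval z / eigW x z) hS0 hh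
  · have h2 := eig_rel_pos hx ix (P * Pb) (X ^ D * Ps * Pb) lam (-5) (by
      intro i hi
      have h1 := heq i
      rw [← hP, ← hPs, cc, if_neg (not_lt.2 hi.le)] at h1
      simp only [eval_mul, eval_pow, eval_X]
      push_cast at h1
      linear_combination (-Pb.eval (x i : ℂ)) * h1)
    linear_combination h2
  · have h2 := eig_rel_neg hx ix (P * Pb) (X ^ D * Ps * Pb) lam 1 (by
      intro i hi
      have h1 := heq i
      rw [← hP, ← hPs, cc, if_pos hi] at h1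
      simp only [eval_mul, eval_pow, eval_X]
      push_cast at h1
      linear_combination (-Pb.eval (x i : ℂ)) * h1)
    linear_combination h2
  · intro z hz1
    have h1 : z * (starRingEnd ℂ) z = 1 := by
      rw [Complex.mul_conj, Complex.normSq_eq_norm_sq, hz1]
      simp
    have hz0 : z ≠ 0 := by
      rintro rfl
      simp at hz1
    have h2 : P.eval z = z ^ (n - 1) * (starRingEnd ℂ) (Pb.eval z) := by
      rw [hP, hPb, map_sum, Finset.mul_sum]
      apply Finset.sum_congr rfl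
      intro r _
      have h3 : z ^ (n - 1) = z ^ (n - 1 - r) * z ^ (r : ℕ) := by
        rw [← pow_add]
        congr 1
        have := r.2
        omega
      simp only [map_mul, map_pow, Complex.conj_conj]
      have h4 : z ^ (r : ℕ) * (starRingEnd ℂ) z ^ (r : ℕ) = 1 := by
        rw [← mul_pow, h1, one_pow]
      rw [h3]
      linear_combination (-(v r * z ^ (n - 1 - r))) * h4
    have h5 : z ^ n = z ^ (n - 1) * z := by
      rw [← pow_succ]
      congr 1
      omega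
    have h6 := eig_qt_ne hx (Or.inl hz1 : z ∈ hct)
    have h7 : (starRingEnd ℂ) (∏ i, (1 - (x i : ℂ) * z)) ≠ 0 := by
      rwa [_root_.map_ne_zero]
    rw [← Complex.normSq_eq_norm_sq, ← Complex.mul_conj, eval_mul, h2, eigW, eig_circle x hz1,
      h5, map_div₀]
    generalize (starRingEnd ℂ) (∏ i, (1 - (x i : ℂ) * z)) = T' at h7 ⊢
    generalize (∏ i, (1 - (x i : ℂ) * z)) = T at h6 ⊢
    field_simp
  · intro z hz1
    rw [hconj, eig_qt_conj, eigW, eig_circle x hz1]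
    simp only [eval_mul, eval_pow, eval_X, norm_div, norm_mul, norm_pow, hz1, one_pow, one_mul,
      Complex.norm_conj]
    rw [div_mul_div_comm]
  · intro y hy
    have h1 : -((y : ℂ) * Complex.I) = (starRingEnd ℂ) (y * Complex.I) := by simp
    have h2 := eig_seg_ratio hS0 hS hy
    have h3 := norm_pos_iff.2 (eig_qt_ne hx (half_y_hct hy))
    have h4 := norm_pos_iff.2 (eig_q_ne hx (half_y_hct hy))
    rw [h1, hconj, eig_qt_conj, eigW]
    simp only [eval_mul, eval_pow, eval_X, norm_div, Complex.norm_conj]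
    rw [norm_mul, norm_mul, norm_mul, norm_pow]
    generalize ‖∏ i, (1 - (x i : ℂ) * (y * Complex.I))‖ = T at *
    generalize ‖∏ i, ((y : ℂ) * Complex.I - (x i : ℂ))‖ = q at *
    generalize ‖(y : ℂ) * Complex.I‖ ^ D = Y at *
    have h5 : 0 ≤ ‖Ps.eval ((y : ℂ) * Complex.I)‖ * ‖Pb.eval ((y : ℂ) * Complex.I)‖ := by
      positivity
    rw [div_mul_div_comm, ← mul_div_assoc, div_le_div_iff₀ (by positivity) (by positivity)]
    have h6 := mul_le_mul_of_nonneg_left h2 (mul_nonneg h5 h3.le)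
    nlinarith
  · have hq : ∀ z ∈ Metric.ball (0 : ℂ) ρ, (∏ i, (1 - (x i : ℂ) * z)) ≠ 0 :=
      fun z h => Finset.prod_ne_zero_iff.2 fun i _ => hz z h i
    have hf : DifferentiableOn ℂ (fun z => Pb.eval z / ∏ i, (1 - (x i : ℂ) * z))
        (Metric.ball 0 ρ) :=
      DifferentiableOn.div Pb.differentiable.differentiableOn (by fun_prop) hq
    have hk : DifferentiableOn ℂ (fun z => Ps.eval (-z) / ∏ i, (1 - (x i : ℂ) * (-z)))
        (Metric.ball 0 ρ) := by
      apply DifferentiableOn.div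
        (Ps.differentiable.comp differentiable_neg).differentiableOn (by fun_prop)
      intro z h
      exact hq (-z) (by simpa using h)
    have h := fejer_riesz hρ hf hk (by
      intro z _
      rw [← map_neg, hconj, eig_qt_conj, map_div₀, Complex.conj_conj, Complex.conj_conj])
    rw [intervalIntegral.integral_add ((eig_cont_arc hh).intervalIntegrable _ _)
      ((eig_cont_arc (eig_cont_neg hh)).intervalIntegrable _ _)] at h
    exact h
  · exact eig_pos hx hPb0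

end Vale.Agent.P030
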