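import Mathlib
import Vale.Agent.P030.AnND
import Vale.Agent.P030.AnCau

/-! Energy bounds by trial charges. -/

namespace Vale.Agent.P030

open Set

theorem anen_off {n : ℕ} (f : Fin n → Fin n → ℝ) :
    ∑ i, ∑ k ∈ ({i}ᶜ : Finset (Fin n)), f i k = ∑ i, ∑ k, f i k - ∑ i, f i i := by
  rw [← Finset.sum_sub_distrib]
  refine Finset.sum_congr rfl fun i _ => ?_
  rw [Fintype.sum_eq_add_sum_compl i]
  ring

theorem anen_ne {w : ℂ} (hw : ‖w‖ < 1) : 1 - w ≠ 0 := by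
  intro h
  rw [← sub_eq_zero.1 h] at hw
  simp at hw

theorem anen_pot {κ : Type} [Fintype κ] (γ : κ → ℝ) (ω : κ → ℂ) {r ε ρ x : ℝ} (hr : r < 1)
    (hω : ∀ a, ‖ω a‖ ≤ r) (hx : |x| ≤ 1) (hρ : 1 - ε ≤ ρ) (hρ0 : 0 ≤ ρ) (hρ1 : ρ ≤ 1) :
    2 * ∑ a, γ a * kk (ρ * up x) (ω a) ≤ potC γ ω x + ε * (4 * (∑ a, |γ a|) / (1 - r)) := by
  have h1 : ∀ a ∈ Finset.univ, γ a * kk (ρ * up x) (ω a) ≤
      γ a * Real.log ‖1 - 2 * ω a * x + ω a ^ 2‖ + |γ a| * (2 * ε / (1 - r)) := by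
    intro a _
    have h2 : 1 - 2 * ω a * x + ω a ^ 2 ≠ 0 := by
      rw [← up_mul hx]
      refine mul_ne_zero (anen_ne ?_) (anen_ne ?_)
      · rw [norm_mul, norm_up hx, mul_one]; exact (hω a).trans_lt hr
      · rw [norm_mul, Complex.norm_conj, norm_up hx, mul_one]; exact (hω a).trans_lt hr
    have h3 := kk_pert (norm_up hx).le (hω a) hr hρ hρ0 hρ1
    rw [kk_up hx h2] at h3
    have h4 := (le_abs_self _).trans ((abs_mul (γ a) _).trans_le
      (mul_le_mul_of_nonneg_left h3 (abs_nonneg (γ a))))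
    linarith
  have h5 := Finset.sum_le_sum h1
  rw [Finset.sum_add_distrib, ← Finset.sum_mul] at h5
  have h6 : ε * (4 * (∑ a, |γ a|) / (1 - r)) = 2 * ((∑ a, |γ a|) * (2 * ε / (1 - r))) := by ring
  unfold potC
  linarith

theorem anen_vd {ε : ℝ} (hε0 : 0 < ε) (hε : ε ≤ 1 / 2) {n : ℕ} {x ρ : Fin n → ℝ}
    (hx : ∀ i, |x i| ≤ 1) (ix : Function.Injective x) (hρ : ∀ i, 1 - ε ≤ ρ i)
    (hρ1 : ∀ i, ρ i ≤ 1) :
    2 * Real.log (vd x) ≤ ∑ i, ∑ k, kk (ρ i * up (x i)) (ρ k * up (x k)) -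
      ∑ i, kk (ρ i * up (x i)) (ρ i * up (x i)) + n ^ 2 * (8 * ε - Real.log 2) + n := by
  rw [two_mul_log_vd ix, ← anen_off fun i k => kk (ρ i * up (x i)) (ρ k * up (x k))]
  have h1 : ∀ i ∈ Finset.univ, ∑ k ∈ ({i}ᶜ : Finset (Fin n)), Real.log |x i - x k| ≤
      ∑ k ∈ ({i}ᶜ : Finset (Fin n)),
        (kk (ρ i * up (x i)) (ρ k * up (x k)) + (8 * ε - Real.log 2)) := by
    intro i _
    refine Finset.sum_le_sum fun k hk => ?_
    have hik : x i ≠ x k := fun h => by simp [ix h] at hk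
    obtain ⟨h1, h2, h3⟩ := kk_up_up (hx i) (hx k) hik
    have := kk_damp (norm_up (hx i)).le (norm_up (hx k)).le h1 h2 hε (hρ i) (hρ1 i) (hρ k) (hρ1 k)
    linarith
  refine (Finset.sum_le_sum h1).trans ?_
  simp only [Finset.sum_add_distrib]
  rw [anen_off fun _ _ => 8 * ε - Real.log 2]
  simp only [Finset.sum_const, Finset.card_univ, Fintype.card_fin, nsmul_eq_mul]
  have h2 : Real.log 2 ≤ 1 := by linarith [Real.log_two_lt_d9]
  have h3 : (0 : ℝ) ≤ n := n.cast_nonneg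
  nlinarith [mul_nonneg h3 hε0.le, mul_le_mul_of_nonneg_left h2 h3]

theorem anen_norm {ρ x : ℝ} (hx : |x| ≤ 1) (hρ : 0 ≤ ρ) : ‖(ρ : ℂ) * up x‖ = ρ := by
  rw [norm_mul, norm_up hx, mul_one, Complex.norm_real, Real.norm_of_nonneg hρ]

theorem energy1 {κ : Type} [Fintype κ] (γ : κ → ℝ) (ω : κ → ℂ) {r ε : ℝ} (hr : r < 1)
    (hω : ∀ a, ‖ω a‖ ≤ r) (hε0 : 0 < ε) (hε : ε ≤ 1 / 2) {n : ℕ} {x : Fin n → ℝ}
    (hx : ∀ i, x i ∈ Ioo (-1 : ℝ) 1) (ix : Function.Injective x) :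
    2 * Real.log (vd x) ≤
      n ^ 2 * (-Real.log 2 + selfE γ ω + ε * (8 + 4 * (∑ a, |γ a|) / (1 - r))) +
        n * (1 - 2 * Real.log ε) + n * ∑ i, potC γ ω (x i) := by
  have hx1 : ∀ i, |x i| ≤ 1 := fun i => (abs_lt.2 (hx i)).le
  have h0 : (0 : ℝ) ≤ 1 - ε := by linarith
  have h1 := anen_vd hε0 hε (ρ := fun _ => 1 - ε) hx1 ix (fun _ => le_rfl) fun _ => by linarith
  have h2 := nd_trial (fun _ : Fin n => (1 : ℝ)) (fun i => ((1 - ε : ℝ) : ℂ) * up (x i))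
    (fun i => by rw [anen_norm (hx1 i) h0]; linarith) γ ω (fun a => (hω a).trans_lt hr) n
  have h3 := Finset.sum_le_sum fun i (_ : i ∈ Finset.univ) =>
    kk_diag hε0 (anen_norm (hx1 i) h0).le
  have h4 := Finset.sum_le_sum fun i (_ : i ∈ Finset.univ) =>
    anen_pot γ ω hr hω (hx1 i) (le_refl (1 - ε)) h0 (by linarith)
  simp only [one_mul, Finset.sum_neg_distrib, Finset.sum_add_distrib, Finset.sum_const,
    Finset.card_univ, Fintype.card_fin, nsmul_eq_mul, ← Finset.mul_sum] at h2 h3 h4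
  have h5 := mul_le_mul_of_nonneg_left h4 (n.cast_nonneg (α := ℝ))
  nlinarith

theorem anen_real (x : ℝ) (w : ℂ) : kk x w = 2 * Real.log ‖1 - x * w‖ := by
  have : (1 - x * (starRingEnd ℂ) w) = (starRingEnd ℂ) (1 - x * w) := by simp
  rw [kk, this, Complex.norm_conj, two_mul]

theorem anen_rr {x y : ℝ} (hx : |x| < 1) (hy : |y| < 1) : kk x y = 2 * Real.log (1 - x * y) := by
  have h : |x * y| < 1 := by
    rw [abs_mul]; exact mul_lt_one_of_nonneg_of_lt_one_left (abs_nonneg _) hx hy.le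
  rw [anen_real, ← Complex.ofReal_mul, ← Complex.ofReal_one, ← Complex.ofReal_sub,
    Complex.norm_real, Real.norm_of_nonneg (by linarith [(abs_lt.1 h).2])]

theorem anen_attr {ε x s : ℝ} (hε0 : 0 < ε) (hε : ε ≤ 1 / 2) (hx : |x| < 1)
    (hs : s ∈ Ioo (0 : ℝ) 1) :
    kk x (((1 - ε * (1 - s) : ℝ) : ℂ) * up s) ≤ Real.log (1 - 2 * x * s + x ^ 2) + 2 * ε := by
  have hs1 : |s| ≤ 1 := by rw [abs_of_pos hs.1]; exact hs.2.le
  have h0 : 0 < 1 - s := by linarith [hs.2]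
  have h1 : (1 - s) ^ 2 ≤ 1 - 2 * x * s + x ^ 2 := by nlinarith [sq_nonneg (x - s), hs.1]
  have h2 : 0 < 1 - 2 * x * s + x ^ 2 := lt_of_lt_of_le (by positivity) h1
  have e : (1 - 2 * x * s + x ^ 2 : ℂ) = ((1 - 2 * x * s + x ^ 2 : ℝ) : ℂ) := by push_cast; ring
  have h3 : 2 * Real.log ‖1 - x * up s‖ = Real.log (1 - 2 * x * s + x ^ 2) := by
    rw [← anen_real, kk_symm, kk_up hs1 (by rw [e]; exact_mod_cast h2.ne'), e, Complex.norm_real,
      Real.norm_of_nonneg h2.le]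
  have hxn : ‖(x : ℂ)‖ < 1 := by rwa [Complex.norm_real, Real.norm_eq_abs]
  have h4 : 0 < ‖1 - x * up s‖ :=
    norm_pos_iff.2 (anen_ne (by rw [norm_mul, norm_up hs1, mul_one]; exact hxn))
  have h5 : 1 - s ≤ ‖1 - x * up s‖ := by
    rw [← Real.log_le_log_iff h0 h4]
    have := Real.log_le_log (by positivity) h1
    rw [Real.log_pow] at this
    push_cast at this
    linarith
  have hρ : 0 ≤ 1 - ε * (1 - s) := by nlinarith [hs.1]
  have h6 : 0 < ‖1 - x * (((1 - ε * (1 - s) : ℝ) : ℂ) * up s)‖ := by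
    refine norm_pos_iff.2 (anen_ne ?_)
    rw [norm_mul, anen_norm hs1 hρ]
    exact mul_lt_one_of_nonneg_of_lt_one_left (norm_nonneg _) hxn (by nlinarith)
  have h7 : ‖1 - x * (((1 - ε * (1 - s) : ℝ) : ℂ) * up s)‖ ≤ (1 + ε) * ‖1 - x * up s‖ := by
    rw [show 1 - x * (((1 - ε * (1 - s) : ℝ) : ℂ) * up s) =
      (1 - x * up s) + x * (((ε * (1 - s) : ℝ) : ℂ) * up s) by push_cast; ring]
    refine (norm_add_le _ _).trans ?_
    rw [norm_mul, anen_norm hs1 (by positivity)]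
    have := mul_le_mul hxn.le (mul_le_mul_of_nonneg_left h5 hε0.le) (by positivity) zero_le_one
    linarith
  have h8 := Real.log_le_log h6 h7
  rw [Real.log_mul (by positivity) h4.ne'] at h8
  have h9 := Real.log_le_sub_one_of_pos (show 0 < 1 + ε by positivity)
  rw [anen_real]
  linarith

theorem energy2 {κ : Type} [Fintype κ] (δ : κ → ℝ) (η : κ → ℂ) {r ε : ℝ} (hr : r < 1)
    (hη : ∀ a, ‖η a‖ ≤ r) (hε0 : 0 < ε) (hε : ε ≤ 1 / 2) {n : ℕ} {x s : Fin n → ℝ}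
    (hx : ∀ i, x i ∈ Ioo (-1 : ℝ) 1) (hs : ∀ j, s j ∈ Ioo (0 : ℝ) 1)
    (is : Function.Injective s) :
    en2 x s ≤
      n ^ 2 * (-Real.log 2 + selfE δ η + ε * (14 + 6 * (∑ a, |δ a|) / (1 - r))) +
        n * (2 - 3 * Real.log ε) +
        ∑ i, (-(1 / 2) * Real.log (1 - x i ^ 2) - n * potR δ η (x i)) +
        ∑ j, (-2 * Real.log (1 - s j) + n * potC δ η (s j)) := by
  have hx1 : ∀ i, |x i| < 1 := fun i => abs_lt.2 (hx i)
  have hs1 : ∀ j, |s j| ≤ 1 := fun j => by rw [abs_of_pos (hs j).1]; exact (hs j).2.le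
  have hs0 : ∀ j, 0 < 1 - s j := fun j => by linarith [(hs j).2]
  set ρ : Fin n → ℝ := fun j => 1 - ε * (1 - s j) with hρ
  have hρa : ∀ j, 1 - ε ≤ ρ j := fun j => by simp only [hρ]; nlinarith [(hs j).1]
  have hρb : ∀ j, ρ j < 1 := fun j => by simp only [hρ]; nlinarith [hs0 j]
  have hρ0 : ∀ j, 0 ≤ ρ j := fun j => by linarith [hρa j]
  have h1 := anen_vd hε0 hε hs1 is hρa fun j => (hρb j).le
  have h2 := nd_trial (Sum.elim (fun _ : Fin n => (-(1 / 2) : ℝ)) fun _ : Fin n => (1 : ℝ))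
    (Sum.elim (fun i => (x i : ℂ)) fun j => (ρ j : ℂ) * up (s j))
    (by
      rintro (i | j)
      · simpa using hx1 i
      · simpa only [Sum.elim_inr, anen_norm (hs1 j) (hρ0 j)] using hρb j)
    δ η (fun a => (hη a).trans_lt hr) n
  have e1 : ∀ i, ∑ a, δ a * kk (x i) (η a) = potR δ η (x i) := fun i => by
    rw [potR, Finset.mul_sum]
    exact Finset.sum_congr rfl fun a _ => by rw [anen_real, mul_comm (η a)]; ring
  have e2 : ∑ j, ∑ i, kk ((ρ j : ℂ) * up (s j)) (x i) =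
      ∑ i, ∑ j, kk (x i) ((ρ j : ℂ) * up (s j)) := by
    rw [Finset.sum_comm]
    exact Finset.sum_congr rfl fun i _ => Finset.sum_congr rfl fun j _ => kk_symm _ _
  simp only [Fintype.sum_sum_type, Sum.elim_inl, Sum.elim_inr, Finset.sum_add_distrib, one_mul,
    mul_one, ← Finset.mul_sum, e1, e2, fun i k => anen_rr (hx1 i) (hx1 k)] at h2
  have h3 := Finset.sum_le_sum fun j (_ : j ∈ Finset.univ) =>
    (kk_diag (mul_pos hε0 (hs0 j)) (anen_norm (hs1 j) (hρ0 j)).le).trans_eq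
      (by rw [Real.log_mul hε0.ne' (hs0 j).ne'])
  have h4 := Finset.sum_le_sum fun j (_ : j ∈ Finset.univ) =>
    anen_pot δ η hr hη (hs1 j) (hρa j) (hρ0 j) (hρb j).le
  have h5 := Finset.sum_le_sum fun i (_ : i ∈ Finset.univ) =>
    Finset.sum_le_sum fun j (_ : j ∈ Finset.univ) => anen_attr hε0 hε (hx1 i) (hs j)
  simp only [Finset.sum_neg_distrib, Finset.sum_add_distrib, Finset.sum_const,
    Finset.card_univ, Fintype.card_fin, nsmul_eq_mul, ← Finset.mul_sum] at h3 h4 h5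
  have hn : (0 : ℝ) ≤ n := n.cast_nonneg
  have h6 := mul_le_mul_of_nonneg_left h4 hn
  have h7 : Real.log ε ≤ 0 := Real.log_nonpos hε0.le (by linarith)
  have h8 : 0 ≤ (∑ a, |δ a|) / (1 - r) :=
    div_nonneg (Finset.sum_nonneg fun a _ => abs_nonneg _) (by linarith)
  rw [en2, anen_off fun i k => Real.log (1 - x i * x k)]
  simp only [Finset.sum_add_distrib, Finset.sum_sub_distrib, ← Finset.mul_sum, ← sq,
    mul_div_assoc] at *
  nlinarith [mul_nonneg (sq_nonneg (n : ℝ)) (mul_nonneg hε0.le h8),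
    mul_nonneg (sq_nonneg (n : ℝ)) hε0.le, mul_nonneg hn (neg_nonneg.2 h7)]

end Vale.Agent.P030
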