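import Mathlib
import Vale.Agent.P030.AnEig

/-! The two-sheeted Vandermonde determinant is at most `W^n` times the Vandermonde determinant. -/

namespace Vale.Agent.P030

open Set

theorem anh2_prod_le {W : ℝ} (hW : 0 ≤ W) (m : Multiset ℂ) (h : ∀ μ ∈ m, ‖μ‖ ≤ W) :
    ‖m.prod‖ ≤ W ^ Multiset.card m := by
  induction m using Multiset.induction_on with
  | empty => simp
  | cons a s ih =>
    rw [Multiset.prod_cons, Multiset.card_cons, norm_mul, pow_succ, mul_comm (W ^ _)]
    exact mul_le_mul (h a (Multiset.mem_cons_self a s))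
      (ih fun μ hμ => h μ (Multiset.mem_cons_of_mem hμ)) (norm_nonneg _) hW

theorem anh2_detV {n : ℕ} (x : Fin n → ℝ) :
    ‖(Matrix.of fun r i : Fin n => (x i : ℂ) ^ (n - 1 - r)).det‖ = vd x := by
  have e : (Matrix.of fun r i : Fin n => (x i : ℂ) ^ (n - 1 - r)) =
      ((Matrix.vandermonde fun i => (x i : ℂ)).transpose).submatrix Fin.revPerm id := by
    ext r i
    simp only [Matrix.of_apply, Matrix.submatrix_apply, Matrix.transpose_apply,
      Matrix.vandermonde_apply, id, Fin.revPerm_apply, Fin.val_rev]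
    congr 1
    omega
  rw [e, Matrix.det_permute, Matrix.det_transpose, norm_mul, vd, Matrix.det_vandermonde,
    Matrix.det_vandermonde, ← Real.norm_eq_abs, ← Complex.norm_real]
  have h1 : ‖((Equiv.Perm.sign (Fin.revPerm : Equiv.Perm (Fin n)) : ℤ) : ℂ)‖ = 1 := by
    rcases Int.units_eq_one_or (Equiv.Perm.sign (Fin.revPerm : Equiv.Perm (Fin n))) with h | h <;>
      simp [h]
  rw [h1, one_mul]
  push_cast
  rfl

theorem det_two_le_of {n D : ℕ} {x : Fin n → ℝ} (hx : ∀ i, x i ∈ Ioo (-1 : ℝ) 1 ∧ x i ≠ 0)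
    (ix : Function.Injective x) {S : ℝ} (hS0 : 0 ≤ S)
    (hS : ∀ y ∈ Icc (0 : ℝ) 1,
      y ^ (2 * D) * ∏ i, (1 + x i ^ 2 * y ^ 2) ≤ S ^ 2 * ∏ i, (x i ^ 2 + y ^ 2)) :
    |(Matrix.of fun r i : Fin n => two n D r (x i)).det| ≤ (6 + 3 * S) ^ n * vd x := by
  obtain ⟨V, hV⟩ : ∃ V : Matrix (Fin n) (Fin n) ℂ,
      V = Matrix.of fun r i : Fin n => (x i : ℂ) ^ (n - 1 - r) := ⟨_, rfl⟩
  obtain ⟨T, hT⟩ : ∃ T : Matrix (Fin n) (Fin n) ℂ,
      T = Matrix.of fun r i : Fin n => (two n D r (x i) : ℂ) := ⟨_, rfl⟩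
  have hdV : ‖V.det‖ = vd x := by
    rw [hV]
    exact anh2_detV x
  have hV0 : V.det ≠ 0 := by
    rw [← norm_pos_iff, hdV, vd, abs_pos]
    exact Matrix.det_vandermonde_ne_zero_iff.2 ix
  have hdT : T.det = (((Matrix.of fun r i : Fin n => two n D r (x i)).det : ℝ) : ℂ) := by
    have := RingHom.map_det Complex.ofRealHom (Matrix.of fun r i : Fin n => two n D r (x i))
    rw [Complex.ofRealHom_eq_coe] at this
    rw [this, hT]
    rfl
  have hAV : T * V⁻¹ * V = T := by
    rw [Matrix.mul_assoc, Matrix.nonsing_inv_mul V (IsUnit.mk0 _ hV0), Matrix.mul_one]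
  generalize T * V⁻¹ = A at hAV
  have hroot : ∀ μ ∈ A.charpoly.roots, ‖μ‖ ≤ 6 + 3 * S := by
    intro μ hμ
    have h1 : A.charpoly.eval μ = 0 := (Polynomial.mem_roots A.charpoly_monic.ne_zero).1 hμ
    rw [Matrix.eval_charpoly] at h1
    obtain ⟨v, hv, h2⟩ := Matrix.exists_vecMul_eq_zero_iff.2 h1
    have h3 : Matrix.vecMul v T = μ • Matrix.vecMul v V := by
      rw [← hAV, ← Matrix.vecMul_vecMul]
      have h4 : Matrix.vecMul v A = μ • v := by
        rw [Matrix.vecMul_sub, sub_eq_zero] at h2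
        rw [← h2]
        ext i
        simp [Matrix.vecMul_diagonal, mul_comm]
      rw [h4, Matrix.smul_vecMul]
    have h5 := eig_bound hx ix hS0 hS v hv (μ - 1) (by
      intro i
      have h6 := congrFun h3 i
      simp only [hT, hV, Matrix.vecMul, dotProduct, Matrix.of_apply, Pi.smul_apply, smul_eq_mul,
        two] at h6
      push_cast at h6
      simp only [mul_add, Finset.sum_add_distrib] at h6
      rw [sub_mul, ← h6, Finset.mul_sum, one_mul, add_sub_cancel_left]
      apply Finset.sum_congr rfl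
      intro r _
      ring)
    have h7 := norm_add_le (μ - 1) 1
    rw [sub_add_cancel, norm_one] at h7
    linarith
  have hA := anh2_prod_le (by positivity) _ hroot
  rw [← Matrix.det_eq_prod_roots_charpoly, IsAlgClosed.card_roots_eq_natDegree,
    Matrix.charpoly_natDegree_eq_dim, Fintype.card_fin] at hA
  rw [← Real.norm_eq_abs, ← Complex.norm_real, ← hdT, ← hAV, Matrix.det_mul, norm_mul, hdV]
  exact mul_le_mul_of_nonneg_right hA (abs_nonneg _)

theorem anh2_keyA {X Y : ℝ} (hX : 0 < X) (hX1 : X ≤ 1) (hY : 0 < Y) (hY1 : Y ≤ 1) :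
    Real.log (1 + X * Y) - Real.log (X + Y) ≤ -((1 - X) / (1 + X)) * Real.log Y := by
  have hd : ∀ t ∈ Ioi (0 : ℝ), HasDerivAt
      (fun t => Real.log (1 + X * t) - Real.log (X + t) + (1 - X) / (1 + X) * Real.log t)
      (X / (1 + X * t) - 1 / (X + t) + (1 - X) / (1 + X) * t⁻¹) t := by
    intro t ht
    have ht' : 0 < t := ht
    have h1 : HasDerivAt (fun t => 1 + X * t) X t := by
      simpa using ((hasDerivAt_id t).const_mul X).const_add 1
    have h2 : HasDerivAt (fun t => X + t) 1 t := (hasDerivAt_id t).const_add X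
    exact ((h1.log (by positivity)).sub (h2.log (by positivity))).add
      ((Real.hasDerivAt_log ht'.ne').const_mul _)
  have hm : MonotoneOn
      (fun t => Real.log (1 + X * t) - Real.log (X + t) + (1 - X) / (1 + X) * Real.log t)
      (Ioi 0) := by
    apply monotoneOn_of_deriv_nonneg (convex_Ioi 0)
    · exact fun t ht => (hd t ht).continuousAt.continuousWithinAt
    · rw [interior_Ioi]
      exact fun t ht => (hd t ht).differentiableAt.differentiableWithinAt
    · rw [interior_Ioi]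
      intro t ht
      have ht' : 0 < t := ht
      rw [(hd t ht).deriv]
      have e : X / (1 + X * t) - 1 / (X + t) + (1 - X) / (1 + X) * t⁻¹ =
          (1 - X) * (X * (1 - t) ^ 2) / ((1 + X * t) * (X + t) * (1 + X) * t) := by
        field_simp
        ring
      rw [e]
      have : 0 ≤ 1 - X := by linarith
      positivity
  have h := hm (show Y ∈ Ioi (0 : ℝ) from hY) (mem_Ioi.2 one_pos) hY1
  simp only [mul_one, Real.log_one, mul_zero, add_zero] at h
  rw [add_comm X 1, sub_self] at h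
  linarith

theorem anh2_keyB {X : ℝ} (hX : 0 ≤ X) (hX1 : X ≤ 1) :
    (1 - X) / (1 + X) ≤ 1 - 4 / 3 * Real.log (1 + X) := by
  have h1 : Real.log (1 + X) ≤ Real.sinh (Real.log (1 + X)) :=
    Real.self_le_sinh_iff.2 (Real.log_nonneg (by linarith))
  rw [Real.sinh_log (by linarith)] at h1
  have h2 : (1 + X - (1 + X)⁻¹) / 2 ≤ 3 / 4 * (1 - (1 - X) / (1 + X)) := by
    have e : 3 / 4 * (1 - (1 - X) / (1 + X)) - (1 + X - (1 + X)⁻¹) / 2 =
        X * (1 - X) / (2 * (1 + X)) := by
      field_simp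
      ring
    have : 0 ≤ X * (1 - X) / (2 * (1 + X)) := by
      have : 0 ≤ 1 - X := by linarith
      positivity
    linarith
  linarith

theorem anh2_sq {a : ℝ} (h : a ∈ Ioo (-1 : ℝ) 1 ∧ a ≠ 0) : 0 < a ^ 2 ∧ a ^ 2 < 1 :=
  ⟨by have := h.2; positivity, by nlinarith [h.1.1, h.1.2]⟩

theorem anh2_logs {n D : ℕ} (x : Fin n → ℝ) {y c : ℝ} (hy : 0 < y)
    (h : D * Real.log (y ^ 2) +
      ∑ i, (Real.log (1 + x i ^ 2 * y ^ 2) - Real.log (x i ^ 2 + y ^ 2)) ≤ 2 * c) :
    y ^ (2 * D) * ∏ i, (1 + x i ^ 2 * y ^ 2) ≤ Real.exp c ^ 2 * ∏ i, (x i ^ 2 + y ^ 2) := by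
  have p1 : 0 < ∏ i, (1 + x i ^ 2 * y ^ 2) := Finset.prod_pos fun i _ => by positivity
  have p2 : 0 < ∏ i, (x i ^ 2 + y ^ 2) := Finset.prod_pos fun i _ => by positivity
  rw [← Real.log_le_log_iff (by positivity) (by positivity), Real.log_mul (by positivity) p1.ne',
    Real.log_mul (by positivity) p2.ne', Real.log_prod (fun i _ => by positivity),
    Real.log_prod (fun i _ => by positivity), pow_mul, Real.log_pow, Real.log_pow (Real.exp c),
    Real.log_exp]
  rw [Finset.sum_sub_distrib] at h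
  push_cast
  linarith

theorem hS_one {n D : ℕ} {x : Fin n → ℝ} (hx : ∀ i, x i ∈ Ioo (-1 : ℝ) 1 ∧ x i ≠ 0)
    (hsum : ∑ i, (1 - 4 / 3 * Real.log (1 + x i ^ 2)) ≤ D) {y : ℝ} (hy : y ∈ Icc (0 : ℝ) 1) :
    y ^ (2 * D) * ∏ i, (1 + x i ^ 2 * y ^ 2) ≤ ∏ i, (x i ^ 2 + y ^ 2) := by
  have hf : ∑ i, (1 - x i ^ 2) / (1 + x i ^ 2) ≤ (D : ℝ) :=
    (Finset.sum_le_sum fun i _ =>
      anh2_keyB (anh2_sq (hx i)).1.le (anh2_sq (hx i)).2.le).trans hsum
  rcases hy.1.eq_or_lt with h0 | h0
  · subst h0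
    rcases Nat.eq_zero_or_pos D with hD | hD
    · subst hD
      rcases Nat.eq_zero_or_pos n with hn | hn
      · subst hn
        simp
      · exfalso
        have : 0 < ∑ i, (1 - x i ^ 2) / (1 + x i ^ 2) := by
          apply Finset.sum_pos
          · intro i _
            have := (anh2_sq (hx i)).2
            exact div_pos (by linarith) (by positivity)
          · exact ⟨⟨0, hn⟩, Finset.mem_univ _⟩
        simp only [Nat.cast_zero] at hf
        linarith
    · rw [zero_pow (by omega), zero_mul]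
      exact Finset.prod_nonneg fun i _ => by positivity
  · have h := anh2_logs (D := D) (c := 0) x h0 (by
      have hY1 : y ^ 2 ≤ 1 := by nlinarith [hy.2]
      have h1 : ∑ i, (Real.log (1 + x i ^ 2 * y ^ 2) - Real.log (x i ^ 2 + y ^ 2)) ≤
          ∑ i, -((1 - x i ^ 2) / (1 + x i ^ 2)) * Real.log (y ^ 2) :=
        Finset.sum_le_sum fun i _ =>
          anh2_keyA (anh2_sq (hx i)).1 (anh2_sq (hx i)).2.le (by positivity) hY1
      rw [← Finset.sum_mul, Finset.sum_neg_distrib] at h1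
      have h2 : Real.log (y ^ 2) ≤ 0 := Real.log_nonpos (by positivity) hY1
      nlinarith)
    simpa using h

theorem hS_two {n D e : ℕ} (hD : n = D + e) {x : Fin n → ℝ}
    (hx : ∀ i, x i ∈ Ioo (-1 : ℝ) 1 ∧ x i ≠ 0) {y : ℝ} (hy : y ∈ Icc (0 : ℝ) 1) :
    y ^ (2 * D) * ∏ i, (1 + x i ^ 2 * y ^ 2) ≤
      Real.exp (-((e : ℝ) / n) * ∑ i, Real.log |x i|) ^ 2 * ∏ i, (x i ^ 2 + y ^ 2) := by
  rcases Nat.eq_zero_or_pos n with hn | hn
  · subst hn
    have : D = 0 := by omega
    subst this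
    simp
  have hn' : (0 : ℝ) < n := by exact_mod_cast hn
  rcases hy.1.eq_or_lt with h0 | h0
  · subst h0
    rcases Nat.eq_zero_or_pos D with hD0 | hD0
    · subst hD0
      have he : (e : ℝ) = n := by
        rw [hD]
        simp
      rw [he, div_self hn'.ne', neg_one_mul, Real.exp_neg, Real.exp_sum]
      have e1 : ∀ i, Real.exp (Real.log |x i|) = |x i| :=
        fun i => Real.exp_log (abs_pos.2 (hx i).2)
      have p1 : 0 < ∏ i, x i ^ 2 := Finset.prod_pos fun i _ => (anh2_sq (hx i)).1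
      simp only [e1]
      rw [inv_pow, ← Finset.prod_pow]
      simp only [sq_abs, ne_eq, OfNat.ofNat_ne_zero, not_false_eq_true, zero_pow, mul_zero,
        add_zero, Finset.prod_const_one, pow_zero, mul_one]
      rw [inv_mul_cancel₀ p1.ne']
    · rw [zero_pow (by omega), zero_mul]
      exact mul_nonneg (by positivity) (Finset.prod_nonneg fun i _ => by positivity)
  · apply anh2_logs x h0
    have hY1 : y ^ 2 ≤ 1 := by nlinarith [hy.2]
    have hY : 0 < y ^ 2 := by positivity
    have hDe : (n : ℝ) = D + e := by exact_mod_cast hD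
    have h1 : ∀ i, (n : ℝ) * (Real.log (1 + x i ^ 2 * y ^ 2) - Real.log (x i ^ 2 + y ^ 2)) ≤
        -(D * Real.log (y ^ 2)) - 2 * e * Real.log |x i| := by
      intro i
      obtain ⟨hX, hX1⟩ := anh2_sq (hx i)
      have l0 : Real.log (x i ^ 2) = 2 * Real.log |x i| := by
        rw [Real.log_abs, Real.log_pow]
        norm_num
      have l1 : Real.log (1 + x i ^ 2 * y ^ 2) + Real.log (y ^ 2) ≤
          Real.log (x i ^ 2 + y ^ 2) := by
        rw [← Real.log_mul (by positivity) hY.ne']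
        apply Real.log_le_log (by positivity)
        have : y ^ 2 * y ^ 2 ≤ 1 := by nlinarith
        nlinarith
      have l2 : Real.log (1 + x i ^ 2 * y ^ 2) + Real.log (x i ^ 2) ≤
          Real.log (x i ^ 2 + y ^ 2) := by
        rw [← Real.log_mul (by positivity) hX.ne']
        apply Real.log_le_log (by positivity)
        have : x i ^ 2 * x i ^ 2 ≤ 1 := by nlinarith
        nlinarith
      rw [l0] at l2
      have a1 := mul_le_mul_of_nonneg_left l1 (Nat.cast_nonneg (α := ℝ) D)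
      have a2 := mul_le_mul_of_nonneg_left l2 (Nat.cast_nonneg (α := ℝ) e)
      rw [hDe]
      linarith
    have h2 := Finset.sum_le_sum fun i (_ : i ∈ Finset.univ) => h1 i
    rw [← Finset.mul_sum, Finset.sum_sub_distrib (fun _ => -((D : ℝ) * Real.log (y ^ 2))),
      ← Finset.mul_sum] at h2
    simp only [Finset.sum_const, Finset.card_univ, Fintype.card_fin, nsmul_eq_mul] at h2
    apply le_of_mul_le_mul_left _ hn'
    have e3 : (n : ℝ) * (2 * (-((e : ℝ) / n) * ∑ i, Real.log |x i|)) =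
        -(2 * e * ∑ i, Real.log |x i|) := by
      field_simp
    rw [e3]
    linarith

theorem det_two_le {n D e : ℕ} (hD : n = D + e) {x : Fin n → ℝ}
    (hx : ∀ i, x i ∈ Ioo (-1 : ℝ) 1 ∧ x i ≠ 0) (ix : Function.Injective x) :
    ∃ W : ℝ, 0 < W ∧ |(Matrix.of fun r i : Fin n => two n D r (x i)).det| ≤ W ^ n * vd x ∧
      (n * Real.log W ≤ n * Real.log 9 ∨
        ((D : ℝ) ≤ ∑ i, (1 - 4 / 3 * Real.log (1 + x i ^ 2)) ∧
          n * Real.log W ≤ n * Real.log 9 - e * ∑ i, Real.log |x i|)) := by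
  rcases le_total (∑ i, (1 - 4 / 3 * Real.log (1 + x i ^ 2))) D with hsum | hsum
  · refine ⟨9, by norm_num, ?_, Or.inl le_rfl⟩
    have h := det_two_le_of (D := D) hx ix (S := 1) zero_le_one fun y hy => by
      simpa using hS_one hx hsum hy
    norm_num at h ⊢
    exact h
  · have hs : ∑ i, Real.log |x i| ≤ 0 :=
      Finset.sum_nonpos fun i _ => Real.log_nonpos (abs_nonneg _)
        (abs_le.2 ⟨(hx i).1.1.le, (hx i).1.2.le⟩)
    have h := det_two_le_of (D := D) hx ix (Real.exp_pos _).le fun y hy => hS_two hD hx hy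
    have h1 : 1 ≤ Real.exp (-((e : ℝ) / n) * ∑ i, Real.log |x i|) := by
      apply Real.one_le_exp
      have : 0 ≤ (e : ℝ) / n := by positivity
      nlinarith
    refine ⟨9 * Real.exp (-((e : ℝ) / n) * ∑ i, Real.log |x i|), by positivity, ?_,
      Or.inr ⟨hsum, ?_⟩⟩
    · refine h.trans (mul_le_mul_of_nonneg_right ?_ (abs_nonneg _))
      exact pow_le_pow_left₀ (by positivity) (by linarith) n
    · rw [Real.log_mul (by norm_num) (Real.exp_pos _).ne', Real.log_exp]
      rcases Nat.eq_zero_or_pos n with hn | hn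
      · have : e = 0 := by omega
        subst this
        simp
      · have hn' : (n : ℝ) ≠ 0 := by exact_mod_cast hn.ne'
        apply le_of_eq
        field_simp
        ring

end Vale.Agent.P030
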