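import Mathlib
import Vale.Agent.P030.AnCert
import Vale.Agent.P030.AnEn
import Vale.Agent.P030.AnH2
import Vale.Agent.P030.AnAnd

/-! The upper bound for the determinant. -/

namespace Vale.Agent.P030

open Set Filter Chk

theorem energy_le {κ κ' : Type} [Fintype κ] [Fintype κ'] (γ : κ → ℝ) (ω : κ → ℂ) (δ : κ' → ℝ)
    (η : κ' → ℂ) (hω : ∀ a, ‖ω a‖ ≤ 999 / 1000) (hη : ∀ a, ‖η a‖ ≤ 999 / 1000)
    (hγ : ∑ a, |γ a| ≤ 50) (hδ : ∑ a, |δ a| ≤ 50) {a h H b q m1 m2 : ℝ}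
    (h1 : ∀ x ∈ Ioo (-1 : ℝ) 1, x ≠ 0 → a * Real.log |x| + h * Real.log (1 - x) -
      H * Real.log (1 + x ^ 2) + potC γ ω x - potR δ η x ≤ m1)
    (h2 : ∀ s ∈ Ioo (0 : ℝ) 1, b * Real.log s + q * Real.log (1 - s) + potC δ η s ≤ m2)
    {n : ℕ} {x s : Fin n → ℝ} (hx : ∀ i, x i ∈ Ioo (-1 : ℝ) 1 ∧ x i ≠ 0)
    (hs : ∀ j, s j ∈ Ioo (0 : ℝ) 1) (ix : Function.Injective x) (is : Function.Injective s)
    {A' h' H' b' q' : ℝ} (hA : n * a ≤ A') (hh : h' = n * h) (hH : H' = n * H) (hb : b' = n * b)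
    (hq : n * q ≤ q' - 2) :
    ext A' h' H' b' q' x s + ∑ i, Real.log (1 - x i ^ 2) + 2 * Real.log (vd x) + en2 x s ≤
      n ^ 2 * (-2 * Real.log 2 + selfE γ ω + selfE δ η + m1 + m2 + 1 / 10 ^ 6) +
        n * (3 - 5 * Real.log (1 / 10 ^ 12)) := by
  have e1 := energy1 γ ω (r := 999 / 1000) (ε := 1 / 10 ^ 12) (by norm_num) hω (by norm_num)
    (by norm_num) (fun i => (hx i).1) ix
  have e2 := energy2 δ η (r := 999 / 1000) (ε := 1 / 10 ^ 12) (by norm_num) hη (by norm_num)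
    (by norm_num) (fun i => (hx i).1) hs is
  have hn : (0 : ℝ) ≤ n := Nat.cast_nonneg n
  have s1 : ∑ i, (A' * Real.log |x i| + h' * Real.log (1 - x i) - H' * Real.log (1 + x i ^ 2)) +
      ∑ i, Real.log (1 - x i ^ 2) + n * ∑ i, potC γ ω (x i) +
      ∑ i, (-(1 / 2) * Real.log (1 - x i ^ 2) - n * potR δ η (x i)) ≤ n * (n * m1) := by
    rw [Finset.mul_sum, ← Finset.sum_add_distrib, ← Finset.sum_add_distrib,
      ← Finset.sum_add_distrib]
    refine (Finset.sum_le_card_nsmul _ _ (n * m1) fun i _ => ?_).trans (by simp)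
    obtain ⟨⟨hl, hu⟩, h0⟩ := hx i
    have a1 : Real.log |x i| ≤ 0 := Real.log_nonpos (abs_nonneg _) (abs_le.2 ⟨hl.le, hu.le⟩)
    have a2 : Real.log (1 - x i ^ 2) ≤ 0 :=
      Real.log_nonpos (by nlinarith) (by nlinarith [sq_nonneg (x i)])
    have a3 := mul_le_mul_of_nonneg_left (h1 (x i) ⟨hl, hu⟩ h0) hn
    have a4 := mul_le_mul_of_nonpos_right hA a1
    rw [hh, hH]
    nlinarith
  have s2 : ∑ j, (b' * Real.log (s j) + q' * Real.log (1 - s j)) +
      ∑ j, (-2 * Real.log (1 - s j) + n * potC δ η (s j)) ≤ n * (n * m2) := by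
    rw [← Finset.sum_add_distrib]
    refine (Finset.sum_le_card_nsmul _ _ (n * m2) fun j _ => ?_).trans (by simp)
    obtain ⟨hl, hu⟩ := hs j
    have a1 : Real.log (1 - s j) ≤ 0 := Real.log_nonpos (by linarith) (by linarith)
    have a3 := mul_le_mul_of_nonneg_left (h2 (s j) ⟨hl, hu⟩) hn
    have a4 := mul_le_mul_of_nonpos_right hq a1
    rw [hb]
    nlinarith
  have l1 : (1 : ℝ) / 10 ^ 12 * (8 + 4 * (∑ a, |γ a|) / (1 - 999 / 1000)) +
      1 / 10 ^ 12 * (14 + 6 * (∑ a, |δ a|) / (1 - 999 / 1000)) ≤ 1 / 10 ^ 6 := by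
    norm_num
    linarith
  have l2 := mul_le_mul_of_nonneg_left l1 (sq_nonneg (n : ℝ))
  unfold ext
  nlinarith

theorem log_two_bd : 0.6931471803 < Real.log 2 ∧ Real.log 2 < 0.6931471808 :=
  ⟨Real.log_two_gt_d9, Real.log_two_lt_d9⟩

/-- The constant in the linear error term. -/
noncomputable def errC : ℝ := Real.log 9 + 3 + 3 - 5 * Real.log (1 / 10 ^ 12)

theorem bigT_bound {N : ℕ} (hN : 10000 ≤ N) (x s : Fin (20 * N) → ℝ)
    (hx : ∀ i, x i ∈ Ioo (-1 : ℝ) 1 ∧ x i ≠ 0) (hs : ∀ j, s j ∈ Ioo (0 : ℝ) 1) :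
    bigT (20 * N) (3 * N) N N (26 * N) (8 * N) (16 * N - 1) x s ≤
      Real.exp (-1.909 * (20 * (N : ℝ)) ^ 2 + 20 * N * errC) := by
  by_cases hinj : Function.Injective x ∧ Function.Injective s
  swap
  · rw [bigT_eq_zero (not_and_or.1 hinj)]; positivity
  obtain ⟨ix, is⟩ := hinj
  obtain ⟨W, hW0, hW, hc⟩ := det_two_le (D := 16 * N - 1) (e := 4 * N + 1) (by omega) hx ix
  refine (bigT_le (by omega) hx hs ix is hW0 hW).trans (Real.exp_le_exp.2 ?_)
  have hN' : (10000 : ℝ) ≤ N := by exact_mod_cast hN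
  have hL := log_two_bd
  have hsq : (0 : ℝ) ≤ (N : ℝ) ^ 2 := sq_nonneg _
  have c2A := fun s hs => certY goodA2 (eqA2 ▸ okA2) (s := s) hs
  have c2B := fun s hs => certY goodB2 (eqB2 ▸ okB2) (s := s) hs
  unfold errC
  rcases hc with hc | ⟨hD, hc⟩
  · have E := energy_le _ _ _ _ (good_omg goodA1) (good_omg goodA2) (good_sum goodA1)
      (good_sum goodA2) (fun x hx h0 => certX goodA1 goodA2 (eqA1 ▸ okA1) hx h0) c2A hx hs ix is
      (A' := ((8 * N : ℕ) : ℝ) + 1) (h' := 2 * N) (H' := ((26 * N : ℕ) : ℝ) + N)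
      (b' := ((3 * N : ℕ) : ℝ)) (q' := N) (by push_cast; linarith) (by push_cast; ring)
      (by push_cast; ring) (by push_cast; ring) (by push_cast; linarith)
    have i1 := certS goodA1 selfA1
    have i2 := certS goodA2 selfA2
    generalize selfE (gam cA1) (omg cA1) = I1 at E i1
    generalize selfE (gam cA2) (omg cA2) = I2 at E i2
    have k : 9 / 5 * Real.log 2 + (-2 * Real.log 2 + I1 + I2 + ((-97765000 : ℤ) : ℝ) / 10 ^ 8 +
        ((-156590653 : ℤ) : ℝ) / 10 ^ 8 + 1 / 10 ^ 6) ≤ -1.909 := by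
      push_cast at i1 i2 ⊢
      norm_num at i1 i2 ⊢
      linarith [hL.1]
    have k2 := mul_le_mul_of_nonneg_left k hsq
    push_cast at E hc k2 ⊢
    nlinarith
  · have E := energy_le _ _ _ _ (good_omg goodB1) (good_omg goodB2) (good_sum goodB1)
      (good_sum goodB2) (fun x hx h0 => certX goodB1 goodB2 (eqB1 ▸ okB1) hx h0) c2B hx hs ix is
      (A' := 4 * N) (h' := 2 * N) (H' := 87 * N)
      (b' := ((3 * N : ℕ) : ℝ)) (q' := N) (by push_cast; linarith) (by push_cast; ring)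
      (by push_cast; ring) (by push_cast; ring) (by push_cast; linarith)
    have i1 := certS goodB1 selfB1
    have i2 := certS goodB2 selfB2
    generalize selfE (gam cB1) (omg cB1) = I1 at E i1
    generalize selfE (gam cB2) (omg cB2) = I2 at E i2
    have k : 9 / 5 * Real.log 2 + (-2 * Real.log 2 + I1 + I2 + ((-181030902 : ℤ) : ℝ) / 10 ^ 8 +
        ((-154362290 : ℤ) : ℝ) / 10 ^ 8 + 1 / 10 ^ 6) + 9 / 20 ≤ -1.909 := by
      push_cast at i1 i2 ⊢
      norm_num at i1 i2 ⊢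
      linarith [hL.1]
    have k2 := mul_le_mul_of_nonneg_left k hsq
    have hx' : ext (((8 * N : ℕ) : ℝ) + 1) (2 * N) (((26 * N : ℕ) : ℝ) + N) ((3 * N : ℕ) : ℝ) N x s =
        ext (4 * N) (2 * N) (87 * N) ((3 * N : ℕ) : ℝ) N x s + (4 * N + 1) * ∑ i, Real.log |x i| +
          60 * N * ∑ i, Real.log (1 + x i ^ 2) := by
      simp only [ext, Finset.sum_add_distrib, Finset.sum_sub_distrib, ← Finset.mul_sum]
      push_cast
      ring
    rw [hx']
    rw [Finset.sum_sub_distrib, ← Finset.mul_sum, Nat.cast_sub (by omega)] at hD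
    simp only [Finset.sum_const, Finset.card_univ, Fintype.card_fin, nsmul_eq_mul, mul_one] at hD
    have hD2 := mul_le_mul_of_nonneg_left hD (show (0 : ℝ) ≤ 45 * N by positivity)
    push_cast at E hc k2 hD2 ⊢
    nlinarith

theorem real_upper :
    ∀ᶠ N : ℕ in atTop, |DeltaV N| ≤ Real.exp (-1.9088 * (20 * (N : ℝ)) ^ 2) := by
  obtain ⟨M, hM⟩ := exists_nat_ge (250 * (errC + 1))
  filter_upwards [eventually_ge_atTop 10000, eventually_ge_atTop M] with N hN hNM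
  refine (abs_DeltaV_le (by omega) _ (bigT_bound hN)).trans ?_
  have h2 : (2 : ℝ) ^ (20 * N) ≤ Real.exp (20 * N) := by
    have : (2 : ℝ) ≤ Real.exp 1 := by linarith [Real.add_one_le_exp (1 : ℝ)]
    calc (2 : ℝ) ^ (20 * N) ≤ Real.exp 1 ^ (20 * N) := by gcongr
      _ = _ := by rw [← Real.exp_nat_mul]; push_cast; ring_nf
  refine (mul_le_mul_of_nonneg_left h2 (Real.exp_pos _).le).trans ?_
  rw [← Real.exp_add, Real.exp_le_exp]
  have hM' : 250 * (errC + 1) ≤ (N : ℝ) := hM.trans (by exact_mod_cast hNM)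
  have := mul_le_mul_of_nonneg_left hM' (Nat.cast_nonneg (α := ℝ) N)
  nlinarith

end Vale.Agent.P030
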