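import Vale.Agent.P030.ArBase
import Vale.Agent.Lib.PNT

/-! Asymptotics of the denominator exponents. -/

open Polynomial Finset Filter Topology

namespace Vale.Agent.P030.Ar

/-- Summatory function of the Chebyshev function. -/
noncomputable def asymA (y : ℕ) : ℝ := ∑ m ∈ range y, _root_.Chebyshev.theta m

theorem asym_theta {B y : ℕ} (h : y < B) :
    ∑ p ∈ (range B).filter Nat.Prime, (if p ≤ y then Real.log p else 0) =
      _root_.Chebyshev.theta y := by
  rw [_root_.Chebyshev.theta_eq_sum_Icc, Nat.floor_natCast, ← sum_filter]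
  refine sum_congr ?_ fun _ _ => rfl
  ext p
  simp only [mem_filter, mem_range, mem_Icc]
  constructor
  · rintro ⟨⟨-, h2⟩, h3⟩
    exact ⟨⟨Nat.zero_le _, h3⟩, h2⟩
  · rintro ⟨⟨-, h2⟩, h3⟩
    exact ⟨⟨by omega, h3⟩, h2⟩

theorem asym_sum {B y : ℕ} (h : y ≤ B) :
    ∑ p ∈ (range B).filter Nat.Prime, ((y - p : ℕ) : ℝ) * Real.log p = asymA y := by
  induction y with
  | zero => simp [asymA]
  | succ y ih =>
    rw [asymA, sum_range_succ, ← asymA, ← ih (by omega), ← asym_theta (B := B) (by omega),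
      ← sum_add_distrib]
    refine sum_congr rfl fun p _ => ?_
    split_ifs with hp
    · rw [show y + 1 - p = y - p + 1 by omega]
      push_cast
      ring
    · rw [show y + 1 - p = y - p by omega, add_zero]

theorem asym_theta_lim :
    Tendsto (fun m : ℕ => _root_.Chebyshev.theta m / m) atTop (𝓝 1) :=
  Lib.PNT.theta_asymp.comp tendsto_natCast_atTop_atTop

theorem asym_gauss (y : ℕ) : ∑ m ∈ range y, (m : ℝ) = y * (y - 1) / 2 := by
  induction y with
  | zero => simp
  | succ y ih =>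
    rw [sum_range_succ, ih]
    push_cast
    ring

theorem asym_A : Tendsto (fun y : ℕ => asymA y / (y : ℝ) ^ 2) atTop (𝓝 (1 / 2)) := by
  have h1 : (fun m : ℕ => _root_.Chebyshev.theta m - m) =o[atTop] fun m : ℕ => (m : ℝ) := by
    refine (Asymptotics.isLittleO_iff_tendsto' ?_).2 ?_
    · filter_upwards [eventually_gt_atTop 0] with m hm h
      exact absurd (by exact_mod_cast h) hm.ne'
    · refine (show Tendsto (fun m : ℕ => _root_.Chebyshev.theta m / m - 1) atTop (𝓝 0) by
        simpa using asym_theta_lim.sub_const 1).congr' ?_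
      filter_upwards [eventually_gt_atTop 0] with m hm
      have : (m : ℝ) ≠ 0 := by positivity
      field_simp
  have h0 : Tendsto (fun y : ℕ => (∑ m ∈ range y, (m : ℝ)) / (y : ℝ) ^ 2) atTop (𝓝 (1 / 2)) := by
    refine (show Tendsto (fun y : ℕ => (1 - (y : ℝ)⁻¹) / 2) atTop (𝓝 (1 / 2)) by
      simpa using (tendsto_inv_atTop_nhds_zero_nat.const_sub (1 : ℝ)).div_const 2).congr' ?_
    filter_upwards [eventually_gt_atTop 0] with m hm
    have : (m : ℝ) ≠ 0 := by positivity
    rw [asym_gauss]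
    field_simp
  have h2 := h1.sum_range (fun m => Nat.cast_nonneg m) (by
    refine tendsto_atTop_mono' _ ?_ (tendsto_natCast_atTop_atTop (R := ℝ))
    filter_upwards [eventually_ge_atTop 3] with m hm
    have : (3 : ℝ) ≤ m := by exact_mod_cast hm
    rw [asym_gauss]
    nlinarith)
  have h3 := (h2.trans_isBigO (Asymptotics.isBigO_of_div_tendsto_nhds (by
    filter_upwards [eventually_gt_atTop 0] with m hm h
    exact absurd h (by positivity)) _ h0)).tendsto_div_nhds_zero
  have h4 := h3.add h0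
  rw [zero_add] at h4
  refine h4.congr fun y => ?_
  rw [← add_div, sum_sub_distrib, sub_add_cancel, asymA]

theorem asym_comp {y : ℕ → ℕ} {c : ℝ} (hc : 0 < c)
    (h : Tendsto (fun N : ℕ => (y N : ℝ) / N) atTop (𝓝 c)) :
    Tendsto y atTop atTop ∧
      Tendsto (fun N : ℕ => asymA (y N) / (N : ℝ) ^ 2) atTop (𝓝 (c ^ 2 / 2)) := by
  have h1 : Tendsto y atTop atTop := by
    rw [← tendsto_natCast_atTop_iff (R := ℝ)]
    refine (h.pos_mul_atTop hc tendsto_natCast_atTop_atTop).congr' ?_
    filter_upwards [eventually_gt_atTop 0] with m hm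
    have : (m : ℝ) ≠ 0 := by positivity
    field_simp
  refine ⟨h1, ?_⟩
  have h2 := (asym_A.comp h1).mul (h.pow 2)
  rw [show 1 / 2 * c ^ 2 = c ^ 2 / 2 by ring] at h2
  refine h2.congr' ?_
  filter_upwards [eventually_gt_atTop 0, h1.eventually_gt_atTop 0] with m hm hy
  have : (m : ℝ) ≠ 0 := by positivity
  have : (y m : ℝ) ≠ 0 := by positivity
  simp only [Function.comp]
  field_simp

theorem asym_near {y : ℕ → ℕ} {c : ℝ} (h : ∀ N, |(y N : ℝ) - c * N| ≤ 2) :
    Tendsto (fun N : ℕ => (y N : ℝ) / N) atTop (𝓝 c) := by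
  have h1 : Tendsto (fun N : ℕ => ((y N : ℝ) - c * N) / N) atTop (𝓝 0) := by
    refine squeeze_zero_norm (fun N => ?_) (tendsto_const_div_atTop_nhds_zero_nat 2)
    rw [Real.norm_eq_abs, abs_div, Nat.abs_cast]
    exact div_le_div_of_nonneg_right (h N) (Nat.cast_nonneg N)
  have h2 := h1.add_const c
  rw [zero_add] at h2
  refine h2.congr' ?_
  filter_upwards [eventually_gt_atTop 0] with m hm
  have : (m : ℝ) ≠ 0 := by positivity
  field_simp
  ring

theorem asym_mul (c : ℕ) (hc : 0 < c) :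
    Tendsto (fun N : ℕ => asymA (c * N) / (N : ℝ) ^ 2) atTop (𝓝 ((c : ℝ) ^ 2 / 2)) :=
  (asym_comp (by exact_mod_cast hc) (asym_near fun N => by simp)).2

theorem asym_half :
    Tendsto (fun N : ℕ => asymA (27 * N / 2) / (N : ℝ) ^ 2) atTop (𝓝 ((27 / 2 : ℝ) ^ 2 / 2)) := by
  refine (asym_comp (by norm_num) (asym_near fun N => ?_)).2
  have h1 : ((2 * (27 * N / 2) : ℕ) : ℝ) ≤ (27 * N : ℕ) := by exact_mod_cast (by omega)
  have h2 : ((27 * N : ℕ) : ℝ) ≤ (2 * (27 * N / 2) + 1 : ℕ) := by exact_mod_cast (by omega)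
  push_cast at h1 h2
  rw [abs_le]
  constructor <;> linarith

theorem asym_th :
    Tendsto (fun N : ℕ => _root_.Chebyshev.theta (27 * N + 1 : ℕ) / (N : ℝ) ^ 2) atTop (𝓝 0) := by
  have h : Tendsto (fun N : ℕ => ((27 * N + 1 : ℕ) : ℝ) / N) atTop (𝓝 27) :=
    asym_near fun N => by push_cast; norm_num
  have h2 := ((asym_theta_lim.comp (asym_comp (by norm_num) h).1).mul h).mul
    (tendsto_inv_atTop_nhds_zero_nat (𝕜 := ℝ))
  rw [mul_zero] at h2
  refine h2.congr fun m => ?_
  simp only [Function.comp]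
  have : ((27 * m + 1 : ℕ) : ℝ) ≠ 0 := by positivity
  field_simp

theorem asym_small : Tendsto (fun N : ℕ => ((Nat.sqrt (27 * N + 1) + 2 : ℕ) : ℝ) *
    (80 * N * Real.log (27 * N + 1 : ℕ)) / (N : ℝ) ^ 2) atTop (𝓝 0) := by
  have h : Tendsto (fun N : ℕ => ((27 * N + 1 : ℕ) : ℝ) / N) atTop (𝓝 27) :=
    asym_near fun N => by push_cast; norm_num
  have h1 := (isLittleO_log_rpow_atTop (show (0 : ℝ) < 1 / 2 by norm_num)).tendsto_div_nhds_zero.comp
    (tendsto_natCast_atTop_atTop.comp (asym_comp (by norm_num) h).1)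
  have h2 := (h1.mul h).const_mul 240
  rw [zero_mul, mul_zero] at h2
  refine squeeze_zero' (Eventually.of_forall fun N => ?_) ?_ h2
  · have := Real.log_natCast_nonneg (27 * N + 1)
    positivity
  · filter_upwards [eventually_gt_atTop 0] with N hN
    simp only [Function.comp]
    set x : ℝ := ((27 * N + 1 : ℕ) : ℝ) with hx
    have hx1 : 1 ≤ x := by rw [hx]; exact_mod_cast (by omega)
    have hl := Real.log_nonneg hx1
    have hs : 1 ≤ √x := Real.one_le_sqrt.2 hx1
    have h3 : ((Nat.sqrt (27 * N + 1) + 2 : ℕ) : ℝ) ≤ 3 * √x := by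
      have := Real.nat_sqrt_le_real_sqrt (a := 27 * N + 1)
      push_cast
      linarith
    have hN' : (0 : ℝ) < N := by positivity
    rw [← Real.sqrt_eq_rpow]
    refine (div_le_div_of_nonneg_right (mul_le_mul_of_nonneg_right h3 (by positivity))
      (by positivity)).trans (le_of_eq ?_)
    conv_rhs => enter [2, 2, 1]; rw [← Real.mul_self_sqrt (zero_le_one.trans hx1)]
    field_simp
    ring

theorem asym_pt (N p : ℕ) (hp : p.Prime) : (beta N p : ℝ) * Real.log p ≤
    ((27 * N - p : ℕ) : ℝ) * Real.log p + 2 * (((24 * N - p : ℕ) : ℝ) * Real.log p) +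
      ((16 * N - p : ℕ) : ℝ) * Real.log p + 2 * (((12 * N - p : ℕ) : ℝ) * Real.log p) -
      2 * (((14 * N - p : ℕ) : ℝ) * Real.log p) - 2 * (((27 * N / 2 - p : ℕ) : ℝ) * Real.log p) -
      2 * (((10 * N - p : ℕ) : ℝ) * Real.log p) + 3 * (if p ≤ 27 * N + 1 then Real.log p else 0) +
      if p < Nat.sqrt (27 * N + 1) + 2 then 80 * N * Real.log (27 * N + 1 : ℕ) else 0 := by
  have hl := Real.log_natCast_nonneg p
  have hL : 0 ≤ 80 * N * Real.log (27 * N + 1 : ℕ) := by
    have := Real.log_natCast_nonneg (27 * N + 1)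
    positivity
  by_cases h : p ^ 2 ≤ 27 * N + 2 * p
  · have h1 : p < Nat.sqrt (27 * N + 1) + 2 := by
      have h2 := hp.two_le
      obtain ⟨q, rfl⟩ : ∃ q, p = q + 1 := ⟨p - 1, by omega⟩
      have : q ≤ Nat.sqrt (27 * N + 1) := Nat.le_sqrt'.2 (by nlinarith)
      omega
    have h2 : 2 * (14 * N - p) + 2 * (27 * N / 2 - p) + 2 * (10 * N - p) ≤
        (27 * N - p) + 2 * (24 * N - p) + (16 * N - p) + 2 * (12 * N - p) := by omega
    have h3 := mul_le_mul_of_nonneg_right (Nat.cast_le (α := ℝ).2 h2) hl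
    have h4 : (Nat.log p (27 * N + 1) : ℝ) * Real.log p ≤ Real.log (27 * N + 1 : ℕ) := by
      rw [← Real.log_pow]
      refine Real.log_le_log (by have := hp.pos; positivity) ?_
      exact_mod_cast Nat.pow_log_le_self p (by omega)
    have h5 : 0 ≤ if p ≤ 27 * N + 1 then Real.log p else 0 := by split_ifs <;> simp [hl]
    have h6 := mul_le_mul_of_nonneg_left h4 (show (0 : ℝ) ≤ 80 * N by positivity)
    rw [if_pos h1, beta, if_pos h]
    generalize Real.log (27 * N + 1 : ℕ) = Lg at h6 ⊢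
    generalize (if p ≤ 27 * N + 1 then Real.log p else 0) = t at h5 ⊢
    simp only [Nat.cast_add, Nat.cast_mul, Nat.cast_ofNat] at h3 h6 ⊢
    linarith
  · have h2 : beta N p + 2 * (14 * N - p) + 2 * (27 * N / 2 - p) + 2 * (10 * N - p) ≤
        (27 * N - p) + 2 * (24 * N - p) + (16 * N - p) + 2 * (12 * N - p) +
          3 * if p ≤ 27 * N + 1 then 1 else 0 := by
      rw [beta, if_neg h]
      unfold betaA betaB
      split_ifs <;> omega
    have h3 := mul_le_mul_of_nonneg_right (Nat.cast_le (α := ℝ).2 h2) hl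
    have h5 : 0 ≤ if p < Nat.sqrt (27 * N + 1) + 2 then 80 * N * Real.log (27 * N + 1 : ℕ)
      else 0 := by split_ifs <;> simp only [hL, le_refl]
    simp only [Nat.cast_add (R := ℝ) _ (3 * _), Nat.cast_add (R := ℝ) _ (2 * _),
      Nat.cast_add (R := ℝ) _ (16 * N - p), Nat.cast_mul (α := ℝ) 2, Nat.cast_mul (α := ℝ) 3,
      Nat.cast_ofNat, Nat.cast_ite, Nat.cast_one, Nat.cast_zero] at h3
    split_ifs at h3 h5 ⊢ <;> linarith

theorem asym : AsymSt := by
  intro ε hε
  have h := (((((((((asym_mul 27 (by norm_num)).add ((asym_mul 24 (by norm_num)).const_mul 2)).add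
    (asym_mul 16 (by norm_num))).add ((asym_mul 12 (by norm_num)).const_mul 2)).sub
    ((asym_mul 14 (by norm_num)).const_mul 2)).sub (asym_half.const_mul 2)).sub
    ((asym_mul 10 (by norm_num)).const_mul 2)).add (asym_th.const_mul 3)).add asym_small).eventually
    (gt_mem_nhds (a := 734.25 + ε) (by norm_num; linarith))
  filter_upwards [h, eventually_gt_atTop 0] with N h hN
  refine (sum_le_sum fun p hp => asym_pt N p (mem_filter.1 hp).2).trans ?_
  simp only [sum_add_distrib, sum_sub_distrib, ← mul_sum]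
  rw [asym_sum (by omega), asym_sum (by omega), asym_sum (by omega), asym_sum (by omega),
    asym_sum (by omega), asym_sum (by omega), asym_sum (by omega), asym_theta (by omega),
    ← sum_filter, sum_const, nsmul_eq_mul]
  have h1 : (((range (27 * N + 2)).filter Nat.Prime).filter
      (· < Nat.sqrt (27 * N + 1) + 2)).card ≤ Nat.sqrt (27 * N + 1) + 2 := by
    refine (card_le_card fun p hp => mem_range.2 (mem_filter.1 hp).2).trans (card_range _).le
  have hL : 0 ≤ 80 * N * Real.log (27 * N + 1 : ℕ) := by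
    have := Real.log_natCast_nonneg (27 * N + 1)
    positivity
  have h2 := mul_le_mul_of_nonneg_right (Nat.cast_le (α := ℝ).2 h1) hL
  simp only [← mul_div_assoc, ← add_div, ← sub_div] at h
  rw [div_lt_iff₀ (by positivity)] at h
  linarith

end Vale.Agent.P030.Ar
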