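import Vale.Agent.P030.ArDefs

/-! Basic calculus of `In` and `Rd`, closed forms of the boundary tables, supports. -/

open Polynomial Finset

namespace Vale.Agent.P030.Ar

section InRd

variable {p : ℕ}

/-- The ring of `p`-integral rationals. -/
def Zp (hp : p.Prime) : Subring ℚ where
  carrier := {x | In p x}
  mul_mem' := by
    intro x y hx hy h
    rcases (Nat.Prime.dvd_mul hp).1 (h.trans (Rat.mul_den_dvd x y)) with h | h
    exacts [hx h, hy h]
  one_mem' := by simpa [In] using hp.one_lt.ne'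
  add_mem' := by
    intro x y hx hy h
    rcases (Nat.Prime.dvd_mul hp).1 (h.trans (Rat.add_den_dvd x y)) with h | h
    exacts [hx h, hy h]
  zero_mem' := by simpa [In] using hp.one_lt.ne'
  neg_mem' := by intro x hx; simpa [In] using hx

theorem In.add (hp : p.Prime) {x y : ℚ} (hx : In p x) (hy : In p y) : In p (x + y) :=
  (Zp hp).add_mem hx hy

theorem In.sub (hp : p.Prime) {x y : ℚ} (hx : In p x) (hy : In p y) : In p (x - y) :=
  (Zp hp).sub_mem hx hy

theorem In.mul (hp : p.Prime) {x y : ℚ} (hx : In p x) (hy : In p y) : In p (x * y) :=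
  (Zp hp).mul_mem hx hy

theorem In.neg {x : ℚ} (hx : In p x) : In p (-x) := by simpa [In] using hx

theorem In.pow (hp : p.Prime) {x : ℚ} (hx : In p x) (k : ℕ) : In p (x ^ k) :=
  (Zp hp).pow_mem hx k

theorem In.sum (hp : p.Prime) {ι : Type*} {s : Finset ι} {f : ι → ℚ} (h : ∀ i ∈ s, In p (f i)) :
    In p (∑ i ∈ s, f i) := (Zp hp).sum_mem h

theorem In.prod (hp : p.Prime) {ι : Type*} {s : Finset ι} {f : ι → ℚ} (h : ∀ i ∈ s, In p (f i)) :
    In p (∏ i ∈ s, f i) := (Zp hp).prod_mem h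

theorem in_intCast (hp : p.Prime) (z : ℤ) : In p z := by simpa [In] using hp.one_lt.ne'

theorem in_natCast (hp : p.Prime) (z : ℕ) : In p z := by simpa [In] using hp.one_lt.ne'

theorem in_zero (hp : p.Prime) : In p 0 := (Zp hp).zero_mem

theorem in_one (hp : p.Prime) : In p 1 := (Zp hp).one_mem

theorem in_inv_nat (hp : p.Prime) {m : ℕ} (h : ¬ p ∣ m) : In p (m : ℚ)⁻¹ := by
  rcases Nat.eq_zero_or_pos m with rfl | hm
  · simpa using in_zero hp
  · simpa [In, Rat.inv_natCast_den_of_pos hm] using h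

/-- `p^k / m` is `p`-integral when `0 < m < p^(k+1)`. -/
theorem in_pow_div (hp : p.Prime) {m k : ℕ} (hm : m ≠ 0) (h : m.factorization p ≤ k) :
    In p ((p : ℚ) ^ k * (m : ℚ)⁻¹) := by
  obtain ⟨c, rfl⟩ := Nat.exists_eq_add_of_le h
  have h1 : (m : ℚ) = (p : ℚ) ^ m.factorization p * ((m / p ^ m.factorization p : ℕ) : ℚ) := by
    exact_mod_cast (Nat.ordProj_mul_ordCompl_eq_self m p).symm
  have hp0 : (p : ℚ) ≠ 0 := by exact_mod_cast hp.ne_zero
  have : (p : ℚ) ^ (m.factorization p + c) * (m : ℚ)⁻¹ =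
      (p : ℚ) ^ c * ((m / p ^ m.factorization p : ℕ) : ℚ)⁻¹ := by
    conv_lhs => rw [pow_add]; enter [2]; rw [h1]
    field_simp
  rw [this]
  exact ((in_natCast hp p).pow hp c).mul hp (in_inv_nat hp (Nat.not_dvd_ordCompl hp hm))

theorem In.det (hp : p.Prime) {ι : Type*} [Fintype ι] [DecidableEq ι] {A : Matrix ι ι ℚ}
    (h : ∀ i j, In p (A i j)) : In p A.det := by
  rw [Matrix.det_apply']
  exact In.sum hp fun σ _ => (in_intCast hp _).mul hp (In.prod hp fun i _ => h _ _)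

theorem In.mono (hp : p.Prime) {x : ℚ} {k l : ℕ} (h : In p ((p : ℚ) ^ k * x)) (hkl : k ≤ l) :
    In p ((p : ℚ) ^ l * x) := by
  obtain ⟨c, rfl⟩ := Nat.exists_eq_add_of_le hkl
  rw [add_comm, pow_add, mul_assoc]
  exact ((in_natCast hp p).pow hp c).mul hp h

/-- Schur complement form of a valuation bound. -/
theorem in_det_schur (hp : p.Prime) {ι κ : Type*} [Fintype ι] [DecidableEq ι] [Fintype κ]
    [DecidableEq κ] (Y : Matrix ι ι ℚ) (R : Matrix ι κ ℚ) (C : Matrix κ ι ℚ) (D : Matrix κ κ ℚ)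
    (hD : D.det ≠ 0) (hY : ∀ i j, In p (Y i j)) (hR : ∀ i j, In p (R i j))
    (hC : ∀ i j, In p (C i j)) (hD' : ∀ i j, In p (D i j)) :
    In p (D.det * (Y + R * D⁻¹ * C).det) := by
  letI := Matrix.invertibleOfIsUnitDet D (isUnit_iff_ne_zero.2 hD)
  have h := Matrix.det_fromBlocks₂₂ Y R (-C) D
  rw [Matrix.invOf_eq_nonsing_inv, Matrix.mul_neg, sub_neg_eq_add] at h
  rw [← h]
  refine In.det hp ?_
  rintro (i | i) (j | j)
  exacts [hY i j, hR i j, (hC i j).neg, hD' i j]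

variable [hp : Fact p.Prime]

theorem In.den_ne {x : ℚ} (h : In p x) : ((x.den : ℕ) : ZMod p) ≠ 0 := by
  rwa [Ne, ZMod.natCast_eq_zero_iff]

theorem In.rd {x : ℚ} (h : In p x) : Rd p x (x : ZMod p) := ⟨h, rfl⟩

theorem Rd.congr {x y : ℚ} {a b : ZMod p} (h : Rd p x a) (h1 : x = y) (h2 : a = b) : Rd p y b :=
  h1 ▸ h2 ▸ h

theorem Rd.add {x y : ℚ} {a b : ZMod p} (hx : Rd p x a) (hy : Rd p y b) : Rd p (x + y) (a + b) :=
  ⟨hx.1.add hp.out hy.1, by rw [Rat.cast_add_of_ne_zero hx.1.den_ne hy.1.den_ne, hx.2, hy.2]⟩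

theorem Rd.mul {x y : ℚ} {a b : ZMod p} (hx : Rd p x a) (hy : Rd p y b) : Rd p (x * y) (a * b) :=
  ⟨hx.1.mul hp.out hy.1, by rw [Rat.cast_mul_of_ne_zero hx.1.den_ne hy.1.den_ne, hx.2, hy.2]⟩

theorem Rd.neg {x : ℚ} {a : ZMod p} (hx : Rd p x a) : Rd p (-x) (-a) :=
  ⟨hx.1.neg, by rw [Rat.cast_neg, hx.2]⟩

theorem Rd.sub {x y : ℚ} {a b : ZMod p} (hx : Rd p x a) (hy : Rd p y b) :
    Rd p (x - y) (a - b) := by
  rw [sub_eq_add_neg, sub_eq_add_neg]; exact hx.add hy.neg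

theorem rd_intCast (z : ℤ) : Rd p z z := ⟨in_intCast hp.out z, by simp⟩

theorem rd_natCast (z : ℕ) : Rd p z z := ⟨in_natCast hp.out z, by simp⟩

theorem rd_zero : Rd p 0 0 := by simpa using rd_natCast (p := p) 0

theorem rd_one : Rd p 1 1 := by simpa using rd_natCast (p := p) 1

theorem rd_two : Rd p 2 2 := by simpa using rd_natCast (p := p) 2

theorem rd_p : Rd p p 0 := by simpa using rd_natCast (p := p) p

theorem Rd.sum {ι : Type*} {s : Finset ι} {f : ι → ℚ} {g : ι → ZMod p}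
    (h : ∀ i ∈ s, Rd p (f i) (g i)) : Rd p (∑ i ∈ s, f i) (∑ i ∈ s, g i) := by
  classical
  induction s using Finset.induction_on with
  | empty => simpa using rd_zero
  | insert a s ha ih =>
    rw [sum_insert ha, sum_insert ha]
    exact (h a (mem_insert_self _ _)).add (ih fun i hi => h i (mem_insert_of_mem hi))

theorem Rd.prod {ι : Type*} {s : Finset ι} {f : ι → ℚ} {g : ι → ZMod p}
    (h : ∀ i ∈ s, Rd p (f i) (g i)) : Rd p (∏ i ∈ s, f i) (∏ i ∈ s, g i) := by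
  classical
  induction s using Finset.induction_on with
  | empty => simpa using rd_one
  | insert a s ha ih =>
    rw [prod_insert ha, prod_insert ha]
    exact (h a (mem_insert_self _ _)).mul (ih fun i hi => h i (mem_insert_of_mem hi))

theorem Rd.pow {x : ℚ} {a : ZMod p} (hx : Rd p x a) (k : ℕ) : Rd p (x ^ k) (a ^ k) := by
  induction k with
  | zero => simpa using rd_one
  | succ k ih => rw [pow_succ, pow_succ]; exact ih.mul hx

theorem Rd.ne_zero {x : ℚ} {a : ZMod p} (hx : Rd p x a) (ha : a ≠ 0) : x ≠ 0 := by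
  rintro rfl
  exact ha (by simpa using hx.2.symm)

theorem Rd.num_ne {x : ℚ} {a : ZMod p} (hx : Rd p x a) (ha : a ≠ 0) :
    ((x.num : ℤ) : ZMod p) ≠ 0 := by
  intro h
  apply ha
  rw [← hx.2, Rat.cast_def, h, zero_div]

theorem Rd.inv {x : ℚ} {a : ZMod p} (hx : Rd p x a) (ha : a ≠ 0) : Rd p x⁻¹ a⁻¹ := by
  have h1 := hx.num_ne ha
  refine ⟨?_, by rw [Rat.cast_inv_of_ne_zero h1, hx.2]⟩
  intro h
  rw [Rat.den_inv_of_ne_zero (hx.ne_zero ha)] at h
  exact h1 ((ZMod.intCast_zmod_eq_zero_iff_dvd _ _).2 (Int.natCast_dvd.2 h))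

theorem Rd.div {x y : ℚ} {a b : ZMod p} (hx : Rd p x a) (hy : Rd p y b) (hb : b ≠ 0) :
    Rd p (x / y) (a / b) := by
  rw [div_eq_mul_inv, div_eq_mul_inv]; exact hx.mul (hy.inv hb)

theorem In.rd_p_mul {x : ℚ} (hx : In p x) : Rd p (p * x) 0 := by
  simpa using rd_p.mul hx.rd

/-- A `p`-integral rational with residue `0` is divisible by `p`. -/
theorem Rd.in_div {x : ℚ} (hx : Rd p x 0) : In p (x / p) := by
  have h0 : ((x.num : ℤ) : ZMod p) = 0 := by
    have := hx.2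
    rw [Rat.cast_def, div_eq_zero_iff] at this
    exact this.resolve_right hx.1.den_ne
  obtain ⟨c, hc⟩ := (ZMod.intCast_zmod_eq_zero_iff_dvd _ _).1 h0
  have hp0 : (p : ℚ) ≠ 0 := by exact_mod_cast hp.out.ne_zero
  have : x / p = (c : ℚ) * (x.den : ℚ)⁻¹ := by
    conv_lhs => rw [← Rat.num_div_den x, hc]
    push_cast
    field_simp
  rw [this]
  exact (in_intCast hp.out c).mul hp.out (in_inv_nat hp.out hx.1)

theorem Rd.det {ι : Type*} [Fintype ι] [DecidableEq ι] {A : Matrix ι ι ℚ}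
    {B : Matrix ι ι (ZMod p)} (h : ∀ i j, Rd p (A i j) (B i j)) : Rd p A.det B.det := by
  rw [Matrix.det_apply', Matrix.det_apply']
  exact Rd.sum fun σ _ => (rd_intCast _).mul (Rd.prod fun i _ => h _ _)

theorem cast_ne_zero_of_lt {m : ℕ} (h0 : m ≠ 0) (h : m < p) : (m : ZMod p) ≠ 0 := by
  rw [Ne, ZMod.natCast_eq_zero_iff]
  exact Nat.not_dvd_of_pos_of_lt (Nat.pos_of_ne_zero h0) h

end InRd

theorem cb_pos (l : ℕ) : 0 < cb l := by
  have := Nat.centralBinom_pos l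
  unfold cb; positivity

theorem cb_zero : cb 0 = 1 := by simp [cb]

theorem cb_succ (l : ℕ) : cb (l + 1) = cb l * (2 * l + 1) / (2 * l + 2) := by
  have h : ((l : ℚ) + 1) * (Nat.centralBinom (l + 1) : ℚ) = 2 * (2 * l + 1) * Nat.centralBinom l := by
    exact_mod_cast Nat.succ_mul_centralBinom_succ l
  unfold cb
  have h1 : (Nat.centralBinom (l + 1) : ℚ) = 2 * (2 * l + 1) * Nat.centralBinom l / (l + 1) := by
    rw [← h]; field_simp
  rw [h1]; field_simp; ring

theorem mu_even (l : ℕ) : mu (2 * l) = 2 / ((2 * l + 1) * cb l) := by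
  simp [mu]

theorem mu_odd (l : ℕ) : mu (2 * l + 1) = 0 := by
  simp [mu]

theorem mu_zero : mu 0 = 2 := by simp [mu, cb]

theorem mu_succ (l : ℕ) : mu (2 * (l + 1)) = mu (2 * l) * (2 * l + 2) / (2 * l + 3) := by
  have := (cb_pos l).ne'
  rw [mu_even, mu_even, cb_succ]; push_cast; field_simp; ring

theorem T0_even (e : ℕ) : T0 (2 * e) = cb e * ∑ l ∈ range e, mu (2 * l) ^ 2 / 2 := by
  induction e with
  | zero => simp [T0]
  | succ e ih =>
    have h := (cb_pos e).ne'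
    rw [show 2 * (e + 1) = 2 * e + 2 by ring, T0, ih, sum_range_succ, cb_succ,
      show (2 * e + 1) / 2 = e by omega, mu_even e]
    push_cast; field_simp

theorem T0_odd (e : ℕ) :
    T0 (2 * e + 1) = mu (2 * e) * ∑ k ∈ range (e + 1), 1 / (2 * (k : ℚ) + 1) := by
  induction e with
  | zero => simp [T0, mu_zero]
  | succ e ih =>
    rw [show 2 * (e + 1) + 1 = (2 * e + 1) + 2 by ring, T0, ih, sum_range_succ _ (e + 1),
      show (2 * e + 1 + 1) / 2 = e + 1 by omega, mu_succ]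
    push_cast; field_simp; ring

theorem S0_even (l : ℕ) :
    S0 (2 * l + 2) = mu (2 * l) * ∑ k ∈ range (l + 1), cb k / (2 * (k : ℚ) + 1) := by
  induction l with
  | zero => simp [S0, mu_zero, cb_zero]
  | succ l ih =>
    have h := (cb_pos (l + 1)).ne'
    have h2 : mu (2 * (l + 1)) * (cb (l + 1) / (2 * ((l + 1 : ℕ) : ℚ) + 1)) =
        2 / (2 * (l : ℚ) + 3) ^ 2 := by
      rw [mu_even]; push_cast; field_simp; ring
    rw [show 2 * (l + 1) + 2 = (2 * l + 2) + 2 by ring, S0, ih, sum_range_succ _ (l + 1), mul_add,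
      h2, mu_succ]
    push_cast; field_simp; ring

theorem S0_odd (l : ℕ) :
    S0 (2 * l + 1) = cb l * ∑ k ∈ range l, mu (2 * k) / (2 * (k : ℚ) + 2) := by
  induction l with
  | zero => simp [S0]
  | succ l ih =>
    have h := (cb_pos l).ne'
    rw [show 2 * (l + 1) + 1 = (2 * l + 1) + 2 by ring, S0, ih, sum_range_succ, cb_succ, mu_even l]
    push_cast; field_simp; ring

theorem M0_zero_left (j : ℕ) : M0 0 j = S0 j := by
  cases j <;> simp [M0, T0, S0]

theorem M0_zero_right (i : ℕ) : M0 i 0 = T0 i := by simp [M0]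

theorem M0_succ (i j : ℕ) : M0 (i + 1) (j + 1) = M0 i j - mu i / ((j : ℚ) + 1) := by simp [M0]

theorem Z0_zero_left (j : ℕ) : Z0 0 j = harmonic j / j := by
  cases j <;> simp [Z0]

theorem Z0_zero_right (i : ℕ) : Z0 i 0 = harmonic i / i := by simp [Z0]

theorem Z0_succ (i j : ℕ) :
    Z0 (i + 1) (j + 1) = Z0 i j - 1 / (((i : ℚ) + 1) * ((j : ℚ) + 1)) := by simp [Z0]

/-- Induction along diagonals. -/
theorem diag_induction {P : ℕ → ℕ → Prop} (h0 : ∀ i, P i 0) (h1 : ∀ j, P 0 j)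
    (hs : ∀ i j, P i j → P (i + 1) (j + 1)) : ∀ i j, P i j
  | i, 0 => h0 i
  | 0, j => h1 j
  | i + 1, j + 1 => hs i j (diag_induction h0 h1 hs i j)

theorem natDegree_rowPy {N : ℕ} {d : ℤ} (h1 : -(2 * N : ℤ) ≤ d) (h2 : d < 18 * N) :
    (rowPy N d).natDegree ≤ 19 * N := by
  by_cases hd : d = 0
  · simp [rowPy, hd, Chebyshev.U_neg_one]
  have hU : (Chebyshev.U ℤ (d - 1)).natDegree = d.natAbs - 1 := by
    rw [Chebyshev.natDegree_U]; congr 2; ring
  have ha : ((X - 1 : ℤ[X]) ^ N).natDegree ≤ N := by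
    refine natDegree_pow_le.trans ?_
    have : (X - 1 : ℤ[X]).natDegree ≤ 1 := by compute_degree
    nlinarith
  have hb : (X ^ 2 - 1 : ℤ[X]).natDegree ≤ 2 := by compute_degree
  unfold rowPy
  refine natDegree_mul_le.trans ?_
  have := natDegree_mul_le (p := ((X - 1 : ℤ[X]) ^ N)) (q := (X ^ 2 - 1 : ℤ[X]))
  omega

theorem natDegree_rowDy {N : ℕ} {d : ℤ} (h1 : -(2 * N : ℤ) ≤ d) (h2 : d < 18 * N) :
    (rowDy N d).natDegree < 19 * N := by
  have ha : ((X - 1 : ℤ[X]) ^ N).natDegree ≤ N := by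
    refine natDegree_pow_le.trans ?_
    have : (X - 1 : ℤ[X]).natDegree ≤ 1 := by compute_degree
    nlinarith
  unfold rowDy
  refine natDegree_mul_le.trans_lt ?_
  rw [Chebyshev.natDegree_T]
  omega

theorem colS_coeff_eq_zero {N k j : ℕ} (h : j < 3 * N + k ∨ 4 * N + k < j) :
    (colS N k).coeff j = 0 := by
  unfold colS
  rw [coeff_X_pow_mul']
  split_ifs with h1
  · apply coeff_eq_zero_of_natDegree_lt
    have : (1 - X : ℤ[X]).natDegree ≤ 1 := by compute_degree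
    have h2 : ((1 - X : ℤ[X]) ^ N).natDegree ≤ N :=
      natDegree_pow_le.trans (by nlinarith)
    omega
  · rfl

end Vale.Agent.P030.Ar
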