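import Vale.Agent.P030.ArBase

/-! The real moments in terms of the rational tables. -/

open Polynomial Finset Filter Topology

namespace Vale.Agent.P030.Ar

theorem closed_mu_nonneg (u : ℕ) : (0 : ℝ) ≤ mu u := by
  have := cb_pos (u / 2)
  have h : 0 ≤ mu u := by unfold mu; split_ifs <;> positivity
  exact_mod_cast h

theorem closed_mu_two (u : ℕ) : (mu (u + 2) : ℝ) = mu u * (u + 2) / (u + 3) := by
  rcases Nat.even_or_odd' u with ⟨l, rfl | rfl⟩
  · rw [show 2 * l + 2 = 2 * (l + 1) by ring, mu_succ]; push_cast; ring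
  · rw [show 2 * l + 1 + 2 = 2 * (l + 1) + 1 by ring, mu_odd, mu_odd]; simp

theorem closed_mu_one : mu 1 = 0 := mu_odd 0

theorem closed_mu_sq (u : ℕ) : (mu u : ℝ) ^ 2 * (u + 2) ≤ 8 := by
  induction u using Nat.twoStepInduction with
  | zero => rw [mu_zero]; norm_num
  | one => rw [closed_mu_one]; norm_num
  | more u h _ =>
    refine le_trans ?_ h
    rw [closed_mu_two, div_pow, div_mul_eq_mul_div, div_le_iff₀ (by positivity)]
    push_cast
    have : 0 ≤ (mu u : ℝ) ^ 2 * (u + 2) := by positivity
    nlinarith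

theorem closed_mu_tendsto : Tendsto (fun u : ℕ => (mu u : ℝ)) atTop (𝓝 0) := by
  have h1 : Tendsto (fun u : ℕ => Real.sqrt (8 / ((u : ℝ) + 2))) atTop (𝓝 0) := by
    have := (tendsto_const_nhds (x := (8 : ℝ))).div_atTop
      (tendsto_atTop_add_const_right atTop 2 tendsto_natCast_atTop_atTop)
    simpa using this.sqrt
  refine squeeze_zero closed_mu_nonneg (fun u => Real.le_sqrt_of_sq_le ?_) h1
  rw [le_div_iff₀ (by positivity)]
  exact closed_mu_sq u

theorem closed_tele (i : ℕ) :
    HasSum (fun k : ℕ => (mu (i + k) : ℝ) / (i + k + 3)) (mu i + mu (i + 1)) := by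
  have e : ∀ n : ℕ, ∑ k ∈ range n, (mu (i + k) : ℝ) / (i + k + 3) =
      mu i + mu (i + 1) - mu (n + i) - mu (n + (i + 1)) := by
    intro n
    induction n with
    | zero => simp
    | succ n ih =>
      rw [sum_range_succ, ih, show n + 1 + (i + 1) = i + n + 2 by ring, closed_mu_two,
        show n + 1 + i = n + (i + 1) by ring, add_comm n i]
      push_cast; field_simp; ring
  rw [hasSum_iff_tendsto_nat_of_nonneg fun k => by have := closed_mu_nonneg (i + k); positivity]
  simp only [e]
  simpa using (tendsto_const_nhds.sub (closed_mu_tendsto.comp (tendsto_add_atTop_nat i))).sub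
    (closed_mu_tendsto.comp (tendsto_add_atTop_nat (i + 1)))

theorem closed_summable (i j : ℕ) : Summable fun k : ℕ => (mu (i + k) : ℝ) / ((k : ℝ) + j + 1) := by
  refine Summable.of_nonneg_of_le (fun k => by have := closed_mu_nonneg (i + k); positivity)
    (fun k => ?_) ((closed_tele i).summable.mul_left ((i : ℝ) + 3))
  have := closed_mu_nonneg (i + k)
  rw [← mul_div_assoc, div_le_div_iff₀ (by positivity) (by positivity)]
  have h1 : (i : ℝ) + k + 3 ≤ (i + 3) * (k + j + 1) := by
    have : (0 : ℝ) ≤ i * k + i * j + k + j := by positivity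
    have : (0 : ℝ) ≤ j := by positivity
    have : (0 : ℝ) ≤ k := by positivity
    nlinarith
  nlinarith

theorem closed_R1 (i j : ℕ) : Mre i j = mu i / (j + 1) + Mre (i + 1) (j + 1) := by
  rw [Mre, (closed_summable i j).tsum_eq_zero_add, Mre]
  congr 1
  · simp
  · refine tsum_congr fun k => ?_
    rw [show i + (k + 1) = i + 1 + k by ring]
    push_cast; ring

theorem closed_R2 (i j : ℕ) :
    ((j : ℝ) - i - 1) * Mre i j - ((j : ℝ) - i - 2) * Mre (i + 2) j = mu i + mu (i + 1) := by
  have h := ((closed_summable i j).hasSum.mul_left ((j : ℝ) - i - 1)).sub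
    ((closed_summable (i + 2) j).hasSum.mul_left ((j : ℝ) - i - 2))
  refine h.unique ?_
  refine (congrArg (fun f => HasSum f _) (funext fun k => ?_)).mp (closed_tele i)
  rw [show i + 2 + k = i + k + 2 by ring, closed_mu_two]
  push_cast; field_simp; ring

theorem closed_M10 : Mre 1 0 = 2 := by
  rw [Mre, (closed_summable 1 0).tsum_eq_zero_add]
  have h := (closed_tele 0).tsum_eq
  simp only [zero_add, mu_zero, closed_mu_one, Nat.cast_zero] at h
  have e : ∑' k : ℕ, (mu (1 + (k + 1)) : ℝ) / (((k + 1 : ℕ) : ℝ) + (0 : ℕ) + 1) =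
      ∑' k : ℕ, (mu k : ℝ) / (k + 3) := tsum_congr fun k => by
    rw [show 1 + (k + 1) = k + 2 by ring, closed_mu_two]
    push_cast; field_simp; ring
  rw [e, h]
  simp [closed_mu_one]

theorem closed_mu_add (i : ℕ) : mu i + mu (i + 1) = mu (2 * ((i + 1) / 2)) := by
  rcases Nat.even_or_odd' i with ⟨l, rfl | rfl⟩
  · rw [mu_odd, add_zero, show (2 * l + 1) / 2 = l by omega]
  · rw [mu_odd, zero_add, show (2 * l + 1 + 1) / 2 = l + 1 by omega]; rfl

theorem closed_al (i : ℕ) : ((i : ℚ) + 2) * al (i + 2) 0 = (i + 1) * al i 0 := by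
  simp only [al, zero_le, true_and, Nat.sub_zero]
  rcases Nat.even_or_odd' i with ⟨l, rfl | rfl⟩
  · rw [if_pos (by grind), if_pos (by grind), show (2 * l + 2) / 2 = l + 1 by omega,
      show 2 * l / 2 = l by omega, cb_succ]
    push_cast; field_simp
  · rw [if_neg (by grind), if_neg (by grind)]; simp

theorem closed_be (d : ℕ) : ((d : ℚ) + 1) * be 0 (d + 2) = d * be 0 d := by
  simp only [be, Nat.sub_zero, zero_add]
  rcases Nat.even_or_odd' d with ⟨l, rfl | rfl⟩
  · rw [if_neg (by grind), if_neg (by grind)]; simp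
  · rw [if_pos (by grind), if_pos (by grind), show (2 * l + 1 + 2 - 1) / 2 = l + 1 by omega,
      show (2 * l + 1 - 1) / 2 = l by omega, cb_succ]
    push_cast; field_simp; ring

theorem closed_col (h1 : Mre 0 0 = 4 * catalanG) (i : ℕ) :
    Mre i 0 = T0 i + 4 * catalanG * al i 0 := by
  induction i using Nat.twoStepInduction with
  | zero => simp [h1, T0, al, cb_zero]
  | one => simp [closed_M10, T0, al]
  | more i h _ =>
    have a := closed_R2 i 0
    have b : ((i : ℝ) + 2) * al (i + 2) 0 = (i + 1) * al i 0 := by exact_mod_cast closed_al i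
    have c : (mu i : ℝ) + mu (i + 1) = mu (2 * ((i + 1) / 2)) := by exact_mod_cast closed_mu_add i
    have d : ((i : ℝ) + 2) * T0 (i + 2) = (i + 1) * T0 i + mu (2 * ((i + 1) / 2)) := by
      rw [T0]; push_cast; field_simp
    refine mul_left_cancel₀ (show (i : ℝ) + 2 ≠ 0 by positivity) ?_
    rw [Nat.cast_zero] at a
    linear_combination a + (i + 1) * h + c - d - 4 * catalanG * b

theorem closed_row (h1 : Mre 0 0 = 4 * catalanG) (h2 : Mre 0 1 = 3 / 2 * Zre 0 0) (j : ℕ) :
    Mre 0 j = S0 j + 4 * catalanG * al 0 j + 3 / 2 * Zre 0 0 * be 0 j := by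
  induction j using Nat.twoStepInduction with
  | zero => simp [h1, S0, al, be, cb_zero]
  | one => simp [h2, S0, al, be, cb_zero]
  | more d h _ =>
    have a := closed_R2 0 (d + 2)
    have a1 := closed_R1 0 d
    have a2 := closed_R1 1 (d + 1)
    have b : ((d : ℝ) + 1) * be 0 (d + 2) = d * be 0 d := by exact_mod_cast closed_be d
    have c : (d : ℝ) * al 0 d = 0 := by cases d <;> simp [al]
    have c' : (al 0 (d + 2) : ℝ) = 0 := by simp [al]
    have e : ((d : ℝ) + 1) * S0 (d + 2) = d * S0 d + 2 / (d + 1) := by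
      rw [S0]; push_cast; field_simp
    have f : (d : ℝ) * (2 / (d + 1)) = 2 - 2 / (d + 1) := by field_simp; ring
    simp only [zero_add, mu_zero, closed_mu_one, Rat.cast_ofNat, Rat.cast_zero, zero_div] at a a1 a2
    push_cast at a
    refine mul_left_cancel₀ (show (d : ℝ) + 1 ≠ 0 by positivity) ?_
    rw [c']
    linear_combination a - d * a1 - d * a2 + d * h - e - 3 / 2 * Zre 0 0 * b +
      4 * catalanG * c - f

theorem closed_Zsummable (i j : ℕ) :
    Summable fun k : ℕ => 1 / (((i : ℝ) + k + 1) * ((j : ℝ) + k + 1)) := by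
  have h := (summable_nat_add_iff 1).2 (Real.summable_one_div_nat_pow.2 one_lt_two)
  refine Summable.of_nonneg_of_le (fun k => by positivity) (fun k => ?_) h
  refine one_div_le_one_div_of_le (by positivity) ?_
  push_cast
  have : (0 : ℝ) ≤ i * j + i * (k + 1) + j * (k + 1) := by positivity
  nlinarith

theorem closed_Z1 (i j : ℕ) : Zre i j = 1 / (((i : ℝ) + 1) * (j + 1)) + Zre (i + 1) (j + 1) := by
  rw [Zre, (closed_Zsummable i j).tsum_eq_zero_add, Zre]
  congr 1
  · simp
  · refine tsum_congr fun k => ?_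
    push_cast; ring

theorem closed_Zcomm (i j : ℕ) : Zre i j = Zre j i := tsum_congr fun k => by rw [mul_comm]

theorem closed_harm (i : ℕ) :
    HasSum (fun k : ℕ => 1 / ((k : ℝ) + 1) - 1 / ((k : ℝ) + i + 1)) (harmonic i : ℝ) := by
  induction i with
  | zero => simp
  | succ i ih =>
    have t : HasSum (fun k : ℕ => 1 / ((k : ℝ) + i + 1) - 1 / ((k : ℝ) + i + 2))
        (1 / ((i : ℝ) + 1)) := by
      have e : ∀ n : ℕ, ∑ k ∈ range n, (1 / ((k : ℝ) + i + 1) - 1 / ((k : ℝ) + i + 2)) =
          1 / ((i : ℝ) + 1) - 1 / ((n : ℝ) + (i + 1)) := by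
        intro n
        induction n with
        | zero => simp
        | succ n ih => rw [sum_range_succ, ih]; push_cast; ring
      rw [hasSum_iff_tendsto_nat_of_nonneg fun k => sub_nonneg.2
        (one_div_le_one_div_of_le (by positivity) (by linarith))]
      simp only [e]
      simpa using (tendsto_const_nhds (x := 1 / ((i : ℝ) + 1))).sub
        ((tendsto_const_nhds (x := (1 : ℝ))).div_atTop
          (tendsto_atTop_add_const_right atTop ((i : ℝ) + 1) tendsto_natCast_atTop_atTop))
    have h := ih.add t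
    rw [harmonic_succ]
    push_cast
    rw [← one_div]
    refine (congrArg (fun f => HasSum f _) (funext fun k => ?_)).mp h
    ring

theorem closed_Zcol (i : ℕ) : Zre i 0 = Z0 i 0 + if i = 0 then Zre 0 0 else 0 := by
  rw [Z0_zero_right]
  rcases Nat.eq_zero_or_pos i with rfl | hi
  · simp
  have hi' : (0 : ℝ) < i := by exact_mod_cast hi
  rw [if_neg hi.ne', add_zero]
  push_cast
  rw [← ((closed_harm i).div_const (i : ℝ)).tsum_eq]
  refine tsum_congr fun k => ?_
  push_cast; field_simp; ring

theorem closed (h1 : Mre 0 0 = 4 * catalanG) (h2 : Mre 0 1 = 3 / 2 * Zre 0 0) : ClosedSt := by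
  constructor
  · refine diag_induction (fun i => ?_) (fun j => ?_) fun i j h => ?_
    · rw [M0_zero_right, closed_col h1 i]; simp [be]
    · rw [M0_zero_left, closed_row h1 h2 j]
    · have a : al (i + 1) (j + 1) = al i j := by simp [al]
      have b : be (i + 1) (j + 1) = be i j := by simp [be]
      rw [M0_succ, a, b]
      push_cast
      linear_combination h - closed_R1 i j
  · refine diag_induction closed_Zcol (fun j => ?_) fun i j h => ?_
    · rw [closed_Zcomm, closed_Zcol, Z0_zero_left, Z0_zero_right]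
      simp only [eq_comm]
    · rw [Z0_succ]
      simp only [Nat.add_right_cancel_iff]
      push_cast
      linear_combination h - closed_Z1 i j

end Vale.Agent.P030.Ar
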