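import Vale.Agent.P030.ArBase

/-! The Chebyshev rows kill the coefficient of `ζ(2)`. -/

open Polynomial Finset

namespace Vale.Agent.P030.Ar

open Chebyshev

/-- The series `1 / sqrt (1 - t^2)`. -/
noncomputable def contact_c : PowerSeries ℚ :=
  PowerSeries.mk fun u => if Even u then cb (u / 2) else 0

theorem contact_ode : (1 - PowerSeries.X ^ 2) * PowerSeries.derivative ℚ contact_c =
    PowerSeries.X * contact_c := by
  ext u
  rw [sub_mul, one_mul, map_sub, PowerSeries.coeff_X_pow_mul', PowerSeries.coeff_derivative]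
  rcases u with _ | _ | u
  · simp [contact_c]
  · have := cb_succ 0
    simp [contact_c, PowerSeries.coeff_succ_X_mul, cb_zero] at this ⊢
    rw [this]; norm_num
  · rw [if_pos (by omega), show u + 1 + 1 - 2 = u by omega, PowerSeries.coeff_derivative,
      PowerSeries.coeff_succ_X_mul]
    simp only [contact_c, PowerSeries.coeff_mk]
    rcases Nat.even_or_odd' u with ⟨l, rfl | rfl⟩
    · rw [if_neg (by grind), if_neg (by grind)]; simp
    · rw [if_pos (by grind), if_pos (by grind), show (2 * l + 1 + 1 + 1 + 1) / 2 = l + 1 + 1 by omega,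
        show (2 * l + 1 + 1) / 2 = l + 1 by omega, cb_succ (l + 1)]
      push_cast; field_simp; ring

theorem contact_sq : contact_c ^ 2 * (1 - PowerSeries.X ^ 2) = 1 := by
  refine PowerSeries.derivative.ext ?_ (by simp [contact_c, cb_zero])
  rw [Derivation.leibniz, map_sub, PowerSeries.derivative_pow, PowerSeries.derivative_pow,
    PowerSeries.derivative_one, PowerSeries.derivative_X]
  simp only [smul_eq_mul, Nat.cast_ofNat, Nat.add_one_sub_one, pow_one]
  linear_combination 2 * contact_c * contact_ode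

theorem contact_be (i j : ℕ) :
    be i j = PowerSeries.coeff j (PowerSeries.X ^ (i + 1) * contact_c) := by
  rw [PowerSeries.coeff_X_pow_mul', be, contact_c, PowerSeries.coeff_mk, Nat.sub_sub]
  by_cases h : i + 1 ≤ j <;> simp [h]

theorem contact_reflect_up {Q : ℚ[X]} {n : ℕ} (h : Q.natDegree ≤ n) (m : ℕ) :
    reflect (m + n) Q = X ^ m * reflect n Q := by
  have := reflect_mul 1 Q (F := m) (by simp) h
  rwa [one_mul, reflect_one] at this

theorem contact_reflect_rec {Q₀ Q₁ : ℚ[X]} {n : ℕ} (h₀ : Q₀.natDegree ≤ n)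
    (h₁ : Q₁.natDegree ≤ n + 1) : reflect (n + 2) (2 * X * Q₁ - Q₀) =
      2 * reflect (n + 1) Q₁ - X ^ 2 * reflect n Q₀ := by
  have h1 := reflect_mul X Q₁ (F := 1) natDegree_X_le h₁
  rw [reflect_one_X, one_mul, show 1 + (n + 1) = n + 2 by ring] at h1
  have h2 : (2 : ℚ[X]) = Polynomial.C 2 := rfl
  rw [reflect_sub, mul_assoc, h2, reflect_C_mul, h1, add_comm n 2, contact_reflect_up h₀]

theorem contact_degT (a : ℕ) : (T ℚ a).natDegree ≤ a := by simp [natDegree_T]

theorem contact_degU (a : ℕ) : (U ℚ (a - 1)).natDegree ≤ a := by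
  rw [natDegree_U]; omega

theorem contact_key (a : ℕ) :
    PowerSeries.X * ((reflect a (T ℚ a) : ℚ[X]) : PowerSeries ℚ) -
      (1 - PowerSeries.X ^ 2) * contact_c * ((reflect a (U ℚ (a - 1)) : ℚ[X]) : PowerSeries ℚ) =
      PowerSeries.X * (1 - (1 - PowerSeries.X ^ 2) * contact_c) ^ a := by
  induction a using Nat.twoStepInduction with
  | zero => simp
  | one => simp; ring
  | more a h0 h1 =>
    have e1 := contact_reflect_rec (contact_degT a) (contact_degT (a + 1))
    have e2 := contact_reflect_rec (contact_degU a) (contact_degU (a + 1))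
    have t1 : T ℚ ((a + 2 : ℕ) : ℤ) = 2 * X * T ℚ ((a + 1 : ℕ) : ℤ) - T ℚ a := by
      push_cast; exact T_add_two ℚ a
    have t2 : U ℚ (((a + 2 : ℕ) : ℤ) - 1) =
        2 * X * U ℚ (((a + 1 : ℕ) : ℤ) - 1) - U ℚ (a - 1) := by
      rw [show ((a + 2 : ℕ) : ℤ) - 1 = a + 1 by push_cast; ring,
        show ((a + 1 : ℕ) : ℤ) - 1 = a by push_cast; ring]
      exact U_add_one ℚ a
    have h2 : ((2 : ℚ[X]) : PowerSeries ℚ) = 2 := map_ofNat coeToPowerSeries.ringHom 2
    rw [t1, t2, e1, e2]
    simp only [Polynomial.coe_sub, Polynomial.coe_mul, Polynomial.coe_pow, coe_X, h2]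
    linear_combination 2 * h1 - PowerSeries.X ^ 2 * h0 -
      PowerSeries.X * (1 - (1 - PowerSeries.X ^ 2) * contact_c) ^ a * (1 - PowerSeries.X ^ 2) *
        contact_sq

theorem contact_reflect_pow (N : ℕ) : reflect N ((X - 1 : ℚ[X]) ^ N) = (1 - X) ^ N := by
  have h1 : (X - 1 : ℚ[X]).natDegree ≤ 1 := by compute_degree
  induction N with
  | zero => simp
  | succ N ih =>
    rw [pow_succ, reflect_mul _ _ (natDegree_pow_le.trans (by nlinarith)) h1, ih, reflect_sub,
      reflect_one_X, reflect_one, pow_one, pow_succ]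

theorem contact_sum {Q : ℚ[X]} {H : ℕ} (h : Q.natDegree ≤ H) (j : ℕ) :
    ∑ k ∈ range (H + 1), Q.coeff k * be (H - k) j =
      PowerSeries.coeff j (PowerSeries.X * ((reflect H Q : ℚ[X]) : PowerSeries ℚ) * contact_c) := by
  have e : reflect H Q = ∑ k ∈ range (H + 1), Polynomial.C (Q.coeff k) * X ^ (H - k) := by
    ext i
    rw [coeff_reflect, finsetSum_coeff]
    simp only [coeff_C_mul_X_pow]
    by_cases hi : i ≤ H
    · rw [revAt_le hi, sum_eq_single (H - i)]
      · rw [if_pos (by omega)]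
      · intro k hk hk'
        rw [if_neg (by have := mem_range.1 hk; omega)]
      · intro hk
        exact (hk (mem_range.2 (by omega))).elim
    · rw [revAt_eq_self_of_lt (by omega), coeff_eq_zero_of_natDegree_lt (by omega)]
      exact (sum_eq_zero fun k _ => if_neg (by omega)).symm
  rw [e, ← coeToPowerSeries.ringHom_apply, map_sum, mul_sum, sum_mul, map_sum]
  refine sum_congr rfl fun k _ => ?_
  rw [contact_be, coeToPowerSeries.ringHom_apply, Polynomial.coe_mul, Polynomial.coe_pow, coe_X,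
    coe_C,
    ← PowerSeries.coeff_C_mul]
  congr 1
  ring

theorem contact : ContactSt := by
  intro N d j h1 h2 hj
  have ha : ((X - 1 : ℤ[X]) ^ N).natDegree ≤ N := by
    refine natDegree_pow_le.trans ?_
    have : (X - 1 : ℤ[X]).natDegree ≤ 1 := by compute_degree
    nlinarith
  have hb : (X ^ 2 - 1 : ℤ[X]).natDegree ≤ 2 := by compute_degree
  rcases lt_or_ge d 0 with hd | hd
  · have dP : (rowPy N d).natDegree ≤ 3 * N + 1 := by
      refine natDegree_mul_le.trans ?_
      have := natDegree_mul_le (p := ((X - 1 : ℤ[X]) ^ N)) (q := (X ^ 2 - 1 : ℤ[X]))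
      rw [natDegree_U]
      omega
    have dD : (rowDy N d).natDegree ≤ 3 * N := by
      refine natDegree_mul_le.trans ?_
      rw [natDegree_T]
      omega
    rw [coeff_eq_zero_of_natDegree_lt (p := rowDy N d) (by omega), Int.cast_zero]
    refine sum_eq_zero fun k hk => ?_
    by_cases hk' : k ≤ 3 * N + 1
    · rw [be, if_neg (by omega), mul_zero]
    · rw [coeff_eq_zero_of_natDegree_lt (by omega), Int.cast_zero, zero_mul]
  obtain ⟨a, rfl⟩ := Int.eq_ofNat_of_zero_le hd
  obtain ⟨m, hm⟩ : ∃ m, 27 * N = m + (N + 2 + a) := ⟨27 * N - (N + 2 + a), by omega⟩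
  have ha' : ((X - 1 : ℚ[X]) ^ N).natDegree ≤ N := by
    refine natDegree_pow_le.trans ?_
    have : (X - 1 : ℚ[X]).natDegree ≤ 1 := by compute_degree
    nlinarith
  have hb' : (X ^ 2 - 1 : ℚ[X]).natDegree ≤ 2 := by compute_degree
  have hab := natDegree_mul_le.trans (add_le_add ha' hb')
  have eP : ∀ k, ((rowPy N a).coeff k : ℚ) =
      ((X - 1) ^ N * (X ^ 2 - 1) * U ℚ (a - 1) : ℚ[X]).coeff k := fun k => by
    rw [← eq_intCast (Int.castRingHom ℚ), ← coeff_map, rowPy]
    simp
  have eD : ∀ k, ((rowDy N a).coeff k : ℚ) = ((X - 1) ^ N * T ℚ a : ℚ[X]).coeff k := fun k => by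
    rw [← eq_intCast (Int.castRingHom ℚ), ← coeff_map, rowDy]
    simp
  have dP := natDegree_mul_le.trans (add_le_add hab (contact_degU a))
  have dD := natDegree_mul_le.trans (add_le_add ha' (contact_degT a))
  have rP : reflect (27 * N) ((X - 1) ^ N * (X ^ 2 - 1) * U ℚ (a - 1) : ℚ[X]) =
      X ^ m * ((1 - X) ^ N * (1 - X ^ 2) * reflect a (U ℚ (a - 1))) := by
    rw [hm, contact_reflect_up dP, reflect_mul _ _ hab (contact_degU a), reflect_mul _ _ ha' hb',
      contact_reflect_pow, reflect_sub, reflect_monomial, reflect_one]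
    simp
  have rD : reflect (27 * N) ((X - 1) ^ N * T ℚ a : ℚ[X]) =
      X ^ (m + 2) * ((1 - X) ^ N * reflect a (T ℚ a)) := by
    rw [show 27 * N = m + 2 + (N + a) by omega, contact_reflect_up dD,
      reflect_mul _ _ ha' (contact_degT a), contact_reflect_pow]
  simp only [eP, eD]
  rw [contact_sum (by omega), ← revAt_le (show j ≤ 27 * N by omega), ← coeff_reflect, rP, rD,
    ← coeff_coe, ← sub_eq_zero, ← map_sub]
  obtain ⟨g, hg⟩ : PowerSeries.X ∣ 1 - (1 - PowerSeries.X ^ 2) * contact_c :=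
    PowerSeries.X_dvd_iff.2 (by simp [contact_c, cb_zero])
  have key := contact_key a
  rw [hg, mul_pow] at key
  refine PowerSeries.X_pow_dvd_iff.1 (Dvd.intro (-((1 - PowerSeries.X) ^ N * g ^ a)) ?_ :
    PowerSeries.X ^ (m + 2 + a) ∣ _) j (by omega)
  simp only [Polynomial.coe_mul, Polynomial.coe_pow, Polynomial.coe_sub, Polynomial.coe_one, coe_X]
  linear_combination (PowerSeries.X ^ (m + 1) * (1 - PowerSeries.X) ^ N) * key

end Vale.Agent.P030.Ar
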