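import Vale.Agent.P030.ArBase

/-! Crude `p`-adic denominator bound. -/

open Polynomial Finset

namespace Vale.Agent.P030.Ar

variable {p : ℕ}

theorem crude_mul (hp : p.Prime) {k l : ℕ} {x y : ℚ} (hx : In p ((p : ℚ) ^ k * x))
    (hy : In p ((p : ℚ) ^ l * y)) : In p ((p : ℚ) ^ (k + l) * (x * y)) := by
  rw [pow_add, mul_mul_mul_comm]
  exact hx.mul hp hy

theorem crude_left (hp : p.Prime) {k : ℕ} {x y : ℚ} (hx : In p x)
    (hy : In p ((p : ℚ) ^ k * y)) : In p ((p : ℚ) ^ k * (x * y)) := by
  rw [mul_left_comm]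
  exact hx.mul hp hy

theorem crude_right (hp : p.Prime) {k : ℕ} {x y : ℚ} (hx : In p ((p : ℚ) ^ k * x))
    (hy : In p y) : In p ((p : ℚ) ^ k * (x * y)) := by
  rw [← mul_assoc]
  exact hx.mul hp hy

theorem crude_sub (hp : p.Prime) {c x y : ℚ} (hx : In p (c * x)) (hy : In p (c * y)) :
    In p (c * (x - y)) := by
  rw [mul_sub]
  exact hx.sub hp hy

theorem crude_sum (hp : p.Prime) {ι : Type*} {s : Finset ι} {c : ℚ} {f : ι → ℚ}
    (h : ∀ i ∈ s, In p (c * f i)) : In p (c * ∑ i ∈ s, f i) := by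
  rw [mul_sum]
  exact In.sum hp h

theorem crude_inv (hp : p.Prime) {m n : ℕ} (h : m ≤ n) :
    In p ((p : ℚ) ^ Nat.log p n * (m : ℚ)⁻¹) := by
  rcases eq_or_ne m 0 with rfl | hm
  · simpa using in_zero hp
  · exact in_pow_div hp hm (Nat.le_log_of_pow_le hp.one_lt ((Nat.ordProj_le p hm).trans h))

theorem crude_binom (hp : p.Prime) {l n : ℕ} (h : 2 * l ≤ n) :
    In p ((p : ℚ) ^ Nat.log p n * (Nat.centralBinom l : ℚ)⁻¹) :=
  in_pow_div hp (Nat.centralBinom_ne_zero l)
    (Nat.factorization_choose_le_log.trans (Nat.log_mono_right h))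

theorem crude_mu (l : ℕ) : mu (2 * l) =
    ((2 * 4 ^ l : ℕ) : ℚ) * (((2 * l + 1 : ℕ) : ℚ)⁻¹ * (Nat.centralBinom l : ℚ)⁻¹) := by
  have := Nat.centralBinom_pos l
  rw [mu_even, cb]
  push_cast
  field_simp

theorem crude_Z (hp : p.Prime) {n : ℕ} (i j : ℕ) : i ≤ n → j ≤ n →
    In p ((p : ℚ) ^ (Nat.log p n + Nat.log p n) * Z0 i j) := by
  have h0 : ∀ i ≤ n, In p ((p : ℚ) ^ (Nat.log p n + Nat.log p n) * (harmonic i / i)) :=
    fun i hi => crude_mul hp (crude_sum hp fun k hk =>
      crude_inv hp ((Nat.succ_le_of_lt (mem_range.1 hk)).trans hi)) (crude_inv hp hi)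
  induction i, j using diag_induction with
  | h0 i => exact fun hi _ => Z0_zero_right i ▸ h0 i hi
  | h1 j => exact fun _ hj => Z0_zero_left j ▸ h0 j hj
  | hs i j ih =>
    intro hi hj
    rw [Z0_succ, one_div, mul_inv]
    exact crude_sub hp (ih (by omega) (by omega))
      (by exact_mod_cast crude_mul hp (crude_inv hp hi) (crude_inv hp hj))

theorem crude : CrudeSt := by
  intro p hp h2 B
  have h4 : ∀ l, ¬ p ∣ 2 ^ l := fun l h =>
    h2 ((Nat.prime_dvd_prime_iff_eq hp Nat.prime_two).1 (hp.dvd_of_dvd_pow h))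
  have hcb : ∀ l, In p (cb l) := fun l => by
    have := (in_natCast hp (Nat.centralBinom l)).mul hp (in_inv_nat hp (h4 (2 * l)))
    rwa [pow_mul, Nat.cast_pow] at this
  have hh : In p (2 : ℚ)⁻¹ := by simpa using in_inv_nat hp (h4 1)
  have hi : ∀ m : ℕ, m ≤ B + 1 → ∀ x : ℚ, x = m → In p ((p : ℚ) ^ Nat.log p (B + 1) * x⁻¹) :=
    fun m hm x hx => hx ▸ crude_inv hp hm
  set L := Nat.log p (B + 1)
  have hmu : ∀ u ≤ B, In p ((p : ℚ) ^ (L + L) * mu u) := fun u hu => by
    obtain ⟨l, rfl | rfl⟩ := Nat.even_or_odd' u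
    · rw [crude_mu]
      exact crude_left hp (in_natCast hp _)
        (crude_mul hp (crude_inv hp (by omega)) (crude_binom hp (by omega)))
    · simpa [mu_odd] using in_zero hp
  have hM : ∀ i j, i ≤ B → j ≤ B → In p ((p : ℚ) ^ (4 * L) * M0 i j) := fun i j => by
    induction i, j using diag_induction with
    | h0 i =>
      intro hi' _
      rw [M0_zero_right]
      obtain ⟨e, rfl | rfl⟩ := Nat.even_or_odd' i
      · rw [T0_even]
        refine crude_left hp (hcb e) (crude_sum hp fun l hl => crude_right hp ?_ hh)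
        have := hmu (2 * l) (by have := mem_range.1 hl; omega)
        rw [sq]
        exact (crude_mul hp this this).mono hp (by omega)
      · rw [T0_odd]
        refine (crude_mul hp (hmu _ (by omega)) (crude_sum hp fun k hk => crude_left hp (in_one hp)
          (hi (2 * k + 1) ?_ _ (by push_cast; rfl)))).mono hp (by omega)
        have := mem_range.1 hk
        omega
    | h1 j =>
      intro _ hj
      rw [M0_zero_left]
      obtain ⟨e, rfl | rfl⟩ := Nat.even_or_odd' j
      · cases e with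
        | zero => simpa [S0] using in_zero hp
        | succ e =>
          rw [mul_add, mul_one, S0_even]
          refine (crude_mul hp (hmu _ (by omega)) (crude_sum hp fun k hk => crude_left hp (hcb k)
            (hi (2 * k + 1) ?_ _ (by push_cast; rfl)))).mono hp (by omega)
          have := mem_range.1 hk
          omega
      · rw [S0_odd]
        refine crude_left hp (hcb e) (crude_sum hp fun k hk => ?_)
        have := mem_range.1 hk
        exact (crude_mul hp (hmu _ (by omega)) (hi (2 * k + 2) (by omega) _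
          (by push_cast; rfl))).mono hp (by omega)
    | hs i j ih =>
      intro hi' hj
      rw [M0_succ]
      exact crude_sub hp (ih (by omega) (by omega)) ((crude_mul hp (hmu _ (by omega))
        (hi (j + 1) (by omega) _ (by push_cast; rfl))).mono hp (by omega))
  refine fun i j hi hj => ⟨hM i j hi hj,
    (crude_Z hp (n := B + 1) i j (by omega) (by omega)).mono hp (by omega), ?_⟩
  unfold al
  split_ifs
  exacts [hcb _, in_zero hp]

end Vale.Agent.P030.Ar
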