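import Vale.Agent.P030.Defs2

/-!
Arithmetic half: rational parts of the mixed moments, the reduction relation `Rd`,
and the statements of the intermediate results.
-/

open Polynomial Finset

namespace Vale.Agent.P030.Ar

/-- Rational part of `Mre i 0`. -/
def T0 : ℕ → ℚ
  | 0 => 0
  | 1 => 2
  | i + 2 => (((i : ℚ) + 1) * T0 i + mu (2 * ((i + 1) / 2))) / ((i : ℚ) + 2)

/-- Rational part of `Mre 0 j`. -/
def S0 : ℕ → ℚ
  | 0 => 0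
  | 1 => 0
  | d + 2 => (d : ℚ) * S0 d / ((d : ℚ) + 1) + 2 / ((d : ℚ) + 1) ^ 2

/-- Rational part of `Mre`. -/
def M0 : ℕ → ℕ → ℚ
  | i, 0 => T0 i
  | 0, j + 1 => S0 (j + 1)
  | i + 1, j + 1 => M0 i j - mu i / ((j : ℚ) + 1)

/-- Rational part of `Zre`. -/
def Z0 : ℕ → ℕ → ℚ
  | i, 0 => harmonic i / i
  | 0, j + 1 => harmonic (j + 1) / ((j : ℚ) + 1)
  | i + 1, j + 1 => Z0 i j - 1 / (((i : ℚ) + 1) * ((j : ℚ) + 1))

/-- Coefficient of `4 G` in `Mre`. -/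
def al (i j : ℕ) : ℚ := if j ≤ i ∧ Even (i - j) then cb ((i - j) / 2) else 0

/-- Coefficient of `(3/2) ζ(2)` in `Mre`. -/
def be (i j : ℕ) : ℚ := if i + 1 ≤ j ∧ Even (j - i - 1) then cb ((j - i - 1) / 2) else 0

/-- Rational part of a matrix entry. -/
noncomputable def ratA (N r k : ℕ) : ℚ :=
  pairR M0 (27 * N) (rowPy N ((r : ℤ) - 2 * N)) (colS N k) -
    3 / 2 * pairR Z0 (27 * N) (rowDy N ((r : ℤ) - 2 * N)) (colS N k)

/-- Coefficient of `G` in a matrix entry. -/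
noncomputable def ratB (N r k : ℕ) : ℚ :=
  4 * pairR al (27 * N) (rowPy N ((r : ℤ) - 2 * N)) (colS N k)

/-- `b` times the matrix, when `G = a / b`. -/
noncomputable def FQ (N : ℕ) (a : ℤ) (b : ℕ) : Matrix (Fin (20 * N)) (Fin (20 * N)) ℚ :=
  Matrix.of fun r k => (b : ℚ) * ratA N r k + (a : ℚ) * ratB N r k

/-- `x` is `p`-integral. -/
def In (p : ℕ) (x : ℚ) : Prop := ¬ p ∣ x.den

/-- `x` is `p`-integral with residue `a`. -/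
def Rd (p : ℕ) [Fact p.Prime] (x : ℚ) (a : ZMod p) : Prop := In p x ∧ (x : ZMod p) = a

/-- Coefficients of `(y^2-1)^((p-1)/2)` modulo `p`. -/
noncomputable def eh (p r : ℕ) : ZMod p :=
  (((X : (ZMod p)[X]) ^ 2 - 1) ^ ((p - 1) / 2)).coeff r

/-- `eh p (y - x)`, or `0` if `y < x`. -/
noncomputable def ehc (p y x : ℕ) : ZMod p := if x ≤ y then eh p (y - x) else 0

/-- `mu (a-1)` with `mu (-1) = 0`. -/
def muq (a : ℕ) : ℚ := if a = 0 then 0 else mu (a - 1)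

/-- `M0 (a-1) j` with `M0 (-1) j = M0 0 (j+1)`. -/
def Mm (a j : ℕ) : ℚ := if a = 0 then M0 0 (j + 1) else M0 (a - 1) j

/-- Real moments in terms of the rational tables. -/
def ClosedSt : Prop :=
  (∀ i j, Mre i j = M0 i j + 4 * catalanG * al i j + 3 / 2 * Zre 0 0 * be i j) ∧
  ∀ i j, Zre i j = Z0 i j + if i = j then Zre 0 0 else 0

/-- `t P_d / f - D_d = O(t^(24 N))`. -/
def ContactSt : Prop :=
  ∀ (N : ℕ) (d : ℤ) (j : ℕ), -(2 * N : ℤ) ≤ d → d < 18 * N → j < 24 * N →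
    ∑ k ∈ range (27 * N + 1), ((rowPy N d).coeff k : ℚ) * be (27 * N - k) j =
      ((rowDy N d).coeff (27 * N - j) : ℚ)

/-- Polar part of `mu`, and two residues of `cb`. -/
def MuSt : Prop :=
  ∀ (p : ℕ) [Fact p.Prime], p ≠ 2 →
    (∀ u, u + 1 < p ^ 2 →
      Rd p (p * mu u) ((muq ((u + 1) / p) : ZMod p) * eh p ((u + 1) % p))) ∧
    (∀ l, 2 * l < p → Rd p (cb (l * p)) (cb l : ZMod p)) ∧
    ∀ l, 2 * l + 1 < p → Rd p (cb (((2 * l + 1) * p - 1) / 2)) (eh p 0 * (cb l : ZMod p))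

/-- Crude denominator bound. -/
def CrudeSt : Prop :=
  ∀ (p : ℕ), p.Prime → p ≠ 2 → ∀ B i j : ℕ, i ≤ B → j ≤ B →
    In p ((p : ℚ) ^ (4 * Nat.log p (B + 1)) * M0 i j) ∧
      In p ((p : ℚ) ^ (4 * Nat.log p (B + 1)) * Z0 i j) ∧ In p (al i j)

/-- The `p^(-2)` layer of `M0`. -/
def L1MSt : Prop :=
  ∀ (p : ℕ) [Fact p.Prime], p ≠ 2 → ∀ i j : ℕ, i + 2 * p < p ^ 2 → j + 2 * p < p ^ 2 →
    Rd p ((p : ℚ) ^ 2 * M0 i j)
      (∑ a ∈ range p, ehc p (p + i) (a * p + j % p) * (Mm a (j / p) : ZMod p))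

/-- The `p^(-2)` layer of `Z0`. -/
def L1ZSt : Prop :=
  ∀ (p : ℕ) [Fact p.Prime], ∀ i j : ℕ, i < p ^ 2 → j < p ^ 2 →
    Rd p ((p : ℚ) ^ 2 * Z0 i j) (if i % p = j % p then (Z0 (i / p) (j / p) : ZMod p) else 0)

/-- The `p^(-1)` layer on the middle columns. -/
def L2St : Prop :=
  ∀ (p : ℕ) [Fact p.Prime], p ≠ 2 → ∀ i j : ℕ, j < p → i < j + p →
    Rd p (p * M0 i j) (-∑ l ∈ range j, 2 * ehc p (p + i) (2 * p + l) / ((j : ZMod p) - l)) ∧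
      Rd p (p * Z0 i j) (-∑ l ∈ range j, (if i = p + l then 1 else 0) / ((j : ZMod p) - l))

/-- Valuation of a determinant from row functionals `ρ` and a set `C` of bad columns. -/
def ValSt : Prop :=
  ∀ (p : ℕ) [Fact p.Prime] (n : ℕ) (J A : Type) [Fintype J] [DecidableEq J] [Fintype A]
    (G : Matrix (Fin n) J ℚ) (ψ : Matrix J (Fin n) ℚ) (C : Finset J)
    (ρ : Fin n → A → ZMod p) (κ : A → J → ZMod p), (∀ j k, In p (ψ j k)) →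
    (∀ r, ∀ j ∈ C, Rd p ((p : ℚ) ^ 2 * G r j) (∑ α, ρ r α * κ α j)) →
    (∀ r, ∀ j ∉ C, Rd p (p * G r j) (∑ α, ρ r α * κ α j)) →
    In p ((p : ℚ) ^ (Fintype.card A + C.card) * (G * ψ).det)

/-- Exponent for primes `p > 27 N / 2`. -/
def betaA (N p : ℕ) : ℕ :=
  (27 * N + 1 - p) + (16 * N - p) + min (20 * N) ((24 * N + 1 - p) + (24 * N - p))

/-- Exponent for primes `10 N ≤ p ≤ 27 N / 2`. -/
def betaB (N p : ℕ) : ℕ := 41 * N - (8 * N + 1 - max (27 * N + 1 - 2 * p) (3 * N))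

/-- Exponent for an odd prime. -/
def beta (N p : ℕ) : ℕ :=
  if p ^ 2 ≤ 27 * N + 2 * p then 80 * N * Nat.log p (27 * N + 1)
  else if 27 * N < 2 * p then betaA N p else if 10 * N ≤ p then betaB N p else 40 * N

def OddASt : Prop :=
  ∀ (N p : ℕ) (a : ℤ) (b : ℕ), p.Prime → p ≠ 2 → 27 * N + 2 * p < p ^ 2 → 27 * N < 2 * p →
    In p ((p : ℚ) ^ betaA N p * (FQ N a b).det)

def OddBSt : Prop :=
  ∀ (N p : ℕ) (a : ℤ) (b : ℕ), p.Prime → p ≠ 2 → 27 * N + 2 * p < p ^ 2 → 2 * p ≤ 27 * N →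
    10 * N ≤ p → In p ((p : ℚ) ^ betaB N p * (FQ N a b).det)

def OddSt : Prop :=
  ∀ (N p : ℕ) (a : ℤ) (b : ℕ), p.Prime → p ≠ 2 → In p ((p : ℚ) ^ beta N p * (FQ N a b).det)

/-- `2`-adic splitting of `M0`. -/
def TwoMSt : Prop :=
  ∃ c : ℕ, ∀ B : ℕ, ∃ γ₀ γ₁ : ℚ, In 2 γ₀ ∧ In 2 γ₁ ∧ ∀ i j, i ≤ B → j ≤ B →
    In 2 (2 ^ (c * (Nat.log 2 B + 1)) * (M0 i j - γ₀ * al i j - γ₁ * be i j)) ∧
      In 2 (2 ^ (c * (Nat.log 2 B + 1)) * Z0 i j) ∧ In 2 (2 ^ (i - j) * al i j)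

def TwoSt : Prop :=
  ∃ c : ℕ, ∀ (N : ℕ) (a : ℤ) (b : ℕ),
    In 2 (2 ^ (42 * N ^ 2 + c * N * (Nat.log 2 N + 1)) * (FQ N a b).det)

def AsymSt : Prop :=
  ∀ ε : ℝ, 0 < ε → ∀ᶠ N : ℕ in Filter.atTop,
    ∑ p ∈ (range (27 * N + 2)).filter Nat.Prime, (beta N p : ℝ) * Real.log p ≤
      (734.25 + ε) * (N : ℝ) ^ 2

/-- Chebyshev identities behind the Frobenius reduction. -/
def FrobSt : Prop :=
  ∀ (p : ℕ) [Fact p.Prime], p ≠ 2 → ∀ (d : ℤ) (e : ℕ), e ≤ p →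
    Chebyshev.T (ZMod p) (d * p + e) =
        Chebyshev.T (ZMod p) e * expand (ZMod p) p (Chebyshev.U (ZMod p) d) -
          Chebyshev.T (ZMod p) (p - e : ℕ) * expand (ZMod p) p (Chebyshev.U (ZMod p) (d - 1)) ∧
      (X ^ 2 - 1) * Chebyshev.U (ZMod p) (d * p + e - 1) * (X ^ 2 - 1) ^ ((p - 1) / 2) =
        Chebyshev.T (ZMod p) e * expand (ZMod p) p (Chebyshev.T (ZMod p) (d + 1)) -
          Chebyshev.T (ZMod p) (p - e : ℕ) * expand (ZMod p) p (Chebyshev.T (ZMod p) d) ∧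
      Chebyshev.T (ZMod p) p = X ^ p

/-- Level-one rows of the second kind. -/
noncomputable def rowO (d : ℤ) (k : ℕ) : ℚ :=
  pairR M0 26 ((X - 1) * Chebyshev.T ℤ d) (colS 1 k) -
    3 / 2 * pairR Z0 26 ((X - 1) * Chebyshev.U ℤ (d - 1)) (colS 1 k)

/-- The three fixed matrices. -/
noncomputable def B0 : Matrix (Fin 20) (Fin 20) ℚ := Matrix.of fun r k => ratA 1 r k

noncomputable def Bs (σ : ℚ) : Matrix (Fin 20) (Fin 20) ℚ :=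
  Matrix.of fun r k => rowO ((r : ℤ) - 1) k + σ * rowO ((r : ℤ) - 2) k

def DetSt : Prop := B0.det ≠ 0 ∧ (Bs 1).det ≠ 0 ∧ (Bs (-1)).det ≠ 0

/-- The `p^(-2)` layer of the matrix at `N = p`; row `r' p + e`, column `k' p + l`. -/
def NVLayerSt : Prop :=
  ∀ (p : ℕ) [Fact p.Prime], 30 ≤ p → ∀ r' e k' l : ℕ, r' < 20 → e < p → k' < 20 → l < p →
    In p ((p : ℚ) ^ 2 * ratA p (r' * p + e) (k' * p + l)) ∧
    (l = 0 → e = 0 →
      Rd p ((p : ℚ) ^ 2 * ratA p (r' * p + e) (k' * p + l)) (ratA 1 r' k' : ZMod p)) ∧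
    (l ≠ 0 → Rd p ((p : ℚ) ^ 2 * ratA p (r' * p + e) (k' * p + l))
      ((Chebyshev.T (ZMod p) e).coeff (p - l) * (rowO ((r' : ℤ) - 1) k' : ZMod p) -
        (Chebyshev.T (ZMod p) (p - e : ℕ)).coeff (p - l) * (rowO ((r' : ℤ) - 2) k' : ZMod p)))

def NVSt : Prop :=
  ∀ (a : ℤ) (b : ℕ), b ≠ 0 → ∀ᶠ p : ℕ in Filter.atTop, p.Prime → (FQ p a b).det ≠ 0

end Vale.Agent.P030.Ar
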