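import Vale.Agent.P030.ArBase

/-! The coefficients `eh p r` of `(y^2-1)^((p-1)/2)` modulo `p`, and two more statements. -/

open Polynomial Finset

namespace Vale.Agent.P030.Ar

/-- The `p^(-2)` layer of `T0`. -/
def L1TSt : Prop :=
  ∀ (p : ℕ) [Fact p.Prime], p ≠ 2 → ∀ i : ℕ, i + 2 * p < p ^ 2 →
    Rd p ((p : ℚ) ^ 2 * T0 i) (eh p (i % p) * (T0 (i / p) : ZMod p))

/-- The `p^(-2)` layer of `S0`: index `b p - r` with `r < p`. -/
def L1SSt : Prop :=
  ∀ (p : ℕ) [Fact p.Prime], p ≠ 2 → ∀ j b r : ℕ, j + 2 * p < p ^ 2 → r < p → j + r = b * p →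
    Rd p ((p : ℚ) ^ 2 * S0 j) (eh p r * (S0 b : ZMod p))

variable {p : ℕ} [hp : Fact p.Prime]

theorem two_mul_half (h2 : p ≠ 2) : 2 * ((p - 1) / 2) + 1 = p := by
  have := hp.out.eq_two_or_odd
  omega

theorem two_ne_zero' (h2 : p ≠ 2) : (2 : ZMod p) ≠ 0 := by
  have := hp.out.two_le
  exact_mod_cast cast_ne_zero_of_lt (p := p) (m := 2) (by omega) (by omega)

theorem eh_eq (r : ℕ) : eh p r =
    if 2 ∣ r then (-1) ^ ((p - 1) / 2 - r / 2) * (((p - 1) / 2).choose (r / 2) : ZMod p) else 0 := by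
  have : ((X : (ZMod p)[X]) ^ 2 - 1) ^ ((p - 1) / 2) =
      expand (ZMod p) 2 ((X + C (-1)) ^ ((p - 1) / 2)) := by
    simp [sub_eq_add_neg]
  rw [eh, this, coeff_expand (by norm_num), coeff_X_add_C_pow]

theorem eh_odd (l : ℕ) : eh p (2 * l + 1) = 0 := by
  rw [eh_eq, if_neg (by omega)]

theorem eh_even (l : ℕ) :
    eh p (2 * l) = (-1) ^ ((p - 1) / 2 - l) * (((p - 1) / 2).choose l : ZMod p) := by
  rw [eh_eq, if_pos (by omega), show 2 * l / 2 = l by omega]

theorem eh_of_ge {r : ℕ} (h : p ≤ r) : eh p r = 0 := by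
  have := hp.out.two_le
  rw [eh_eq]
  split_ifs with h1
  · rw [Nat.choose_eq_zero_of_lt (by omega)]; simp
  · rfl

theorem eh_top (h2 : p ≠ 2) : eh p (p - 1) = 1 := by
  have := two_mul_half h2
  have h : p - 1 = 2 * ((p - 1) / 2) := by omega
  calc eh p (p - 1) = eh p (2 * ((p - 1) / 2)) := by rw [← h]
    _ = 1 := by rw [eh_even]; simp

theorem eh_zero : eh p 0 = (-1) ^ ((p - 1) / 2) := by
  simpa using eh_even (p := p) 0

theorem eh_zero_sq : eh p 0 * eh p 0 = 1 := by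
  rw [eh_zero, ← mul_pow]; simp

theorem eh_rec (h2 : p ≠ 2) (r : ℕ) : ((r : ZMod p) + 2) * eh p (r + 2) = (r + 1) * eh p r := by
  obtain ⟨l, rfl | rfl⟩ := Nat.even_or_odd' r
  · have h := two_mul_half h2
    set m := (p - 1) / 2
    rw [show 2 * l + 2 = 2 * (l + 1) by ring, eh_even, eh_even]
    rcases lt_or_ge l m with hl | hl
    · have h1 : ((m.choose (l + 1) * (l + 1) : ℕ) : ZMod p) = (m.choose l * (m - l) : ℕ) := by
        rw [Nat.choose_succ_right_eq]
      have h3 : ((2 * m + 1 : ℕ) : ZMod p) = 0 := by rw [h]; simp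
      rw [show m - l = (m - (l + 1)) + 1 by omega] at h1 ⊢
      push_cast [Nat.cast_sub (show l + 1 ≤ m by omega)] at h1 h3 ⊢
      linear_combination 2 * (-1) ^ (m - (l + 1)) * h1 +
        (-1) ^ (m - (l + 1)) * (m.choose l : ZMod p) * h3
    · rw [Nat.choose_eq_zero_of_lt (show m < l + 1 by omega)]
      rcases hl.eq_or_lt with hl | hl
      · have h3 : ((2 * l + 1 : ℕ) : ZMod p) = 0 := by rw [← hl, h]; simp
        push_cast at h3 ⊢
        rw [h3]; simp
      · rw [Nat.choose_eq_zero_of_lt hl]; simp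
  · rw [show 2 * l + 1 + 2 = 2 * (l + 1) + 1 by ring, eh_odd, eh_odd]; simp

theorem choose_pred (k : ℕ) (hk : k < p) : (((p - 1).choose k : ℕ) : ZMod p) = (-1) ^ k := by
  induction k with
  | zero => simp
  | succ k ih =>
    have h1 : (p - 1).choose k + (p - 1).choose (k + 1) = p.choose (k + 1) := by
      rw [← Nat.choose_succ_succ', Nat.sub_add_cancel hp.out.one_le]
    have h3 : ((p.choose (k + 1) : ℕ) : ZMod p) = 0 :=
      (ZMod.natCast_eq_zero_iff _ _).2 (hp.out.dvd_choose_self (by omega) hk)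
    rw [← h1, Nat.cast_add, ih (by omega)] at h3
    linear_combination h3

theorem eh_sq_sum (h2 : p ≠ 2) :
    ∑ c ∈ range ((p - 1) / 2 + 1), eh p (2 * c) ^ 2 = eh p 0 := by
  have h := two_mul_half h2
  rw [eh_zero, ← choose_pred _ (by omega)]
  have h1 := Nat.sum_range_choose_sq ((p - 1) / 2)
  rw [show 2 * ((p - 1) / 2) = p - 1 by omega] at h1
  rw [← h1]
  push_cast
  refine sum_congr rfl fun c _ => ?_
  rw [eh_even, mul_pow, ← pow_mul, mul_comm _ 2, pow_mul]; simp

theorem in_cb (h2 : p ≠ 2) (l : ℕ) : In p (cb l) := by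
  have : cb l = (Nat.centralBinom l : ℚ) * ((2 : ℕ) : ℚ)⁻¹ ^ (2 * l) := by
    rw [cb, pow_mul, div_eq_mul_inv, ← inv_pow]; norm_num
  rw [this]
  exact (in_natCast hp.out _).mul hp.out ((in_inv_nat hp.out fun h =>
    h2 ((Nat.prime_dvd_prime_iff_eq hp.out Nat.prime_two).1 h)).pow hp.out _)

theorem rd_cb (h2 : p ≠ 2) {l : ℕ} (hl : 2 * l < p) : Rd p (cb l) (eh p 0 * eh p (2 * l)) := by
  induction l with
  | zero => simpa [cb_zero, eh_zero_sq] using rd_one (p := p)
  | succ l ih =>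
    have h0 : ((2 * l + 2 : ℕ) : ZMod p) ≠ 0 := cast_ne_zero_of_lt (by omega) (by omega)
    have h1 := eh_rec h2 (2 * l)
    refine (((ih (by omega)).mul (rd_natCast (2 * l + 1))).div (rd_natCast (2 * l + 2)) h0).congr
      (by rw [cb_succ]; push_cast; ring) ?_
    rw [div_eq_iff h0, show 2 * (l + 1) = 2 * l + 2 by ring]
    push_cast at h1 ⊢
    linear_combination (-eh p 0) * h1

theorem eh_even_ne_zero (h2 : p ≠ 2) {l : ℕ} (hl : 2 * l < p) : eh p (2 * l) ≠ 0 := by
  have h := two_mul_half h2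
  rw [eh_even]
  refine mul_ne_zero (pow_ne_zero _ (by simp)) ?_
  rw [Ne, ZMod.natCast_eq_zero_iff]
  intro hd
  have := (Nat.factorization_choose_le_log (p := p) (n := (p - 1) / 2) (k := l))
  rw [Nat.log_of_lt (by omega)] at this
  have h3 := (hp.out.dvd_iff_one_le_factorization (Nat.choose_pos (by omega)).ne').1 hd
  omega

/-- For `u < p`, `mu u` may have a simple pole only at `u = p - 1`. -/
theorem in_mu (h2 : p ≠ 2) {u : ℕ} (hu : u + 1 < p) : In p (mu u) := by
  obtain ⟨l, rfl | rfl⟩ := Nat.even_or_odd' u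
  · have h0 : ((2 * l + 1 : ℕ) : ZMod p) ≠ 0 := cast_ne_zero_of_lt (by omega) (by omega)
    have h1 : eh p 0 * eh p (2 * l) ≠ 0 :=
      mul_ne_zero (eh_even_ne_zero h2 (l := 0) (by omega)) (eh_even_ne_zero h2 (by omega))
    have := (rd_two.div ((rd_natCast (2 * l + 1)).mul (rd_cb h2 (l := l) (by omega)))
      (mul_ne_zero h0 h1)).1
    rw [mu_even]
    exact_mod_cast this
  · rw [mu_odd]; exact in_zero hp.out

theorem in_T0 (h2 : p ≠ 2) : ∀ {i : ℕ}, i < p → In p (T0 i)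
  | 0, _ => in_zero hp.out
  | 1, _ => by simpa [T0] using (rd_two (p := p)).1
  | i + 2, h => by
    have h3 := hp.out.eq_two_or_odd
    have := ((((rd_natCast (i + 1)).1.mul hp.out (in_T0 h2 (i := i) (by omega))).add hp.out
      (in_mu h2 (u := 2 * ((i + 1) / 2)) (by omega))).mul hp.out
      (in_inv_nat hp.out (m := i + 2) (Nat.not_dvd_of_pos_of_lt (by omega) h)))
    rw [T0, div_eq_mul_inv]
    exact_mod_cast this

theorem in_S0 : ∀ {j : ℕ}, j ≤ p → In p (S0 j)
  | 0, _ => in_zero hp.out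
  | 1, _ => in_zero hp.out
  | j + 2, h => by
    have h1 := in_inv_nat hp.out (m := j + 1) (Nat.not_dvd_of_pos_of_lt (by omega) (by omega))
    have := (((rd_natCast j).1.mul hp.out (in_S0 (j := j) (by omega))).mul hp.out h1).add hp.out
      ((rd_two (p := p)).1.mul hp.out (h1.pow hp.out 2))
    rw [S0, div_eq_mul_inv, div_eq_mul_inv, ← inv_pow]
    exact_mod_cast this

theorem in_M0 (h2 : p ≠ 2) : ∀ i j : ℕ, i < p → j < p → In p (M0 i j) := by
  refine diag_induction (fun i h _ => ?_) (fun j _ h => ?_) fun i j ih h1 h3 => ?_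
  · rw [M0_zero_right]; exact in_T0 h2 h
  · rw [M0_zero_left]; exact in_S0 h.le
  · have := (ih (by omega) (by omega)).sub hp.out ((in_mu h2 h1).mul hp.out
      (in_inv_nat hp.out (m := j + 1) (Nat.not_dvd_of_pos_of_lt (by omega) h3)))
    rw [M0_succ, div_eq_mul_inv]
    exact_mod_cast this

theorem in_harmonic : ∀ {i : ℕ}, i < p → In p (harmonic i)
  | 0, _ => by simpa using in_zero hp.out
  | i + 1, h => by
    rw [harmonic_succ]
    exact (in_harmonic (by omega)).add hp.out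
      (in_inv_nat hp.out (Nat.not_dvd_of_pos_of_lt (by omega) h))

theorem in_inv_of_lt {m : ℕ} (h : m < p) : In p (m : ℚ)⁻¹ := by
  rcases Nat.eq_zero_or_pos m with rfl | hm
  · simpa using in_zero hp.out
  · exact in_inv_nat hp.out (Nat.not_dvd_of_pos_of_lt hm h)

theorem in_Z0 : ∀ i j : ℕ, i < p → j < p → In p (Z0 i j) := by
  refine diag_induction (fun i h _ => ?_) (fun j _ h => ?_) fun i j ih h1 h3 => ?_
  · rw [Z0_zero_right, div_eq_mul_inv]; exact (in_harmonic h).mul hp.out (in_inv_of_lt h)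
  · rw [Z0_zero_left, div_eq_mul_inv]; exact (in_harmonic h).mul hp.out (in_inv_of_lt h)
  · have := (ih (by omega) (by omega)).sub hp.out ((in_inv_of_lt h1).mul hp.out (in_inv_of_lt h3))
    rw [Z0_succ, one_div, mul_inv]
    exact_mod_cast this

end Vale.Agent.P030.Ar
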