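import Vale.Agent.P030.ArLay

/-! From the valuations to the lower bound for the determinant. -/

open Polynomial Finset Filter

namespace Vale.Agent.P030.Ar

theorem link_col (hC : ClosedSt) (hK : ContactSt) {a : ℤ} {b : ℕ} (hG : b * catalanG = a)
    {N j : ℕ} {d : ℤ} (h1 : -(2 * N : ℤ) ≤ d) (h2 : d < 18 * N) (hj : j < 24 * N) :
    (b : ℝ) * (∑ k ∈ range (27 * N + 1), ((rowPy N d).coeff k : ℝ) * Mre (27 * N - k) j -
      3 / 2 * ∑ k ∈ range (27 * N + 1), ((rowDy N d).coeff k : ℝ) * Zre (27 * N - k) j) =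
      (Gm N a b d j : ℝ) := by
  have e1 : ∑ k ∈ range (27 * N + 1), ((rowPy N d).coeff k : ℝ) * (be (27 * N - k) j : ℝ) =
      ((rowDy N d).coeff (27 * N - j) : ℝ) := by exact_mod_cast hK N d j h1 h2 hj
  have e2 : ∑ k ∈ range (27 * N + 1), ((rowDy N d).coeff k : ℝ) *
      (if 27 * N - k = j then Zre 0 0 else 0) = ((rowDy N d).coeff (27 * N - j) : ℝ) * Zre 0 0 := by
    rw [sum_eq_single (27 * N - j), if_pos (by omega)]
    · intro k hk h
      simp only [mem_range] at hk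
      rw [if_neg (by omega), mul_zero]
    · intro h; exact absurd (mem_range.2 (by omega)) h
  have e3 : ∀ k, Zre (27 * N - k) j = _ := fun k => hC.2 _ _
  simp only [hC.1, e3, mul_add, sum_add_distrib, e2, mul_left_comm _ (4 * catalanG),
    mul_left_comm _ (3 / 2 * Zre 0 0), ← mul_sum, e1, Gm]
  push_cast
  rw [← hG]
  ring

theorem link (hC : ClosedSt) (hK : ContactSt) {a : ℤ} {b : ℕ} (hG : b * catalanG = a) (N : ℕ) :
    (b : ℝ) ^ (20 * N) * DeltaV N = ((FQ N a b).det : ℝ) := by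
  have h := (Rat.castHom ℝ).map_det (FQ N a b)
  rw [Rat.coe_castHom] at h
  have h' := Matrix.det_smul (Matrix.of fun r k : Fin (20 * N) => entryV N r k) (b : ℝ)
  rw [Fintype.card_fin] at h'
  rw [h, DeltaV, ← h']
  congr 1
  ext r k
  have hr := r.2
  have hk := k.2
  simp only [Matrix.smul_apply, Matrix.of_apply, smul_eq_mul, RingHom.mapMatrix_apply,
    Matrix.map_apply, FQ, entry_eq, Rat.coe_castHom, entryV, pairR_eq]
  rw [mul_sum _ _ (3 / 2 : ℝ), ← sum_sub_distrib, mul_sum]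
  push_cast
  refine sum_congr rfl fun j _ => ?_
  by_cases hj : j < 24 * N
  · rw [← link_col hC hK hG (by omega) (by omega) hj]; ring
  · rw [colS_coeff_eq_zero (by omega)]; simp

theorem product_formula {x : ℚ} (hx : x ≠ 0) (S : Finset ℕ) (e : ℕ → ℕ) (hS : ∀ p ∈ S, p.Prime)
    (h : ∀ p, p.Prime → In p ((p : ℚ) ^ e p * x)) (h0 : ∀ p, p.Prime → p ∉ S → e p = 0) :
    Real.exp (-∑ p ∈ S, (e p : ℝ) * Real.log p) ≤ |(x : ℝ)| := by
  set y : ℚ := (∏ p ∈ S, (p : ℚ) ^ e p) * x with hy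
  have h1 : y.den = 1 := by
    rw [Nat.eq_one_iff_not_exists_prime_dvd]
    intro q hq
    have hin : ∀ T : Finset ℕ, In q (∏ p ∈ T, (p : ℚ) ^ e p) := fun T =>
      In.prod hq fun p _ => (in_natCast hq p).pow hq _
    by_cases hqS : q ∈ S
    · rw [hy, ← prod_erase_mul _ _ hqS, mul_assoc]
      exact (hin _).mul hq (h q hq)
    · have := h q hq
      rw [h0 q hq hqS, pow_zero, one_mul] at this
      exact (hin _).mul hq this
  have hpos : ∀ p ∈ S, (0 : ℝ) < p := fun p hp => by exact_mod_cast (hS p hp).pos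
  have h2 : y ≠ 0 := mul_ne_zero (prod_ne_zero_iff.2 fun p hp =>
    pow_ne_zero _ (by exact_mod_cast (hS p hp).ne_zero)) hx
  have h3 : (1 : ℝ) ≤ |(y : ℝ)| := by
    rw [← Rat.coe_int_num_of_den_eq_one h1]
    exact_mod_cast Int.one_le_abs (Rat.num_ne_zero.2 h2)
  have h4 : Real.exp (∑ p ∈ S, (e p : ℝ) * Real.log p) = ∏ p ∈ S, (p : ℝ) ^ e p := by
    rw [Real.exp_sum]
    exact prod_congr rfl fun p hp => by rw [Real.exp_nat_mul, Real.exp_log (hpos p hp)]
  rw [Real.exp_neg, inv_le_iff_one_le_mul₀ (Real.exp_pos _), h4]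
  rw [hy] at h3
  push_cast at h3
  rwa [abs_mul, abs_of_pos (prod_pos fun p hp => pow_pos (hpos p hp) _), mul_comm] at h3

theorem beta_eq_zero {N p : ℕ} (hN : 1 ≤ N) (h : 27 * N + 2 ≤ p) : beta N p = 0 := by
  rw [beta, if_neg (by nlinarith), if_pos (by omega), betaA]
  omega

theorem lower (hC : ClosedSt) (hK : ContactSt) (hO : OddSt) (hT : TwoSt) (hA : AsymSt)
    {a : ℤ} {b : ℕ} (hb : b ≠ 0) (hG : b * catalanG = a) :
    ∀ᶠ N : ℕ in atTop, DeltaV N ≠ 0 →
      Real.exp (-1.9086 * (20 * (N : ℝ)) ^ 2) ≤ |DeltaV N| := by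
  obtain ⟨c, hc⟩ := hT
  have hb0 : (0 : ℝ) < b := by positivity
  have t1 : Tendsto (fun N : ℕ => (c * (Real.log N / N) + (c + 20 * Real.log b) / N : ℝ)) atTop
      (nhds (c * 0 + 0)) :=
    ((Real.isLittleO_log_id_atTop.tendsto_div_nhds_zero.comp
      tendsto_natCast_atTop_atTop).const_mul _).add (tendsto_const_div_atTop_nhds_zero_nat _)
  filter_upwards [hA 0.02 (by norm_num), eventually_ge_atTop 1,
    t1.eventually_lt_const (show (c * 0 + 0 : ℝ) < 0.05 by norm_num)] with N h1 hN h2 hne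
  have hN0 : (0 : ℝ) < N := by positivity
  have hl := link hC hK hG N
  have hx : (FQ N a b).det ≠ 0 := by
    intro h
    rw [h, Rat.cast_zero] at hl
    exact mul_ne_zero (pow_ne_zero _ hb0.ne') hne hl
  set S := (range (27 * N + 2)).filter Nat.Prime
  set e2 := 42 * N ^ 2 + c * N * (Nat.log 2 N + 1) with he2
  have h3 := product_formula hx S (fun p => beta N p + if p = 2 then e2 else 0)
    (fun p hp => (mem_filter.1 hp).2) (fun p hp => by
      by_cases h : p = 2
      · subst h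
        exact In.mono hp (hc N a b) (by simp [e2])
      · simpa [h] using hO N p a b hp h) fun p hp hpS => by
      simp only [S, mem_filter, mem_range, hp, and_true, not_lt] at hpS
      rw [beta_eq_zero hN hpS, if_neg (by omega)]
  have h4 : ∑ p ∈ S, ((beta N p + if p = 2 then e2 else 0 : ℕ) : ℝ) * Real.log p =
      ∑ p ∈ S, (beta N p : ℝ) * Real.log p + e2 * Real.log 2 := by
    have : 2 ∈ S := mem_filter.2 ⟨mem_range.2 (by omega), Nat.prime_two⟩
    simp [add_mul, sum_add_distrib, ite_mul, this]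
  rw [h4, ← hl, abs_mul, abs_of_pos (pow_pos hb0 _), ← Real.exp_log (pow_pos hb0 (20 * N)),
    mul_comm (Real.exp _), ← div_le_iff₀ (Real.exp_pos _), ← Real.exp_sub] at h3
  refine le_trans (Real.exp_le_exp.2 ?_) h3
  have l2 := Real.log_two_lt_d9
  have l2' := Real.log_two_gt_d9
  have h5 : (Nat.log 2 N : ℝ) * Real.log 2 ≤ Real.log N := by
    rw [← Real.log_pow]
    exact Real.log_le_log (by positivity) (by exact_mod_cast Nat.pow_log_le_self 2 (by omega))
  have h6 : (c : ℝ) * N * Real.log N + (c + 20 * Real.log b) * N ≤ 0.05 * N ^ 2 := by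
    have := mul_le_mul_of_nonneg_right h2.le (sq_nonneg (N : ℝ))
    refine le_trans (le_of_eq ?_) this
    field_simp
  have h7 : (e2 : ℝ) * Real.log 2 ≤ 42 * N ^ 2 * Real.log 2 + c * N * (Real.log N + 1) := by
    have : (0 : ℝ) ≤ c * N := by positivity
    rw [he2]; push_cast
    nlinarith
  rw [Real.log_pow]
  push_cast
  nlinarith [sq_nonneg (N : ℝ)]

theorem nonzero (hC : ClosedSt) (hK : ContactSt) (hN : NVSt) {a : ℤ} {b : ℕ} (hb : b ≠ 0)
    (hG : b * catalanG = a) : ∃ᶠ N : ℕ in atTop, DeltaV N ≠ 0 := by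
  have h1 : ∃ᶠ N : ℕ in atTop, N.Prime := frequently_atTop.2 fun n =>
    (Nat.exists_infinite_primes n).imp fun p h => ⟨h.1, h.2⟩
  refine (h1.and_eventually (hN a b hb)).mono fun N h h0 => h.2 h.1 ?_
  have := link hC hK hG N
  rw [h0, mul_zero] at this
  exact_mod_cast this.symm

theorem exists_ab (hG : ¬ Irrational catalanG) :
    ∃ (a : ℤ) (b : ℕ), b ≠ 0 ∧ b * catalanG = a := by
  obtain ⟨q, hq⟩ := not_not.1 hG
  exact ⟨q.num, q.den, q.den_nz, by rw [← hq]; exact_mod_cast Rat.den_mul_eq_num q⟩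

end Vale.Agent.P030.Ar
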