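import Vale.Agent.P030.ArBase

/-! Chebyshev identities modulo `p`. -/

open Polynomial Finset

namespace Vale.Agent.P030.Ar

open Chebyshev

section general

variable (R : Type*) [CommRing R]

/-- Two sequences with the same two-step recurrence and the same values at `-1`, `0` agree. -/
theorem frob_rec {A : Type*} [CommRing A] (c : A) {F G : ℤ → A}
    (hF : ∀ d, F (d + 1) + F (d - 1) = c * F d) (hG : ∀ d, G (d + 1) + G (d - 1) = c * G d)
    (h0 : F 0 = G 0) (h1 : F (-1) = G (-1)) (d : ℤ) : F d = G d := by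
  have key : ∀ d : ℤ, F d = G d ∧ F (d - 1) = G (d - 1) := by
    intro d
    induction d using Int.induction_on with
    | zero => exact ⟨h0, by simpa using h1⟩
    | succ n ih =>
      refine ⟨?_, by simpa using ih.1⟩
      linear_combination hF n - hG n + c * ih.1 - ih.2
    | pred n ih =>
      refine ⟨ih.2, ?_⟩
      have a := hF (-n - 1)
      have b := hG (-n - 1)
      rw [sub_add_cancel] at a b
      linear_combination a - b + c * ih.2 - ih.1
  exact (key d).1

theorem frob_T_add (a b : ℤ) :
    T R (a + b) = T R a * T R b + (X ^ 2 - 1) * U R (a - 1) * U R (b - 1) := by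
  refine frob_rec (2 * X) (F := fun b => T R (a + b))
    (G := fun b => T R a * T R b + (X ^ 2 - 1) * U R (a - 1) * U R (b - 1))
    (fun d => ?_) (fun d => ?_) (by simp) ?_ b
  · have := T_add_one R (a + d)
    rw [← add_assoc, ← add_sub_assoc]
    linear_combination this
  · have h1 := T_add_one R d
    have h2 := U_add_one R (d - 1)
    rw [sub_add_cancel] at h2
    rw [add_sub_cancel_right]
    linear_combination T R a * h1 + (X ^ 2 - 1) * U R (a - 1) * h2
  · have h1 := T_eq_X_mul_T_sub_pol_U R (a - 1)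
    have h2 := T_add_one R a
    rw [show a - 1 + 2 = a + 1 by ring, sub_add_cancel] at h1
    rw [show (-1 : ℤ) - 1 = -2 by ring, U_neg_two, T_neg_one, ← sub_eq_add_neg]
    linear_combination h2 - h1

theorem frob_U_mul (a m : ℤ) : U R (a + m) + U R (a - m) = 2 * T R m * U R a := by
  refine frob_rec (2 * X) (F := fun m => U R (a + m) + U R (a - m))
    (G := fun m => 2 * T R m * U R a) (fun d => ?_) (fun d => ?_) (by simp; ring) ?_ m
  · have h1 := U_add_one R (a + d)
    have h2 := U_add_one R (a - d)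
    rw [show a + (d + 1) = a + d + 1 by ring, show a - (d + 1) = a - d - 1 by ring,
      show a + (d - 1) = a + d - 1 by ring, show a - (d - 1) = a - d + 1 by ring]
    linear_combination h1 + h2
  · linear_combination 2 * U R a * T_add_one R d
  · have h1 := U_add_one R a
    rw [T_neg_one, sub_neg_eq_add, ← sub_eq_add_neg]
    linear_combination h1

end general

variable (p : ℕ) [hp : Fact p.Prime]

theorem frob_two (h2 : p ≠ 2) : (2 : ZMod p) ≠ 0 := by
  have := cast_ne_zero_of_lt (p := p) two_ne_zero (lt_of_le_of_ne hp.out.two_le h2.symm)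
  simpa using this

theorem frob_Tp (h2 : p ≠ 2) : T (ZMod p) p = X ^ p := by
  have h := C_comp_two_mul_X (ZMod p) p
  rw [← dickson_one_one_eq_chebyshev_C, dickson_one_one_zmod_p, pow_comp, X_comp, mul_pow] at h
  have h3 : (2 : (ZMod p)[X]) = Polynomial.C 2 := rfl
  rw [h3, ← C_pow, ZMod.pow_card] at h
  exact (mul_left_cancel₀ (C_ne_zero.2 (frob_two p h2)) h).symm

theorem frob_Up (h2 : p ≠ 2) : U (ZMod p) (p - 1) = (X ^ 2 - 1) ^ ((p - 1) / 2) := by
  have : NeZero (2 : ZMod p) := ⟨frob_two p h2⟩
  obtain ⟨k, hk⟩ := hp.out.odd_of_ne_two h2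
  have hk' : (p - 1) / 2 = k := by omega
  have hm : (X ^ 2 - 1 : (ZMod p)[X]).Monic := by monicity!
  have h1 := frob_T_add (ZMod p) p (-p)
  rw [add_neg_cancel, T_zero, T_neg, U_neg_sub_one, frob_Tp p h2] at h1
  have h3 : (X ^ 2 - 1 : (ZMod p)[X]) ^ p = X ^ p * X ^ p - 1 := by
    rw [sub_pow_char, one_pow]; ring
  have h4 : (X ^ 2 - 1 : (ZMod p)[X]) * U (ZMod p) (p - 1) ^ 2 =
      (X ^ 2 - 1) * ((X ^ 2 - 1) ^ k) ^ 2 := by
    have : (X ^ 2 - 1 : (ZMod p)[X]) ^ p = (X ^ 2 - 1) * ((X ^ 2 - 1) ^ k) ^ 2 := by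
      rw [← pow_mul, ← pow_succ', show k * 2 + 1 = p by omega]
    linear_combination h1 - h3 + this
  rw [hk']
  rcases sq_eq_sq_iff_eq_or_eq_neg.1 (mul_left_cancel₀ hm.ne_zero h4) with h | h
  · exact h
  · exfalso
    have h5 := leadingCoeff_U_natCast (ZMod p) (p - 1)
    rw [Nat.cast_sub hp.out.one_le, Nat.cast_one, h, leadingCoeff_neg, (hm.pow k).leadingCoeff,
      ZMod.pow_card_sub_one_eq_one (frob_two p h2)] at h5
    exact frob_two p h2 (by linear_combination -h5)

theorem frob : FrobSt := by
  intro p _ h2 d e he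
  have hT := frob_Tp p h2
  have hU := frob_Up p h2
  have eU : ∀ d : ℤ, expand (ZMod p) p (U (ZMod p) (d + 1)) =
      2 * X ^ p * expand (ZMod p) p (U (ZMod p) d) - expand (ZMod p) p (U (ZMod p) (d - 1)) := by
    intro d
    rw [U_add_one, map_sub, map_mul, map_mul, expand_X, map_ofNat]
  have eT : ∀ d : ℤ, expand (ZMod p) p (T (ZMod p) (d + 1)) =
      2 * X ^ p * expand (ZMod p) p (T (ZMod p) d) - expand (ZMod p) p (T (ZMod p) (d - 1)) := by
    intro d
    rw [T_add_one, map_sub, map_mul, map_mul, expand_X, map_ofNat]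
  have hc : ((p - e : ℕ) : ℤ) = p - e := Nat.cast_sub he
  rw [hc]
  refine ⟨?_, ?_, hT⟩
  · refine frob_rec (2 * X ^ p) (F := fun d => T (ZMod p) (d * p + e))
      (G := fun d => T (ZMod p) e * expand (ZMod p) p (U (ZMod p) d) -
        T (ZMod p) (p - e) * expand (ZMod p) p (U (ZMod p) (d - 1))) (fun d => ?_) (fun d => ?_)
      (by simp) ?_ d
    · have := T_mul_T (ZMod p) (d * p + e) p
      rw [hT] at this
      rw [show (d + 1) * p + e = d * p + e + p by ring, show (d - 1) * p + e = d * p + e - p by ring]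
      linear_combination -this
    · have h1 := eU d
      have h3 := eU (d - 1)
      rw [sub_add_cancel] at h3
      rw [add_sub_cancel_right]
      linear_combination T (ZMod p) e * h1 - T (ZMod p) (p - e) * h3
    · rw [show (-1 : ℤ) - 1 = -2 by ring, U_neg_two, U_neg_one,
        show (-1 : ℤ) * p + e = -(p - e) by ring, T_neg]
      simp
  · refine frob_rec (2 * X ^ p)
      (F := fun d => (X ^ 2 - 1) * U (ZMod p) (d * p + e - 1) * (X ^ 2 - 1) ^ ((p - 1) / 2))
      (G := fun d => T (ZMod p) e * expand (ZMod p) p (T (ZMod p) (d + 1)) -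
        T (ZMod p) (p - e) * expand (ZMod p) p (T (ZMod p) d)) (fun d => ?_) (fun d => ?_) ?_ ?_ d
    · have := frob_U_mul (ZMod p) (d * p + e - 1) p
      rw [hT] at this
      rw [show (d + 1) * p + e - 1 = d * p + e - 1 + p by ring,
        show (d - 1) * p + e - 1 = d * p + e - 1 - p by ring]
      linear_combination (X ^ 2 - 1) * (X ^ 2 - 1) ^ ((p - 1) / 2) * this
    · have h1 := eT d
      have h3 := eT (d + 1)
      rw [add_sub_cancel_right] at h3
      rw [sub_add_cancel]
      linear_combination T (ZMod p) e * h3 - T (ZMod p) (p - e) * h1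
    · have := frob_T_add (ZMod p) p (-e)
      rw [T_neg, U_neg_sub_one, hT, hU, ← sub_eq_add_neg] at this
      simp only [zero_mul, zero_add, T_one, T_zero, expand_X, map_one]
      linear_combination this
    · have := frob_T_add (ZMod p) p (-(p - e))
      rw [T_neg, U_neg_sub_one, hT, hU, show (p : ℤ) + -(p - e) = e by ring] at this
      rw [show (-1 : ℤ) * p + e - 1 = -(p - e) - 1 by ring, U_neg_sub_one, neg_add_cancel, T_neg_one,
        T_zero, expand_X, map_one]
      linear_combination -this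

end Vale.Agent.P030.Ar
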