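import Vale.Agent.P030.ArEh

/-! The `p^(-2)` layer of `M0`. -/

open Polynomial Finset

namespace Vale.Agent.P030.Ar

variable {p : ℕ} [hp : Fact p.Prime]

theorem l1m_divmod {a r : ℕ} (hr : r < p) : (a * p + r) / p = a ∧ (a * p + r) % p = r := by
  rw [add_comm, Nat.add_mul_div_right _ _ hp.out.pos, Nat.add_mul_mod_self_right,
    Nat.div_eq_of_lt hr, Nat.mod_eq_of_lt hr, zero_add]
  exact ⟨rfl, rfl⟩

omit hp in
theorem l1m_lt {a m : ℕ} (h1 : a * p ≤ m) (h2 : m + 2 * p < p ^ 2) : a + 2 < p := by
  by_contra h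
  have := Nat.mul_le_mul_right p (not_lt.1 h)
  nlinarith

theorem l1m_Mm (h2 : p ≠ 2) {a b : ℕ} (ha : a + 1 < p) (hb : b + 1 < p) :
    (Mm (a + 1) (b + 1) : ZMod p) =
      (Mm a b : ZMod p) - (muq a : ZMod p) * ((b + 1 : ℕ) : ZMod p)⁻¹ := by
  cases a with
  | zero => simp [Mm, muq]
  | succ a =>
    have h := ((in_M0 h2 a b (by omega) (by omega)).rd.sub ((in_mu h2 (u := a) (by omega)).rd.mul
      ((rd_natCast (b + 1)).inv (cast_ne_zero_of_lt (by omega) hb)))).2
    simp only [Mm, muq, Nat.add_eq_zero_iff, one_ne_zero, and_false, if_false, Nat.add_sub_cancel]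
    rw [← h, M0_succ, div_eq_mul_inv, Nat.cast_add_one]

theorem l1m_main (hmu : MuSt) (hT : L1TSt) (hS : L1SSt) (h2 : p ≠ 2) (i j : ℕ) :
    ∀ a r b s : ℕ, r < p → s < p → j = b * p + s → p + i = a * p + s + r → i + 2 * p < p ^ 2 →
      j + 2 * p < p ^ 2 → Rd p ((p : ℚ) ^ 2 * M0 i j) (eh p r * (Mm a b : ZMod p)) := by
  have p0 := hp.out.pos
  have hp0 : (p : ℚ) ≠ 0 := by exact_mod_cast hp.out.ne_zero
  induction i, j using diag_induction with
  | h0 i =>
    intro a r b s hr _ hj hi h3 _
    obtain rfl : s = 0 := by omega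
    obtain rfl : b = 0 := by
      rcases Nat.mul_eq_zero.1 (by omega : b * p = 0) with h | h <;> omega
    obtain ⟨a, rfl⟩ : ∃ a', a = a' + 1 := ⟨a - 1, by rcases a with _ | a <;> omega⟩
    obtain rfl : i = a * p + r := by rw [add_mul] at hi; omega
    have h := hT p h2 _ h3
    rw [(l1m_divmod hr).1, (l1m_divmod hr).2] at h
    simpa [Mm, M0_zero_right] using h
  | h1 j =>
    intro a r b s hr hs hj hi _ h4
    rcases a with _ | a
    · have h := hS p h2 j (b + 1) r h4 hr (by rw [add_mul]; omega)
      simpa [Mm, M0_zero_left] using h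
    · rw [add_mul] at hi
      obtain rfl : r = 0 := by omega
      obtain rfl : a = 0 := by
        rcases Nat.mul_eq_zero.1 (by omega : a * p = 0) with h | h <;> omega
      have h := hS p h2 j b 0 h4 hr (by omega)
      simpa [Mm, M0_zero_left] using h
  | hs i j ih =>
    intro a r b s hr hs hj hi h3 h4
    have hm := (hmu p h2).1 i (by omega)
    rcases s with _ | s
    · obtain ⟨b, rfl⟩ : ∃ b', b = b' + 1 := ⟨b - 1, by rcases b with _ | b <;> omega⟩
      obtain ⟨a, rfl⟩ : ∃ a', a = a' + 1 := ⟨a - 1, by rcases a with _ | a <;> omega⟩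
      have hb := l1m_lt (a := b + 1) (by omega) h4
      rw [add_mul] at hi
      have e1 : i + 1 = a * p + r := by omega
      have ha := l1m_lt (a := a) (by omega) h3
      have e2 : (j : ℚ) + 1 = ((b + 1 : ℕ) : ℚ) * p := by exact_mod_cast hj
      rw [e1, (l1m_divmod hr).1, (l1m_divmod hr).2] at hm
      refine ((ih a r b (p - 1) hr (by omega) (by rw [add_mul] at hj; omega) (by omega) (by omega)
        (by omega)).sub (hm.mul ((rd_natCast (b + 1)).inv
          (cast_ne_zero_of_lt (by omega) (by omega))))).congr ?_ ?_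
      · rw [M0_succ, e2]
        field_simp
      · rw [l1m_Mm h2 (by omega) (by omega)]
        ring
    · have hd : ¬ p ∣ j + 1 := fun h => by
        rw [hj, Nat.dvd_add_right (Nat.dvd_mul_left _ _)] at h
        exact Nat.not_dvd_of_pos_of_lt (by omega) hs h
      refine ((ih a r b s hr (by omega) (by omega) (by omega) (by omega) (by omega)).sub
        (hm.1.mul hp.out (in_inv_nat hp.out hd)).rd_p_mul).congr ?_ (sub_zero _)
      rw [M0_succ]
      push_cast
      ring

theorem l1m (hmu : MuSt) (hT : L1TSt) (hS : L1SSt) : L1MSt := by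
  intro p hp h2 i j hi hj
  have p0 := hp.out.pos
  have hs := Nat.mod_lt j p0
  have hr := Nat.mod_lt (p + i - j % p) p0
  have e := Nat.div_add_mod' (p + i - j % p) p
  generalize (p + i - j % p) / p = a at e
  generalize (p + i - j % p) % p = r at e hr
  refine (l1m_main hmu hT hS h2 i j a r (j / p) (j % p) hr hs (Nat.div_add_mod' j p).symm
    (by omega) hi hj).congr rfl ?_
  rw [Finset.sum_eq_single a (fun c _ hc => ?_) fun h => ?_, ehc, if_pos (by omega),
    show p + i - (a * p + j % p) = r by omega]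
  · unfold ehc
    split_ifs with h
    · have h1 : c + 1 ≤ a := by
        by_contra h3
        have := Nat.mul_le_mul_right p (show a + 1 ≤ c by omega)
        rw [add_mul] at this
        omega
      have := Nat.mul_le_mul_right p h1
      rw [add_mul] at this
      rw [eh_of_ge (by omega), zero_mul]
    · exact zero_mul _
  · have := Nat.mul_le_mul_right p (not_lt.1 fun h' => h (mem_range.2 h'))
    rw [sq] at hi
    omega

end Vale.Agent.P030.Ar
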