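import Vale.Agent.P030.ArEh

/-! The `p^(-2)` layer of `S0`. -/

open Polynomial Finset

namespace Vale.Agent.P030.Ar

variable {p : ℕ} [hp : Fact p.Prime]

theorem l1s_block {F : ℕ → ℚ} {G : ℕ → ℕ → ZMod p} (m : ℕ)
    (h : ∀ a < m, ∀ r < p, Rd p (F (a * p + r)) (G a r)) :
    Rd p (∑ c ∈ range (m * p), F c) (∑ a ∈ range m, ∑ r ∈ range p, G a r) := by
  induction m with
  | zero => simpa using rd_zero
  | succ m ih =>
    rw [add_one_mul, sum_range_add, sum_range_succ]
    exact (ih fun a ha => h a (by omega)).add (Rd.sum fun r hr => h m (by omega) r (mem_range.1 hr))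

theorem l1s_term_odd (hmu : MuSt) (h2 : p ≠ 2) {a r : ℕ} (ha : 2 * a + 1 < p) (hr : r < p) :
    Rd p (p * (cb (a * p + r) / (2 * ((a * p + r : ℕ) : ℚ) + 1)))
      (if r = (p - 1) / 2 then eh p 0 * ((cb a / (2 * (a : ℚ) + 1) : ℚ) : ZMod p) else 0) := by
  have h := two_mul_half h2
  split_ifs with e
  · have h0 : ((2 * a + 1 : ℕ) : ZMod p) ≠ 0 := cast_ne_zero_of_lt (by omega) ha
    have h5 : 2 * (a * p + r) + 1 = (2 * a + 1) * p := by
      rw [show (2 * a + 1) * p = 2 * (a * p) + p by ring]; omega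
    have h1 := (hmu p h2).2.2 a ha
    rw [← h5, show (2 * (a * p + r) + 1 - 1) / 2 = a * p + r by omega] at h1
    have h6 : (2 * ((a * p + r : ℕ) : ℚ) + 1) = (2 * a + 1) * p := by exact_mod_cast h5
    have hp0 : (p : ℚ) ≠ 0 := by exact_mod_cast hp.out.ne_zero
    have h7 := ((in_cb h2 a).rd.div (rd_natCast (2 * a + 1)) h0).2
    refine (h1.div (rd_natCast (2 * a + 1)) h0).congr ?_ ?_
    · rw [h6]; push_cast; field_simp
    · rw [mul_div_assoc, ← h7]; push_cast; rfl
  · refine ((in_cb h2 (a * p + r)).mul hp.out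
      (in_inv_nat hp.out (m := 2 * (a * p + r) + 1) fun hd => e ?_)).rd_p_mul.congr
      (by rw [div_eq_mul_inv]; push_cast; rfl) rfl
    rw [show 2 * (a * p + r) + 1 = p * (2 * a) + (2 * r + 1) by ring] at hd
    obtain ⟨c, hc⟩ := (Nat.dvd_add_right (dvd_mul_right _ _)).1 hd
    obtain rfl : c = 1 := by
      rcases c with _ | _ | c
      · omega
      · rfl
      · nlinarith
    omega

theorem l1s_odd (hmu : MuSt) (h2 : p ≠ 2) {m : ℕ} (hm : 2 * m + 2 < p) :
    Rd p ((p : ℚ) ^ 2 * S0 ((2 * m + 1) * p + 1)) (S0 (2 * m + 2) : ZMod p) := by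
  have h := two_mul_half h2
  have e : (2 * m + 1) * p = 2 * (m * p + (p - 1) / 2) + 1 := by
    rw [show (2 * m + 1) * p = 2 * (m * p) + p by ring]; omega
  have h1 := (hmu p h2).1 (2 * (m * p + (p - 1) / 2)) (by rw [← e]; nlinarith)
  rw [← e, Nat.mul_div_cancel _ hp.out.pos, Nat.mul_mod_left, muq, if_neg (by omega),
    Nat.add_sub_cancel] at h1
  have h3 := (l1s_block (F := fun c => p * (cb c / (2 * (c : ℚ) + 1))) m
    fun a ha r hr => l1s_term_odd hmu h2 (a := a) (by omega) hr).add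
    (Rd.sum (s := range ((p - 1) / 2 + 1)) fun r hr =>
      l1s_term_odd hmu h2 (a := m) (r := r) (by omega) (by have := mem_range.1 hr; omega))
  rw [← sum_range_add (fun c => (p : ℚ) * (cb c / (2 * (c : ℚ) + 1))), ← mul_sum] at h3
  simp only [sum_ite_eq', mem_range, show (p - 1) / 2 < p by omega, if_true,
    Nat.lt_add_one] at h3
  rw [← sum_range_succ (fun a => eh p 0 * ((cb a / (2 * (a : ℚ) + 1) : ℚ) : ZMod p)),
    ← mul_sum] at h3
  have h4 := (in_mu h2 (u := 2 * m) (by omega)).rd.mul (Rd.sum (s := range (m + 1))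
    (f := fun a => cb a / (2 * (a : ℚ) + 1)) fun a ha => In.rd (by
      have := (in_cb h2 a).mul hp.out
        (in_inv_of_lt (p := p) (m := 2 * a + 1) (by have := mem_range.1 ha; omega))
      rw [div_eq_mul_inv]; exact_mod_cast this))
  refine (h1.mul h3).congr ?_ ?_
  · rw [e, add_assoc _ 1 1, S0_even, add_assoc (m * p)]; ring
  · rw [S0_even, h4.2, mul_assoc, ← mul_assoc (eh p 0), eh_zero_sq, one_mul]

theorem l1s_term_even (hmu : MuSt) (h2 : p ≠ 2) {a r : ℕ} (ha : 2 * a + 2 < p) (hr : r < p) :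
    Rd p ((p : ℚ) ^ 2 * (mu (2 * (a * p + r)) / (2 * ((a * p + r : ℕ) : ℚ) + 2)))
      (if r = p - 1 then ((mu (2 * a) / (2 * (a : ℚ) + 2) : ℚ) : ZMod p) else 0) := by
  have h0 := hp.out.pos
  have h1 := (hmu p h2).1 (2 * (a * p + r)) (by nlinarith)
  split_ifs with e
  · have h3 : ((2 * a + 2 : ℕ) : ZMod p) ≠ 0 := cast_ne_zero_of_lt (by omega) ha
    have h5 : 2 * (a * p + r) + 1 = p - 1 + p * (2 * a + 1) := by
      rw [show p * (2 * a + 1) = 2 * (a * p) + p by ring]; omega
    rw [h5, Nat.add_mul_div_left _ _ h0, Nat.add_mul_mod_self_left, Nat.div_eq_of_lt (by omega),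
      Nat.mod_eq_of_lt (by omega), zero_add, muq, if_neg (by omega), Nat.add_sub_cancel,
      eh_top h2, mul_one] at h1
    have h6 : (2 * ((a * p + r : ℕ) : ℚ) + 2) = (2 * a + 2) * p := by
      have : 2 * (a * p + r) + 2 = (2 * a + 2) * p := by
        rw [show (2 * a + 2) * p = 2 * (a * p) + 2 * p by ring]; omega
      exact_mod_cast this
    have hp0 : (p : ℚ) ≠ 0 := by exact_mod_cast hp.out.ne_zero
    have h7 := ((in_mu h2 (u := 2 * a) (by omega)).rd.div (rd_natCast (2 * a + 2)) h3).2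
    refine (h1.div (rd_natCast (2 * a + 2)) h3).congr ?_ ?_
    · rw [h6]; push_cast; field_simp
    · rw [← h7]; push_cast; rfl
  · refine (h1.1.mul hp.out
      (in_inv_nat hp.out (m := 2 * (a * p + r) + 2) fun hd => e ?_)).rd_p_mul.congr
      (by push_cast; ring) rfl
    rw [show 2 * (a * p + r) + 2 = p * (2 * a) + 2 * (r + 1) by ring] at hd
    have h8 := ((Nat.Prime.dvd_mul hp.out).1 ((Nat.dvd_add_right (dvd_mul_right _ _)).1 hd)).resolve_left
      fun h => h2 ((Nat.prime_dvd_prime_iff_eq hp.out Nat.prime_two).1 h)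
    have := Nat.le_of_dvd (by omega) h8
    omega

theorem l1s_even (hmu : MuSt) (h2 : p ≠ 2) {m : ℕ} (hm : 2 * m < p) :
    Rd p ((p : ℚ) ^ 2 * S0 (2 * m * p + 1)) (S0 (2 * m + 1) : ZMod p) := by
  have h0 := hp.out.pos
  have h1 := (hmu p h2).2.1 m hm
  have h3 := l1s_block (F := fun c => (p : ℚ) ^ 2 * (mu (2 * c) / (2 * (c : ℚ) + 2))) m
    fun a ha r hr => l1s_term_even hmu h2 (a := a) (by omega) hr
  simp only [sum_ite_eq', mem_range, show p - 1 < p by omega, if_true] at h3
  have h4 := (in_cb h2 m).rd.mul (Rd.sum (s := range m)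
    (f := fun a => mu (2 * a) / (2 * (a : ℚ) + 2)) fun a ha => In.rd (by
      have := (in_mu h2 (u := 2 * a) (by have := mem_range.1 ha; omega)).mul hp.out
        (in_inv_of_lt (p := p) (m := 2 * a + 2) (by have := mem_range.1 ha; omega))
      rw [div_eq_mul_inv]; exact_mod_cast this))
  refine (h1.mul h3).congr ?_ ?_
  · rw [mul_assoc, S0_odd, mul_left_comm, mul_sum (a := (p : ℚ) ^ 2)]
  · rw [S0_odd, h4.2]

theorem l1s (hmu : MuSt) : L1SSt := by
  intro p hp h2 j
  have h := two_mul_half h2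
  have h0 := hp.out.two_le
  induction j using Nat.twoStepInduction with
  | zero =>
    intro b r _ hr e
    obtain rfl : b = 0 := by
      rcases b with _ | b
      · rfl
      · nlinarith
    simpa [S0] using rd_zero
  | one =>
    intro b r _ hr e
    obtain rfl : b = 1 := by
      rcases b with _ | _ | b
      · omega
      · rfl
      · nlinarith
    simpa [S0] using rd_zero
  | more d ih _ =>
    intro b r hd hr e
    obtain ⟨k, rfl⟩ : ∃ k, b = k + 1 := ⟨b - 1, by rcases b with _ | b <;> omega⟩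
    by_cases hr1 : r + 1 = p
    · have e1 : d + 2 = k * p + 1 := by rw [add_one_mul] at e; omega
      have hk : k + 2 < p := by nlinarith
      rw [e1, show r = p - 1 by omega, eh_top h2, one_mul]
      obtain ⟨m, rfl | rfl⟩ := Nat.even_or_odd' k
      · exact l1s_even hmu h2 (by omega)
      · exact l1s_odd hmu h2 (by omega)
    have c0 : (d : ZMod p) + 2 + r = 0 := by
      have : ((d + 2 + r : ℕ) : ZMod p) = 0 := by rw [e]; simp
      exact_mod_cast this
    have h1 : ((r + 1 : ℕ) : ZMod p) ≠ 0 := cast_ne_zero_of_lt (by omega) (by omega)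
    have h3 : ((d + 1 : ℕ) : ZMod p) ≠ 0 := fun h => h1 (by
      push_cast at h ⊢; linear_combination c0 - h)
    have h4 := ((in_natCast hp.out p).mul hp.out
      (rd_two.div ((rd_natCast (d + 1)).pow 2) (pow_ne_zero _ h3)).1).rd_p_mul
    have key : ∀ x : ZMod p, Rd p ((p : ℚ) ^ 2 * S0 d) x →
        Rd p ((p : ℚ) ^ 2 * S0 (d + 2)) ((d : ZMod p) * x / ((d + 1 : ℕ) : ZMod p)) := fun x hx =>
      ((((rd_natCast d).mul hx).div (rd_natCast (d + 1)) h3).add h4).congr
        (by rw [S0]; push_cast; ring) (add_zero _)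
    by_cases hr2 : r + 2 = p
    · have e1 : d + 0 = k * p := by rw [add_one_mul] at e; omega
      refine (key _ (ih k 0 (by omega) (by omega) e1)).congr rfl ?_
      have : (d : ZMod p) = 0 := by rw [add_zero] at e1; rw [e1]; simp
      rw [this, show r = 2 * ((p - 1) / 2 - 1) + 1 by omega, eh_odd]
      simp
    · refine (key _ (ih (k + 1) (r + 2) (by omega) (by omega) (by omega))).congr rfl ?_
      rw [div_eq_iff h3]
      push_cast
      linear_combination -(S0 (k + 1) : ZMod p) * eh_rec h2 r +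
        (S0 (k + 1) : ZMod p) * (eh p (r + 2) - eh p r) * c0

end Vale.Agent.P030.Ar
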