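import Vale.Agent.P030.ArEh

/-! The `p^(-2)` layer of `T0`. -/

open Polynomial Finset

namespace Vale.Agent.P030.Ar

variable {p : ℕ} [hp : Fact p.Prime]

theorem l1t_block {F : ℕ → ℚ} {G : ℕ → ℕ → ZMod p} (m : ℕ)
    (h : ∀ a < m, ∀ r < p, Rd p (F (a * p + r)) (G a r)) :
    Rd p (∑ c ∈ range (m * p), F c) (∑ a ∈ range m, ∑ r ∈ range p, G a r) := by
  induction m with
  | zero => simpa using rd_zero
  | succ m ih =>
    rw [add_one_mul, sum_range_add, sum_range_succ]
    exact (ih fun a ha => h a (by omega)).add (Rd.sum fun r hr => h m (by omega) r (mem_range.1 hr))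

theorem l1t_inv (h2 : p ≠ 2) {a r : ℕ} (ha : 2 * a + 1 < p) (hr : r < p) :
    Rd p (p * (1 / (2 * ((a * p + r : ℕ) : ℚ) + 1)))
      (if r = (p - 1) / 2 then ((1 / (2 * (a : ℚ) + 1) : ℚ) : ZMod p) else 0) := by
  have h := two_mul_half h2
  split_ifs with e
  · have h1 := (in_inv_of_lt ha).rd
    have h6 : (2 * ((a * p + r : ℕ) : ℚ) + 1) = (2 * a + 1) * p := by
      have : 2 * (a * p + r) + 1 = (2 * a + 1) * p := by
        rw [show (2 * a + 1) * p = 2 * (a * p) + p by ring]; omega
      exact_mod_cast this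
    have hp0 : (p : ℚ) ≠ 0 := by exact_mod_cast hp.out.ne_zero
    refine h1.congr ?_ (by rw [one_div]; push_cast; rfl)
    rw [h6]; push_cast; field_simp
  · refine (in_inv_nat hp.out (m := 2 * (a * p + r) + 1) fun hd => e ?_).rd_p_mul.congr
      (by rw [one_div]; push_cast; rfl) rfl
    rw [show 2 * (a * p + r) + 1 = p * (2 * a) + (2 * r + 1) by ring] at hd
    obtain ⟨c, hc⟩ := (Nat.dvd_add_right (dvd_mul_right _ _)).1 hd
    obtain rfl : c = 1 := by
      rcases c with _ | _ | c
      · omega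
      · rfl
      · nlinarith
    omega

theorem l1t_odd (hmu : MuSt) (h2 : p ≠ 2) {m : ℕ} (hm : 2 * m + 2 < p) :
    Rd p ((p : ℚ) ^ 2 * T0 ((2 * m + 1) * p)) (eh p 0 * (T0 (2 * m + 1) : ZMod p)) := by
  have h := two_mul_half h2
  have e : (2 * m + 1) * p = 2 * (m * p + (p - 1) / 2) + 1 := by
    rw [show (2 * m + 1) * p = 2 * (m * p) + p by ring]; omega
  have h1 := (hmu p h2).1 (2 * (m * p + (p - 1) / 2)) (by rw [← e]; nlinarith)
  rw [← e, Nat.mul_div_cancel _ hp.out.pos, Nat.mul_mod_left, muq, if_neg (by omega),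
    Nat.add_sub_cancel] at h1
  have h3 := (l1t_block (F := fun c => p * (1 / (2 * (c : ℚ) + 1))) m
    fun a ha r hr => l1t_inv h2 (a := a) (by omega) hr).add
    (Rd.sum (s := range ((p - 1) / 2 + 1)) fun r hr =>
      l1t_inv h2 (a := m) (r := r) (by omega) (by have := mem_range.1 hr; omega))
  rw [← sum_range_add (fun c => (p : ℚ) * (1 / (2 * (c : ℚ) + 1))), ← mul_sum] at h3
  simp only [sum_ite_eq', mem_range, show (p - 1) / 2 < p by omega, if_true,
    Nat.lt_add_one] at h3
  rw [← sum_range_succ (fun a => ((1 / (2 * (a : ℚ) + 1) : ℚ) : ZMod p))] at h3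
  have h4 := (in_mu h2 (u := 2 * m) (by omega)).rd.mul (Rd.sum (s := range (m + 1))
    (f := fun a => 1 / (2 * (a : ℚ) + 1)) fun a ha => In.rd (by
      have := in_inv_of_lt (p := p) (m := 2 * a + 1) (by have := mem_range.1 ha; omega)
      rw [one_div]; exact_mod_cast this))
  refine (h1.mul h3).congr ?_ ?_
  · rw [e, T0_odd, add_assoc]; ring
  · rw [T0_odd, h4.2]; ring

theorem l1t_even (hmu : MuSt) (h2 : p ≠ 2) {m : ℕ} (hm : 2 * m < p) :
    Rd p ((p : ℚ) ^ 2 * T0 (2 * m * p)) (eh p 0 * (T0 (2 * m) : ZMod p)) := by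
  have h := two_mul_half h2
  have h0 := hp.out.pos
  have t2 := two_ne_zero' h2
  have h1 := (hmu p h2).2.1 m hm
  have h3 := l1t_block (F := fun l => (p * mu (2 * l)) ^ 2 / 2) m
    (G := fun a r => ((muq ((2 * (a * p + r) + 1) / p) : ZMod p) *
      eh p ((2 * (a * p + r) + 1) % p)) ^ 2 / 2)
    fun a ha r hr => (((hmu p h2).1 _ (by nlinarith)).pow 2).div rd_two t2
  have h5 : ∀ a : ℕ, ∑ r ∈ range p, ((muq ((2 * (a * p + r) + 1) / p) : ZMod p) *
      eh p ((2 * (a * p + r) + 1) % p)) ^ 2 / 2 = (mu (2 * a) : ZMod p) ^ 2 / 2 * eh p 0 := by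
    intro a
    rw [show range p = range ((p - 1) / 2 + ((p - 1) / 2 + 1)) by congr 1; omega, sum_range_add,
      ← eh_sq_sum h2, mul_sum, sum_eq_zero, zero_add]
    · refine sum_congr rfl fun c hc => ?_
      have hc' : 2 * c < p := by have := mem_range.1 hc; omega
      have e : 2 * (a * p + ((p - 1) / 2 + c)) + 1 = 2 * c + p * (2 * a + 1) := by
        rw [show p * (2 * a + 1) = 2 * (a * p) + p by ring]; omega
      rw [e, Nat.add_mul_div_left _ _ h0, Nat.add_mul_mod_self_left, Nat.div_eq_of_lt hc',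
        Nat.mod_eq_of_lt hc', zero_add, muq, if_neg (by omega), Nat.add_sub_cancel]
      ring
    · intro r hr
      have hr' : 2 * r + 1 < p := by have := mem_range.1 hr; omega
      rw [show 2 * (a * p + r) + 1 = 2 * r + 1 + p * (2 * a) by ring, Nat.add_mul_mod_self_left,
        Nat.mod_eq_of_lt hr', eh_odd]
      simp
  simp only [h5] at h3
  have h4 := (in_cb h2 m).rd.mul (Rd.sum (s := range m) (f := fun l => mu (2 * l) ^ 2 / 2)
    fun a ha => ((in_mu h2 (u := 2 * a) (by have := mem_range.1 ha; omega)).rd.pow 2).div rd_two t2)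
  refine (h1.mul h3).congr ?_ ?_
  · rw [mul_assoc, T0_even, mul_left_comm, mul_sum (a := (p : ℚ) ^ 2)]
    congr 1
    exact sum_congr rfl fun l _ => by ring
  · rw [T0_even, h4.2, ← sum_mul]; ring

theorem l1t (hmu : MuSt) : L1TSt := by
  intro p hp h2 i
  have h := two_mul_half h2
  have h0 := hp.out.two_le
  induction i using Nat.twoStepInduction with
  | zero => intro _; simpa [T0] using rd_zero
  | one =>
    intro _
    rw [Nat.mod_eq_of_lt (by omega), eh_odd 0, zero_mul, sq, mul_assoc]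
    exact ((in_natCast hp.out p).mul hp.out (in_T0 h2 (by omega))).rd_p_mul
  | more i ih _ =>
    intro hi
    by_cases hd : p ∣ i + 2
    · obtain ⟨k, hk⟩ := hd
      have hk' : k + 2 < p := by nlinarith
      rw [hk, Nat.mul_mod_right, Nat.mul_div_cancel_left _ (by omega), mul_comm p k]
      obtain ⟨m, rfl | rfl⟩ := Nat.even_or_odd' k
      · exact l1t_even hmu h2 (by omega)
      · exact l1t_odd hmu h2 (by omega)
    have h1 : ((i + 2 : ℕ) : ZMod p) ≠ 0 := by rwa [Ne, ZMod.natCast_eq_zero_iff]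
    have h3 := ((hmu p h2).1 (2 * ((i + 1) / 2)) (by omega)).1.rd_p_mul
    refine ((((rd_natCast (i + 1)).mul (ih (by omega))).add h3).div (rd_natCast (i + 2)) h1).congr
      (by rw [T0]; push_cast; ring) ?_
    rw [add_zero, div_eq_iff h1]
    have e := Nat.div_add_mod i p
    have hr := Nat.mod_lt i hp.out.pos
    generalize i / p = q at e ⊢
    generalize i % p = r at e hr ⊢
    subst e
    rcases lt_trichotomy (r + 2) p with h4 | h4 | h4
    · rw [add_assoc _ r 2, Nat.mul_add_mod, Nat.mul_add_div (by omega), Nat.mod_eq_of_lt h4,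
        Nat.div_eq_of_lt h4]
      push_cast
      rw [ZMod.natCast_self]
      linear_combination -(T0 q : ZMod p) * eh_rec h2 r
    · exact (hd ⟨q + 1, by rw [add_assoc, h4]; ring⟩).elim
    · have h5 : p * q + r + 1 = p * (q + 1) := by rw [mul_add_one]; omega
      rw [show p * q + r + 2 = p * (q + 1) + 1 by omega, h5, Nat.mul_add_mod,
        Nat.mod_eq_of_lt (by omega), eh_odd 0]
      simp

end Vale.Agent.P030.Ar
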