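import Vale.Agent.P030.ArBase

/-! The `p^(-2)` layer of `Z0`. -/

open Polynomial Finset

namespace Vale.Agent.P030.Ar

variable {p : ℕ} [hp : Fact p.Prime]

theorem l1z_inv0 {a : ℕ} (ha : a < p) : Rd p (a : ℚ)⁻¹ (a : ZMod p)⁻¹ := by
  rcases eq_or_ne a 0 with rfl | h
  · simpa using rd_zero
  · exact (rd_natCast a).inv (cast_ne_zero_of_lt h ha)

omit hp in
theorem l1z_div {m : ℕ} (hm : m < p ^ 2) : m / p < p :=
  Nat.div_lt_of_lt_mul (by rwa [← sq])

theorem l1z_inv {m : ℕ} (hm : m < p ^ 2) :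
    Rd p (p * (m : ℚ)⁻¹) (if p ∣ m then ((m / p : ℕ) : ZMod p)⁻¹ else 0) := by
  split_ifs with h
  · refine (l1z_inv0 (l1z_div hm)).congr ?_ rfl
    obtain ⟨c, rfl⟩ := h
    have hp0 : (p : ℚ) ≠ 0 := by exact_mod_cast hp.out.ne_zero
    rw [Nat.mul_div_cancel_left _ hp.out.pos, Nat.cast_mul, mul_inv, mul_inv_cancel_left₀ hp0]
  · exact (in_inv_nat hp.out h).rd_p_mul

theorem l1z_harm0 {a : ℕ} (ha : a < p) : In p (harmonic a) :=
  In.sum hp.out fun _ hk => (l1z_inv0 ((Nat.succ_le_of_lt (mem_range.1 hk)).trans_lt ha)).1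

theorem l1z_harm (i : ℕ) (hi : i < p ^ 2) :
    Rd p (p * harmonic i) (harmonic (i / p) : ZMod p) := by
  induction i with
  | zero => simpa using rd_zero
  | succ i ih =>
    have h1 := l1z_div hi
    refine ((ih (by omega)).add (l1z_inv hi)).congr (by rw [harmonic_succ, mul_add]) ?_
    rw [Nat.succ_div] at h1 ⊢
    split_ifs at h1 ⊢
    · rw [harmonic_succ]
      exact ((l1z_harm0 (by omega)).rd.add (l1z_inv0 h1)).2.symm
    · simp

theorem l1z_Z0 (a b : ℕ) : a < p → b < p → In p (Z0 a b) := by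
  induction a, b using diag_induction with
  | h0 i => exact fun hi _ => Z0_zero_right i ▸ (l1z_harm0 hi).mul hp.out (l1z_inv0 hi).1
  | h1 j => exact fun _ hj => Z0_zero_left j ▸ (l1z_harm0 hj).mul hp.out (l1z_inv0 hj).1
  | hs i j ih =>
    intro hi hj
    rw [Z0_succ, one_div, mul_inv]
    exact (ih (by omega) (by omega)).sub hp.out
      (by exact_mod_cast (l1z_inv0 hi).1.mul hp.out (l1z_inv0 hj).1)

theorem l1z_base (i : ℕ) (hi : i < p ^ 2) : Rd p ((p : ℚ) ^ 2 * (harmonic i / i))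
    (if i % p = 0 then ((harmonic (i / p) / (i / p : ℕ) : ℚ) : ZMod p) else 0) := by
  refine ((l1z_harm i hi).mul (l1z_inv hi)).congr (by ring) ?_
  simp only [Nat.dvd_iff_mod_eq_zero]
  split_ifs
  · exact ((l1z_harm0 (l1z_div hi)).rd.mul (l1z_inv0 (l1z_div hi))).2.symm
  · exact mul_zero _

theorem l1z : L1ZSt := by
  intro p hp i j
  induction i, j using diag_induction with
  | h0 i =>
    intro hi _
    simpa only [Z0_zero_right, Nat.zero_div, Nat.zero_mod] using l1z_base i hi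
  | h1 j =>
    intro _ hj
    simpa only [Z0_zero_left, Nat.zero_div, Nat.zero_mod, eq_comm (a := 0)] using l1z_base j hj
  | hs i j ih =>
    intro hi hj
    refine ((ih (by omega) (by omega)).sub ((l1z_inv hi).mul (l1z_inv hj))).congr
      (by rw [Z0_succ, one_div, mul_inv]; push_cast; ring) ?_
    have h1 : (i + 1) % p = (j + 1) % p ↔ i % p = j % p :=
      ⟨Nat.ModEq.add_right_cancel' 1, Nat.ModEq.add_right 1⟩
    have h2 := l1z_div hi
    have h3 := l1z_div hj
    simp only [Nat.succ_div, Nat.dvd_iff_mod_eq_zero] at h2 h3 ⊢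
    by_cases h : i % p = j % p
    · have h' := h1.2 h
      rw [if_pos h, if_pos h']
      rw [h'] at h2 ⊢
      split_ifs at h2 h3 ⊢
      · refine (((l1z_Z0 _ _ (by omega) (by omega)).rd.sub
          ((l1z_inv0 h2).mul (l1z_inv0 h3))).congr ?_ rfl).2.symm
        rw [Z0_succ, one_div, mul_inv]
        push_cast
        ring
      · simp
    · rw [if_neg h, if_neg (mt h1.1 h)]
      split_ifs with h4 h5
      · exact absurd (h1.1 (h4.trans h5.symm)) h
      all_goals simp

end Vale.Agent.P030.Ar
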