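import Vale.Agent.P030.ArEh

/-! The `p^(-1)` layer on the middle columns. -/

open Polynomial Finset

namespace Vale.Agent.P030.Ar

variable {p : ℕ} [hp : Fact p.Prime]

theorem l2_mu (hmu : MuSt) (h2 : p ≠ 2) {i : ℕ} (hi : i + 1 < 2 * p) :
    Rd p (p * mu i) (2 * ehc p (p + (i + 1)) (2 * p + 0)) := by
  have p2 := hp.out.two_le
  refine ((hmu p h2).1 i (by nlinarith)).congr rfl ?_
  unfold ehc
  split_ifs with h
  · obtain ⟨r, hr⟩ : ∃ r, i + 1 = r + p := ⟨i + 1 - p, by omega⟩
    rw [hr, Nat.add_div_right _ hp.out.pos, Nat.add_mod_right, Nat.div_eq_of_lt (by omega),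
      Nat.mod_eq_of_lt (by omega), show p + (r + p) - (2 * p + 0) = r by omega]
    simp [muq, mu_zero]
  · rw [Nat.div_eq_of_lt (by omega)]
    simp [muq]

theorem l2_inv {i : ℕ} (hi : i + 1 < 2 * p) :
    Rd p (p * ((i + 1 : ℕ) : ℚ)⁻¹) (if i + 1 = p + 0 then 1 else 0) := by
  split_ifs with h
  · have hp0 : (p : ℚ) ≠ 0 := by exact_mod_cast hp.out.ne_zero
    rw [h, add_zero, mul_inv_cancel₀ hp0]
    exact rd_one
  · refine (in_inv_nat hp.out fun ⟨c, hc⟩ => ?_).rd_p_mul
    rcases c with _ | _ | c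
    · omega
    · omega
    · rw [mul_add, mul_add] at hc
      omega

theorem l2 (hmu : MuSt) : L2St := by
  intro p hp h2 i j
  have p0 := hp.out.pos
  induction i, j using diag_induction with
  | h0 i =>
    intro _ hi
    simp only [range_zero, sum_empty, neg_zero]
    exact ⟨(in_M0 h2 i 0 (by omega) p0).rd_p_mul, (in_Z0 i 0 (by omega) p0).rd_p_mul⟩
  | h1 j =>
    intro hj _
    refine ⟨(in_M0 h2 0 j p0 hj).rd_p_mul.congr rfl ?_, (in_Z0 0 j p0 hj).rd_p_mul.congr rfl ?_⟩
    · rw [sum_eq_zero fun l _ => by rw [ehc, if_neg (by omega), mul_zero, zero_div], neg_zero]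
    · rw [sum_eq_zero fun l _ => by rw [if_neg (by omega), zero_div], neg_zero]
  | hs i j ih =>
    intro hj hi
    obtain ⟨h3, h4⟩ := ih (by omega) (by omega)
    have hinv := (rd_natCast (p := p) (j + 1)).inv (cast_ne_zero_of_lt (by omega) hj)
    have e : ∀ l : ℕ, ((j + 1 : ℕ) : ZMod p) - ((l + 1 : ℕ) : ZMod p) = j - l := fun l => by
      push_cast
      ring
    refine ⟨(h3.sub ((l2_mu hmu h2 (i := i) (by omega)).mul hinv)).congr ?_ ?_,
      (h4.sub ((l2_inv (i := i) (by omega)).mul hinv)).congr ?_ ?_⟩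
    · rw [M0_succ]
      push_cast
      ring
    · have e1 : ∀ l, ehc p (p + (i + 1)) (2 * p + (l + 1)) = ehc p (p + i) (2 * p + l) := fun l => by
        simp only [ehc, ← add_assoc, Nat.add_le_add_iff_right, Nat.add_sub_add_right]
      rw [sum_range_succ', Nat.cast_zero, sub_zero, neg_add, ← div_eq_mul_inv, ← sub_eq_add_neg]
      simp only [e, e1]
    · rw [Z0_succ, one_div, mul_inv]
      push_cast
      ring
    · rw [sum_range_succ', Nat.cast_zero, sub_zero, neg_add, ← div_eq_mul_inv, ← sub_eq_add_neg]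
      simp only [e, ← add_assoc, Nat.add_right_cancel_iff]

end Vale.Agent.P030.Ar
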