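import Vale.Agent.P030.ArEh

/-! The matrix as a product `G * ψ`, and the polar layers of `G` modulo `p`. -/

open Polynomial Finset

namespace Vale.Agent.P030.Ar

/-- Row `d` paired with the monomial column `s^j`. -/
noncomputable def Gm (N : ℕ) (a : ℤ) (b : ℕ) (d : ℤ) (j : ℕ) : ℚ :=
  b * (∑ k ∈ range (27 * N + 1), ((rowPy N d).coeff k : ℚ) * M0 (27 * N - k) j -
      3 / 2 * ∑ k ∈ range (27 * N + 1), ((rowDy N d).coeff k : ℚ) * Z0 (27 * N - k) j) +
    4 * a * ∑ k ∈ range (27 * N + 1), ((rowPy N d).coeff k : ℚ) * al (27 * N - k) j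

theorem pairR_eq {R : Type*} [CommRing R] (m : ℕ → ℕ → R) (H : ℕ) (Q ψ : ℤ[X]) :
    pairR m H Q ψ = ∑ j ∈ range (H + 1),
      (∑ k ∈ range (H + 1), (Q.coeff k : R) * m (H - k) j) * (ψ.coeff j : R) := by
  rw [pairR, sum_comm]
  refine sum_congr rfl fun j _ => ?_
  rw [sum_mul]
  exact sum_congr rfl fun k _ => by ring

theorem entry_eq (N : ℕ) (a : ℤ) (b r k : ℕ) : (b : ℚ) * ratA N r k + (a : ℚ) * ratB N r k =
    ∑ j ∈ range (27 * N + 1), Gm N a b ((r : ℤ) - 2 * N) j * ((colS N k).coeff j : ℚ) := by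
  simp only [ratA, ratB, pairR_eq, Gm, mul_sum _ _ (3 / 2 : ℚ), mul_sum _ _ (4 : ℚ),
    ← sum_sub_distrib]
  rw [mul_sum, mul_sum, ← sum_add_distrib]
  refine sum_congr rfl fun j _ => ?_
  simp only [sum_sub_distrib, ← mul_sum]
  ring

theorem FQ_eq (N : ℕ) (a : ℤ) (b : ℕ) (r k : Fin (20 * N)) : FQ N a b r k =
    ∑ j : Fin (21 * N), Gm N a b ((r : ℤ) - 2 * N) (3 * N + j) *
      ((colS N k).coeff (3 * N + j) : ℚ) := by
  rw [FQ, Matrix.of_apply, entry_eq, Fin.sum_univ_eq_sum_range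
    (fun j => Gm N a b ((r : ℤ) - 2 * N) (3 * N + j) * ((colS N k).coeff (3 * N + j) : ℚ)),
    show 21 * N = 24 * N - 3 * N by omega, ← sum_Ico_eq_sum_range
    (fun j => Gm N a b ((r : ℤ) - 2 * N) j * ((colS N k).coeff j : ℚ))]
  symm
  refine sum_subset (fun j hj => ?_) fun j _ hj => ?_
  · simp only [mem_Ico, mem_range] at hj ⊢; omega
  · have := k.2
    simp only [mem_Ico] at hj
    rw [colS_coeff_eq_zero (by omega)]; simp

/-- Coefficients of `t^H Q(1/t)`. -/
noncomputable def rev {R : Type*} [Semiring R] (H : ℕ) (Q : R[X]) (m : ℕ) : R :=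
  if m ≤ H then Q.coeff (H - m) else 0

theorem rev_of_gt {R : Type*} [Semiring R] {H m : ℕ} (Q : R[X]) (h : H < m) : rev H Q m = 0 := by
  rw [rev, if_neg (by omega)]

theorem rev_of_lt {R : Type*} [Semiring R] {H m : ℕ} {Q : R[X]} (h : m + Q.natDegree < H) :
    rev H Q m = 0 := by
  rw [rev, if_pos (by omega), coeff_eq_zero_of_natDegree_lt (by omega)]

variable {p : ℕ} [hp : Fact p.Prime]

/-- `(y^2-1)^((p-1)/2)`. -/
noncomputable def EE (p : ℕ) : (ZMod p)[X] := (X ^ 2 - 1) ^ ((p - 1) / 2)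

/-- Reduction modulo `p`. -/
noncomputable def md (p : ℕ) (Q : ℤ[X]) : (ZMod p)[X] := Q.map (Int.castRingHom _)

theorem md_coeff (Q : ℤ[X]) (k : ℕ) : (md p Q).coeff k = (Q.coeff k : ZMod p) := by
  simp [md]

theorem natDegree_md (Q : ℤ[X]) : (md p Q).natDegree ≤ Q.natDegree := natDegree_map_le

theorem natDegree_EE : (EE p).natDegree + 1 ≤ p := by
  have h1 : (X ^ 2 - 1 : (ZMod p)[X]).natDegree ≤ 2 := by compute_degree
  have h2 : (EE p).natDegree ≤ (p - 1) / 2 * 2 :=
    natDegree_pow_le.trans (Nat.mul_le_mul_left _ h1)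
  have := hp.out.two_le
  omega

theorem sum_ehc {H : ℕ} {P : ℤ[X]} (hP : P.natDegree ≤ H) (m : ℕ) :
    ∑ k ∈ range (H + 1), (P.coeff k : ZMod p) * ehc p (p + (H - k)) m =
      rev (p + H) (md p P * EE p) m := by
  unfold rev
  split_ifs with hm
  · rw [coeff_mul, Nat.sum_antidiagonal_eq_sum_range_succ_mk]
    have h1 : ∑ k ∈ range (H + 1), (P.coeff k : ZMod p) * ehc p (p + (H - k)) m =
        ∑ k ∈ range (p + H + 1), (P.coeff k : ZMod p) * ehc p (p + H - k) m := by
      refine sum_subset_zero_on_sdiff (by simp) (fun k hk => ?_) fun k hk => ?_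
      · simp only [mem_sdiff, mem_range] at hk
        rw [coeff_eq_zero_of_natDegree_lt (by omega)]; simp
      · simp only [mem_range] at hk
        rw [Nat.add_sub_assoc (by omega)]
    rw [h1]
    symm
    refine sum_subset_zero_on_sdiff (by simp) (fun k hk => ?_) fun k hk => ?_
    · simp only [mem_sdiff, mem_range] at hk
      rw [ehc, if_neg (by omega), mul_zero]
    · simp only [mem_range] at hk
      rw [md_coeff, ehc, if_pos (by omega), show p + H - k - m = p + H - m - k by omega]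
      rfl
  · refine sum_eq_zero fun k _ => ?_
    rw [ehc, if_neg (by omega), mul_zero]

theorem sum_delta {H : ℕ} (D : ℤ[X]) (m : ℕ) :
    ∑ k ∈ range (H + 1), (D.coeff k : ZMod p) * (if H - k = m then 1 else 0) =
      rev H (md p D) m := by
  unfold rev
  split_ifs with hm
  · rw [sum_eq_single (H - m), if_pos (by omega), mul_one, md_coeff]
    · intro k hk h
      simp only [mem_range] at hk
      rw [if_neg (by omega), mul_zero]
    · intro h; exact absurd (mem_range.2 (by omega)) h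
  · exact sum_eq_zero fun k _ => by rw [if_neg (by omega), mul_zero]

theorem layM (hL : L1MSt) (h2 : p ≠ 2) {H j : ℕ} {P : ℤ[X]} (hP : P.natDegree ≤ H)
    (hH : H + 2 * p < p ^ 2) (hj : j + 2 * p < p ^ 2) :
    Rd p ((p : ℚ) ^ 2 * ∑ k ∈ range (H + 1), (P.coeff k : ℚ) * M0 (H - k) j)
      (∑ a ∈ range p, rev (p + H) (md p P * EE p) (a * p + j % p) * (Mm a (j / p) : ZMod p)) := by
  refine (Rd.sum (s := range (H + 1)) fun k _ =>
    (rd_intCast (P.coeff k)).mul (hL p h2 (H - k) j (by omega) hj)).congr ?_ ?_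
  · rw [mul_sum]; exact sum_congr rfl fun k _ => by ring
  · simp only [mul_sum, ← sum_ehc hP, sum_mul, mul_assoc]
    exact sum_comm

theorem layZ (hL : L1ZSt) {H j : ℕ} (D : ℤ[X]) (hH : H < p ^ 2) (hj : j < p ^ 2) :
    Rd p ((p : ℚ) ^ 2 * ∑ k ∈ range (H + 1), (D.coeff k : ℚ) * Z0 (H - k) j)
      (∑ a ∈ range p, rev H (md p D) (a * p + j % p) * (Z0 a (j / p) : ZMod p)) := by
  refine (Rd.sum (s := range (H + 1)) fun k _ =>
    (rd_intCast (D.coeff k)).mul (hL p (H - k) j (by omega) hj)).congr ?_ ?_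
  · rw [mul_sum]; exact sum_congr rfl fun k _ => by ring
  · simp only [← sum_delta, sum_mul, mul_assoc]
    rw [sum_comm]
    refine sum_congr rfl fun k _ => ?_
    rw [← mul_sum]
    congr 1
    have h0 := hp.out.pos
    have h1 := Nat.div_add_mod' (H - k) p
    have h3 := Nat.mod_lt j h0
    rw [sum_eq_single ((H - k) / p)]
    · by_cases h : (H - k) % p = j % p
      · rw [if_pos h, if_pos (by omega), one_mul]
      · rw [if_neg h, if_neg (by omega), zero_mul]
    · intro a _ ha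
      rw [if_neg, zero_mul]
      intro h
      apply ha
      rw [h, mul_comm, Nat.mul_add_div h0, Nat.div_eq_of_lt h3, add_zero]
    · intro h
      exact absurd (mem_range.2 ((Nat.div_lt_iff_lt_mul h0).2 (by rw [← pow_two]; omega))) h

theorem in_al (h2 : p ≠ 2) (i j : ℕ) : In p (al i j) := by
  unfold al
  split_ifs
  exacts [in_cb h2 _, in_zero hp.out]

theorem rd_three_half (h2 : p ≠ 2) : Rd p (3 / 2) (3 / 2) := by
  simpa using (rd_natCast (p := p) 3).div rd_two (two_ne_zero' h2)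

theorem in_alsum (h2 : p ≠ 2) (H j : ℕ) (a : ℤ) (P : ℤ[X]) :
    In p (4 * a * ∑ k ∈ range (H + 1), (P.coeff k : ℚ) * al (H - k) j) := by
  refine In.mul hp.out ?_ (In.sum hp.out fun k _ => (in_intCast hp.out _).mul hp.out (in_al h2 _ _))
  exact_mod_cast in_intCast hp.out (4 * a)

/-- Row functional of the first kind. -/
noncomputable def Xc (p N : ℕ) (d : ℤ) (m : ℕ) : ZMod p :=
  rev (p + 27 * N) (md p (rowPy N d) * EE p) m

/-- Row functional of the second kind. -/
noncomputable def Dc (p N : ℕ) (d : ℤ) (m : ℕ) : ZMod p := rev (27 * N) (md p (rowDy N d)) m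

theorem layG (hM : L1MSt) (hZ : L1ZSt) (h2 : p ≠ 2) {N j : ℕ} (a : ℤ) (b : ℕ) {d : ℤ}
    (h1 : -(2 * N : ℤ) ≤ d) (h3 : d < 18 * N) (hH : 27 * N + 2 * p < p ^ 2) (hj : j ≤ 27 * N) :
    Rd p ((p : ℚ) ^ 2 * Gm N a b d j)
      (b * (∑ a ∈ range p, Xc p N d (a * p + j % p) * (Mm a (j / p) : ZMod p) -
        3 / 2 * ∑ a ∈ range p, Dc p N d (a * p + j % p) * (Z0 a (j / p) : ZMod p))) := by
  have hP : (rowPy N d).natDegree ≤ 27 * N := (natDegree_rowPy h1 h3).trans (by omega)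
  refine (((rd_natCast b).mul ((layM hM h2 hP hH (j := j) (by omega)).sub ((rd_three_half h2).mul
    (layZ hZ (rowDy N d) (H := 27 * N) (j := j) (by omega) (by omega))))).add
    ((in_natCast hp.out p).mul hp.out (in_alsum h2 (27 * N) j a (rowPy N d))).rd_p_mul).congr
    (by rw [Gm]; ring) (add_zero _)

theorem layG2 (hL : L2St) (h2 : p ≠ 2) {N j : ℕ} (a : ℤ) (b : ℕ) {d : ℤ}
    (h1 : -(2 * N : ℤ) ≤ d) (h3 : d < 18 * N) (hj : j < p) (hH : 27 * N < j + p) :
    Rd p ((p : ℚ) * Gm N a b d j) (∑ l ∈ range j,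
      -b / ((j : ZMod p) - l) * (2 * Xc p N d (2 * p + l) - 3 / 2 * Dc p N d (p + l))) := by
  have hP : (rowPy N d).natDegree ≤ 27 * N := (natDegree_rowPy h1 h3).trans (by omega)
  have e1 := Rd.sum (s := range (27 * N + 1)) fun k _ =>
    (rd_intCast ((rowPy N d).coeff k)).mul (hL p h2 (27 * N - k) j hj (by omega)).1
  have e2 := Rd.sum (s := range (27 * N + 1)) fun k _ =>
    (rd_intCast ((rowDy N d).coeff k)).mul (hL p h2 (27 * N - k) j hj (by omega)).2
  refine (((rd_natCast b).mul (e1.sub ((rd_three_half h2).mul e2))).add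
    (in_alsum h2 (27 * N) j a (rowPy N d)).rd_p_mul).congr ?_ ?_
  · simp only [Gm, mul_left_comm _ (p : ℚ), ← mul_sum]; ring
  · simp only [Xc, Dc, ← sum_ehc hP, ← sum_delta, mul_neg, mul_sum, add_zero, mul_sub,
      sum_sub_distrib, ← sum_neg_distrib]
    rw [sum_comm, sum_comm (s := range (27 * N + 1))]
    congr 1 <;> exact sum_congr rfl fun l _ => sum_congr rfl fun k _ => by ring

end Vale.Agent.P030.Ar
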