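import Vale.Agent.P030.ArEh

/-! Residues of `mu` and `cb` modulo `p`. -/

open Polynomial Finset

namespace Vale.Agent.P030.Ar

variable {p : ℕ} [hp : Fact p.Prime]

theorem muSt_four (h2 : p ≠ 2) : (4 : ZMod p) ≠ 0 := by
  have := mul_ne_zero (two_ne_zero' h2) (two_ne_zero' h2)
  rwa [show (2 : ZMod p) * 2 = 4 by norm_num] at this

theorem muSt_cb (h2 : p ≠ 2) (l : ℕ) : Rd p (cb l) ((Nat.centralBinom l : ZMod p) / 4 ^ l) := by
  have h4 : Rd p 4 4 := by simpa using rd_natCast (p := p) 4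
  exact (rd_natCast _).div (h4.pow l) (pow_ne_zero _ (muSt_four h2))

/-- Lucas' theorem for `cb`. -/
theorem muSt_lucas (h2 : p ≠ 2) (a : ℕ) {r : ℕ} (hr : 2 * r < p) :
    Rd p (cb (a * p + r)) ((cb a : ZMod p) * (cb r : ZMod p)) := by
  refine (muSt_cb h2 _).congr rfl ?_
  have h := Choose.choose_modEq_choose_mod_mul_choose_div_nat (p := p) (n := 2 * (a * p + r))
    (k := a * p + r)
  have e1 : 2 * (a * p + r) = 2 * r + p * (2 * a) := by ring
  have e2 : a * p + r = r + p * a := by ring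
  have h0 := hp.out.pos
  rw [← Nat.centralBinom_eq_two_mul_choose, e1, Nat.add_mul_mod_self_left,
    Nat.add_mul_div_left _ _ h0, Nat.mod_eq_of_lt hr, Nat.div_eq_of_lt hr] at h
  conv_rhs at h => rw [e2, Nat.add_mul_mod_self_left, Nat.add_mul_div_left _ _ h0,
    Nat.mod_eq_of_lt (show r < p by omega), Nat.div_eq_of_lt (show r < p by omega)]
  rw [zero_add, zero_add, ← Nat.centralBinom_eq_two_mul_choose,
    ← Nat.centralBinom_eq_two_mul_choose] at h
  rw [(muSt_cb h2 a).2, (muSt_cb h2 r).2, (ZMod.natCast_eq_natCast_iff _ _ _).2 h, pow_add,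
    mul_comm a p, pow_mul, ZMod.pow_card]
  push_cast
  rw [div_mul_div_comm, mul_comm (Nat.centralBinom r : ZMod p)]

theorem muSt_cb_ne (h2 : p ≠ 2) {l : ℕ} (hl : 2 * l < p) : (cb l : ZMod p) ≠ 0 := by
  rw [(rd_cb h2 hl).2]
  exact mul_ne_zero (eh_even_ne_zero h2 (l := 0) (by omega)) (eh_even_ne_zero h2 hl)

theorem muSt_half (h2 : p ≠ 2) (l : ℕ) :
    Rd p (cb (((2 * l + 1) * p - 1) / 2)) (eh p 0 * (cb l : ZMod p)) := by
  have h := two_mul_half h2
  have e : ((2 * l + 1) * p - 1) / 2 = l * p + (p - 1) / 2 := by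
    rw [show (2 * l + 1) * p = 2 * (l * p) + p by ring]; omega
  rw [e]
  refine (muSt_lucas h2 l (by omega)).congr rfl ?_
  rw [(rd_cb h2 (l := (p - 1) / 2) (by omega)).2, show 2 * ((p - 1) / 2) = p - 1 by omega,
    eh_top h2]
  ring

theorem muSt_odd (h2 : p ≠ 2) {m : ℕ} (hm : 2 * m + 1 < p) (c : ℕ) (hc : 2 * c < p) :
    Rd p (p * mu (2 * (m * p + (p - 1) / 2 + c))) ((mu (2 * m) : ZMod p) * eh p (2 * c)) := by
  have h := two_mul_half h2
  have h0 : ((2 * m + 1 : ℕ) : ZMod p) ≠ 0 := cast_ne_zero_of_lt (by omega) hm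
  induction c with
  | zero =>
    have e : ((2 * m + 1) * p - 1) / 2 = m * p + (p - 1) / 2 := by
      rw [show (2 * m + 1) * p = 2 * (m * p) + p by ring]; omega
    have h1 := muSt_half h2 m
    have h3 := muSt_cb_ne h2 (l := m) (by omega)
    have h4 : eh p 0 ≠ 0 := eh_even_ne_zero h2 (l := 0) (by omega)
    rw [e] at h1
    have h5 := (rd_two.div ((rd_natCast (2 * m + 1)).mul (in_cb h2 m).rd) (mul_ne_zero h0 h3)).2
    refine (rd_two.div ((rd_natCast (2 * m + 1)).mul h1)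
      (mul_ne_zero h0 (mul_ne_zero h4 h3))).congr ?_ ?_
    · have h6 : (2 * ((m * p + (p - 1) / 2 : ℕ) : ℚ) + 1) = (2 * m + 1) * p := by
        have : 2 * (m * p + (p - 1) / 2) + 1 = (2 * m + 1) * p := by
          rw [show (2 * m + 1) * p = 2 * (m * p) + p by ring]; omega
        exact_mod_cast this
      have hp0 : (p : ℚ) ≠ 0 := by exact_mod_cast hp.out.ne_zero
      have := (cb_pos (m * p + (p - 1) / 2)).ne'
      rw [add_zero, mu_even, h6]
      push_cast
      field_simp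
    · have h6 : mu (2 * m) = 2 / (((2 * m + 1 : ℕ) : ℚ) * cb m) := by rw [mu_even]; push_cast; rfl
      rw [h6, h5, mul_zero]
      rw [div_mul_eq_mul_div, div_eq_div_iff (mul_ne_zero h0 (mul_ne_zero h4 h3))
        (mul_ne_zero h0 h3)]
      linear_combination (-2 * ((2 * m + 1 : ℕ) : ZMod p) * (cb m : ZMod p)) * eh_zero_sq (p := p)
  | succ c ih =>
    have h1 : ((2 * c + 2 : ℕ) : ZMod p) ≠ 0 := cast_ne_zero_of_lt (by omega) (by omega)
    have h3 : ((2 * ((p - 1) / 2) + 1 : ℕ) : ZMod p) = 0 := by rw [h]; simp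
    have h4 : ((2 * (m * p + (p - 1) / 2 + c) + 3 : ℕ) : ZMod p) = (2 * c + 2 : ℕ) := by
      push_cast at h3 ⊢
      rw [ZMod.natCast_self]
      linear_combination h3
    refine (((ih (by omega)).mul (rd_natCast (2 * (m * p + (p - 1) / 2 + c) + 2))).div
      (rd_natCast (2 * (m * p + (p - 1) / 2 + c) + 3)) (h4 ▸ h1)).congr ?_ ?_
    · rw [← add_assoc, mu_succ]; push_cast; ring
    · have h5 := eh_rec h2 (2 * c)
      rw [h4, div_eq_iff h1, show 2 * (c + 1) = 2 * c + 2 by ring]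
      push_cast at h3 h5 ⊢
      rw [ZMod.natCast_self]
      linear_combination -(mu (2 * m) : ZMod p) * h5 + (mu (2 * m) : ZMod p) * eh p (2 * c) * h3

theorem muSt_even (h2 : p ≠ 2) {m : ℕ} (hm : 2 * m < p) {c : ℕ} (hc : 2 * c + 1 < p) :
    In p (mu (2 * (m * p + c))) := by
  have h0 : ((2 * c + 1 : ℕ) : ZMod p) ≠ 0 := cast_ne_zero_of_lt (by omega) hc
  have h1 : ((2 * (m * p + c) + 1 : ℕ) : ZMod p) = (2 * c + 1 : ℕ) := by simp
  have := (rd_two.div ((rd_natCast (2 * (m * p + c) + 1)).mul (muSt_lucas h2 m (r := c) (by omega)))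
    (mul_ne_zero (h1 ▸ h0) (mul_ne_zero (muSt_cb_ne h2 hm) (muSt_cb_ne h2 (by omega))))).1
  rw [mu_even]
  exact_mod_cast this

theorem muSt : MuSt := by
  intro p hp h2
  refine ⟨fun u hu => ?_, fun l _ => ?_, fun l _ => muSt_half h2 l⟩
  · have h := two_mul_half h2
    have e := Nat.div_add_mod (u + 1) p
    have ha : (u + 1) / p < p := Nat.div_lt_of_lt_mul (by rwa [← sq])
    have hr := Nat.mod_lt (u + 1) hp.out.pos
    generalize (u + 1) / p = a at e ha ⊢
    generalize (u + 1) % p = r at e hr ⊢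
    obtain ⟨m, rfl | rfl⟩ := Nat.even_or_odd' a
    · have h0 : muq (2 * m) = 0 := by
        rcases m with _ | m
        · simp [muq]
        · rw [muq, if_neg (by omega), show 2 * (m + 1) - 1 = 2 * m + 1 by omega, mu_odd]
      rw [h0, Rat.cast_zero, zero_mul]
      refine In.rd_p_mul ?_
      rw [show p * (2 * m) = 2 * (m * p) by ring] at e
      obtain ⟨c, rfl | rfl⟩ := Nat.even_or_odd' r
      · rw [show u = 2 * (m * p + c - 1) + 1 by omega, mu_odd]; exact in_zero hp.out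
      · rw [show u = 2 * (m * p + c) by omega]; exact muSt_even h2 ha hr
    · rw [show p * (2 * m + 1) = 2 * (m * p) + p by ring] at e
      obtain ⟨c, rfl | rfl⟩ := Nat.even_or_odd' r
      · rw [show u = 2 * (m * p + (p - 1) / 2 + c) by omega, muq, if_neg (by omega),
          Nat.add_sub_cancel]
        exact muSt_odd h2 ha c hr
      · rw [show u = 2 * (m * p + (p - 1) / 2 + c) + 1 by omega, mu_odd, eh_odd, mul_zero,
          mul_zero]
        exact rd_zero
  · simpa [cb_zero] using muSt_lucas h2 l (r := 0) hp.out.pos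

end Vale.Agent.P030.Ar
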