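import Vale.Agent.P030.ArBase

/-! Nonvanishing of the determinant at `N = p`. -/

open Polynomial Finset Filter

namespace Vale.Agent.P030.Ar

theorem nv_in (x : ℚ) : ∀ᶠ p : ℕ in atTop, In p x :=
  (eventually_gt_atTop x.den).mono fun _ h => Nat.not_dvd_of_pos_of_lt x.den_pos h

theorem nv_num {x : ℚ} (hx : x ≠ 0) : ∀ᶠ p : ℕ in atTop, ¬ p ∣ x.num.natAbs :=
  (eventually_gt_atTop x.num.natAbs).mono fun _ h =>
    Nat.not_dvd_of_pos_of_lt (Int.natAbs_pos.2 (Rat.num_ne_zero.2 hx)) h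

theorem nv_ne {p : ℕ} [Fact p.Prime] {x : ℚ} {a : ZMod p} (h : Rd p x a)
    (hx : ¬ p ∣ x.num.natAbs) : a ≠ 0 := by
  rw [← h.2, Rat.cast_def]
  refine div_ne_zero (fun h0 => hx ?_) h.1.den_ne
  exact Int.natCast_dvd.1 ((ZMod.intCast_zmod_eq_zero_iff_dvd _ _).1 h0)

theorem nv_sum {M : Type*} [AddCommMonoid M] (f : ℕ → M) (n p : ℕ) :
    ∑ r ∈ range (n * p), f r = ∑ e ∈ range p, ∑ r' ∈ range n, f (r' * p + e) := by
  rw [sum_comm]
  induction n with
  | zero => simp
  | succ n ih => rw [Nat.succ_mul, sum_range_add, ih, sum_range_succ]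

theorem nv_cheb {p : ℕ} [hp : Fact p.Prime] (h2 : p ≠ 2) (hT : Chebyshev.T (ZMod p) p = X ^ p)
    {a b : ℕ → ZMod p} (h : ∀ m, 1 ≤ m → m < p → ∑ e ∈ range p,
      ((Chebyshev.T (ZMod p) e).coeff m * a e -
        (Chebyshev.T (ZMod p) (p - e : ℕ)).coeff m * b e) = 0) :
    ∀ e, 1 ≤ e → e < p → a e = b (p - e) := by
  have h20 : (2 : ZMod p) ≠ 0 := by
    have := hp.out.two_le
    exact_mod_cast cast_ne_zero_of_lt (p := p) (m := 2) two_ne_zero (by omega)
  have : NeZero (2 : ZMod p) := ⟨h20⟩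
  have h1 : ∀ m, 1 ≤ m → m < p →
      ∑ e ∈ Ico 1 p, (Chebyshev.T (ZMod p) e).coeff m * (a e - b (p - e)) = 0 := by
    intro m hm hmp
    rw [← h m hm hmp, sum_sub_distrib, range_eq_Ico, sum_eq_sum_Ico_succ_bot hp.out.pos,
      sum_eq_sum_Ico_succ_bot hp.out.pos]
    have e1 : (Chebyshev.T (ZMod p) ((0 : ℕ) : ℤ)).coeff m = 0 := by
      simp [coeff_one, show m ≠ 0 by omega]
    have e2 : (Chebyshev.T (ZMod p) ((p - 0 : ℕ) : ℤ)).coeff m = 0 := by
      rw [Nat.sub_zero, hT, coeff_X_pow, if_neg hmp.ne]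
    rw [e1, e2, zero_mul, zero_mul, zero_add, zero_add]
    simp only [mul_sub, sum_sub_distrib, zero_add]
    refine congrArg _ ?_
    refine sum_nbij' (fun e => p - e) (fun e => p - e) ?_ ?_ ?_ ?_ ?_
    all_goals
      intro e he
      simp only [mem_Ico] at he ⊢
    · omega
    · omega
    · omega
    · omega
    · rw [show p - (p - e) = e by omega]
  have key : ∀ n e, p - e ≤ n → 1 ≤ e → e < p → a e = b (p - e) := by
    intro n
    induction n with
    | zero => intro e h0 _ h; omega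
    | succ n ih =>
      intro e h0 he hep
      have h3 := h1 e he hep
      rw [sum_eq_single e] at h3
      · have h4 := Chebyshev.leadingCoeff_T (ZMod p) e
        rw [leadingCoeff, Chebyshev.natDegree_T, Int.natAbs_natCast] at h4
        rw [h4] at h3
        exact sub_eq_zero.1 ((mul_eq_zero.1 h3).resolve_left (pow_ne_zero _ h20))
      · intro e' he' hne
        rw [mem_Ico] at he'
        rcases lt_or_gt_of_ne hne with hlt | hlt
        · rw [coeff_eq_zero_of_natDegree_lt, zero_mul]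
          rwa [Chebyshev.natDegree_T, Int.natAbs_natCast]
        · rw [ih e' (by omega) he'.1 he'.2, sub_self, mul_zero]
      · intro h
        exact absurd (mem_Ico.2 ⟨he, hep⟩) h
  exact fun e => key _ e le_rfl

theorem nv_ker (hL : NVLayerSt) (hF : FrobSt) {p : ℕ} [hp : Fact p.Prime] (h30 : 30 ≤ p)
    (hA : (Matrix.of fun r k : Fin 20 => (ratA 1 r k : ZMod p)).det ≠ 0)
    (hP : (Matrix.of fun r k : Fin 20 =>
      (rowO ((r : ℤ) - 1) k : ZMod p) + (rowO ((r : ℤ) - 2) k : ZMod p)).det ≠ 0)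
    (hM : (Matrix.of fun r k : Fin 20 =>
      (rowO ((r : ℤ) - 1) k : ZMod p) - (rowO ((r : ℤ) - 2) k : ZMod p)).det ≠ 0)
    {v : ℕ → ZMod p} (hv : ∀ c < 20 * p,
      ∑ r ∈ range (20 * p), v r * (((p : ℚ) ^ 2 * ratA p r c : ℚ) : ZMod p) = 0) :
    ∀ r < 20 * p, v r = 0 := by
  have h2 : p ≠ 2 := by omega
  have hlt : ∀ k' l, k' < 20 → l < p → k' * p + l < 20 * p := fun k' l h1 h2 => by nlinarith
  have hab : ∀ k' < 20, ∀ e, 1 ≤ e → e < p →
      ∑ r' ∈ range 20, v (r' * p + e) * (rowO ((r' : ℤ) - 1) k' : ZMod p) =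
        ∑ r' ∈ range 20, v (r' * p + (p - e)) * (rowO ((r' : ℤ) - 2) k' : ZMod p) := by
    intro k' hk'
    refine nv_cheb h2 (hF p h2 0 0 (Nat.zero_le _)).2.2
      (a := fun e => ∑ r' ∈ range 20, v (r' * p + e) * (rowO ((r' : ℤ) - 1) k' : ZMod p))
      (b := fun e => ∑ r' ∈ range 20, v (r' * p + e) * (rowO ((r' : ℤ) - 2) k' : ZMod p))
      fun m hm hmp => ?_
    rw [← hv (k' * p + (p - m)) (hlt _ _ hk' (by omega)), nv_sum]
    refine sum_congr rfl fun e he => ?_
    rw [mul_sum, mul_sum, ← sum_sub_distrib]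
    refine sum_congr rfl fun r' hr' => ?_
    rw [((hL p h30 r' e k' (p - m) (mem_range.1 hr') (mem_range.1 he) hk' (by omega)).2.2
      (by omega)).2, show p - (p - m) = m by omega]
    ring
  have h1 : ∀ e, 1 ≤ e → e < p → ∀ r' < 20, v (r' * p + e) = 0 := by
    intro e he hep r' hr'
    have e1 := Matrix.eq_zero_of_vecMul_eq_zero hM
      (v := fun r : Fin 20 => v (r * p + e) + v (r * p + (p - e))) (by
        ext k
        have a1 := hab k k.2 e he hep
        have a2 := hab k k.2 (p - e) (by omega) (by omega)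
        rw [show p - (p - e) = e by omega] at a2
        rw [sum_range, sum_range] at a1 a2
        simp only [Matrix.vecMul, dotProduct, Matrix.of_apply, Pi.zero_apply, add_mul, mul_sub,
          sum_add_distrib, sum_sub_distrib]
        linear_combination a1 + a2)
    have e2 := Matrix.eq_zero_of_vecMul_eq_zero hP
      (v := fun r : Fin 20 => v (r * p + e) - v (r * p + (p - e))) (by
        ext k
        have a1 := hab k k.2 e he hep
        have a2 := hab k k.2 (p - e) (by omega) (by omega)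
        rw [show p - (p - e) = e by omega] at a2
        rw [sum_range, sum_range] at a1 a2
        simp only [Matrix.vecMul, dotProduct, Matrix.of_apply, Pi.zero_apply, sub_mul, mul_add,
          sum_add_distrib, sum_sub_distrib]
        linear_combination a1 - a2)
    have e3 : v (r' * p + e) + v (r' * p + (p - e)) = 0 := congrFun e1 ⟨r', hr'⟩
    have e4 : v (r' * p + e) - v (r' * p + (p - e)) = 0 := congrFun e2 ⟨r', hr'⟩
    have h20 : (2 : ZMod p) ≠ 0 := by
      exact_mod_cast cast_ne_zero_of_lt (p := p) (m := 2) two_ne_zero (by omega)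
    exact (mul_eq_zero.1 (show 2 * v (r' * p + e) = 0 by linear_combination e3 + e4)).resolve_left
      h20
  have h0 := Matrix.eq_zero_of_vecMul_eq_zero hA (v := fun r : Fin 20 => v (r * p + 0)) (by
    ext k
    have a1 := hv (k * p + 0) (hlt _ _ k.2 (by omega))
    rw [nv_sum, sum_eq_single 0 (fun e he hne => sum_eq_zero fun r' hr' => by
      rw [h1 e (by omega) (mem_range.1 he) r' (mem_range.1 hr'), zero_mul])
      (fun h => absurd (mem_range.2 (by omega)) h), sum_range] at a1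
    rw [Pi.zero_apply, ← a1]
    simp only [Matrix.vecMul, dotProduct, Matrix.of_apply]
    refine sum_congr rfl fun r _ => ?_
    rw [((hL p h30 r 0 k 0 r.2 (by omega) k.2 (by omega)).2.1 rfl rfl).2])
  intro r hr
  have hq : r / p < 20 := Nat.div_lt_of_lt_mul (by omega)
  rw [← Nat.div_add_mod' r p]
  rcases Nat.eq_zero_or_pos (r % p) with h | h
  · rw [h]
    exact congrFun h0 ⟨r / p, hq⟩
  · exact h1 _ h (Nat.mod_lt _ (by omega)) _ hq

theorem nv (hL : NVLayerSt) (hF : FrobSt) (hD : DetSt) (hC : CrudeSt) : NVSt := by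
  intro a b hb
  have i0 : ∀ᶠ p : ℕ in atTop, ∀ r k : Fin 20, In p (ratA 1 r k) ∧ In p (rowO ((r : ℤ) - 1) k) ∧
      In p (rowO ((r : ℤ) - 2) k) :=
    eventually_all.2 fun r => eventually_all.2 fun k => (nv_in _).and ((nv_in _).and (nv_in _))
  filter_upwards [i0, nv_num hD.1, nv_num hD.2.1, nv_num hD.2.2, eventually_ge_atTop 30,
    eventually_gt_atTop b] with p i0 n0 n1 n2 h30 hbp hp hdet
  have : Fact p.Prime := ⟨hp⟩
  have hA := nv_ne (Rd.det (A := B0) (B := Matrix.of fun r k : Fin 20 => (ratA 1 r k : ZMod p))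
    fun r k => (i0 r k).1.rd) n0
  have hP := nv_ne (Rd.det (A := Bs 1) (B := Matrix.of fun r k : Fin 20 =>
      (rowO ((r : ℤ) - 1) k : ZMod p) + (rowO ((r : ℤ) - 2) k : ZMod p)) fun r k =>
    ((i0 r k).2.1.rd.add (i0 r k).2.2.rd).congr (by simp [Bs]) rfl) n1
  have hM := nv_ne (Rd.det (A := Bs (-1)) (B := Matrix.of fun r k : Fin 20 =>
      (rowO ((r : ℤ) - 1) k : ZMod p) - (rowO ((r : ℤ) - 2) k : ZMod p)) fun r k =>
    ((i0 r k).2.1.rd.sub (i0 r k).2.2.rd).congr (by simp [Bs, sub_eq_add_neg]) rfl) n2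
  have hB : ∀ r k, In p (ratB p r k) := fun r k =>
    (in_natCast hp 4).mul hp (In.sum hp fun i _ => In.sum hp fun j _ =>
      ((in_intCast hp _).mul hp (in_intCast hp _)).mul hp
        (hC p hp (by omega) (27 * p - i + j) _ _ (by omega) (by omega)).2.2)
  have hR := Rd.det (p := p) (A := (p : ℚ) ^ 2 • FQ p a b)
    (B := Matrix.of fun r k : Fin (20 * p) =>
      (b : ZMod p) * (((p : ℚ) ^ 2 * ratA p r k : ℚ) : ZMod p)) fun r k => by
    have hq : ∀ r : Fin (20 * p), r / p < 20 := fun r => Nat.div_lt_of_lt_mul (by omega)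
    have h1 := (hL p h30 (r / p) (r % p) (k / p) (k % p) (hq r) (Nat.mod_lt _ (by omega)) (hq k)
      (Nat.mod_lt _ (by omega))).1
    rw [Nat.div_add_mod', Nat.div_add_mod'] at h1
    refine (((rd_natCast b).mul h1.rd).add (((in_natCast hp p).mul hp ((in_intCast hp a).mul hp
      (hB r k))).rd_p_mul)).congr ?_ (add_zero _)
    simp only [FQ, Matrix.smul_apply, Matrix.of_apply, smul_eq_mul]
    ring
  rw [Matrix.det_smul, hdet, mul_zero] at hR
  obtain ⟨v, hv0, hv⟩ := Matrix.exists_vecMul_eq_zero_iff.2 (hR.2.symm.trans Rat.cast_zero)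
  have hb' : (b : ZMod p) ≠ 0 := cast_ne_zero_of_lt hb hbp
  have := nv_ker hL hF h30 hA hP hM (v := fun r => if h : r < 20 * p then v ⟨r, h⟩ else 0)
    fun c hc => by
      have h1 := congrFun hv ⟨c, hc⟩
      simp only [Matrix.vecMul, dotProduct, Matrix.of_apply, Pi.zero_apply, mul_left_comm _ (b : ZMod p),
        ← mul_sum] at h1
      rw [sum_range, ← (mul_eq_zero.1 h1).resolve_left hb']
      exact sum_congr rfl fun r _ => by rw [dif_pos r.2]
  refine hv0 (funext fun r => ?_)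
  have h1 := this r r.2
  rwa [dif_pos r.2] at h1

end Vale.Agent.P030.Ar
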