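import Vale.Agent.P030.ArLay

/-! The `p^(-2)` layer of the matrix at `N = p`. -/

open Polynomial Finset

namespace Vale.Agent.P030.Ar

variable {p : ℕ} [hp : Fact p.Prime]

theorem nvl_coeff {A : (ZMod p)[X]} (hA : A.natDegree ≤ p) (Q : (ZMod p)[X]) (κ : ℕ) {w : ℕ}
    (h0 : 0 < w) (hw : w < p) :
    (A * expand (ZMod p) p Q).coeff (κ * p + w) = A.coeff w * Q.coeff κ := by
  induction Q using Polynomial.induction_on' with
  | add Q R h1 h2 => rw [map_add, mul_add, coeff_add, h1, h2, coeff_add, mul_add]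
  | monomial i c =>
    rw [expand_monomial, ← C_mul_X_pow_eq_monomial, ← mul_assoc, coeff_mul_X_pow', coeff_mul_C,
      coeff_monomial]
    rcases lt_trichotomy i κ with h | rfl | h
    · have : (i + 1) * p ≤ κ * p := Nat.mul_le_mul_right _ h
      rw [add_mul, one_mul] at this
      rw [if_pos (by omega), if_neg h.ne, coeff_eq_zero_of_natDegree_lt (by omega)]; simp
    · simp
    · have : (κ + 1) * p ≤ i * p := Nat.mul_le_mul_right _ h
      rw [add_mul, one_mul] at this
      rw [if_neg (by omega), if_neg h.ne']; simp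

theorem nvl_rev {A : (ZMod p)[X]} (hA : A.natDegree ≤ p) (Q : (ZMod p)[X]) (H a : ℕ) {l : ℕ}
    (h0 : 0 < l) (hl : l < p) :
    rev ((H + 1) * p) (A * expand (ZMod p) p Q) (a * p + l) = A.coeff (p - l) * rev H Q a := by
  unfold rev
  by_cases h : a ≤ H
  · obtain ⟨c, rfl⟩ := Nat.exists_eq_add_of_le h
    have e : (a + c + 1) * p = a * p + c * p + p := by ring
    rw [if_pos (by omega), if_pos h, show (a + c + 1) * p - (a * p + l) = c * p + (p - l) by omega,
      nvl_coeff hA Q c (by omega) (by omega), Nat.add_sub_cancel_left]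
  · have : (H + 1) * p ≤ a * p := Nat.mul_le_mul_right _ (by omega)
    rw [if_neg (by omega), if_neg h, mul_zero]

theorem nvl_rev0 (Q : (ZMod p)[X]) (H a : ℕ) :
    rev (H * p) (expand (ZMod p) p Q) (a * p + 0) = rev H Q a := by
  have := hp.out.pos
  unfold rev
  rw [add_zero]
  by_cases h : a ≤ H
  · rw [if_pos (Nat.mul_le_mul_right _ h), if_pos h, ← Nat.sub_mul, coeff_expand_mul this]
  · rw [if_neg (fun h' => h (Nat.le_of_mul_le_mul_right h' this)), if_neg h]

theorem nvl_rev_sub {R : Type*} [Ring R] (H : ℕ) (P Q : R[X]) (m : ℕ) :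
    rev H (P - Q) m = rev H P m - rev H Q m := by
  unfold rev; split_ifs <;> simp

theorem nvl_sum (H : ℕ) (hH : H < p) (Q : (ZMod p)[X]) (g : ℕ → ZMod p) :
    ∑ a ∈ range p, rev H Q a * g a = ∑ κ ∈ range (H + 1), Q.coeff κ * g (H - κ) := by
  rw [← sum_subset (s₁ := range (H + 1)) (by simp; omega) fun a _ ha => by
    rw [rev_of_gt _ (by simpa using ha), zero_mul], ← sum_range_reflect]
  refine sum_congr rfl fun κ hκ => ?_
  simp only [mem_range] at hκ
  rw [rev, if_pos (by omega), show H + 1 - 1 - κ = H - κ by omega, show H - (H - κ) = κ by omega]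

theorem nvl_sumM (h2 : p ≠ 2) {H β : ℕ} (hH : H + 1 < p) (hβ : β < p) {Q : ℤ[X]}
    (hQ : Q.natDegree ≤ H) : Rd p (∑ κ ∈ range (H + 1), (Q.coeff κ : ℚ) * M0 (H - κ) β)
      (∑ a ∈ range p, rev (H + 1) (md p Q) a * (Mm a β : ZMod p)) := by
  rw [nvl_sum _ hH, sum_range_succ _ (H + 1), md_coeff,
    coeff_eq_zero_of_natDegree_lt (n := H + 1) (by omega), Int.cast_zero, zero_mul, add_zero]
  refine Rd.sum fun κ hκ => ?_
  simp only [mem_range] at hκ
  rw [md_coeff, Mm, if_neg (by omega), show H + 1 - κ - 1 = H - κ by omega]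
  exact (rd_intCast _).mul (in_M0 h2 _ _ (by omega) hβ).rd

theorem nvl_sumZ {H β : ℕ} (hH : H < p) (hβ : β < p) (Q : ℤ[X]) :
    Rd p (∑ κ ∈ range (H + 1), (Q.coeff κ : ℚ) * Z0 (H - κ) β)
      (∑ a ∈ range p, rev H (md p Q) a * (Z0 a β : ZMod p)) := by
  rw [nvl_sum _ hH]
  refine Rd.sum fun κ _ => ?_
  rw [md_coeff]
  exact (rd_intCast _).mul (in_Z0 _ _ (by omega) hβ).rd

theorem nvl_two {R : Type*} [CommRing R] {H x y : ℕ} (hx : x ≤ H) (hy : y ≤ H) (F : ℕ → R) :
    ∑ j ∈ range (H + 1), F j * (X ^ x - X ^ y : R[X]).coeff j = F x - F y := by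
  simp only [coeff_sub, coeff_X_pow, mul_sub, sum_sub_distrib, mul_ite, mul_one, mul_zero,
    sum_ite_eq', mem_range]
  rw [if_pos (by omega), if_pos (by omega)]

theorem nvl_pair {H k : ℕ} (hk : 4 + k ≤ H) (m : ℕ → ℕ → ℚ) (Q : ℤ[X]) :
    pairR m H Q (colS 1 k) = ∑ κ ∈ range (H + 1), (Q.coeff κ : ℚ) * m (H - κ) (3 + k) -
      ∑ κ ∈ range (H + 1), (Q.coeff κ : ℚ) * m (H - κ) (4 + k) := by
  rw [pairR_eq, ← nvl_two (H := H) (x := 3 + k) (y := 4 + k) (by omega) hk
    fun j => ∑ κ ∈ range (H + 1), (Q.coeff κ : ℚ) * m (H - κ) j]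
  refine sum_congr rfl fun j _ => ?_
  have : colS 1 k = X ^ (3 + k) - X ^ (4 + k) := by rw [colS]; ring
  rw [this]
  simp [coeff_X_pow]

theorem nvl_col (k l : ℕ) :
    md p (colS p (k * p + l)) = X ^ ((3 + k) * p + l) - X ^ ((4 + k) * p + l) := by
  simp only [md, colS, Polynomial.map_mul, Polynomial.map_pow, Polynomial.map_sub, map_X,
    Polynomial.map_one]
  rw [sub_pow_char]; ring

/-- The level-one column functional. -/
noncomputable def nvlF (p : ℕ) [Fact p.Prime] (H : ℕ) (P D : ℤ[X]) (β : ℕ) : ZMod p :=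
  ∑ a ∈ range p, rev (H + 1) (md p P) a * (Mm a β : ZMod p) -
    3 / 2 * ∑ a ∈ range p, rev H (md p D) a * (Z0 a β : ZMod p)

theorem nvl_F (h2 : p ≠ 2) {H k : ℕ} (hH : H + 1 < p) (hk : 4 + k ≤ H) {P : ℤ[X]} (D : ℤ[X])
    (hP : P.natDegree ≤ H) :
    ((pairR M0 H P (colS 1 k) - 3 / 2 * pairR Z0 H D (colS 1 k) : ℚ) : ZMod p) =
      nvlF p H P D (3 + k) - nvlF p H P D (4 + k) := by
  rw [nvl_pair hk, nvl_pair hk]
  refine ((((nvl_sumM h2 hH (β := 3 + k) (by omega) hP).sub
    (nvl_sumM h2 hH (β := 4 + k) (by omega) hP)).sub ((rd_three_half h2).mul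
    ((nvl_sumZ (H := H) (β := 3 + k) (by omega) (by omega) D).sub
      (nvl_sumZ (H := H) (β := 4 + k) (by omega) (by omega) D)))).2).trans ?_
  rw [nvlF, nvlF]; ring

theorem nvl_deg {d : ℤ} (h1 : -2 ≤ d) (h2 : d ≤ 18) :
    ((X - 1) * Chebyshev.T ℤ d).natDegree ≤ 26 := by
  have : (X - 1 : ℤ[X]).natDegree ≤ 1 := by compute_degree
  refine natDegree_mul_le.trans ?_
  rw [Chebyshev.natDegree_T]
  omega

theorem nvLayer (hM : L1MSt) (hZ : L1ZSt) (hF : FrobSt) : NVLayerSt := by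
  intro p hp h30 r e k l hr he hk hl
  have h2 : p ≠ 2 := by omega
  haveI : NeZero (2 : ZMod p) := ⟨two_ne_zero' h2⟩
  set d : ℤ := (r : ℤ) - 2 with hd
  have hdd : ((r * p + e : ℕ) : ℤ) - 2 * p = d * p + e := by rw [hd]; push_cast; ring
  have hrp : r * p ≤ 19 * p := Nat.mul_le_mul_right _ (by omega)
  have hkp : k * p ≤ 19 * p := Nat.mul_le_mul_right _ (by omega)
  have hpp : 30 * p ≤ p ^ 2 := by nlinarith
  let F : ℕ → ZMod p := fun j =>
    ∑ a ∈ range p, Xc p p (d * p + e) (a * p + j % p) * (Mm a (j / p) : ZMod p) -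
      3 / 2 * ∑ a ∈ range p, Dc p p (d * p + e) (a * p + j % p) * (Z0 a (j / p) : ZMod p)
  have hF0 : ∀ β, F (β * p + l) =
      ∑ a ∈ range p, Xc p p (d * p + e) (a * p + l) * (Mm a β : ZMod p) -
        3 / 2 * ∑ a ∈ range p, Dc p p (d * p + e) (a * p + l) * (Z0 a β : ZMod p) := by
    intro β
    simp only [F]
    rw [Nat.mul_add_mod_self_right, Nat.mod_eq_of_lt hl, mul_comm β p,
      Nat.mul_add_div (by omega), Nat.div_eq_of_lt hl, add_zero]
  have main : Rd p ((p : ℚ) ^ 2 * ratA p (r * p + e) (k * p + l))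
      (F ((3 + k) * p + l) - F ((4 + k) * p + l)) := by
    have e1 := entry_eq p 0 1 (r * p + e) (k * p + l)
    simp only [Nat.cast_one, one_mul, Int.cast_zero, zero_mul, add_zero] at e1
    rw [e1, hdd, ← nvl_two (H := 27 * p) (by rw [add_mul]; omega) (by rw [add_mul]; omega),
      mul_sum]
    refine Rd.sum fun j hj => ?_
    rw [← mul_assoc, ← nvl_col, md_coeff]
    refine Rd.mul ?_ (rd_intCast _)
    refine (layG hM hZ h2 0 1 (by rw [← hdd]; omega) (by rw [← hdd]; omega) (by omega)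
      (by simpa [Nat.lt_succ_iff] using hj)).congr rfl ?_
    rw [Nat.cast_one, one_mul]
  obtain ⟨f1, f2, f3⟩ := hF p h2 d e he.le
  have hX : md p (rowPy p (d * p + e)) * EE p =
      Chebyshev.T (ZMod p) e * expand (ZMod p) p (md p ((X - 1) * Chebyshev.T ℤ (d + 1))) -
        Chebyshev.T (ZMod p) (p - e : ℕ) * expand (ZMod p) p (md p ((X - 1) * Chebyshev.T ℤ d)) := by
    simp only [md, rowPy, EE, Polynomial.map_mul, Polynomial.map_pow, Polynomial.map_sub, map_X,
      Polynomial.map_one, Chebyshev.map_U, Chebyshev.map_T, map_mul, map_sub, expand_X, map_one]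
    rw [sub_pow_char, one_pow]
    linear_combination (X ^ p - 1) * f2
  have hD : md p (rowDy p (d * p + e)) =
      Chebyshev.T (ZMod p) e * expand (ZMod p) p (md p ((X - 1) * Chebyshev.U ℤ (d + 1 - 1))) -
        Chebyshev.T (ZMod p) (p - e : ℕ) *
          expand (ZMod p) p (md p ((X - 1) * Chebyshev.U ℤ (d - 1))) := by
    simp only [md, rowDy, Polynomial.map_mul, Polynomial.map_pow, Polynomial.map_sub, map_X,
      Polynomial.map_one, Chebyshev.map_U, Chebyshev.map_T, map_mul, map_sub, expand_X, map_one,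
      add_sub_cancel_right]
    rw [sub_pow_char, one_pow]
    linear_combination (X ^ p - 1) * f1
  refine ⟨main.1, ?_, fun hl0 => main.congr rfl ?_⟩
  · rintro rfl rfl
    refine main.congr rfl ?_
    have a1 : md p (rowPy p (d * p + (0 : ℕ))) * EE p = expand (ZMod p) p (md p (rowPy 1 d)) := by
      have h := Chebyshev.T_eq_X_mul_T_sub_pol_U ℤ (d - 1)
      rw [show d - 1 + 2 = d + 1 by ring, sub_add_cancel] at h
      rw [hX, Nat.sub_zero, f3, h]
      simp only [md, rowPy, Polynomial.map_mul, Polynomial.map_pow, Polynomial.map_sub, map_X,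
        Polynomial.map_one, map_mul, map_sub, expand_X, map_one, map_pow, Nat.cast_zero,
        Chebyshev.T_zero]
      ring
    have a2 : md p (rowDy p (d * p + (0 : ℕ))) = expand (ZMod p) p (md p (rowDy 1 d)) := by
      rw [hD, Nat.sub_zero, f3, rowDy, Chebyshev.T_eq_U_sub_X_mul_U ℤ d]
      simp only [md, Polynomial.map_mul, Polynomial.map_pow, Polynomial.map_sub, map_X,
        Polynomial.map_one, map_mul, map_sub, expand_X, map_one, map_pow, Nat.cast_zero,
        Chebyshev.T_zero, add_sub_cancel_right]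
      ring
    have a3 := nvl_F h2 (H := 27) (k := k) (by omega) (by omega) (P := rowPy 1 d) (rowDy 1 d)
      ((natDegree_rowPy (N := 1) (by omega) (by omega)).trans (by omega))
    rw [hF0, hF0]
    simp only [Xc, Dc, a1, a2, show p + 27 * p = 28 * p by ring, nvl_rev0]
    exact a3.symm
  · have a1 := nvl_F h2 (H := 26) (k := k) (by omega) (by omega)
      ((X - 1) * Chebyshev.U ℤ (d + 1 - 1)) (nvl_deg (d := d + 1) (by omega) (by omega))
    have a2 := nvl_F h2 (H := 26) (k := k) (by omega) (by omega)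
      ((X - 1) * Chebyshev.U ℤ (d - 1)) (nvl_deg (d := d) (by omega) (by omega))
    have b1 : (Chebyshev.T (ZMod p) e).natDegree ≤ p := by rw [Chebyshev.natDegree_T]; omega
    have b2 : (Chebyshev.T (ZMod p) (p - e : ℕ)).natDegree ≤ p := by
      rw [Chebyshev.natDegree_T]; omega
    rw [show (r : ℤ) - 1 = d + 1 by rw [hd]; ring, rowO, rowO, a1, a2, hF0, hF0]
    simp only [Xc, Dc, hX, hD, show p + 27 * p = (27 + 1) * p by ring,
      show 27 * p = (26 + 1) * p by ring, nvl_rev_sub,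
      nvl_rev b1 _ _ _ (Nat.pos_of_ne_zero hl0) hl, nvl_rev b2 _ _ _ (Nat.pos_of_ne_zero hl0) hl,
      nvlF, sub_mul, sum_sub_distrib, mul_assoc, ← mul_sum]
    ring

end Vale.Agent.P030.Ar
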