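import Vale.Agent.P030.ArLay

/-! Valuation of the determinant at odd primes. -/

open Polynomial Finset

namespace Vale.Agent.P030.Ar

variable {p : ℕ} [hp : Fact p.Prime]

theorem val_span (hV : ValSt) {n : ℕ} {J A : Type} [Fintype J] [DecidableEq J] [Fintype A]
    (G : Matrix (Fin n) J ℚ) (ψ : Matrix J (Fin n) ℚ) (C : Finset J) (ρ : A → Fin n → ZMod p)
    (hψ : ∀ j k, In p (ψ j k))
    (h1 : ∀ j ∈ C, ∃ v ∈ Submodule.span (ZMod p) (Set.range ρ),
      ∀ r, Rd p ((p : ℚ) ^ 2 * G r j) (v r))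
    (h2 : ∀ j ∉ C, ∃ v ∈ Submodule.span (ZMod p) (Set.range ρ), ∀ r, Rd p (p * G r j) (v r)) :
    In p ((p : ℚ) ^ (Fintype.card A + C.card) * (G * ψ).det) := by
  have h : ∀ j, ∃ κ : A → ZMod p,
      (j ∈ C → ∀ r, Rd p ((p : ℚ) ^ 2 * G r j) (∑ α, ρ α r * κ α)) ∧
        (j ∉ C → ∀ r, Rd p (p * G r j) (∑ α, ρ α r * κ α)) := by
    intro j
    by_cases hj : j ∈ C
    · obtain ⟨v, hv, h⟩ := h1 j hj
      obtain ⟨κ, rfl⟩ := (Submodule.mem_span_range_iff_exists_fun _).1 hv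
      exact ⟨κ, fun _ r => (h r).congr rfl (by simp [mul_comm]), fun h => absurd hj h⟩
    · obtain ⟨v, hv, h⟩ := h2 j hj
      obtain ⟨κ, rfl⟩ := (Submodule.mem_span_range_iff_exists_fun _).1 hv
      exact ⟨κ, fun h => absurd h hj, fun _ r => (h r).congr rfl (by simp [mul_comm])⟩
  choose κ hκ using h
  exact hV p n J A G ψ C (fun r α => ρ α r) (fun α j => κ j α) hψ
    (fun r j hj => (hκ j).1 hj r) fun r j hj => (hκ j).2 hj r

theorem val_cols (hV : ValSt) {N : ℕ} {A : Type} [Fintype A] (a : ℤ) (b : ℕ)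
    (ρ : A → Fin (20 * N) → ZMod p)
    (h : ∀ j < 21 * N, ∃ v ∈ Submodule.span (ZMod p) (Set.range ρ), ∀ r : Fin (20 * N),
      Rd p ((p : ℚ) ^ 2 * Gm N a b ((r : ℤ) - 2 * N) (3 * N + j)) (v r)) :
    In p ((p : ℚ) ^ (Fintype.card A + 20 * N) * (FQ N a b).det) := by
  choose v hv h using fun j : Fin (21 * N) => h j j.2
  have := val_span hV (FQ N a b) 1 univ ρ (fun j k => by
    rw [Matrix.one_apply]; split_ifs; exacts [in_one hp.out, in_zero hp.out])
    (fun k _ => ⟨∑ j : Fin (21 * N), ((colS N k).coeff (3 * N + j) : ZMod p) • v j,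
      Submodule.sum_mem _ fun j _ => Submodule.smul_mem _ _ (hv j), fun r =>
        (Rd.sum (s := univ) fun j _ => (h j r).mul (rd_intCast ((colS N k).coeff (3 * N + j)))).congr
          (by rw [FQ_eq, mul_sum]; simp only [mul_assoc]) (by simp [mul_comm])⟩)
    fun k hk => absurd (mem_univ k) hk
  simpa using this

theorem sum_three {f : ℕ → ZMod p} (h2 : p ≠ 2) (h : ∀ a, 3 ≤ a → f a = 0) :
    ∑ a ∈ range p, f a = f 0 + f 1 + f 2 := by
  have := hp.out.two_le
  rw [← sum_subset (s₁ := range 3) (by simp; omega) fun a _ ha => h a (by simpa using ha)]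
  simp [sum_range_succ]

/-- First family of row functionals. -/
noncomputable def alf (p N : ℕ) [Fact p.Prime] (d : ℤ) (l : ℕ) : ZMod p :=
  2 * Xc p N d (2 * p + l) - 3 / 2 * Dc p N d (p + l)

/-- Second family of row functionals. -/
noncomputable def bet (p N : ℕ) [Fact p.Prime] (d : ℤ) (l : ℕ) : ZMod p :=
  2 * Xc p N d l - 3 / 2 * Dc p N d l

theorem alf_eq_zero {N l : ℕ} (d : ℤ) (h : 27 * N < p + l) : alf p N d l = 0 := by
  rw [alf, Xc, Dc, rev_of_gt _ (by omega), rev_of_gt _ h]; simp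

theorem bet_eq_zero {N l : ℕ} {d : ℤ} (h1 : -(2 * N : ℤ) ≤ d) (h3 : d < 18 * N)
    (h : l ≤ 8 * N) : bet p N d l = 0 := by
  have a1 := (natDegree_md (p := p) _).trans (natDegree_rowPy h1 h3)
  have a2 := (natDegree_md (p := p) _).trans_lt (natDegree_rowDy h1 h3)
  have a3 := natDegree_mul_le (p := md p (rowPy N d)) (q := EE p)
  have a4 := natDegree_EE (p := p)
  rw [bet, Xc, Dc, rev_of_lt (by omega), rev_of_lt (by omega)]; simp

theorem col_zero (hM : L1MSt) (hZ : L1ZSt) (h2 : p ≠ 2) {N s : ℕ} (a : ℤ) (b : ℕ) {d : ℤ}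
    (h1 : -(2 * N : ℤ) ≤ d) (h3 : d < 18 * N) (hH : 27 * N + 2 * p < p ^ 2) (hs : s < p)
    (hs' : s ≤ 27 * N) (hs2 : 27 * N < 2 * p + s) :
    Rd p ((p : ℚ) ^ 2 * Gm N a b d s) (b * alf p N d s) := by
  refine (layG hM hZ h2 a b h1 h3 hH hs').congr rfl ?_
  rw [Nat.mod_eq_of_lt hs, Nat.div_eq_of_lt hs, sum_three h2, sum_three h2]
  · have e : Dc p N d (2 * p + s) = 0 := rev_of_gt _ hs2
    rw [e, alf]
    simp [Mm, M0, T0, S0, Z0, mul_comm]
  · intro c hc
    rw [Dc, rev_of_gt _ (by nlinarith), zero_mul]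
  · intro c hc
    rw [Xc, rev_of_gt _ (by nlinarith), zero_mul]

theorem col_one (hM : L1MSt) (hZ : L1ZSt) (h2 : p ≠ 2) {N s : ℕ} (a : ℤ) (b : ℕ) {d : ℤ}
    (h1 : -(2 * N : ℤ) ≤ d) (h3 : d < 18 * N) (hH : 27 * N + 2 * p < p ^ 2) (hs : s < p)
    (hs' : p + s ≤ 27 * N) (hs2 : 27 * N < 2 * p + s) :
    Rd p ((p : ℚ) ^ 2 * Gm N a b d (p + s)) (b * (bet p N d s - alf p N d s)) := by
  refine (layG hM hZ h2 a b h1 h3 hH hs').congr rfl ?_
  rw [Nat.add_mod_left, Nat.mod_eq_of_lt hs, Nat.add_div_left _ hp.out.pos, Nat.div_eq_of_lt hs,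
    sum_three h2, sum_three h2]
  · have e : Dc p N d (2 * p + s) = 0 := rev_of_gt _ hs2
    have e1 : Mm 0 (0 + 1) = 2 := by norm_num [Mm, M0, S0]
    have e2 : Mm 1 (0 + 1) = 0 := by norm_num [Mm, M0, S0]
    have e3 : Mm 2 (0 + 1) = -2 := by norm_num [Mm, M0, T0, mu_zero]
    have e4 : Z0 0 (0 + 1) = 1 := by norm_num [Z0]
    have e5 : Z0 1 (0 + 1) = -1 := by norm_num [Z0]
    rw [e, e1, e2, e3, e4, e5, alf, bet]
    push_cast
    ring_nf
  · intro c hc
    rw [Dc, rev_of_gt _ (by nlinarith), zero_mul]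
  · intro c hc
    rw [Xc, rev_of_gt _ (by nlinarith), zero_mul]

theorem row_bounds {N : ℕ} (r : Fin (20 * N)) :
    -(2 * N : ℤ) ≤ (r : ℤ) - 2 * N ∧ (r : ℤ) - 2 * N < 18 * N := by
  have := r.2
  omega

theorem oddA (hV : ValSt) (hM : L1MSt) (hZ : L1ZSt) (hL : L2St) : OddASt := by
  intro N p a b hpp h2 hH hp2
  haveI : Fact p.Prime := ⟨hpp⟩
  let ρ : Fin (27 * N + 1 - p) ⊕ Fin (16 * N - p) → Fin (20 * N) → ZMod p :=
    Sum.elim (fun l r => alf p N ((r : ℤ) - 2 * N) l) fun l r => bet p N ((r : ℤ) - 2 * N) (8 * N + 1 + l)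
  set V := Submodule.span (ZMod p) (Set.range ρ)
  have hα : ∀ l : ℕ, (fun r : Fin (20 * N) => alf p N ((r : ℤ) - 2 * N) l) ∈ V := by
    intro l
    by_cases hl : l < 27 * N + 1 - p
    · exact Submodule.subset_span ⟨Sum.inl ⟨l, hl⟩, rfl⟩
    · have : (fun r : Fin (20 * N) => alf p N ((r : ℤ) - 2 * N) l) = 0 :=
        funext fun r => alf_eq_zero _ (by omega)
      rw [this]; exact V.zero_mem
  have hβ : ∀ l : ℕ, p + l < 24 * N →
      (fun r : Fin (20 * N) => bet p N ((r : ℤ) - 2 * N) l) ∈ V := by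
    intro l hl
    by_cases hl' : l ≤ 8 * N
    · have : (fun r : Fin (20 * N) => bet p N ((r : ℤ) - 2 * N) l) = 0 :=
        funext fun r => bet_eq_zero (row_bounds r).1 (row_bounds r).2 hl'
      rw [this]; exact V.zero_mem
    · refine Submodule.subset_span ⟨Sum.inr ⟨l - (8 * N + 1), by omega⟩, ?_⟩
      simp only [ρ, Sum.elim_inr]
      rw [show 8 * N + 1 + (l - (8 * N + 1)) = l by omega]
  have h1 : ∀ j < 21 * N, ∃ v ∈ V, ∀ r : Fin (20 * N),
      Rd p ((p : ℚ) ^ 2 * Gm N a b ((r : ℤ) - 2 * N) (3 * N + j)) (v r) := by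
    intro j hj
    by_cases hjp : 3 * N + j < p
    · exact ⟨_, V.smul_mem (b : ZMod p) (hα (3 * N + j)), fun r =>
        col_zero hM hZ h2 a b (row_bounds r).1 (row_bounds r).2 hH hjp (by omega) (by omega)⟩
    · obtain ⟨s, hs⟩ := Nat.exists_eq_add_of_le (not_lt.1 hjp)
      rw [hs]
      exact ⟨_, V.smul_mem (b : ZMod p) (V.sub_mem (hβ s (by omega)) (hα s)), fun r =>
        col_one hM hZ h2 a b (row_bounds r).1 (row_bounds r).2 hH (by omega) (by omega) (by omega)⟩
  have hcard : Fintype.card (Fin (27 * N + 1 - p) ⊕ Fin (16 * N - p)) =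
      (27 * N + 1 - p) + (16 * N - p) := by simp
  unfold betaA
  rcases le_total (20 * N) ((24 * N + 1 - p) + (24 * N - p)) with hm | hm
  · rw [min_eq_left hm, ← hcard]
    exact val_cols hV a b ρ h1
  · rw [min_eq_right hm, ← hcard]
    let C : Finset (Fin (21 * N)) := univ.filter fun j => j.val < 24 * N + 1 - p ∨ p ≤ 3 * N + j
    have hC : C.card ≤ (24 * N + 1 - p) + (24 * N - p) := by
      refine (card_le_card_of_injOn (t := range (24 * N + 1 - p) ∪ Ico (p - 3 * N) (21 * N))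
        Fin.val (fun j hj => ?_) Fin.val_injective.injOn).trans ((card_union_le _ _).trans ?_)
      · have := j.2
        simp only [C, coe_filter, mem_univ, true_and, Set.mem_setOf_eq] at hj
        simp only [coe_union, coe_range, coe_Ico, Set.mem_union, Set.mem_Iio, Set.mem_Ico]
        omega
      · simp only [card_range, Nat.card_Ico]; omega
    have := val_span hV (Matrix.of fun (r : Fin (20 * N)) (j : Fin (21 * N)) =>
      Gm N a b ((r : ℤ) - 2 * N) (3 * N + j))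
      (Matrix.of fun j k => ((colS N k).coeff (3 * N + j) : ℚ)) C ρ
      (fun j k => in_intCast hpp _) (fun j _ => h1 j j.2) fun j hj => by
        simp only [C, mem_filter, mem_univ, true_and, not_or, not_lt, not_le] at hj
        refine ⟨_, V.sum_mem (t := range (3 * N + j)) fun l _ => V.smul_mem
          (-(b : ZMod p) / (((3 * N + j : ℕ) : ZMod p) - l)) (hα l), fun r => ?_⟩
        refine (layG2 hL h2 a b (row_bounds r).1 (row_bounds r).2 hj.2 (by omega)).congr rfl ?_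
        simp [alf]
    refine In.mono hpp ?_ (Nat.add_le_add_left hC _)
    refine (congrArg (fun F : Matrix _ _ ℚ => In p (_ * F.det)) ?_).mpr this
    exact Matrix.ext fun r k => FQ_eq N a b r k

theorem oddB (hV : ValSt) (hM : L1MSt) (hZ : L1ZSt) : OddBSt := by
  intro N p a b hpp h2 hH hp2 hp1
  haveI : Fact p.Prime := ⟨hpp⟩
  set w := max (27 * N + 1 - 2 * p) (3 * N) with hw
  let g : ℕ → Fin (20 * N) → ZMod p := fun c r =>
    (((p : ℚ) ^ 2 * Gm N a b ((r : ℤ) - 2 * N) c : ℚ) : ZMod p)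
  let S : Finset ℕ := Ico (3 * N) (24 * N) \ Ico w (8 * N + 1)
  have hg : ∀ c ≤ 27 * N, ∀ r : Fin (20 * N),
      Rd p ((p : ℚ) ^ 2 * Gm N a b ((r : ℤ) - 2 * N) c) (g c r) := fun c hc r =>
    (layG hM hZ h2 a b (row_bounds r).1 (row_bounds r).2 hH hc).1.rd
  have hp0 := hpp.two_le
  have hS : Fintype.card S + 20 * N ≤ betaB N p := by
    rw [Fintype.card_coe, card_sdiff_of_subset (Ico_subset_Ico (by omega) (by omega)), betaB]
    simp only [Nat.card_Ico]
    omega
  refine (val_cols hV a b (fun c : S => g c) fun j hj => ?_).mono hpp hS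
  by_cases hj' : 3 * N + j ∈ S
  · exact ⟨_, Submodule.subset_span ⟨⟨_, hj'⟩, rfl⟩, hg _ (by omega)⟩
  · simp only [S, mem_sdiff, mem_Ico] at hj'
    have hm : p + (3 * N + j) ∈ S := by simp only [S, mem_sdiff, mem_Ico]; omega
    refine ⟨_, Submodule.neg_mem _ (Submodule.subset_span ⟨⟨_, hm⟩, rfl⟩), fun r => ?_⟩
    refine (col_zero hM hZ h2 a b (row_bounds r).1 (row_bounds r).2 hH (by omega) (by omega)
      (by omega)).congr rfl ?_
    have := (col_one hM hZ h2 a b (row_bounds r).1 (row_bounds r).2 hH (s := 3 * N + j) (by omega)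
      (by omega) (by omega)).2
    rw [bet_eq_zero (row_bounds r).1 (row_bounds r).2 (by omega)] at this
    simp only [Pi.neg_apply, g]
    rw [this]; ring

theorem in_det_of_entries {n : ℕ} (hpp : p.Prime) {F : Matrix (Fin n) (Fin n) ℚ} {e : ℕ}
    (h : ∀ r k, In p ((p : ℚ) ^ e * F r k)) : In p ((p : ℚ) ^ (e * n) * F.det) := by
  have := In.det hpp (A := ((p : ℚ) ^ e) • F) h
  rwa [Matrix.det_smul, Fintype.card_fin, ← pow_mul] at this

theorem odd (hV : ValSt) (hM : L1MSt) (hZ : L1ZSt) (hL : L2St) (hC : CrudeSt) : OddSt := by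
  intro N p a b hpp h2
  haveI : Fact p.Prime := ⟨hpp⟩
  have key : ∀ e, (∀ (r : Fin (20 * N)) (j : Fin (21 * N)),
      In p ((p : ℚ) ^ e * Gm N a b ((r : ℤ) - 2 * N) (3 * N + j))) →
      In p ((p : ℚ) ^ (e * (20 * N)) * (FQ N a b).det) := fun e h =>
    in_det_of_entries hpp fun r k => by
      rw [FQ_eq, mul_sum]
      exact In.sum hpp fun j _ => by rw [← mul_assoc]; exact (h r j).mul hpp (in_intCast hpp _)
  unfold beta
  split_ifs with h1 h3 h4
  · refine (key (4 * Nat.log p (27 * N + 1)) fun r j => ?_).mono hpp (le_of_eq (by ring))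
    have hj := j.2
    have e1 := In.sum hpp (s := range (27 * N + 1)) fun k _ =>
      (in_intCast hpp ((rowPy N ((r : ℤ) - 2 * N)).coeff k)).mul hpp
        (hC p hpp h2 (27 * N) (27 * N - k) (3 * N + j) (by omega) (by omega)).1
    have e2 := In.sum hpp (s := range (27 * N + 1)) fun k _ =>
      (in_intCast hpp ((rowDy N ((r : ℤ) - 2 * N)).coeff k)).mul hpp
        (hC p hpp h2 (27 * N) (27 * N - k) (3 * N + j) (by omega) (by omega)).2.1
    have e3 := ((in_natCast hpp b).mul hpp (e1.sub hpp ((rd_three_half h2).1.mul hpp e2))).add hpp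
      (((in_natCast hpp p).pow hpp (4 * Nat.log p (27 * N + 1))).mul hpp
        (in_alsum h2 (27 * N) (3 * N + j) a (rowPy N ((r : ℤ) - 2 * N))))
    simp only [mul_left_comm _ ((p : ℚ) ^ (4 * Nat.log p (27 * N + 1))), ← mul_sum, ← mul_sub,
      ← mul_add] at e3
    exact e3
  · exact oddA hV hM hZ hL N p a b hpp h2 (by omega) h3
  · exact oddB hV hM hZ N p a b hpp h2 (by omega) (by omega) h4
  · refine (key 2 fun r j => ?_).mono hpp (by omega)
    have hj := j.2
    exact (layG hM hZ h2 a b (row_bounds r).1 (row_bounds r).2 (by omega) (by omega)).1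

end Vale.Agent.P030.Ar
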