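import Vale.Agent.P030.ArCrude

/-! The `2`-adic valuation of the determinant. -/

open Polynomial Finset

namespace Vale.Agent.P030.Ar

theorem two_det {p : ℕ} (hp : p.Prime) {ι κ : Type*} [Fintype ι] [DecidableEq ι] [Fintype κ]
    (R : Matrix ι κ ℚ) (W : Matrix κ ι ℚ) (w : κ → ℕ) (hR : ∀ i j, In p (R i j))
    (hW : ∀ i j, In p ((p : ℚ) ^ w i * W i j)) {M : Matrix ι ι ℚ} (h : R * W = M) :
    In p ((p : ℚ) ^ (∑ i, w i) * M.det) := by
  classical
  subst h
  have hD : (Matrix.diagonal fun i => (p : ℚ) ^ w i).det = (p : ℚ) ^ ∑ i, w i := by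
    rw [Matrix.det_diagonal, prod_pow_eq_pow_sum]
  have hD0 : (Matrix.diagonal fun i => (p : ℚ) ^ w i).det ≠ 0 := by
    rw [hD]
    exact pow_ne_zero _ (by exact_mod_cast hp.ne_zero)
  have := in_det_schur hp 0 R (Matrix.diagonal (fun i => (p : ℚ) ^ w i) * W) _ hD0
    (fun _ _ => in_zero hp) hR (fun i j => by rw [Matrix.diagonal_mul]; exact hW i j) fun i j => by
      rw [Matrix.diagonal_apply]
      split_ifs
      exacts [(in_natCast hp p).pow hp _, in_zero hp]
  rwa [zero_add, Matrix.mul_assoc,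
    Matrix.nonsing_inv_mul_cancel_left _ _ (isUnit_iff_ne_zero.2 hD0), hD] at this

theorem two_tri (m : ℕ) : ∀ n, m ≤ n → 2 * ∑ e ∈ range n, (m - e) = m * (m + 1) := by
  induction m with
  | zero => simp
  | succ m ih =>
    rintro (_ | n) h
    · omega
    · simp only [sum_range_succ', Nat.add_sub_add_right, mul_add, ih n (by omega)]
      rw [Nat.sub_zero]
      ring

theorem two_lin (m : ℕ → ℕ → ℚ) (H : ℕ) (A Q ψ : ℤ[X]) {n : ℕ} (h : Q.natDegree < n) :
    pairR m H (A * Q) ψ = ∑ e ∈ range n, (Q.coeff e : ℚ) * pairR m H (A * X ^ e) ψ := by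
  have h1 : ∀ k, (A * Q).coeff k = ∑ e ∈ range n, Q.coeff e * (A * X ^ e).coeff k := fun k => by
    conv_lhs => rw [as_sum_range' Q n h, mul_sum, finsetSum_coeff]
    simp only [← C_mul_X_pow_eq_monomial, mul_left_comm A, coeff_C_mul]
  simp only [pairR, h1, Int.cast_sum, Int.cast_mul, sum_mul, mul_sum, mul_assoc]
  rw [sum_comm (s := range n)]
  exact sum_congr rfl fun k _ => sum_comm

theorem two_in {p : ℕ} (hp : p.Prime) {m : ℕ → ℕ → ℚ} {H : ℕ} {Q ψ : ℤ[X]} {c : ℚ}
    (h : ∀ k j, j ≤ H → Q.coeff k ≠ 0 → ψ.coeff j ≠ 0 → In p (c * m (H - k) j)) :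
    In p (c * pairR m H Q ψ) := by
  refine crude_sum hp fun k _ => crude_sum hp fun j hj => ?_
  by_cases h1 : Q.coeff k = 0
  · simpa [h1] using in_zero hp
  by_cases h2 : ψ.coeff j = 0
  · simpa [h2] using in_zero hp
  rw [mul_left_comm]
  exact ((in_intCast hp _).mul hp (in_intCast hp _)).mul hp
    (h k j (mem_range_succ_iff.1 hj) h1 h2)

theorem two_contact (hC : ContactSt) {N k : ℕ} {d : ℤ} (h1 : -(2 * N : ℤ) ≤ d) (h2 : d < 18 * N)
    (hk : k < 20 * N) : pairR be (27 * N) (rowPy N d) (colS N k) =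
      pairR (fun i j => if i = j then (1 : ℚ) else 0) (27 * N) (rowDy N d) (colS N k) := by
  rw [pairR, pairR, sum_comm, sum_comm (f := fun k j => _ * ite _ _ _)]
  refine sum_congr rfl fun j hj => ?_
  rcases lt_or_ge j (24 * N) with h | h
  · simp only [mul_right_comm _ ((colS N k).coeff j : ℚ), ← sum_mul]
    rw [hC N d j h1 h2 h, sum_eq_single (27 * N - j) (fun b hb h' => by
      rw [if_neg (by have := mem_range.1 hb; omega), mul_zero]) (fun h' => by simp at h'),
      if_pos (by omega), mul_one]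
  · simp [colS_coeff_eq_zero (N := N) (k := k) (j := j) (by omega)]

theorem two (hC : ContactSt) (hM : TwoMSt) : TwoSt := by
  obtain ⟨c, hM⟩ := hM
  have hp := Nat.prime_two
  refine ⟨20 * (6 * c + 2) + 21, fun N a b => ?_⟩
  obtain ⟨γ₀, γ₁, h0, h1, hM⟩ := hM (27 * N)
  have hL : Nat.log 2 (27 * N) ≤ Nat.log 2 N + 5 := by
    refine Nat.lt_succ_iff.1 (Nat.log_lt_of_lt_pow' (by omega) ?_)
    have := Nat.lt_pow_succ_log_self one_lt_two N
    simp only [Nat.succ_eq_add_one, pow_add] at this ⊢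
    omega
  obtain ⟨c', hc', hc⟩ : ∃ c', c' = c * (Nat.log 2 (27 * N) + 1) ∧
      c' + 2 ≤ (6 * c + 2) * (Nat.log 2 N + 1) := ⟨_, rfl, by nlinarith⟩
  rw [← hc'] at hM
  let m1 : ℕ → ℕ → ℚ := fun i j =>
    b * (M0 i j - γ₀ * al i j - γ₁ * be i j) + (b * γ₀ + 4 * a) * al i j
  let m2 : ℕ → ℕ → ℚ := fun i j => -(3 / 2) * b * Z0 i j + b * γ₁ * if i = j then 1 else 0
  let Φ : ℕ → ℕ → ℚ := fun e k =>
    pairR m1 (27 * N) ((X - 1) ^ N * (X ^ 2 - 1) * X ^ e) (colS N k)
  let Ψ : ℕ → ℕ → ℚ := fun e k => pairR m2 (27 * N) ((X - 1) ^ N * X ^ e) (colS N k)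
  have hb := in_natCast hp b
  have hΦ : ∀ e k, In 2 (((2 : ℕ) : ℚ) ^ (c' + (24 * N - e - k)) * Φ e k) := fun e k =>
    two_in hp fun κ j hj h3 h4 => by
      have h5 : e ≤ κ := by
        by_contra h
        exact h3 (by rw [coeff_mul_X_pow', if_neg h])
      have h6 : 3 * N + k ≤ j := not_lt.1 fun h => h4 (colS_coeff_eq_zero (Or.inl h))
      obtain ⟨h7, -, h8⟩ := hM (27 * N - κ) j (by omega) hj
      rw [mul_add]
      exact (crude_left hp hb (In.mono hp h7 (by omega))).add hp (crude_left hp ((hb.mul hp h0).add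
        hp ((in_natCast hp 4).mul hp (in_intCast hp a))) (In.mono hp h8 (by omega)))
  have hΨ : ∀ e k, In 2 (((2 : ℕ) : ℚ) ^ (c' + 1) * Ψ e k) := fun e k =>
    two_in hp fun κ j hj _ _ => by
      obtain ⟨-, h7, -⟩ := hM (27 * N - κ) j (by omega) hj
      have h8 := (((in_natCast hp 3).mul hp hb).mul hp h7).neg
      rw [mul_add]
      refine In.add hp (by
        rwa [show ∀ z : ℚ, ((2 : ℕ) : ℚ) ^ (c' + 1) * (-(3 / 2) * b * z) =
          -((3 : ℕ) * b * (2 ^ c' * z)) from fun z => by push_cast; ring])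
        (((in_natCast hp 2).pow hp _).mul hp ((hb.mul hp h1).mul hp ?_))
      split_ifs
      exacts [in_one hp, in_zero hp]
  let v : Fin (20 * N) → ℚ := fun k => 2 ^ (c' + 2 + (11 * N - k)) / 2 ^ (9 * N)
  have hF : ∀ r k : Fin (20 * N), FQ N a b r k =
      ∑ e ∈ range (18 * N), ((Chebyshev.S ℤ ((r : ℤ) - 2 * N - 1)).coeff e : ℚ) * (2 ^ e * Φ e k) +
      ∑ e ∈ range (18 * N), ((Chebyshev.C ℤ ((r : ℤ) - 2 * N)).coeff e : ℚ) *
        (2 ^ e * Ψ e k / 2) := fun r k => by
    have hr := r.2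
    have h2 := two_contact hC (d := (r : ℤ) - 2 * N) (by omega) (by omega) k.2
    have h3 : FQ N a b r k = pairR m1 (27 * N) (rowPy N ((r : ℤ) - 2 * N)) (colS N k) +
        pairR m2 (27 * N) (rowDy N ((r : ℤ) - 2 * N)) (colS N k) := by
      have e1 : ∀ Q, pairR m1 (27 * N) Q (colS N k) = b * pairR M0 (27 * N) Q (colS N k) +
          4 * a * pairR al (27 * N) Q (colS N k) - b * γ₁ * pairR be (27 * N) Q (colS N k) :=
        fun Q => by
          simp only [pairR, m1, mul_sum, ← sum_add_distrib, ← sum_sub_distrib]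
          exact sum_congr rfl fun _ _ => sum_congr rfl fun _ _ => by ring
      have e2 : ∀ Q, pairR m2 (27 * N) Q (colS N k) =
          -(3 / 2) * b * pairR Z0 (27 * N) Q (colS N k) +
          b * γ₁ * pairR (fun i j => if i = j then (1 : ℚ) else 0) (27 * N) Q (colS N k) :=
        fun Q => by
          simp only [pairR, m2, mul_sum, ← sum_add_distrib]
          exact sum_congr rfl fun _ _ => sum_congr rfl fun _ _ => by ring
      rw [e1, e2, h2, FQ, Matrix.of_apply, ratA, ratB]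
      ring
    rw [h3, rowPy, rowDy, two_lin (n := 18 * N) _ _ _ _ _ (by
      rw [Chebyshev.natDegree_U]; omega), two_lin (n := 18 * N) _ _ _ _ _ (by
      rw [Chebyshev.natDegree_T]; omega)]
    refine congrArg₂ _ (sum_congr rfl fun e _ => ?_) (sum_congr rfl fun e _ => ?_)
    · rw [← Chebyshev.S_comp_two_mul_X, show (2 : ℤ[X]) = C 2 from rfl, comp_C_mul_X_coeff]
      push_cast
      ring
    · have h4 := congrArg (fun Q : ℤ[X] => ((coeff Q e : ℤ) : ℚ))
        (Chebyshev.C_comp_two_mul_X ℤ ((r : ℤ) - 2 * N))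
      simp only [show (2 : ℤ[X]) = C 2 from rfl, comp_C_mul_X_coeff, coeff_C_mul] at h4
      push_cast at h4
      linear_combination (-Ψ e k / 2) * h4
  have key := two_det hp (ι := Fin (20 * N)) (κ := Fin (18 * N) ⊕ Fin (18 * N))
    (Matrix.of fun r => Sum.elim
      (fun e => ((Chebyshev.S ℤ ((r : ℤ) - 2 * N - 1)).coeff e : ℚ))
      (fun e => ((Chebyshev.C ℤ ((r : ℤ) - 2 * N)).coeff e : ℚ)))
    (Matrix.of fun ρ k => Sum.elim (fun e : Fin (18 * N) => 2 ^ (e : ℕ) * Φ e k)
      (fun e : Fin (18 * N) => 2 ^ (e : ℕ) * Ψ e k / 2) ρ * v k)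
    (Sum.elim (fun e => 2 * (11 * N - e)) fun e => 9 * N - e)
    (by rintro r (e | e) <;> exact in_intCast hp _) (by
      rintro (e | e) k
      · obtain ⟨s, hs⟩ := Nat.exists_eq_add_of_le (show 9 * N + (24 * N - e - k) ≤
          2 * (11 * N - e) + e + (11 * N - k) by omega)
        refine (congrArg (In 2) ?_).mp ((hΦ e k).mono hp (l := c' + 2 + (24 * N - e - k + s))
          (by omega))
        simp only [v, Sum.elim_inl, Matrix.of_apply, Nat.cast_ofNat]
        rw [← mul_div_assoc, ← mul_div_assoc, eq_div_iff (by positivity),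
          mul_right_comm, ← pow_add, show c' + 2 + (24 * N - e - k + s) + 9 * N =
          2 * (11 * N - e) + e + (c' + 2 + (11 * N - k)) by omega]
        ring
      · obtain ⟨s, hs⟩ := Nat.exists_eq_add_of_le (show 9 * N ≤ 9 * N - e + e by omega)
        refine (congrArg (In 2) ?_).mp ((hΨ e k).mono hp (l := c' + 1 + (s + (11 * N - k)))
          (by omega))
        simp only [v, Sum.elim_inr, Matrix.of_apply, Nat.cast_ofNat]
        rw [← mul_div_assoc, ← mul_div_assoc, eq_div_iff (by positivity),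
          mul_right_comm, ← pow_add, show c' + 1 + (s + (11 * N - k)) + 9 * N =
          9 * N - e + e + (c' + 1 + (11 * N - k)) by omega]
        ring) (M := FQ N a b * Matrix.diagonal v) (Matrix.ext fun r k => by
      rw [Matrix.mul_diagonal, hF, Matrix.mul_apply, Fintype.sum_sum_type, add_mul, sum_mul,
        sum_mul, sum_range, sum_range]
      simp only [Matrix.of_apply, Sum.elim_inl, Sum.elim_inr, mul_assoc])
  rw [Matrix.det_mul, Matrix.det_diagonal, prod_div_distrib, prod_pow_eq_pow_sum, prod_const,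
    Fintype.sum_sum_type] at key
  simp only [Sum.elim_inl, Sum.elim_inr, ← mul_sum, sum_add_distrib, sum_const, card_univ,
    Fintype.card_fin, smul_eq_mul] at key
  rw [← sum_range fun e => 11 * N - e, ← sum_range fun e => 9 * N - e,
    ← sum_range fun e => 11 * N - e] at key
  have t1 := two_tri (11 * N) (18 * N) (by omega)
  have t2 := two_tri (9 * N) (18 * N) (by omega)
  have t3 := two_tri (11 * N) (20 * N) (by omega)
  refine In.mono hp (k := 42 * N ^ 2 + (21 * N + 20 * N * (c' + 2)))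
    ((congrArg (In 2) ?_).mp key) (by nlinarith)
  rw [Nat.cast_ofNat, mul_left_comm, ← mul_div_assoc, ← pow_add, ← pow_mul, mul_comm,
    div_eq_of_eq_mul (by positivity) ((congrArg _ (by nlinarith)).trans
      (pow_add _ (42 * N ^ 2 + (21 * N + 20 * N * (c' + 2))) _))]

end Vale.Agent.P030.Ar
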