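import Vale.Agent.P030.ArCrude

/-! The `2`-adic splitting of `M0`. -/

open Polynomial Finset

namespace Vale.Agent.P030.Ar

theorem twoM_odd (l : ℕ) : In 2 ((2 * l + 1 : ℕ) : ℚ)⁻¹ := in_inv_nat Nat.prime_two (by omega)

theorem twoM_odd' (l : ℕ) : In 2 (2 * (l : ℚ) + 1)⁻¹ := by exact_mod_cast twoM_odd l

theorem twoM_mu (l : ℕ) : ∃ x, In 2 x ∧ mu (2 * l) = 2 * (((2 : ℕ) : ℚ) ^ l * x) := by
  refine ⟨_, (twoM_odd l).mul Nat.prime_two ((crude_binom Nat.prime_two (le_refl (2 * l))).mono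
    Nat.prime_two (l := l) (Nat.lt_succ_iff.1 (Nat.log_lt_of_lt_pow' (by omega) ?_))), ?_⟩
  · have := Nat.lt_two_pow_self (n := l)
    omega
  · rw [crude_mu, show (4 : ℕ) = 2 * 2 by rfl, mul_pow]
    push_cast
    ring

theorem twoM_in (u : ℕ) : In 2 (mu u) := by
  obtain ⟨l, rfl | rfl⟩ := Nat.even_or_odd' u
  · obtain ⟨x, hx, h⟩ := twoM_mu l
    rw [h]
    exact (in_natCast Nat.prime_two 2).mul Nat.prime_two
      (((in_natCast Nat.prime_two 2).pow Nat.prime_two l).mul Nat.prime_two hx)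
  · simpa [mu_odd] using in_zero Nat.prime_two

theorem twoM_key {B e l : ℕ} (h : e ≤ l) (hl : l ≤ B) :
    In 2 (((2 : ℕ) : ℚ) ^ (Nat.log 2 B + 1) * (cb e * (mu (2 * l) / 2))) := by
  obtain ⟨d, rfl⟩ := Nat.exists_eq_add_of_le h
  have h1 : cb e * (mu (2 * (e + d)) / 2) = ((Nat.centralBinom e * 4 ^ d : ℕ) : ℚ) *
      (((2 * (e + d) + 1 : ℕ) : ℚ)⁻¹ * (Nat.centralBinom (e + d) : ℚ)⁻¹) := by
    rw [crude_mu, cb]
    push_cast
    field_simp
    ring
  rw [h1]
  refine crude_left Nat.prime_two (in_natCast Nat.prime_two _) (crude_left Nat.prime_two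
    (twoM_odd _) ((crude_binom Nat.prime_two (n := B * 2) (by omega)).mono Nat.prime_two ?_))
  rcases eq_or_ne B 0 with rfl | hB
  · simp
  · exact (Nat.log_mul_base one_lt_two hB).le

theorem twoM : TwoMSt := by
  have hp := Nat.prime_two
  have h2 : In 2 2 := in_natCast hp 2
  refine ⟨2, fun B => ?_⟩
  have hg0 : In 2 (∑ l ∈ range B, mu (2 * l) ^ 2 / 2) := In.sum hp fun l _ => by
    obtain ⟨x, hx, h⟩ := twoM_mu l
    rw [h, show ∀ y : ℚ, (2 * y) ^ 2 / 2 = 2 * y ^ 2 from fun y => by ring]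
    exact h2.mul hp ((((in_natCast hp 2).pow hp l).mul hp hx).pow hp 2)
  have he : ∀ (k : ℕ) (y : ℚ), y / (2 * k + 2) = y / 2 * ((k + 1 : ℕ) : ℚ)⁻¹ := fun k y => by
    push_cast
    field_simp
  have hg1 : In 2 (∑ k ∈ range B, mu (2 * k) / (2 * (k : ℚ) + 2)) := In.sum hp fun l _ => by
    obtain ⟨x, hx, h⟩ := twoM_mu l
    rw [he, h, mul_div_cancel_left₀ _ two_ne_zero, mul_right_comm]
    exact (in_pow_div hp l.succ_ne_zero
      (Nat.lt_succ_iff.1 (Nat.factorization_lt 2 l.succ_ne_zero))).mul hp hx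
  have hw : ∀ {x : ℚ} (k : ℕ), In 2 x → In 2 (((2 : ℕ) : ℚ) ^ k * x) := fun k hx =>
    ((in_natCast hp 2).pow hp k).mul hp hx
  have hn : ∀ {c x : ℚ}, In 2 (c * x) → In 2 (c * -x) := fun h => by
    rw [mul_neg]
    exact h.neg
  refine ⟨_, _, hg0, hg1, fun i j hi hj => ⟨?_, (crude_Z hp i j hi hj).mono hp (by omega), ?_⟩⟩
  · change In 2 (((2 : ℕ) : ℚ) ^ _ * _)
    induction i, j using diag_induction with
    | h0 i =>
      rw [M0_zero_right, be, if_neg (by omega), mul_zero, sub_zero, al]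
      obtain ⟨e, rfl | rfl⟩ := Nat.even_or_odd' i
      · rw [if_pos (by simp), T0_even, show (2 * e - 0) / 2 = e by omega,
          ← sum_range_add_sum_Ico _ (show e ≤ B by omega), add_mul, mul_comm (cb e),
          sub_add_cancel_left, sum_mul]
        refine hn (crude_sum hp fun l hl => ?_)
        rw [mem_Ico] at hl
        rw [show mu (2 * l) ^ 2 / 2 * cb e = mu (2 * l) * (cb e * (mu (2 * l) / 2)) by ring]
        exact crude_left hp (twoM_in _) ((twoM_key hl.1 hl.2.le).mono hp (by omega))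
      · rw [if_neg (by simp), mul_zero, sub_zero, T0_odd]
        exact hw _ ((twoM_in _).mul hp (In.sum hp fun k _ => (in_one hp).mul hp (twoM_odd' k)))
    | h1 j =>
      rw [M0_zero_left, al, be]
      obtain ⟨e, rfl | rfl⟩ := Nat.even_or_odd' j
      · cases e with
        | zero => simpa [S0, cb_zero] using hw (2 * (Nat.log 2 B + 1)) hg0.neg
        | succ e =>
          rw [if_neg (by omega), if_neg (by grind), mul_zero, mul_zero, sub_zero, sub_zero,
            mul_add 2 e, mul_one, S0_even, mul_sum (range (e + 1))]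
          refine crude_sum hp fun k hk => ?_
          rw [show mu (2 * e) * (cb k / (2 * k + 1)) =
            2 * (2 * (k : ℚ) + 1)⁻¹ * (cb k * (mu (2 * e) / 2)) by ring]
          exact crude_left hp (h2.mul hp (twoM_odd' k)) ((twoM_key (B := B)
            (mem_range_succ_iff.1 hk) (by omega)).mono hp (by omega))
      · rw [if_neg (by omega), if_pos (by simp), mul_zero, sub_zero, S0_odd,
          show (2 * e + 1 - 0 - 1) / 2 = e by omega,
          ← sum_range_add_sum_Ico _ (show e ≤ B by omega), add_mul, mul_comm (cb e),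
          sub_add_cancel_left, sum_mul]
        refine hn (crude_sum hp fun l hl => ?_)
        rw [mem_Ico] at hl
        rw [he, mul_comm _ (cb e), ← mul_assoc (cb e)]
        exact (crude_mul hp (twoM_key hl.1 hl.2.le) (crude_inv hp hl.2)).mono hp (by omega)
    | hs i j ih =>
      have h3 : al (i + 1) (j + 1) = al i j := by simp [al]
      have h4 : be (i + 1) (j + 1) = be i j := by simp [be]
      rw [M0_succ, h3, h4, sub_right_comm _ (mu i / _), sub_right_comm _ (mu i / _)]
      refine crude_sub hp (ih (by omega) (by omega)) (crude_left hp (twoM_in i) ?_)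
      exact_mod_cast (crude_inv hp hj).mono hp (l := 2 * (Nat.log 2 B + 1)) (by omega)
  · unfold al
    split_ifs with h
    · obtain ⟨m, hm⟩ := h.2
      rw [hm, show (m + m) / 2 = m by omega, cb, ← two_mul, pow_mul, show (2 : ℚ) ^ 2 = 4 by norm_num,
        mul_div_cancel₀ _ (by positivity)]
      exact in_natCast hp _
    · simpa using in_zero hp

end Vale.Agent.P030.Ar
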