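import Vale.Agent.P030.ArBase

/-! Valuation of a determinant through a Schur complement. -/

open Polynomial Finset

namespace Vale.Agent.P030.Ar

theorem val : ValSt := by
  intro p hp n J A _ _ _ G ψ C ρ κ hψ h1 h2
  classical
  have hp0 : (p : ℚ) ≠ 0 := by exact_mod_cast hp.out.ne_zero
  have hv : ∀ a : ZMod p, Rd p (a.val : ℚ) a := fun a =>
    (rd_natCast _).congr rfl (ZMod.natCast_zmod_val a)
  obtain ⟨R, hR⟩ : ∃ R : Matrix (Fin n) A ℚ, ∀ r α, Rd p (R r α) (ρ r α) := ⟨_, fun r α => hv _⟩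
  obtain ⟨K, hK⟩ : ∃ K : Matrix A J ℚ, ∀ α j, Rd p (K α j) (κ α j) := ⟨_, fun α j => hv _⟩
  have hRK : ∀ r j, Rd p (∑ α, R r α * K α j) (∑ α, ρ r α * κ α j) := fun r j =>
    Rd.sum fun α _ => (hR r α).mul (hK α j)
  obtain ⟨Y, hY, hG, hG'⟩ : ∃ Y : Matrix (Fin n) J ℚ, (∀ r j, In p (Y r j)) ∧
      (∀ r, ∀ j ∈ C, G r j = (∑ α, R r α * K α j) / p ^ 2 + Y r j / p) ∧
      ∀ r, ∀ j ∉ C, G r j = (∑ α, R r α * K α j) / p + Y r j := by
    refine ⟨fun r j => ((if j ∈ C then (p : ℚ) ^ 2 else p) * G r j - ∑ α, R r α * K α j) / p,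
      fun r j => Rd.in_div ?_, fun r j hj => ?_, fun r j hj => ?_⟩
    · split_ifs with hj
      · exact ((h1 r j hj).sub (hRK r j)).congr rfl (sub_self _)
      · exact ((h2 r j hj).sub (hRK r j)).congr rfl (sub_self _)
    · simp only [if_pos hj]
      field_simp
      ring
    · simp only [if_neg hj]
      field_simp
      ring
  let D : Matrix (A ⊕ C) (A ⊕ C) ℚ :=
    Matrix.fromBlocks ((p : ℚ) • 1) (Matrix.of fun α j => -K α j) 0 ((p : ℚ) • 1)
  let E : Matrix (A ⊕ C) (Fin n) ℚ := Matrix.fromRows (Matrix.of fun α k =>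
    (∑ j ∈ Cᶜ, K α j * ψ j k) / p + (∑ j ∈ C, K α j * ψ j k) / p ^ 2)
    (Matrix.of fun j k => ψ j k / p)
  have hD : D.det = (p : ℚ) ^ (Fintype.card A + C.card) := by
    simp [D, pow_add]
  have hD0 : D.det ≠ 0 := by
    rw [hD]
    exact pow_ne_zero _ hp0
  have hone : ∀ {ι : Type} [DecidableEq ι] (i j : ι), In p (((p : ℚ) • (1 : Matrix ι ι ℚ)) i j) :=
    fun i j => by
      rw [Matrix.smul_apply, Matrix.one_apply]
      split_ifs
      exacts [by simpa using in_natCast hp.out p, by simpa using in_zero hp.out]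
  have key := in_det_schur hp.out (Matrix.of fun r k => ∑ j ∈ Cᶜ, Y r j * ψ j k)
    (Matrix.fromCols R (Matrix.of fun r (j : C) => Y r j)) (D * E) D hD0
    (fun r k => In.sum hp.out fun j _ => (hY r j).mul hp.out (hψ j k))
    (by
      rintro r (α | j)
      exacts [(hR r α).1, hY r j]) (by
      rintro (α | j) k
      · have : (D * E) (Sum.inl α) k = ∑ j ∈ Cᶜ, K α j * ψ j k := by
          simp only [D, E, Matrix.fromBlocks_mul_fromRows, Matrix.fromRows_apply_inl,
            Matrix.smul_mul, Matrix.one_mul, Matrix.add_apply, Matrix.smul_apply]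
          simp only [Matrix.mul_apply, Matrix.of_apply, smul_eq_mul, neg_mul, sum_neg_distrib,
            ← mul_div_assoc, ← sum_div]
          rw [sum_coe_sort C fun j => K α j * ψ j k]
          field_simp
          ring
        rw [this]
        exact In.sum hp.out fun j _ => (hK α j).1.mul hp.out (hψ j k)
      · have : (D * E) (Sum.inr j) k = ψ j k := by
          simp [D, E, Matrix.fromBlocks_mul_fromRows, mul_div_cancel₀ _ hp0]
        rw [this]
        exact hψ j k) (by
      rintro (α | j) (β | l)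
      exacts [hone α β, (hK α l).1.neg, in_zero hp.out, hone j l])
  rw [hD, Matrix.mul_assoc, Matrix.nonsing_inv_mul_cancel_left _ _ (isUnit_iff_ne_zero.2 hD0)]
    at key
  refine (congrArg (fun M : Matrix (Fin n) (Fin n) ℚ => In p (_ * M.det)) ?_).mp key
  ext r k
  simp only [E, Matrix.fromCols_mul_fromRows, Matrix.add_apply]
  simp only [Matrix.mul_apply, Matrix.of_apply]
  rw [sum_coe_sort C fun j => Y r j * (ψ j k / p), ← sum_add_sum_compl C fun j => G r j * ψ j k,
    sum_congr (s₁ := C) (f := fun j => G r j * ψ j k) rfl fun j hj => by rw [hG r j hj],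
    sum_congr (s₁ := Cᶜ) (f := fun j => G r j * ψ j k) rfl fun j hj => by
      rw [hG' r j (mem_compl.1 hj)]]
  simp only [add_mul, mul_add, sum_add_distrib, sum_div, sum_mul, mul_sum]
  rw [sum_comm (s := C), sum_comm (s := Cᶜ)]
  simp only [div_mul_eq_mul_div, mul_div_assoc, mul_assoc]
  ring

end Vale.Agent.P030.Ar
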