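import Vale.Agent.P030.An0
import Vale.Agent.P030.ArAsym
import Vale.Agent.P030.ArClosed
import Vale.Agent.P030.ArContact
import Vale.Agent.P030.ArDet
import Vale.Agent.P030.ArFin
import Vale.Agent.P030.ArFrob
import Vale.Agent.P030.ArL1M
import Vale.Agent.P030.ArL1S
import Vale.Agent.P030.ArL1T
import Vale.Agent.P030.ArL1Z
import Vale.Agent.P030.ArL2
import Vale.Agent.P030.ArMu
import Vale.Agent.P030.ArNV
import Vale.Agent.P030.ArNVL
import Vale.Agent.P030.ArOdd
import Vale.Agent.P030.ArTwo
import Vale.Agent.P030.ArTwoM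
import Vale.Agent.P030.ArVal

/-! The arithmetic half: nonvanishing and lower bound of the determinant for rational `G`. -/

open Filter

namespace Vale.Agent.P030

open Ar

theorem arith_l1m : L1MSt := l1m muSt (l1t muSt) (l1s muSt)

theorem arith_nonzero (hG : ¬ Irrational catalanG) : ∃ᶠ N : ℕ in atTop, DeltaV N ≠ 0 := by
  obtain ⟨a, b, hb, h⟩ := exists_ab hG
  exact nonzero (closed Mre_zero_zero Mre_zero_one) contact
    (nv (nvLayer arith_l1m l1z frob) frob detst crude) hb h

theorem arith_lower (hG : ¬ Irrational catalanG) : ∀ᶠ N : ℕ in atTop, DeltaV N ≠ 0 →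
    Real.exp (-1.9086 * (20 * (N : ℝ)) ^ 2) ≤ |DeltaV N| := by
  obtain ⟨a, b, hb, h⟩ := exists_ab hG
  exact lower (closed Mre_zero_zero Mre_zero_one) contact
    (odd val arith_l1m l1z (l2 muSt) crude) (Ar.two contact twoM) asym hb h

end Vale.Agent.P030
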