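import Mathlib

/-!
Definitions for the determinant proof of the irrationality of Catalan's constant.
With `f = sqrt (1 - t^2)`:
`mu u = ∫_{-1}^1 |t| t^u / f dt`, `Mre i j = ∫_{-1}^1 ∫_0^1 |t| / f * t^i s^j / (1 - t s)`,
`Zre i j = ∫_0^1 ∫_0^1 t^i s^j / (1 - t s)`, and `(1 + f)^d = tau d + f * ups d`.
-/

open Polynomial

namespace Vale.Agent.P030

/-- Catalan's constant. -/
noncomputable def catalanG : ℝ := ∑' j : ℕ, (-1 : ℝ) ^ j / (2 * (j : ℝ) + 1) ^ 2

/-- `cb l = binom(2l,l) / 4^l`, the coefficient of `t^(2l)` in `1 / sqrt (1 - t^2)`. -/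
def cb (l : ℕ) : ℚ := (Nat.centralBinom l : ℚ) / 4 ^ l

/-- Moments of `|t| / sqrt (1 - t^2)` on `[-1,1]`. -/
def mu (u : ℕ) : ℚ := if Even u then 2 / (((u : ℚ) + 1) * cb (u / 2)) else 0

/-- Mixed moment of the first kind. -/
noncomputable def Mre (i j : ℕ) : ℝ := ∑' k : ℕ, (mu (i + k) : ℝ) / ((k : ℝ) + j + 1)

/-- Mixed moment of the second kind. -/
noncomputable def Zre (i j : ℕ) : ℝ := ∑' k : ℕ, 1 / (((i : ℝ) + k + 1) * ((j : ℝ) + k + 1))

/-- The pair `(tau d, ups d)` with `(1 + f)^d = tau d + f * ups d` when `f^2 = 1 - X^2`. -/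
noncomputable def cheb : ℕ → ℤ[X] × ℤ[X]
  | 0 => (1, 0)
  | d + 1 => ((cheb d).1 + (1 - X ^ 2) * (cheb d).2, (cheb d).1 + (cheb d).2)

/-- `X^d T_d(1/X)`. -/
noncomputable def tau (d : ℕ) : ℤ[X] := (cheb d).1

/-- `X^(d-1) U_(d-1)(1/X)`. -/
noncomputable def ups (d : ℕ) : ℤ[X] := (cheb d).2

/-- First row polynomial `(1-X)^h X^(C-1) T_|r-g|(1/X)`. -/
noncomputable def rowP (C g h r : ℕ) : ℤ[X] :=
  (1 - X) ^ h * X ^ (C - 1 - ((r : ℤ) - g).natAbs) * tau ((r : ℤ) - g).natAbs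

/-- Second row polynomial `sgn(r-g) (1-X)^h X^(C-1) U_(|r-g|-1)(1/X)`. -/
noncomputable def rowD (C g h r : ℕ) : ℤ[X] :=
  Polynomial.C (Int.sign ((r : ℤ) - g)) *
    ((1 - X) ^ h * X ^ (C - ((r : ℤ) - g).natAbs) * ups ((r : ℤ) - g).natAbs)

/-- Column polynomial `X^(b+k) (1-X)^q`. -/
noncomputable def col (b q k : ℕ) : ℤ[X] := X ^ (b + k) * (1 - X) ^ q

/-- Bilinear extension of a table of moments to integer polynomials. -/
noncomputable def pairing (m : ℕ → ℕ → ℝ) (P ψ : ℤ[X]) : ℝ :=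
  P.sum fun i a => ψ.sum fun j c => (a : ℝ) * (c : ℝ) * m i j

/-- Matrix entry. -/
noncomputable def entry (b q g h C r k : ℕ) : ℝ :=
  pairing Mre (rowP C g h r) (col b q k) - 3 / 2 * pairing Zre (rowD C g h r) (col b q k)

/-- The determinant with general parameters. -/
noncomputable def delta (n b q g h C : ℕ) : ℝ :=
  Matrix.det (Matrix.of fun r k : Fin n => entry b q g h C r k)

/-- The determinant used in the proof. -/
noncomputable def Delta (N : ℕ) : ℝ := delta (36 * N) (6 * N) (2 * N) (3 * N) (2 * N) (47 * N)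

end Vale.Agent.P030
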